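import Vale.Agent.P030.Defs

/-!
# P030: the identity of Andreief and the two determinant bounds
-/

namespace Vale.Agent.P030

open MeasureTheory Filter Equiv

namespace And

variable {𝕜 : Type} [RCLike 𝕜] {Ω : Type} [MeasurableSpace Ω] {μ : Measure Ω} [SigmaFinite μ]
  {n : ℕ}

theorem andreief {f g : Fin n → Ω → 𝕜} (h : ∀ i j, Integrable (fun ω => f i ω * g j ω) μ) :
    Integrable (fun ω : Fin n → Ω => (Matrix.of fun i l => f i (ω l)).det *
      (Matrix.of fun j l => g j (ω l)).det) (Measure.pi fun _ => μ) ∧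
    ∫ ω : Fin n → Ω, (Matrix.of fun i l => f i (ω l)).det * (Matrix.of fun j l => g j (ω l)).det
      ∂(Measure.pi fun _ => μ) =
      (n.factorial : 𝕜) * (Matrix.of fun i j => ∫ ω, f i ω * g j ω ∂μ).det := by
  have e : (fun ω : Fin n → Ω => (Matrix.of fun i l => f i (ω l)).det *
      (Matrix.of fun j l => g j (ω l)).det) = fun ω => ∑ τ : Perm (Fin n), ∑ σ : Perm (Fin n),
        (((Perm.sign τ : ℤ) : 𝕜) * ((Perm.sign σ : ℤ) : 𝕜)) *
          ∏ l, f (σ l) (ω l) * g (τ l) (ω l) := by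
    funext ω
    rw [Matrix.det_apply', Matrix.det_apply', mul_comm, Finset.sum_mul_sum]
    refine Finset.sum_congr rfl fun τ _ => Finset.sum_congr rfl fun σ _ => ?_
    simp only [Matrix.of_apply, Finset.prod_mul_distrib]
    ring
  have i1 : ∀ τ σ : Perm (Fin n), Integrable (fun ω : Fin n → Ω =>
      (((Perm.sign τ : ℤ) : 𝕜) * ((Perm.sign σ : ℤ) : 𝕜)) * ∏ l, f (σ l) (ω l) * g (τ l) (ω l))
      (Measure.pi fun _ => μ) := fun τ σ =>
    (Integrable.fintype_prod (f := fun l ω => f (σ l) ω * g (τ l) ω) fun l => h _ _).const_mul _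
  rw [e]
  refine ⟨integrable_finsetSum _ fun τ _ => integrable_finsetSum _ fun σ _ => i1 τ σ, ?_⟩
  rw [integral_finsetSum _ fun τ _ => integrable_finsetSum _ fun σ _ => i1 τ σ]
  have h2 : ∀ τ : Perm (Fin n), ∫ ω : Fin n → Ω, ∑ σ : Perm (Fin n),
      (((Perm.sign τ : ℤ) : 𝕜) * ((Perm.sign σ : ℤ) : 𝕜)) * ∏ l, f (σ l) (ω l) * g (τ l) (ω l)
      ∂(Measure.pi fun _ => μ) = (Matrix.of fun i j => ∫ ω, f i ω * g j ω ∂μ).det := by
    intro τ
    have h3 := Matrix.det_permute' τ (Matrix.of fun i j => ∫ ω, f i ω * g j ω ∂μ)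
    have h4 : ((Perm.sign τ : ℤ) : 𝕜) * ((Perm.sign τ : ℤ) : 𝕜) = 1 := by
      rw [← Int.cast_mul, ← Units.val_mul, Int.units_mul_self, Units.val_one, Int.cast_one]
    rw [integral_finsetSum _ fun σ _ => i1 τ σ, ← one_mul (Matrix.det _), ← h4, mul_assoc, ← h3,
      Matrix.det_apply', Finset.mul_sum]
    refine Finset.sum_congr rfl fun σ _ => ?_
    rw [integral_const_mul,
      integral_fintype_prod_eq_prod (fun l ω => f (σ l) ω * g (τ l) ω), mul_assoc]
    rfl
  simp only [h2]
  rw [Finset.sum_const, Finset.card_univ, Fintype.card_perm, Fintype.card_fin, nsmul_eq_mul]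

theorem ae_all {A : Set Ω} (hA : ∀ᵐ ω ∂μ, ω ∈ A) :
    ∀ᵐ ω : Fin n → Ω ∂(Measure.pi fun _ => μ), ∀ l, ω l ∈ A :=
  ae_all_iff.2 fun l => (Measure.quasiMeasurePreserving_eval (fun _ : Fin n => μ) l).ae hA

theorem integral_prod_pow (h : Ω → ℝ) :
    ∫ ω : Fin n → Ω, ∏ l, h (ω l) ∂(Measure.pi fun _ => μ) = (∫ ω, h ω ∂μ) ^ n := by
  rw [integral_fintype_prod_eq_prod fun _ => h, Finset.prod_const, Finset.card_univ,
    Fintype.card_fin]

theorem mp_perm (π : Perm (Fin n)) : MeasurePreserving (fun (x : Fin n → Ω) l => x (π l))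
    (Measure.pi fun _ => μ) (Measure.pi fun _ => μ) :=
  (measurePreserving_piCongrLeft (fun _ : Fin n => μ) π).symm

theorem le_fact_mul (n : ℕ) {a : ℝ} (ha : 0 ≤ a) : a ≤ n.factorial * a :=
  le_mul_of_one_le_left ha (by exact_mod_cast n.factorial_pos)

end And

open _root_.Vale.Agent.P030.And

theorem and1 : And1Stmt := by
  intro Ω _ μ _ n f g h A C hfg hh _ hA _ hb
  have h1 := (andreief hfg).2
  have h2 := norm_integral_le_of_norm_le (μ := Measure.pi fun _ : Fin n => μ)
    (f := fun ω : Fin n → Ω => (Matrix.of fun i l => f i (ω l)).det *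
      (Matrix.of fun j l => g j (ω l)).det)
    ((Integrable.fintype_prod (f := fun _ => h) fun _ => hh).const_mul C)
    ((ae_all hA).mono fun ω hω => by rw [norm_mul]; exact hb ω hω)
  rw [h1, integral_const_mul, integral_prod_pow, norm_mul, Complex.norm_natCast] at h2
  exact (le_fact_mul n (norm_nonneg _)).trans h2

theorem and2 : And2Stmt := by
  intro μ ν _ _ n f g K h h' A B C hfg hh _ hh' _ hA hB _ hb
  obtain ⟨i1, e1⟩ := andreief (μ := μ.prod ν) (f := fun i z => f i z.1 * K z.1 z.2)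
    (g := fun j z => g j z.2) hfg
  let Φ : (Fin n → ℝ) × (Fin n → ℝ) → ℝ := fun p =>
    (Matrix.of fun i l => f i (p.1 l)).det * (∏ l, K (p.1 l) (p.2 l)) *
      (Matrix.of fun j l => g j (p.2 l)).det
  have m1 := measurePreserving_arrowProdEquivProdArrow ℝ ℝ (Fin n) (fun _ => μ) fun _ => ν
  have e2 : (fun z : Fin n → ℝ × ℝ => (Matrix.of fun i l => f i (z l).1 * K (z l).1 (z l).2).det *
      (Matrix.of fun j l => g j (z l).2).det) =
      Φ ∘ MeasurableEquiv.arrowProdEquivProdArrow ℝ ℝ (Fin n) := by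
    funext z
    have := Matrix.det_mul_row (fun l => K (z l).1 (z l).2) (Matrix.of fun i l => f i (z l).1)
    simp only [Matrix.of_apply, mul_comm (K _ _)] at this
    rw [this, mul_comm (∏ l, _)]
    rfl
  rw [e2] at i1 e1
  have i2 : Integrable Φ ((Measure.pi fun _ => μ).prod (Measure.pi fun _ => ν)) :=
    (m1.integrable_comp_emb (MeasurableEquiv.measurableEmbedding _)).1 i1
  have e3 := (m1.integral_comp' Φ).symm.trans e1
  have m2 : ∀ π : Perm (Fin n), MeasurePreserving
      (Prod.map (fun (x : Fin n → ℝ) l => x (π l)) id)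
      ((Measure.pi fun _ => μ).prod (Measure.pi fun _ : Fin n => ν))
      ((Measure.pi fun _ => μ).prod (Measure.pi fun _ => ν)) := fun π =>
    (mp_perm π).prod (MeasurePreserving.id _)
  have e4 : ∀ π : Perm (Fin n), ∫ p, Φ (Prod.map (fun (x : Fin n → ℝ) l => x (π l)) id p)
      ∂((Measure.pi fun _ => μ).prod (Measure.pi fun _ : Fin n => ν)) =
      ∫ p, Φ p ∂((Measure.pi fun _ => μ).prod (Measure.pi fun _ => ν)) := fun π => by
    rw [← integral_map (m2 π).measurable.aemeasurable (by rw [(m2 π).map_eq]; exact i2.1),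
      (m2 π).map_eq]
  have e5 : ∀ p : (Fin n → ℝ) × (Fin n → ℝ),
      ∑ π : Perm (Fin n), Φ (Prod.map (fun (x : Fin n → ℝ) l => x (π l)) id p) =
      (Matrix.of fun i l => f i (p.1 l)).det * (Matrix.of fun l m => K (p.1 l) (p.2 m)).det *
        (Matrix.of fun j m => g j (p.2 m)).det := by
    intro p
    rw [Matrix.det_apply' (Matrix.of fun l m => K (p.1 l) (p.2 m)), Finset.mul_sum, Finset.sum_mul]
    refine Finset.sum_congr rfl fun π _ => ?_
    have h3 := Matrix.det_permute' π (Matrix.of fun i l => f i (p.1 l))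
    rw [mul_left_comm, ← mul_assoc, ← h3]
    rfl
  have e6 := integral_finsetSum
    (μ := (Measure.pi fun _ => μ).prod (Measure.pi fun _ : Fin n => ν)) Finset.univ
    fun (π : Perm (Fin n)) _ => (m2 π).integrable_comp_of_integrable i2
  simp only [Function.comp_apply, e4, e5, e3] at e6
  rw [Finset.sum_const, Finset.card_univ, Fintype.card_perm, Fintype.card_fin, nsmul_eq_mul] at e6
  have i3 := (Integrable.fintype_prod (f := fun _ : Fin n => h) fun _ => hh).const_mul C
  have i4 := Integrable.fintype_prod (f := fun _ : Fin n => h') fun _ => hh'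
  have h2 := norm_integral_le_of_norm_le
    (μ := (Measure.pi fun _ => μ).prod (Measure.pi fun _ : Fin n => ν))
    (f := fun p : (Fin n → ℝ) × (Fin n → ℝ) =>
      (Matrix.of fun i l => f i (p.1 l)).det * (Matrix.of fun l m => K (p.1 l) (p.2 m)).det *
        (Matrix.of fun j m => g j (p.2 m)).det) (i3.mul_prod i4) (by
      filter_upwards [Measure.quasiMeasurePreserving_fst.ae (ae_all hA),
        Measure.quasiMeasurePreserving_snd.ae (ae_all hB)] with p h1 h2
      rw [Real.norm_eq_abs, abs_mul, abs_mul]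
      exact hb p.1 p.2 h1 h2)
  rw [e6, integral_prod_mul (fun x : Fin n → ℝ => C * ∏ l, h (x l))
    (fun s : Fin n → ℝ => ∏ l, h' (s l)), integral_const_mul, integral_prod_pow,
    integral_prod_pow, Real.norm_eq_abs, abs_mul, abs_mul, Nat.abs_cast] at h2
  exact ((le_fact_mul n (abs_nonneg _)).trans (le_fact_mul n (by positivity))).trans h2

end Vale.Agent.P030
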