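import Vale.Agent.P030.Defs

/-!
# P030: the local ring at `p`, and basic facts on rows and columns
-/

namespace Vale.Agent.P030

open Polynomial Finset MeasureTheory

section Local

variable {p : ℕ} [hp : Fact p.Prime]

theorem mem_O {x : ℚ} : x ∈ O p ↔ ¬ p ∣ x.den := Iff.rfl

theorem int_mem_O (z : ℤ) : (z : ℚ) ∈ O p := intCast_mem _ z

theorem nat_mem_O (n : ℕ) : (n : ℚ) ∈ O p := natCast_mem _ n

theorem inv_int_mem_O {n : ℤ} (h : ¬ (p : ℤ) ∣ n) : (n : ℚ)⁻¹ ∈ O p := by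
  rw [mem_O, Rat.inv_intCast_den]
  split_ifs with h0
  · simpa using hp.out.one_lt.ne'
  · exact fun h1 => h (Int.natCast_dvd.2 h1)

theorem inv_nat_mem_O {n : ℕ} (h : ¬ p ∣ n) : (n : ℚ)⁻¹ ∈ O p := by
  have := inv_int_mem_O (p := p) (n := n) (by exact_mod_cast h)
  simpa using this

theorem p_ne_zero : (p : ℚ) ≠ 0 := by exact_mod_cast hp.out.ne_zero

theorem inv_two_mem_O (h : p ≠ 2) : (2 : ℚ)⁻¹ ∈ O p := by
  have := inv_nat_mem_O (p := p) (n := 2) fun h1 =>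
    h ((Nat.prime_dvd_prime_iff_eq hp.out Nat.prime_two).1 h1)
  simpa using this

theorem three_half_mem_O (h : p ≠ 2) : (3 / 2 : ℚ) ∈ O p := by
  rw [div_eq_mul_inv]
  exact mul_mem (by simp) (inv_two_mem_O h)

/-- `p ^ k / n` is integral when `v_p(n) ≤ k`. -/
theorem pow_div_mem_O {k n : ℕ} (h : n.factorization p ≤ k) : (p : ℚ) ^ k / n ∈ O p := by
  rcases eq_or_ne n 0 with rfl | hn
  · simp
  obtain ⟨j, rfl⟩ := Nat.exists_eq_add_of_le h
  have h1 : (n : ℚ) = (p : ℚ) ^ n.factorization p * ((n / p ^ n.factorization p : ℕ) : ℚ) := by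
    exact_mod_cast (Nat.ordProj_mul_ordCompl_eq_self n p).symm
  have h2 : (p : ℚ) ^ (n.factorization p + j) / n =
      (p : ℚ) ^ j * ((n / p ^ n.factorization p : ℕ) : ℚ)⁻¹ := by
    have h3 : (p : ℚ) ^ n.factorization p ≠ 0 := pow_ne_zero _ p_ne_zero
    conv_lhs => rw [h1]
    rw [pow_add, mul_div_mul_left _ _ h3, div_eq_mul_inv]
  rw [h2]
  exact mul_mem (pow_mem (nat_mem_O p) _) (inv_nat_mem_O (Nat.not_dvd_ordCompl hp.out hn))

theorem pow_log_div_mem_O {M n : ℕ} (h : n ≤ M) : (p : ℚ) ^ Nat.log p M / n ∈ O p := by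
  rcases eq_or_ne n 0 with rfl | hn
  · simp
  exact pow_div_mem_O (Nat.le_log_of_pow_le hp.out.one_lt
    ((Nat.le_of_dvd (Nat.pos_of_ne_zero hn) (Nat.ordProj_dvd n p)).trans h))

theorem mul_p_mem {x : ℚ} (h : x / p ∈ O p) : x ∈ O p := by
  have := mul_mem (nat_mem_O (p := p) p) h
  rwa [mul_div_cancel₀ _ p_ne_zero] at this

theorem Cg.refl (x : ℚ) : Cg p x x := by simp [Cg]

theorem Cg.of_eq {x y : ℚ} (h : x = y) : Cg p x y := h ▸ Cg.refl x

theorem Cg.symm {x y : ℚ} (h : Cg p x y) : Cg p y x := by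
  have := neg_mem h
  rwa [← neg_div, neg_sub] at this

theorem Cg.trans {x y z : ℚ} (h : Cg p x y) (h' : Cg p y z) : Cg p x z := by
  have := add_mem h h'
  rwa [← add_div, sub_add_sub_cancel] at this

theorem Cg.add {x y z w : ℚ} (h : Cg p x y) (h' : Cg p z w) : Cg p (x + z) (y + w) := by
  have := add_mem h h'
  rwa [← add_div, show x - y + (z - w) = x + z - (y + w) by ring] at this

theorem Cg.neg {x y : ℚ} (h : Cg p x y) : Cg p (-x) (-y) := by
  have := neg_mem h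
  rwa [← neg_div, show -(x - y) = -x - -y by ring] at this

theorem Cg.sub {x y z w : ℚ} (h : Cg p x y) (h' : Cg p z w) : Cg p (x - z) (y - w) := by
  simpa [sub_eq_add_neg] using h.add h'.neg

theorem Cg.mul_left {c x y : ℚ} (hc : c ∈ O p) (h : Cg p x y) : Cg p (c * x) (c * y) := by
  have := mul_mem hc h
  rwa [← mul_div_assoc, mul_sub] at this

theorem Cg.mul_right {c x y : ℚ} (hc : c ∈ O p) (h : Cg p x y) : Cg p (x * c) (y * c) := by
  simpa [mul_comm] using h.mul_left hc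

theorem Cg.mem {x y : ℚ} (h : Cg p x y) (hy : y ∈ O p) : x ∈ O p := by
  simpa using add_mem (mul_p_mem h) hy

theorem Cg.mul {x y z w : ℚ} (h : Cg p x y) (h' : Cg p z w) (hy : y ∈ O p) (hw : w ∈ O p) :
    Cg p (x * z) (y * w) :=
  (h.mul_right (h'.mem hw)).trans (h'.mul_left hy)

theorem Cg.pow {x y : ℚ} (h : Cg p x y) (hy : y ∈ O p) (k : ℕ) : Cg p (x ^ k) (y ^ k) := by
  induction k with
  | zero => simpa using Cg.refl 1
  | succ k ih => rw [pow_succ, pow_succ]; exact ih.mul h (pow_mem hy k) hy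

theorem Cg.sum {ι : Type*} {s : Finset ι} {f g : ι → ℚ} (h : ∀ i ∈ s, Cg p (f i) (g i)) :
    Cg p (∑ i ∈ s, f i) (∑ i ∈ s, g i) := by
  unfold Cg
  rw [← sum_sub_distrib, sum_div]
  exact sum_mem h

theorem cg_zero_iff {x : ℚ} : Cg p x 0 ↔ x / p ∈ O p := by simp [Cg]

theorem cg_p_mul {x : ℚ} (h : x ∈ O p) : Cg p (p * x) 0 := by
  rwa [cg_zero_iff, mul_div_cancel_left₀ _ p_ne_zero]

theorem cg_int_iff {a b : ℤ} : Cg p a b ↔ (p : ℤ) ∣ a - b := by
  constructor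
  · intro h
    by_contra h1
    have h2 := mul_mem h (inv_int_mem_O h1)
    have h3 : ((a - b : ℤ) : ℚ) ≠ 0 := by
      intro h0
      exact h1 (by rw [show a - b = 0 by exact_mod_cast h0]; simp)
    have h4 : ((a : ℚ) - b) / p * ((a - b : ℤ) : ℚ)⁻¹ = (p : ℚ)⁻¹ := by
      push_cast at h3 ⊢
      field_simp
    rw [h4, mem_O, Rat.inv_natCast_den_of_pos hp.out.pos] at h2
    exact h2 dvd_rfl
  · rintro ⟨c, hc⟩
    have : ((a : ℚ) - b) / p = c := by
      rw [div_eq_iff p_ne_zero]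
      exact_mod_cast hc.trans (mul_comm _ _)
    unfold Cg
    rw [this]
    exact int_mem_O c

theorem den_ne_zero {x : ℚ} (h : x ∈ O p) : (x.den : ZMod p) ≠ 0 := by
  rwa [Ne, ZMod.natCast_eq_zero_iff]

/-- Reduction modulo `p`. -/
def red (p : ℕ) [Fact p.Prime] : O p →+* ZMod p where
  toFun x := ((x : ℚ) : ZMod p)
  map_one' := by simp
  map_mul' x y := Rat.cast_mul_of_ne_zero (den_ne_zero x.2) (den_ne_zero y.2)
  map_zero' := by simp
  map_add' x y := Rat.cast_add_of_ne_zero (den_ne_zero x.2) (den_ne_zero y.2)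

theorem red_apply (x : O p) : red p x = ((x : ℚ) : ZMod p) := rfl

theorem cast_eq_zero_iff {x : ℚ} (h : x ∈ O p) : (x : ZMod p) = 0 ↔ Cg p x 0 := by
  have h1 : Cg p x 0 ↔ Cg p (x.num : ℚ) ((0 : ℤ) : ℚ) := by
    constructor
    · intro h2
      have := h2.mul_right (nat_mem_O x.den)
      simpa [Rat.mul_den_eq_num] using this
    · intro h2
      have := h2.mul_right (inv_nat_mem_O h)
      rwa [← div_eq_mul_inv, Rat.num_div_den, Int.cast_zero, zero_mul] at this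
  rw [h1, cg_int_iff, sub_zero, Rat.cast_def, div_eq_zero_iff, or_iff_left (den_ne_zero h),
    ZMod.intCast_zmod_eq_zero_iff_dvd]

theorem cast_add_O {x y : ℚ} (hx : x ∈ O p) (hy : y ∈ O p) :
    ((x + y : ℚ) : ZMod p) = x + y := Rat.cast_add_of_ne_zero (den_ne_zero hx) (den_ne_zero hy)

theorem cast_mul_O {x y : ℚ} (hx : x ∈ O p) (hy : y ∈ O p) :
    ((x * y : ℚ) : ZMod p) = x * y := Rat.cast_mul_of_ne_zero (den_ne_zero hx) (den_ne_zero hy)

theorem cast_sub_O {x y : ℚ} (hx : x ∈ O p) (hy : y ∈ O p) :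
    ((x - y : ℚ) : ZMod p) = x - y := Rat.cast_sub_of_ne_zero (den_ne_zero hx) (den_ne_zero hy)

theorem cast_sum_O {ι : Type*} {s : Finset ι} {f : ι → ℚ} (h : ∀ i ∈ s, f i ∈ O p) :
    ((∑ i ∈ s, f i : ℚ) : ZMod p) = ∑ i ∈ s, (f i : ZMod p) := by
  classical
  induction s using Finset.induction_on with
  | empty => simp
  | insert a s ha ih =>
    rw [sum_insert ha, sum_insert ha, cast_add_O (h a (mem_insert_self _ _))
      (sum_mem fun i hi => h i (mem_insert_of_mem hi)), ih fun i hi => h i (mem_insert_of_mem hi)]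

theorem cast_eq_iff {x y : ℚ} (hx : x ∈ O p) (hy : y ∈ O p) :
    (x : ZMod p) = (y : ZMod p) ↔ Cg p x y := by
  rw [← sub_eq_zero, ← cast_sub_O hx hy, cast_eq_zero_iff (sub_mem hx hy)]
  simp [Cg]

theorem det_mem_O {n : Type*} [Fintype n] [DecidableEq n] {A : Matrix n n ℚ}
    (h : ∀ i j, A i j ∈ O p) : A.det ∈ O p := by
  rw [Matrix.det_apply']
  exact sum_mem fun σ _ => mul_mem (int_mem_O _) (prod_mem fun i _ => h _ _)

theorem cast_det_O {n : Type*} [Fintype n] [DecidableEq n] {A : Matrix n n ℚ}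
    (h : ∀ i j, A i j ∈ O p) :
    ((A.det : ℚ) : ZMod p) = (Matrix.of fun i j => (A i j : ZMod p)).det := by
  let A' : Matrix n n (O p) := Matrix.of fun i j => ⟨A i j, h i j⟩
  have h1 : A.det = ((A'.det : O p) : ℚ) := (O p).subtype.map_det A' ▸ rfl
  rw [h1, ← red_apply, (red p).map_det]
  rfl

theorem chi_mem_O : chi p ∈ O p := pow_mem (neg_mem (one_mem _)) _

theorem bb_mem_O (r : ℕ) : bb p r ∈ O p := mul_mem (pow_mem (neg_mem (one_mem _)) _) (nat_mem_O _)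

theorem cf_mem_O {P : ℚ[X]} (h : ∀ k, P.coeff k ∈ O p) (m : ℤ) : cf P m ∈ O p := by
  unfold cf
  split_ifs
  exacts [h _, zero_mem _]

theorem coeff_mul_mem_O {P Q : ℚ[X]} (hP : ∀ k, P.coeff k ∈ O p) (hQ : ∀ k, Q.coeff k ∈ O p) (k : ℕ) :
    (P * Q).coeff k ∈ O p := by
  rw [coeff_mul]
  exact sum_mem fun _ _ => mul_mem (hP _) (hQ _)

theorem coeff_map_mem_O (P : ℤ[X]) (k : ℕ) : (P.map (Int.castRingHom ℚ)).coeff k ∈ O p := by
  rw [coeff_map]
  exact int_mem_O _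

end Local

theorem chi_mul_self (p : ℕ) : chi p * chi p = 1 := by
  rw [chi, ← mul_pow]; simp

theorem exists_int_of_forall {x : ℚ} (h : ∀ (p : ℕ) [Fact p.Prime], x ∈ O p) : ∃ z : ℤ, x = z := by
  refine ⟨x.num, (Rat.coe_int_num_of_den_eq_one ?_).symm⟩
  by_contra h1
  obtain ⟨p, hp, hd⟩ := Nat.exists_prime_and_dvd h1
  have := Fact.mk hp
  exact h p hd

theorem cf_of_neg (P : ℚ[X]) {m : ℤ} (h : m < 0) : cf P m = 0 := if_neg h.not_ge

theorem cf_natCast (P : ℚ[X]) (m : ℕ) : cf P m = P.coeff m := by simp [cf]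

theorem cheb_eval {K : Type} [Field K] (h2 : (2 : K) ≠ 0) {x : K} (hx : x ≠ 0) (e : ℤ) :
    (Chebyshev.T K e).eval ((x + x⁻¹) / 2) = (x ^ e + x ^ (-e)) / 2 ∧
    (x⁻¹ - x) / 2 * (Chebyshev.U K (e - 1)).eval ((x + x⁻¹) / 2) = (x ^ (-e) - x ^ e) / 2 := by
  induction e using Polynomial.Chebyshev.induct with
  | zero =>
    have : (1 : K) = (1 + 1) / 2 := by rw [one_add_one_eq_two, div_self h2]
    simpa using this
  | one => simp
  | add_two n ih1 ih2 =>
    have e1 : ((n : ℤ) + 2 - 1) = ((n : ℤ) - 1) + 2 := by ring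
    have e2 : ((n : ℤ) - 1) + 1 = (n : ℤ) + 1 - 1 := by ring
    rw [Chebyshev.T_add_two, e1, Chebyshev.U_add_two, e2]
    simp only [eval_sub, eval_mul, eval_ofNat, eval_X, mul_sub]
    rw [mul_left_comm ((x⁻¹ - x) / 2), ih1.1, ih1.2, ih2.1, ih2.2]
    simp only [neg_add, zpow_add₀ hx, zpow_neg, zpow_ofNat]
    have : x ^ (n : ℤ) ≠ 0 := zpow_ne_zero _ hx
    constructor <;> field_simp <;> ring
  | neg_add_one n ih1 ih2 =>
    have e1 : (-(n : ℤ) - 1 - 1) = (-(n : ℤ) - 1) - 1 := by ring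
    have e2 : (-(n : ℤ) - 1) + 1 = -(n : ℤ) + 1 - 1 := by ring
    rw [Chebyshev.T_sub_one, e1, Chebyshev.U_sub_one, e2]
    simp only [eval_sub, eval_mul, eval_ofNat, eval_X, mul_sub]
    rw [mul_left_comm ((x⁻¹ - x) / 2), ih1.1, ih1.2, ih2.1, ih2.2]
    simp only [sub_eq_add_neg, neg_add, neg_neg, zpow_add₀ hx, zpow_neg, zpow_ofNat]
    have : x ^ (n : ℤ) ≠ 0 := zpow_ne_zero _ hx
    constructor <;> field_simp <;> ring

theorem S0_map {R S : Type} [CommRing R] [CommRing S] (f : R →+* S) (e : ℤ) :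
    (S0 R e).map f = S0 S e := by simp [S0]

theorem D0_map {R S : Type} [CommRing R] [CommRing S] (f : R →+* S) (e : ℤ) :
    (D0 R e).map f = D0 S e := by simp [D0]

theorem S0_eval_one (R : Type) [CommRing R] (e : ℤ) : (S0 R e).eval 1 = 0 := by simp [S0]

theorem natDegree_S0_le (e : ℤ) {m : ℕ} (h1 : -(m : ℤ) ≤ e) (h2 : e + 1 ≤ m) :
    (S0 ℚ e).natDegree ≤ m := by
  refine (natDegree_sub_le _ _).trans (max_le ?_ ?_) <;> rw [Chebyshev.natDegree_T] <;> omega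

theorem degree_U_lt (e : ℤ) {m : ℕ} (h1 : -(m : ℤ) ≤ e + 1) (h2 : e + 1 ≤ m) :
    (Chebyshev.U ℚ e).degree < m := by
  have key : ∀ k : ℕ, k ≤ m → (Chebyshev.U ℚ ((k : ℤ) - 1)).degree < m := by
    intro k hk
    rcases k with _ | k
    · simp
    · rw [show ((k + 1 : ℕ) : ℤ) - 1 = k by push_cast; ring, Chebyshev.degree_U_natCast]
      exact_mod_cast hk
  rcases le_or_gt 0 (e + 1) with h | h
  · have := key (e + 1).toNat (by omega)
    rwa [show (((e + 1).toNat : ℕ) : ℤ) - 1 = e by omega] at this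
  · have := key (-(e + 1)).toNat (by omega)
    rw [show (((-(e + 1)).toNat : ℕ) : ℤ) - 1 = -e - 2 by omega, Chebyshev.U_neg_sub_two] at this
    simpa using this

theorem degree_D0_lt (e : ℤ) {m : ℕ} (h1 : -(m : ℤ) ≤ e) (h2 : e + 1 ≤ m) : (D0 ℚ e).degree < m :=
  (degree_sub_le _ _).trans_lt (max_lt (degree_U_lt _ (by omega) (by omega))
    (degree_U_lt _ (by omega) (by omega)))

theorem natDegree_rowS_le (N : ℕ) (e : Fin (20 * N)) : (rowS N e).natDegree ≤ 19 * N := by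
  have h1 : ((X - 1 : ℚ[X]) ^ N).natDegree ≤ N := by
    refine natDegree_pow_le.trans ?_
    rw [← C_1, natDegree_X_sub_C, mul_one]
  have h2 := natDegree_S0_le (((e : ℕ) : ℤ) - 2 * N) (m := 18 * N) (by push_cast; omega)
    (by have := e.2; push_cast; omega)
  exact natDegree_mul_le.trans (by omega)

theorem coeff_rowD_eq_zero (N : ℕ) (e : Fin (20 * N)) {k : ℕ} (hk : 19 * N ≤ k) :
    (rowD N e).coeff k = 0 := by
  have h1 : ((X - 1 : ℚ[X]) ^ N).natDegree ≤ N := by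
    refine natDegree_pow_le.trans ?_
    rw [← C_1, natDegree_X_sub_C, mul_one]
  have h2 := degree_D0_lt (((e : ℕ) : ℤ) - 2 * N) (m := 18 * N) (by push_cast; omega)
    (by have := e.2; push_cast; omega)
  rw [rowD, coeff_mul]
  refine sum_eq_zero fun c hc => ?_
  rw [HasAntidiagonal.mem_antidiagonal] at hc
  rcases le_or_gt c.1 N with h | h
  · rw [coeff_eq_zero_of_degree_lt (h2.trans_le (by exact_mod_cast (by omega : 18 * N ≤ c.2))), mul_zero]
  · rw [coeff_eq_zero_of_natDegree_lt (h1.trans_lt h), zero_mul]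

theorem coeff_colQ_eq_zero (N : ℕ) (k : Fin (20 * N)) {j : ℕ} (hj : j < 3 * N + k ∨ 4 * N + k < j) :
    (colQ N k).coeff j = 0 := by
  rw [colQ, coeff_mul_X_pow']
  split_ifs with h
  · have h1 : ((1 - X : ℚ[X]) ^ N).natDegree ≤ N := by
      refine natDegree_pow_le.trans ?_
      rw [← neg_sub, natDegree_neg, ← C_1, natDegree_X_sub_C, mul_one]
    exact coeff_eq_zero_of_natDegree_lt (h1.trans_lt (by omega))
  · rfl

theorem natDegree_sS_le (N : ℕ) (f : Fin (20 * N) → ℤ) : (sS N f).natDegree ≤ 19 * N :=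
  natDegree_sum_le_of_forall_le _ _ fun e _ => (natDegree_smul_le _ _).trans (natDegree_rowS_le N e)

theorem coeff_sD_eq_zero (N : ℕ) (f : Fin (20 * N) → ℤ) {k : ℕ} (hk : 19 * N ≤ k) :
    (sD N f).coeff k = 0 := by
  simp [sD, coeff_rowD_eq_zero N _ hk]

theorem coeff_sQ_eq_zero (N : ℕ) (g : Fin (20 * N) → ℤ) {j : ℕ} (hj : j < 3 * N ∨ 24 * N ≤ j) :
    (sQ N g).coeff j = 0 := by
  rw [sQ, finsetSum_coeff]
  refine sum_eq_zero fun k _ => ?_
  rw [coeff_smul, coeff_colQ_eq_zero N k (by have := k.2; omega), smul_zero]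

section Mem

variable {p : ℕ} [Fact p.Prime]

theorem coeff_rowS_mem (N : ℕ) (e : Fin (20 * N)) (k : ℕ) : (rowS N e).coeff k ∈ O p := by
  have : rowS N e = ((X - 1) ^ N * S0 ℤ (((e : ℕ) : ℤ) - 2 * N)).map (Int.castRingHom ℚ) := by
    simp [rowS, S0_map]
  rw [this]
  exact coeff_map_mem_O _ _

theorem coeff_rowD_mem (N : ℕ) (e : Fin (20 * N)) (k : ℕ) : (rowD N e).coeff k ∈ O p := by
  have : rowD N e = ((X - 1) ^ N * D0 ℤ (((e : ℕ) : ℤ) - 2 * N)).map (Int.castRingHom ℚ) := by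
    simp [rowD, D0_map]
  rw [this]
  exact coeff_map_mem_O _ _

theorem coeff_colQ_mem (N : ℕ) (e : Fin (20 * N)) (k : ℕ) : (colQ N e).coeff k ∈ O p := by
  have : colQ N e = ((1 - X : ℤ[X]) ^ N * X ^ (3 * N + (e : ℕ))).map (Int.castRingHom ℚ) := by
    simp [colQ]
  rw [this]
  exact coeff_map_mem_O _ _

theorem coeff_sS_mem (N : ℕ) (f : Fin (20 * N) → ℤ) (k : ℕ) : (sS N f).coeff k ∈ O p := by
  rw [sS, finsetSum_coeff]
  exact sum_mem fun e _ => mul_mem (int_mem_O _) (coeff_rowS_mem N e k)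

theorem coeff_sD_mem (N : ℕ) (f : Fin (20 * N) → ℤ) (k : ℕ) : (sD N f).coeff k ∈ O p := by
  rw [sD, finsetSum_coeff]
  exact sum_mem fun e _ => mul_mem (int_mem_O _) (coeff_rowD_mem N e k)

theorem coeff_sQ_mem (N : ℕ) (f : Fin (20 * N) → ℤ) (k : ℕ) : (sQ N f).coeff k ∈ O p := by
  rw [sQ, finsetSum_coeff]
  exact sum_mem fun e _ => mul_mem (int_mem_O _) (coeff_colQ_mem N e k)

end Mem

theorem form_expand (I : ℕ) (S D Q : ℚ[X]) :
    form I S D Q = ∑ j ∈ range (I + 1), Q.coeff j * form I S D (X ^ j) := by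
  unfold form
  rw [sum_comm]
  refine sum_congr rfl fun j hj => ?_
  rw [mul_sum]
  refine sum_congr rfl fun k _ => ?_
  simp only [coeff_X_pow, mul_ite, mul_one, mul_zero]
  rw [sum_ite_eq' (range (I + 1)) j, if_pos hj, mul_comm]

theorem form_X_pow (I : ℕ) (S D : ℚ[X]) {j : ℕ} (hj : j ≤ I) :
    form I S D (X ^ j) =
      ∑ k ∈ range (I + 1), (S.coeff k * MM ((I : ℤ) - k) j - 3 / 2 * D.coeff k * ZZ ((I : ℤ) - k) j) := by
  unfold form
  refine sum_congr rfl fun k _ => ?_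
  simp only [coeff_X_pow, mul_ite, mul_one, mul_zero]
  rw [sum_ite_eq' (range (I + 1)) j, if_pos (mem_range.2 (by omega))]

theorem form_sum (N : ℕ) (f g : Fin (20 * N) → ℤ) :
    ∑ r, ∑ s, (f r : ℚ) * B0 N r s * (g s : ℚ) = form (27 * N - 1) (sS N f) (sD N f) (sQ N g) := by
  simp only [B0, Matrix.of_apply, form, sS, sD, sQ, finsetSum_coeff, coeff_smul, smul_eq_mul,
    mul_sum, sum_mul, ← sum_sub_distrib]
  rw [sum_congr rfl fun r _ => sum_comm, sum_comm]
  refine sum_congr rfl fun k _ => ?_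
  rw [sum_congr rfl fun r _ => sum_comm, sum_comm]
  refine sum_congr rfl fun j _ => ?_
  rw [sum_comm]
  exact sum_congr rfl fun _ _ => sum_congr rfl fun _ _ => by ring

theorem formG_sum (N : ℕ) (f g : Fin (20 * N) → ℤ) :
    ∑ r, ∑ s, (f r : ℚ) * B1 N r s * (g s : ℚ) = formG (27 * N - 1) (sS N f) (sQ N g) := by
  simp only [B1, Matrix.of_apply, formG, sS, sQ, finsetSum_coeff, coeff_smul, smul_eq_mul,
    mul_sum, sum_mul]
  rw [sum_congr rfl fun r _ => sum_comm, sum_comm]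
  refine sum_congr rfl fun k _ => ?_
  rw [sum_congr rfl fun r _ => sum_comm, sum_comm]
  refine sum_congr rfl fun j _ => ?_
  rw [sum_comm]
  exact sum_congr rfl fun _ _ => sum_congr rfl fun _ _ => by ring

theorem pair_sum (N : ℕ) (a b : ℤ) (f g : Fin (20 * N) → ℤ) :
    ∑ r, ∑ s, (f r : ℚ) * ((b : ℚ) • B0 N + (a : ℚ) • B1 N) r s * (g s : ℚ) =
      b * form (27 * N - 1) (sS N f) (sD N f) (sQ N g) + a * formG (27 * N - 1) (sS N f) (sQ N g) := by
  rw [← form_sum, ← formG_sum]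
  simp only [mul_sum, ← sum_add_distrib, Matrix.add_apply, Matrix.smul_apply, smul_eq_mul]
  exact sum_congr rfl fun _ _ => sum_congr rfl fun _ _ => by ring

instance : IsFiniteMeasure mx := by unfold mx; infer_instance

instance : IsFiniteMeasure ms := by unfold ms; infer_instance

instance : IsFiniteMeasure mo := by unfold mo; infer_instance

end Vale.Agent.P030
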