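import Vale.Agent.P030.Defs

/-!
# P030: Vandermonde and Cauchy determinants in absolute value
-/

namespace Vale.Agent.P030

open Polynomial Finset

namespace Cauchy

theorem VV_nonneg {ι : Type} [DecidableEq ι] (s : Finset ι) (p : ι → ℂ) : 0 ≤ VV s p :=
  Real.sqrt_nonneg _

theorem VV_sq {ι : Type} [DecidableEq ι] (s : Finset ι) (p : ι → ℂ) :
    VV s p * VV s p = ∏ i ∈ s, ∏ j ∈ s.erase i, ‖p i - p j‖ :=
  Real.mul_self_sqrt (prod_nonneg fun _ _ => prod_nonneg fun _ _ => norm_nonneg _)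

theorem vdm (n : ℕ) (x : Fin n → ℂ) : ‖(Matrix.vandermonde x).det‖ = VV univ x := by
  have h1 : ∏ i, ∏ j ∈ univ.erase i, ‖x i - x j‖ =
      (∏ i, ∏ j ∈ Ioi i, ‖x j - x i‖) * ∏ i, ∏ j ∈ Ioi i, ‖x j - x i‖ := by
    have h := prod_prod_Ioi_mul_eq_prod_prod_off_diag (fun j i => ‖x i - x j‖)
    simp only [compl_singleton] at h
    rw [← h, ← prod_mul_distrib]
    refine prod_congr rfl fun i _ => ?_
    rw [← prod_mul_distrib]
    refine prod_congr rfl fun j _ => ?_
    rw [norm_sub_rev]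
  rw [VV, h1, Real.sqrt_mul_self (prod_nonneg fun _ _ => prod_nonneg fun _ _ => norm_nonneg _),
    Matrix.det_vandermonde, norm_prod]
  exact prod_congr rfl fun i _ => norm_prod _ _

theorem fact (n : ℕ) (y : Fin n → ℂ) : ∃ M : Matrix (Fin n) (Fin n) ℂ, ∀ x : Fin n → ℂ,
    (Matrix.of fun i j => ∏ k ∈ univ.erase j, (x i - y k)) = Matrix.vandermonde x * M := by
  refine ⟨Matrix.of fun k j => (∏ l ∈ univ.erase j, (X - C (y l)) : ℂ[X]).coeff k, fun x => ?_⟩
  ext i j
  have hd : (∏ l ∈ univ.erase j, (X - C (y l)) : ℂ[X]).natDegree < n := by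
    rw [natDegree_finsetProd_X_sub_C_eq_card, card_erase_of_mem (mem_univ j), card_univ,
      Fintype.card_fin]
    have := j.pos
    omega
  have h := eval_eq_sum_range' hd (x i)
  rw [eval_prod, sum_range] at h
  simp only [eval_sub, eval_X, eval_C] at h
  rw [Matrix.of_apply, h, Matrix.mul_apply]
  exact sum_congr rfl fun k _ => by rw [Matrix.vandermonde_apply, Matrix.of_apply, mul_comm]

theorem cau (n : ℕ) (x y : Fin n → ℂ) (hxy : ∀ i j, x i ≠ y j) :
    ‖(Matrix.of fun i j => (x i - y j)⁻¹).det‖ = VV univ x * VV univ y / CR univ x univ y := by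
  by_cases hy : VV univ y = 0
  · have h0 := VV_sq univ y
    rw [hy, mul_zero, eq_comm, prod_eq_zero_iff] at h0
    obtain ⟨i, -, h0⟩ := h0
    obtain ⟨j, hj, h0⟩ := prod_eq_zero_iff.1 h0
    have hij : y i = y j := sub_eq_zero.1 (norm_eq_zero.1 h0)
    rw [Matrix.det_zero_of_column_eq (ne_of_mem_erase hj).symm fun k => by
      rw [Matrix.of_apply, Matrix.of_apply, hij], hy]
    simp
  obtain ⟨M, hM⟩ := fact n y
  have h1 : (Matrix.of fun i j => ∏ k ∈ univ.erase j, (y i - y k)) =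
      Matrix.diagonal fun i => ∏ k ∈ univ.erase i, (y i - y k) := by
    ext i j
    rw [Matrix.of_apply, Matrix.diagonal_apply]
    split_ifs with h
    · rw [h]
    · exact prod_eq_zero (mem_erase.2 ⟨h, mem_univ i⟩) (sub_self _)
  have h2 : ‖M.det‖ = VV univ y := by
    have h := congrArg (fun A => ‖Matrix.det A‖) ((hM y).symm.trans h1)
    simp only [Matrix.det_mul, norm_mul, vdm, Matrix.det_diagonal, norm_prod, ← VV_sq] at h
    exact mul_left_cancel₀ hy h
  have h3 : (Matrix.of fun i j => (x i - y j)⁻¹) = Matrix.of fun i j => (∏ k, (x i - y k))⁻¹ *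
      (Matrix.of fun i j => ∏ k ∈ univ.erase j, (x i - y k)) i j := by
    ext i j
    have h4 : ∏ k ∈ univ.erase j, (x i - y k) ≠ 0 :=
      prod_ne_zero_iff.2 fun k _ => sub_ne_zero.2 (hxy i k)
    simp only [Matrix.of_apply]
    rw [← mul_prod_erase univ _ (mem_univ j), mul_inv, inv_mul_cancel_right₀ h4]
  rw [h3, Matrix.det_mul_column, hM x, Matrix.det_mul, norm_mul, norm_mul, vdm, h2, norm_prod, CR,
    div_eq_inv_mul, ← prod_inv_distrib]
  congr 1
  exact prod_congr rfl fun i _ => by rw [norm_inv, norm_prod]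

theorem union (ι : Type) [DecidableEq ι] (s t : Finset ι) (p : ι → ℂ) (h : Disjoint s t) :
    VV (s ∪ t) p = VV s p * VV t p * CR s p t p := by
  have hC : 0 ≤ CR s p t p := prod_nonneg fun _ _ => prod_nonneg fun _ _ => norm_nonneg _
  have h1 : ∏ i ∈ s, ∏ j ∈ (s ∪ t).erase i, ‖p i - p j‖ = VV s p * VV s p * CR s p t p := by
    rw [VV_sq, CR, ← prod_mul_distrib]
    refine prod_congr rfl fun i hi => ?_
    rw [erase_union_distrib, erase_eq_of_notMem (disjoint_left.1 h hi),
      prod_union (disjoint_of_subset_left (erase_subset _ _) h)]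
  have h2 : ∏ i ∈ t, ∏ j ∈ (s ∪ t).erase i, ‖p i - p j‖ = VV t p * VV t p * CR s p t p := by
    rw [VV_sq, CR, prod_comm (s := s) (t := t), ← prod_mul_distrib]
    refine prod_congr rfl fun i hi => ?_
    rw [erase_union_distrib, erase_eq_of_notMem (disjoint_right.1 h hi),
      prod_union (disjoint_of_subset_right (erase_subset _ _) h), mul_comm]
    congr 1
    exact prod_congr rfl fun j _ => norm_sub_rev _ _
  rw [VV, prod_union h, h1, h2]
  have h3 : 0 ≤ VV s p * VV t p * CR s p t p :=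
    mul_nonneg (mul_nonneg (VV_nonneg _ _) (VV_nonneg _ _)) hC
  rw [← Real.sqrt_mul_self h3]
  congr 1
  ring

end Cauchy

theorem cauchy : CauchyStmt := by
  refine ⟨fun n x => Cauchy.vdm n x, Cauchy.cau, Cauchy.union, fun ι κ _ _ s φ p => ?_⟩
  simp only [VV, prod_map, ← map_erase]

end Vale.Agent.P030
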