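import Vale.Agent.P030.CkData

/-!
# P030: kernel checks, the two arcs
-/

namespace Vale.Agent.P030.Ck

theorem covc0 : Cov Lu 10149542831779668547 gx gy 0 162863 :=
  chain_sound rpu (fol_curve (by norm_num)) (t1 := 2619) (ts := [
    5238, 9396, 13554, 16339, 18775, 21211, 24053, 28564, 34703, 38300, 41447, 44594, 48876, 54703, 58117,
    61104, 64091, 67575, 74027, 78966, 82746, 86053, 89360, 93861, 101008, 105196, 108860, 112524, 116798,
    123584, 129521, 133497, 136976, 140455, 145189, 152705, 158459, 162863]) (by decide +kernel)

theorem covc1 : Cov Lu 10149542831779668547 gx gy 162863 429236 :=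
  chain_sound rpu (fol_curve (by norm_num)) (t1 := 167267) (ts := [
    171671, 177665, 185823, 191287, 196068, 200849, 205630, 212136, 219726, 225536, 230619, 235702, 240785,
    247703, 255774, 262836, 269015, 275194, 281373, 288581, 296990, 304347, 310784, 317221, 323658, 330095,
    338855, 349075, 358017, 364863, 371709, 378555, 386542, 395860, 410655, 420565, 429236]) (by decide +kernel)

theorem covc2 : Cov Lu 10149542831779668547 gx gy 429236 1048576 :=
  chain_sound rpu (fol_curve (by norm_num)) (t1 := 436823) (ts := [
    444410, 453261, 463587, 479983, 494329, 506881, 517864, 528847, 539830, 554778, 575123, 595468, 613269,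
    626897, 638821, 649254, 659687, 670120, 682291, 698856, 721401, 752086, 782771, 809620, 833112, 853667,
    871652, 887388, 903124, 916893, 930662, 946725, 962788, 978851, 997591, 1019454, 1044960, 1048576]) (by decide +kernel)

theorem covc : Cov Lu 10149542831779668547 gx gy 0 1048576 :=
  ((covc0.trans covc1).trans covc2)

theorem covd0 : Cov Lv 10149542831779668547 gx gy 0 162863 :=
  chain_sound rpv (fol_curve (by norm_num)) (t1 := 2619) (ts := [
    5238, 9396, 13554, 16339, 18775, 21211, 24053, 28564, 34703, 38300, 41447, 44594, 48876, 54703, 58117,
    61104, 64091, 67575, 74027, 78966, 82746, 86053, 89360, 93861, 101008, 105196, 108860, 112524, 116798,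
    123584, 129521, 133497, 136976, 140455, 145189, 152705, 158459, 162863]) (by decide +kernel)

theorem covd1 : Cov Lv 10149542831779668547 gx gy 162863 429236 :=
  chain_sound rpv (fol_curve (by norm_num)) (t1 := 167267) (ts := [
    171671, 177665, 185823, 191287, 196068, 200849, 205630, 212136, 219726, 225536, 230619, 235702, 240785,
    247703, 255774, 262836, 269015, 275194, 281373, 288581, 296990, 304347, 310784, 317221, 323658, 330095,
    338855, 349075, 358017, 364863, 371709, 378555, 386542, 395860, 410655, 420565, 429236]) (by decide +kernel)

theorem covd2 : Cov Lv 10149542831779668547 gx gy 429236 1048576 :=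
  chain_sound rpv (fol_curve (by norm_num)) (t1 := 436823) (ts := [
    444410, 453261, 463587, 479983, 494329, 506881, 517864, 528847, 539830, 554778, 575123, 595468, 613269,
    626897, 638821, 649254, 659687, 670120, 682291, 698856, 721401, 752086, 782771, 809620, 833112, 853667,
    871652, 887388, 903124, 916893, 930662, 946725, 962788, 978851, 997591, 1019454, 1044960, 1048576]) (by decide +kernel)

theorem covd : Cov Lv 10149542831779668547 gx gy 0 1048576 :=
  ((covd0.trans covd1).trans covd2)


end Vale.Agent.P030.Ck
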