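import Vale.Agent.P030.CkData

/-!
# P030: kernel checks, condition u
-/

namespace Vale.Agent.P030.Ck

theorem covu0 : Cov Lu 10149542831779668547 (fun τ => τ) (fun _ => 0) 270582939648 276578052384 :=
  chain_sound rpu (fol_line _) (t1 := 270593728162) (ts := [
    270608412527, 270640151224, 270708751052, 270857022308, 271177494915, 271686393545, 272131679846,
    272429986878, 272658378199, 272833240303, 272967119101, 273084263049, 273201406997, 273318550945,
    273435694893, 273552838841, 273669982789, 273787126737, 273904270685, 274021414633, 274138558581,
    274255702529, 274372846477, 274475347431, 274577848385, 274680349339, 274782850293, 274861327585,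
    274939804877, 275031361717, 275122918557, 275214475397, 275321291710, 275428108023, 275534924336,
    275641740649, 275748556962, 275842021235, 275935485508, 276028949781, 276122414054, 276215878327,
    276309342600, 276402806873, 276496271146, 276578052384]) (by decide +kernel)

theorem covu1 : Cov Lu 10149542831779668547 (fun τ => τ) (fun _ => 0) 276578052384 278859646927 :=
  chain_sound rpu (fol_line _) (t1 := 276659833622) (ts := [
    276741614860, 276823396098, 276905177336, 276976735919, 277048294502, 277119853085, 277191411668,
    277262970251, 277334528834, 277397142594, 277459756354, 277522370114, 277577157154, 277631944194,
    277686731234, 277750649447, 277825220695, 277912220484, 277999220273, 278075345088, 278141954301,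
    278200237362, 278251235040, 278295858008, 278340480976, 278379526073, 278413690532, 278447854991,
    278477748892, 278507642793, 278533799956, 278559957119, 278586114282, 278609001799, 278631889316,
    278654776833, 278677664350, 278700551867, 278723439384, 278746326901, 278769214418, 278789240995,
    278809267572, 278826790826, 278844314080, 278859646927]) (by decide +kernel)

theorem covu2 : Cov Lu 10149542831779668547 (fun τ => τ) (fun _ => 0) 278859646927 279152642172 :=
  chain_sound rpu (fol_line _) (t1 := 278873063168) (ts := [
    278886479409, 278898218619, 278909957829, 278921697039, 278933436249, 278945175459, 278956914669,
    278968653879, 278980393089, 278992132299, 279003871509, 279014143317, 279023131149, 279032118981,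
    279039983334, 279046864642, 279052885786, 279058906930, 279064175431, 279069443932, 279074712433,
    279079980934, 279085249435, 279090517936, 279095127874, 279099737812, 279104347750, 279108381445,
    279111910928, 279115440411, 279118528708, 279121230967, 279123933226, 279126635485, 279129337744,
    279132040003, 279134742262, 279137444521, 279140146780, 279142511256, 279144580172, 279146649088,
    279148459389, 279150043402, 279151429413, 279152642172]) (by decide +kernel)

theorem covu3 : Cov Lu 10149542831779668547 (fun τ => τ) (fun _ => 0) 279152642172 279172874240 :=
  chain_sound rpu (fol_line _) (t1 := 279153854931) (ts := [
    279155067690, 279156128854, 279157190018, 279158251182, 279159312346, 279160240864, 279161169382,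
    279161981835, 279162692731, 279163403627, 279164025661, 279164647695, 279165269729, 279165891763,
    279166513797, 279167058076, 279167602355, 279168078599, 279168443222, 279168807845, 279169126890,
    279169406054, 279169685218, 279169964382, 279170208650, 279170452918, 279170666652, 279170880386,
    279171067403, 279171231042, 279171394681, 279171537865, 279171681049, 279171824233, 279171949519,
    279172059144, 279172143074, 279172227004, 279172300442, 279172373880, 279172459557, 279172559513,
    279172676128, 279172812178, 279172865602, 279172874240]) (by decide +kernel)

theorem covu : Cov Lu 10149542831779668547 (fun τ => τ) (fun _ => 0) 270582939648 279172874240 :=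
  (((covu0.trans covu1).trans covu2).trans covu3)


end Vale.Agent.P030.Ck
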