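import Vale.Agent.P030.CkA
import Vale.Agent.P030.CkB
import Vale.Agent.P030.CkU
import Vale.Agent.P030.CkS
import Vale.Agent.P030.CkC

/-!
# P030: the energy certificate
-/

namespace Vale.Agent.P030

namespace Ck

theorem far {σ : ℝ} (h : 64 ≤ |σ|) : 64 * 2 ^ 32 ≤ |2 ^ 32 * σ| := by
  rw [abs_mul, abs_of_pos (by positivity : (0 : ℝ) < 2 ^ 32)]
  linarith

theorem cond_a (σ : ℝ) (h : σ ≤ -1 ∨ 109 / 60 ≤ σ) :
    PU DD Bl.w2 σ + PU DD Bl.w3 σ + Real.log |σ - 1| - 27 * Real.log |σ| ≤ -18659 / 1000 + 4070 / 1000 := by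
  have l := ab_link hr (fun b => Int.add b.w2 b.w3) (σ := σ) (by rcases h with h | h <;> intro h0 <;> linarith)
    (by rcases h with h | h <;> intro h0 <;> linarith)
  have k : 2 ^ 32 * potJ La (2 ^ 32 * σ + 2 ^ 38) 0 + 2 ^ 38 * (nsum La : ℝ) ≤ (17006496998101934672 : ℕ) := by
    rcases le_or_gt 64 |σ| with h1 | h1
    · exact taila (far h1)
    · rw [abs_lt] at h1
      rcases h with h | h
      · exact covm _ (by push_cast; linarith) (by push_cast; linarith)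
      · exact covp _ (by push_cast; linarith) (by push_cast; linarith)
  rw [U_add, msa] at l
  rw [nsa, La] at k
  generalize potJ _ _ _ = P at l k
  push_cast at l k
  linarith [Real.log_two_lt_d9]

theorem cond_b (σ : ℝ) (h : 1 < σ) :
    PU DD Bl.w1 σ + PU DD Bl.w3 σ + Real.log |σ - 1| - 27 * Real.log |σ| ≤ -18659 / 1000 := by
  have l := ab_link hr (fun b => Int.add b.w1 b.w3) (σ := σ) (by linarith) (by linarith)
  have k : 2 ^ 32 * potJ Lb (2 ^ 32 * σ + 2 ^ 38) 0 + 2 ^ 38 * (nsum Lb : ℝ) ≤ (18030465653627265227 : ℕ) := by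
    rcases le_or_gt 64 |σ| with h1 | h1
    · exact tailb (far h1)
    · rw [abs_lt] at h1
      exact covb _ (by push_cast; linarith) (by push_cast; linarith)
  rw [U_add, msb] at l
  rw [nsb, Lb] at k
  generalize potJ _ _ _ = P at l k
  push_cast at l k
  linarith [Real.log_two_lt_d9]

theorem cond_u (u : ℝ) (h0 : -1 ≤ u) (h1 : u ≤ 1) : PU DD Bl.w2 u - PU DD Bl.w1 u ≤ 4070 / 1000 := by
  have l := pot_real hr (fun b => Int.sub b.w2 b.w1) u
  have k : 2 ^ 32 * potJ Lu (2 ^ 32 * u + 2 ^ 38) 0 + 2 ^ 38 * (nsum Lu : ℝ) ≤ (10149542831779668547 : ℕ) :=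
    covu _ (by push_cast; linarith) (by push_cast; linarith)
  rw [U_sub, msu] at l
  rw [nsu, Lu, l] at k
  push_cast at k
  linarith [Real.log_two_gt_d9]

theorem cond_s (s : ℝ) (h0 : 0 < s) (h1 : s < 1) :
    PU DD Bl.w4 s - PU DD Bl.w3 s + 3 * Real.log s + Real.log (1 - s) ≤ -58376 / 1000 := by
  have l := s_link hr (fun b => Int.sub b.w4 b.w3) (σ := s) (by linarith) (by linarith)
  have k : 2 ^ 32 * potJ Ls (2 ^ 32 * s + 2 ^ 38) 0 + 2 ^ 38 * (nsum Ls : ℝ) ≤ (17661054278897650483 : ℕ) :=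
    covs _ (by push_cast; linarith) (by push_cast; linarith)
  rw [U_sub, mss, abs_sub_comm, Real.log_abs, Real.log_abs] at l
  rw [nss, Ls] at k
  generalize potJ _ _ _ = P at l k
  push_cast at l k
  linarith [Real.log_two_gt_d9]

theorem zc_z2 (τ : ℝ) : zc z2 τ = zt (2 ^ 20 * τ) := by
  apply Complex.ext <;> simp [zc, z2, zt] <;> ring

theorem sigc_z3 (τ : ℝ) : sigc (zc z3 τ) = (starRingEnd ℂ) (sigc (zc z2 τ)) := by
  have : zc z3 τ = (starRingEnd ℂ) (zc z2 τ) := by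
    apply Complex.ext <;> simp [zc, z2, z3, map_ofNat]
  rw [this, sigc, sigc, map_div₀, map_add, map_inv₀, map_ofNat]

theorem cond_c (τ : ℝ) (h0 : 0 ≤ τ) (h1 : τ ≤ 1) :
    PU DD Bl.w2 (sigc (zc z2 τ)) - PU DD Bl.w1 (sigc (zc z2 τ)) ≤ 4070 / 1000 ∧
    PU DD Bl.w2 (sigc (zc z3 τ)) - PU DD Bl.w1 (sigc (zc z3 τ)) ≤ 4070 / 1000 := by
  have l := pot_link' hr (fun b => Int.sub b.w2 b.w1) (sigc (zc z2 τ))
  have l' := pot_link hr (fun b => Int.sub b.w2 b.w1) (sigc (zc z3 τ))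
  have k := covd (2 ^ 20 * τ) (by push_cast; linarith) (by push_cast; linarith)
  have k' := covc (2 ^ 20 * τ) (by push_cast; linarith) (by push_cast; linarith)
  have e1 : gx (2 ^ 20 * τ) = 2 ^ 32 * (sigc (zc z2 τ)).re + 2 ^ 38 := by rw [gx, zc_z2, sigc]
  have e2 : gy (2 ^ 20 * τ) = 2 ^ 32 * -(sigc (zc z2 τ)).im := by rw [gy, zc_z2, sigc]
  have e3 : (sigc (zc z2 τ)).re = (sigc (zc z3 τ)).re := by rw [sigc_z3, Complex.conj_re]
  have e4 : -(sigc (zc z2 τ)).im = (sigc (zc z3 τ)).im := by rw [sigc_z3, Complex.conj_im]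
  rw [U_sub, msu] at l l'
  rw [nsv, Lv, e1, e2, l] at k
  rw [nsu, Lu, e1, e2, e3, e4, l'] at k'
  push_cast at k k'
  constructor <;> linarith [Real.log_two_gt_d9]

theorem mass1 : ∑ k, wt DD Bl.w1 k = 2 := by rw [sum_wt, ms1]; norm_num

theorem mass2 : ∑ k, wt DD Bl.w2 k = 18 := by rw [sum_wt, ms2]; norm_num

theorem mass3 : ∑ k, wt DD Bl.w3 k = 0 := by rw [sum_wt, ms3]; norm_num

theorem mass4 : ∑ k, wt DD Bl.w4 k = 20 := by rw [sum_wt, ms4]; norm_num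

theorem cond_e : 20 * (-18659 / 1000) + 18 * (4070 / 1000) + 20 * (-58376 / 1000) -
    (PE DD Bl.w1 + PE DD Bl.w2 + PE DD Bl.w3 + PE DD Bl.w4) / 2 + 164 * Real.log 2 ≤ -765 := by
  have k := enV_sound (D := DD) DD
  have c := (Nat.cast_le (α := ℝ)).2 enc
  rw [en_link hr, mass1, mass2, mass3, mass4] at k
  push_cast at c
  linarith [Real.log_two_gt_d9, Real.log_two_lt_d9]

end Ck

theorem cert : CertStmt :=
  ⟨Ck.cdOf Ck.DD, ⟨fun _ => div_pos (Nat.cast_pos.2 (Ck.hr _ (List.getElem_mem _))) (by positivity),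
    Ck.mass1, Ck.mass2, Ck.mass3, Ck.mass4, Ck.cond_a, Ck.cond_b, Ck.cond_u, Ck.cond_c, Ck.cond_s, Ck.cond_e⟩⟩

end Vale.Agent.P030
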