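import Vale.Agent.P030.CkData

/-!
# P030: kernel checks, condition a
-/

namespace Vale.Agent.P030.Ck

theorem covm0 : Cov La 17006496998101934672 (fun τ => τ) (fun _ => 0) 0 264798841870 :=
  chain_sound rpa (fol_line _) (t1 := 108203522436) (ts := [
    171630440738, 204162673887, 223232471686, 234410837045, 241899468524, 246289166809, 248862327350,
    250832403388, 252340742854, 253495565257, 254269206045, 254861524772, 255379803658, 255833297683,
    256286791708, 256740285733, 257193779758, 257647273783, 258100767808, 258554261833, 258951069104,
    259347876375, 259744683646, 260091890008, 260439096370, 260786302732, 261133509094, 261480715456,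
    261784521022, 262088326588, 262392132154, 262695937720, 262999743286, 263303548852, 263569378722,
    263835208592, 264101038462, 264333639598, 264566240734, 264798841870]) (by decide +kernel)

theorem covm1 : Cov La 17006496998101934672 (fun τ => τ) (fun _ => 0) 264798841870 269963457017 :=
  chain_sound rpa (fol_line _) (t1 := 265031443006) (ts := [
    265234969000, 265438494994, 265642020988, 265845546982, 266049072976, 266227158220, 266405243464,
    266583328708, 266761413952, 266939499196, 267117584440, 267273409028, 267429233616, 267565580130,
    267701926644, 267838273158, 267974619672, 268093922871, 268213226070, 268332529269, 268451832468,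
    268571135667, 268690438866, 268794829165, 268899219464, 269003609763, 269108000062, 269199341573,
    269279265395, 269359189217, 269429122561, 269499055905, 269568989249, 269638922593, 269708855937,
    269778789281, 269848722625, 269909914301, 269963457017]) (by decide +kernel)

theorem covm2 : Cov La 17006496998101934672 (fun τ => τ) (fun _ => 0) 269963457017 270582939648 :=
  chain_sound rpa (fol_line _) (t1 := 270010306893) (ts := [
    270051300534, 270092294175, 270128163610, 270164033045, 270199902480, 270235771915, 270271641350,
    270303027105, 270330489640, 270354519358, 270375545361, 270393943113, 270412340865, 270428438898,
    270444536931, 270460634964, 270474720742, 270487045797, 270497830220, 270507266590, 270516702960,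
    270524959783, 270532184503, 270538506133, 270544037559, 270548877556, 270553717553, 270557952550,
    270561658172, 270564900591, 270567737707, 270570220183, 270572702659, 270574603304, 270576266368,
    270577721549, 270578994832, 270580480328, 270582502252, 270582939648]) (by decide +kernel)

theorem covm : Cov La 17006496998101934672 (fun τ => τ) (fun _ => 0) 0 270582939648 :=
  ((covm0.trans covm1).trans covm2)

theorem covp0 : Cov La 17006496998101934672 (fun τ => τ) (fun _ => 0) 282680430865 288505727971 :=
  chain_sound rpa (fol_line _) (t1 := 282801082352) (ts := [
    282906652403, 282999026197, 283091399991, 283199169417, 283306938843, 283432669840, 283558400837,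
    283684131834, 283809862831, 283935593828, 284082279991, 284228966154, 284400100010, 284571233866,
    284742367722, 284913501578, 285084635434, 285255769290, 285455425455, 285655081620, 285854737785,
    286054393950, 286254050115, 286486982307, 286719914499, 286952846691, 287185778883, 287418711075,
    287690465299, 287962219523, 288233973747, 288505727971]) (by decide +kernel)

theorem covp1 : Cov La 17006496998101934672 (fun τ => τ) (fun _ => 0) 288505727971 549755813888 :=
  chain_sound rpa (fol_line _) (t1 := 288777482195) (ts := [
    289049236419, 289366283013, 289683329607, 290000376201, 290317422795, 290634469389, 291004357082,
    291374244775, 291744132468, 292114020161, 292483907854, 292853795547, 293285331188, 293716866829,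
    294148402470, 294579938111, 295083396358, 295586854605, 296174222559, 296973695607, 297906414163,
    298994585811, 300475708331, 302827676035, 306562513638, 312493297422, 323480806577, 340928564168,
    373252689148, 424582202425, 519676462745, 549755813888]) (by decide +kernel)

theorem covp : Cov La 17006496998101934672 (fun τ => τ) (fun _ => 0) 282680430865 549755813888 :=
  (covp0.trans covp1)


end Vale.Agent.P030.Ck
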