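import Vale.Agent.P030.CkSeg

/-!
# P030: soundness of the chain checker
-/

namespace Vale.Agent.P030.Ck

noncomputable def NR (X Y : ℝ) (c ya yb r : ℕ) : ℝ := (X - c) ^ 2 + (|Y + yb - ya| + r) ^ 2

noncomputable def potJ : BL → ℝ → ℝ → ℝ
  | .nil, _, _ => 0
  | .pos c ya yb r w t, X, Y => w * Real.log (NR X Y c ya yb r) + potJ t X Y
  | .neg c ya yb r w t, X, Y => -(w * Real.log (NR X Y c ya yb r)) + potJ t X Y

theorem dd_cast (a b : ℕ) : (dd a b : ℝ) = |(a : ℝ) - b| := by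
  change ((a - b + (b - a) : ℕ) : ℝ) = _
  rcases le_total a b with h | h
  · have : (a : ℝ) ≤ b := by exact_mod_cast h
    rw [Nat.sub_eq_zero_of_le h, zero_add, Nat.cast_sub h, abs_sub_comm, abs_of_nonneg (by linarith)]
  · have : (b : ℝ) ≤ a := by exact_mod_cast h
    rw [Nat.sub_eq_zero_of_le h, add_zero, Nat.cast_sub h, abs_of_nonneg (by linarith)]

theorem sq2_cast (a b : ℕ) : (sq2 a b : ℝ) = (a : ℝ) ^ 2 + (b : ℝ) ^ 2 := by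
  change ((a * a + b * b : ℕ) : ℝ) = _
  push_cast
  ring

theorem nn_cast (X Y c ya yb r : ℕ) : (nn X Y c ya yb r : ℝ) = NR X Y c ya yb r := by
  unfold nn NR
  simp only [sq2_cast, Nat.add_eq, Nat.cast_add, dd_cast, sq_abs]

theorem val_sound (L : BL) (X Y : ℕ) : 2 ^ 32 * potJ L X Y + 2 ^ 38 * (nsum L : ℝ) ≤ val L X Y := by
  induction L with
  | nil => simp [potJ, nsum, val]
  | pos c ya yb r w t ih =>
    change _ + _ * ((nsum t : ℕ) : ℝ) ≤ ((w * lgU (nn X Y c ya yb r) + val t X Y : ℕ) : ℝ)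
    have h := mul_le_mul_of_nonneg_left (le_lgU (nn X Y c ya yb r)) (Nat.cast_nonneg (α := ℝ) w)
    rw [nn_cast] at h
    rw [potJ]
    push_cast
    linarith
  | neg c ya yb r w t ih =>
    change _ + _ * ((w + nsum t : ℕ) : ℝ) ≤ ((w * (2 ^ 38 - lgL (nn X Y c ya yb r)) + val t X Y : ℕ) : ℝ)
    have h := lgL_le (nn X Y c ya yb r)
    have h1 : (2 : ℝ) ^ 38 - lgL (nn X Y c ya yb r) ≤ ((2 ^ 38 - lgL (nn X Y c ya yb r) : ℕ) : ℝ) := by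
      rw [sub_le_iff_le_add]
      exact_mod_cast le_tsub_add
    have h2 := mul_le_mul_of_nonneg_left (add_le_add h h1) (Nat.cast_nonneg (α := ℝ) w)
    rw [nn_cast] at h2
    rw [potJ, Nat.cast_add, Nat.cast_add, Nat.cast_mul]
    linarith

theorem ep2_sound {N0 N1 D : ℕ} (p0 : 0 < N0) (p1 : 0 < N1) :
    2 ^ 32 * (((N0 : ℝ) - N1) ^ 2 / (4 * (N0 * N1)) + D / (N0 - (N0 - N1) : ℕ)) ≤ ep2 N0 N1 D := by
  change _ ≤ (((dd N0 N1 * dd N0 N1) <<< 30 / (N0 * N1) + D <<< 32 / (N0 - (N0 - N1)) + 2 : ℕ) : ℝ)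
  have h1 := cast_div_ge ((dd N0 N1 * dd N0 N1) <<< 30) (N0 * N1) (by positivity)
  have h2 := cast_div_ge (D <<< 32) (N0 - (N0 - N1)) (by omega)
  rw [Nat.cast_add, Nat.cast_add]
  generalize (((dd N0 N1 * dd N0 N1) <<< 30 / (N0 * N1) : ℕ) : ℝ) = u at h1 ⊢
  generalize ((D <<< 32 / (N0 - (N0 - N1)) : ℕ) : ℝ) = v at h2 ⊢
  rw [Nat.shiftLeft_eq, Nat.cast_mul] at h1 h2
  rw [Nat.cast_mul, Nat.cast_mul, dd_cast, abs_mul_abs_self] at h1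
  have e1 : (2 : ℝ) ^ 32 * (((N0 : ℝ) - N1) ^ 2 / (4 * (N0 * N1))) =
      ((N0 : ℝ) - N1) * (N0 - N1) * ((2 ^ 30 : ℕ) : ℝ) / (N0 * N1) := by
    push_cast
    field_simp
    ring
  have e2 : (2 : ℝ) ^ 32 * (D / (N0 - (N0 - N1) : ℕ)) = D * ((2 ^ 32 : ℕ) : ℝ) / (N0 - (N0 - N1) : ℕ) := by
    push_cast
    ring
  rw [mul_add, e1, e2]
  push_cast at h1 h2 ⊢
  linarith

theorem en4_sound {H w m D : ℕ} (h : en4 H w m D < H) :
    D < m ∧ (w : ℝ) * (2 ^ 32 * (D / ((m : ℝ) - D))) ≤ en4 H w m D := by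
  unfold en4 at h ⊢
  cases h1 : Nat.ble m D
  · have h2 : D < m := Nat.lt_of_not_le fun h3 => by simp [Nat.ble_eq_true_of_le h3] at h1
    refine ⟨h2, ?_⟩
    change _ ≤ ((w * (D <<< 32 / (m - D) + 1) : ℕ) : ℝ)
    have h3 := cast_div_ge (D <<< 32) (m - D) (by omega)
    rw [Nat.cast_mul, Nat.cast_add_one]
    refine mul_le_mul_of_nonneg_left (le_of_eq_of_le ?_ h3) (Nat.cast_nonneg w)
    rw [Nat.shiftLeft_eq, Nat.cast_sub h2.le]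
    push_cast
    ring
  · rw [h1] at h
    exact absurd h (lt_irrefl H)

theorem err_sound (L : BL) (hL : rp L = true) {H X0 Y0 X1 Y1 r : ℕ} {X Y l : ℝ} (h0 : 0 ≤ l) (h1 : l ≤ 1)
    (hX : |X - ((1 - l) * X0 + l * X1)| ≤ r) (hY : |Y - ((1 - l) * Y0 + l * Y1)| ≤ r)
    (h : err L H X0 Y0 X1 Y1 (r + r) (dd X0 X1 + dd Y0 Y1 + r) (sq2 (dd X0 X1) (dd Y0 Y1) / 4 + 1)
      (Y0 + Y1) < H) :
    2 ^ 32 * potJ L X Y ≤ 2 ^ 32 * ((1 - l) * potJ L X0 Y0 + l * potJ L X1 Y1) +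
      err L H X0 Y0 X1 Y1 (r + r) (dd X0 X1 + dd Y0 Y1 + r) (sq2 (dd X0 X1) (dd Y0 Y1) / 4 + 1) (Y0 + Y1) := by
  have hq := cast_div_ge (sq2 (dd X0 X1) (dd Y0 Y1)) 4 (by norm_num)
  rw [sq2_cast, dd_cast, dd_cast, sq_abs, sq_abs, ← Nat.cast_add_one] at hq
  generalize sq2 (dd X0 X1) (dd Y0 Y1) / 4 + 1 = q at h hq ⊢
  have hh : ((dd X0 X1 + dd Y0 Y1 + r : ℕ) : ℝ) = |(X0 : ℝ) - X1| + |(Y0 : ℝ) - Y1| + r := by
    simp [dd_cast]
  generalize dd X0 X1 + dd Y0 Y1 + r = h' at h hh ⊢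
  have G : ∀ c ya yb ρ : ℕ, NR X Y c ya yb ρ ≤ (1 - l) * NR X0 Y0 c ya yb ρ + l * NR X1 Y1 c ya yb ρ +
      ((r + r) * (dd X0 c + (dd (Y0 + yb) ya + ρ) + h') : ℕ) ∧
      (1 - l) * NR X0 Y0 c ya yb ρ + l * NR X1 Y1 c ya yb ρ -
      ((r + r) * (dd X0 c + (dd (Y0 + yb) ya + ρ) + h') + (q + (ρ + ρ) *
        (dd (Y0 + yb) ya + dd (Y1 + yb) ya - dd (Y0 + Y1 + (yb + yb)) (ya + ya))) : ℕ) ≤ NR X Y c ya yb ρ := by
    intro c ya yb ρ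
    obtain ⟨g1, g2⟩ := geo (a0 := X0 - c) (a1 := X1 - c) (s0 := Y0 + yb - ya) (s1 := Y1 + yb - ya)
      (Nat.cast_nonneg (α := ℝ) ρ) h0 h1 hX hY
    have e1 : (1 - l) * ((X0 : ℝ) - c) + l * (X1 - c) + (X - ((1 - l) * X0 + l * X1)) = X - c := by ring
    have e2 : (1 - l) * ((Y0 : ℝ) + yb - ya) + l * (Y1 + yb - ya) + (Y - ((1 - l) * Y0 + l * Y1)) =
      Y + yb - ya := by ring
    have e3 : (X0 : ℝ) - c - (X1 - c) = X0 - X1 := by ring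
    have e4 : (Y0 : ℝ) + yb - ya - (Y1 + yb - ya) = Y0 - Y1 := by ring
    have e5 : (Y0 : ℝ) + yb - ya + (Y1 + yb - ya) = Y0 + Y1 + (yb + yb) - (ya + ya) := by ring
    rw [e1, e2, e3, e4, ← hh] at g1 g2
    rw [e5] at g2
    have k : |(Y0 : ℝ) + yb - ya| + |(Y1 : ℝ) + yb - ya| - |(Y0 : ℝ) + Y1 + (yb + yb) - (ya + ya)| ≤
        ((dd (Y0 + yb) ya + dd (Y1 + yb) ya - dd (Y0 + Y1 + (yb + yb)) (ya + ya) : ℕ) : ℝ) := by
      have := (Nat.cast_le (α := ℝ)).2 (le_tsub_add (a := dd (Y0 + Y1 + (yb + yb)) (ya + ya))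
        (b := dd (Y0 + yb) ya + dd (Y1 + yb) ya))
      simp only [Nat.cast_add, dd_cast] at this
      linarith
    have k2 := mul_le_mul_of_nonneg_left k (Nat.cast_nonneg (α := ℝ) ρ)
    unfold NR
    simp only [Nat.cast_add, Nat.cast_mul, dd_cast, Nat.cast_ofNat] at hq ⊢
    constructor <;> linarith
  induction L with
  | nil => simp [potJ]
  | pos c ya yb ρ w t ih =>
    have hL' : (Nat.ble 1 ρ && rp t) = true := hL
    rw [Bool.and_eq_true, Nat.ble_eq] at hL'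
    change w * ep2 (nn X0 Y0 c ya yb ρ) (nn X1 Y1 c ya yb ρ)
      ((r + r) * (dd X0 c + (dd (Y0 + yb) ya + ρ) + h')) + err t H X0 Y0 X1 Y1 (r + r) h' q (Y0 + Y1) < H at h
    change _ ≤ _ + ((w * ep2 (nn X0 Y0 c ya yb ρ) (nn X1 Y1 c ya yb ρ)
      ((r + r) * (dd X0 c + (dd (Y0 + yb) ya + ρ) + h')) + err t H X0 Y0 X1 Y1 (r + r) h' q (Y0 + Y1) : ℕ) : ℝ)
    have ih' := ih hL'.2 (by omega)
    have pos : ∀ X Y : ℝ, 0 < NR X Y c ya yb ρ := fun X Y => by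
      have : (0 : ℝ) < ρ := by exact_mod_cast hL'.1
      unfold NR
      positivity
    have p0 : 0 < nn X0 Y0 c ya yb ρ := by rw [← Nat.cast_pos (α := ℝ), nn_cast]; exact pos _ _
    have p1 : 0 < nn X1 Y1 c ya yb ρ := by rw [← Nat.cast_pos (α := ℝ), nn_cast]; exact pos _ _
    have g := (G c ya yb ρ).1
    generalize (r + r) * (dd X0 c + (dd (Y0 + yb) ya + ρ) + h') = D at g ⊢
    have s := ep2_sound (D := D) p0 p1
    rw [← nn_cast X0, ← nn_cast X1] at g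
    have u := log_up (m := (nn X0 Y0 c ya yb ρ - (nn X0 Y0 c ya yb ρ - nn X1 Y1 c ya yb ρ) : ℕ))
      (Nat.cast_pos.2 (by omega)) (Nat.cast_le.2 (by omega)) (Nat.cast_le.2 (by omega)) h0 h1
      (Nat.cast_nonneg D) (pos X Y) g
    have v := mul_le_mul_of_nonneg_left (add_le_add (mul_le_mul_of_nonneg_left u
      (by positivity : (0 : ℝ) ≤ 2 ^ 32)) s) (Nat.cast_nonneg (α := ℝ) w)
    simp only [potJ, ← nn_cast, Nat.cast_add, Nat.cast_mul]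
    linarith
  | neg c ya yb ρ w t ih =>
    change en4 H w (nn X0 Y0 c ya yb ρ - (nn X0 Y0 c ya yb ρ - nn X1 Y1 c ya yb ρ))
      ((r + r) * (dd X0 c + (dd (Y0 + yb) ya + ρ) + h') + (q + (ρ + ρ) *
        (dd (Y0 + yb) ya + dd (Y1 + yb) ya - dd (Y0 + Y1 + (yb + yb)) (ya + ya)))) +
        err t H X0 Y0 X1 Y1 (r + r) h' q (Y0 + Y1) < H at h
    change _ ≤ _ + ((en4 H w (nn X0 Y0 c ya yb ρ - (nn X0 Y0 c ya yb ρ - nn X1 Y1 c ya yb ρ))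
      ((r + r) * (dd X0 c + (dd (Y0 + yb) ya + ρ) + h') + (q + (ρ + ρ) *
        (dd (Y0 + yb) ya + dd (Y1 + yb) ya - dd (Y0 + Y1 + (yb + yb)) (ya + ya)))) +
        err t H X0 Y0 X1 Y1 (r + r) h' q (Y0 + Y1) : ℕ) : ℝ)
    have ih' := ih hL (by omega)
    have g := (G c ya yb ρ).2
    generalize (r + r) * (dd X0 c + (dd (Y0 + yb) ya + ρ) + h') + (q + (ρ + ρ) *
        (dd (Y0 + yb) ya + dd (Y1 + yb) ya - dd (Y0 + Y1 + (yb + yb)) (ya + ya))) = D at g h ⊢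
    obtain ⟨s1, s2⟩ := en4_sound ((Nat.le_add_right _ _).trans_lt h)
    rw [← nn_cast X0, ← nn_cast X1] at g
    have u := log_low (m := (nn X0 Y0 c ya yb ρ - (nn X0 Y0 c ya yb ρ - nn X1 Y1 c ya yb ρ) : ℕ))
      (Nat.cast_lt.2 s1) (Nat.cast_le.2 (by omega)) (Nat.cast_le.2 (by omega)) h0 h1
      (Nat.cast_nonneg D) g
    have v := mul_le_mul_of_nonneg_left (mul_le_mul_of_nonneg_left u
      (by positivity : (0 : ℝ) ≤ 2 ^ 32)) (Nat.cast_nonneg (α := ℝ) w)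
    simp only [potJ, ← nn_cast, Nat.cast_add]
    linarith

theorem seg_sound (L : BL) (hL : rp L = true) {G X0 Y0 X1 Y1 r : ℕ} {X Y l : ℝ} (h0 : 0 ≤ l) (h1 : l ≤ 1)
    (hX : |X - ((1 - l) * X0 + l * X1)| ≤ r) (hY : |Y - ((1 - l) * Y0 + l * Y1)| ≤ r)
    (h : seg L G X0 Y0 X1 Y1 r (val L X0 Y0) (val L X1 Y1) = true) :
    2 ^ 32 * potJ L X Y + 2 ^ 38 * (nsum L : ℝ) ≤ G := by
  change seg2 G _ _ (err L (G + 1) X0 Y0 X1 Y1 (r + r) (dd X0 X1 + dd Y0 Y1 + r)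
    (sq2 (dd X0 X1) (dd Y0 Y1) / 4 + 1) (Y0 + Y1)) = true at h
  have s := err_sound L hL (H := G + 1) h0 h1 hX hY
  generalize err L (G + 1) X0 Y0 X1 Y1 (r + r) (dd X0 X1 + dd Y0 Y1 + r)
    (sq2 (dd X0 X1) (dd Y0 Y1) / 4 + 1) (Y0 + Y1) = e at h s
  unfold seg2 at h
  cases h2 : Nat.ble (Nat.add e (val L X0 Y0)) G
  · rw [h2] at h
    exact absurd h Bool.false_ne_true
  · rw [h2] at h
    have a0 : e + val L X0 Y0 ≤ G := Nat.le_of_ble_eq_true h2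
    have a1 : e + val L X1 Y1 ≤ G := Nat.le_of_ble_eq_true h
    have s' := s (by omega)
    have b0 : (e : ℝ) + val L X0 Y0 ≤ G := by exact_mod_cast a0
    have b1 : (e : ℝ) + val L X1 Y1 ≤ G := by exact_mod_cast a1
    have c0 := mul_le_mul_of_nonneg_left ((add_le_add_right (val_sound L X0 Y0) e).trans b0) (sub_nonneg.2 h1)
    have c1 := mul_le_mul_of_nonneg_left ((add_le_add_right (val_sound L X1 Y1) e).trans b1) h0
    linarith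

/-- The bound holds along the curve for parameters in `[a, b]`. -/
def Cov (L : BL) (G : ℕ) (γx γy : ℝ → ℝ) (a b : ℕ) : Prop :=
  ∀ τ : ℝ, a ≤ τ → τ ≤ b → 2 ^ 32 * potJ L (γx τ) (γy τ) + 2 ^ 38 * (nsum L : ℝ) ≤ G

theorem Cov.trans {L : BL} {G : ℕ} {γx γy : ℝ → ℝ} {a b c : ℕ} (h : Cov L G γx γy a b)
    (h' : Cov L G γx γy b c) : Cov L G γx γy a c := fun τ h1 h2 =>
  (le_total τ b).elim (h τ h1) fun h3 => h' τ h3 h2

/-- The grid functions follow the curve. -/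
def Fol (E : ℕ) (fx fy : ℕ → ℕ) (fr : ℕ → ℕ → ℕ) (γx γy : ℝ → ℝ) : Prop :=
  ∀ t0 t1 : ℕ, t1 ≤ E → ∀ τ : ℝ, t0 ≤ τ → τ ≤ t1 → ∃ l : ℝ, 0 ≤ l ∧ l ≤ 1 ∧
    |γx τ - ((1 - l) * fx t0 + l * fx t1)| ≤ fr t0 t1 ∧ |γy τ - ((1 - l) * fy t0 + l * fy t1)| ≤ fr t0 t1

theorem chain_aux (L : BL) (hL : rp L = true) {G E : ℕ} {fx fy : ℕ → ℕ} {fr : ℕ → ℕ → ℕ} {γx γy : ℝ → ℝ}
    (hγ : Fol E fx fy fr γx γy) (ts : List ℕ) (t0 : ℕ) (h : chain L G E fx fy fr t0 ts = true)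
    (τ : ℝ) (h1 : t0 ≤ τ) (h2 : τ ≤ E) (h3 : t0 < τ ∨ ts ≠ []) :
    2 ^ 32 * potJ L (γx τ) (γy τ) + 2 ^ 38 * (nsum L : ℝ) ≤ G := by
  induction ts generalizing t0 with
  | nil =>
    have : (E : ℝ) ≤ t0 := by exact_mod_cast Nat.le_of_ble_eq_true h
    simp at h3
    linarith
  | cons t1 ts ih =>
    change Bool.rec false (Bool.rec false (chain L G E fx fy fr t1 ts)
      (seg L G (fx t0) (fy t0) (fx t1) (fy t1) (fr t0 t1) (val L (fx t0) (fy t0)) (val L (fx t1) (fy t1))))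
      (Nat.ble t1 E) = true at h
    cases h4 : Nat.ble t1 E
    · simp [h4] at h
    cases h5 : seg L G (fx t0) (fy t0) (fx t1) (fy t1) (fr t0 t1) (val L (fx t0) (fy t0)) (val L (fx t1) (fy t1))
    · simp [h4, h5] at h
    rw [h4, h5] at h
    rcases le_or_gt τ t1 with h6 | h6
    · obtain ⟨l, l0, l1, hX, hY⟩ := hγ t0 t1 (Nat.le_of_ble_eq_true h4) τ h1 h6
      exact seg_sound L hL l0 l1 hX hY h5
    · exact ih t1 h h6.le (Or.inl h6)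

theorem chain_sound {L : BL} (hL : rp L = true) {G E : ℕ} {fx fy : ℕ → ℕ} {fr : ℕ → ℕ → ℕ} {γx γy : ℝ → ℝ}
    (hγ : Fol E fx fy fr γx γy) {t0 t1 : ℕ} {ts : List ℕ} (h : chain L G E fx fy fr t0 (t1 :: ts) = true) :
    Cov L G γx γy t0 E := fun τ h1 h2 => chain_aux L hL hγ _ t0 h τ h1 h2 (Or.inr (by simp))

theorem exists_l {a b τ : ℝ} (h1 : a ≤ τ) (h2 : τ ≤ b) : ∃ l : ℝ, 0 ≤ l ∧ l ≤ 1 ∧ τ = (1 - l) * a + l * b := by
  rcases (h1.trans h2).eq_or_lt with h | h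
  · exact ⟨0, le_rfl, zero_le_one, by linarith⟩
  · have : 0 < b - a := by linarith
    refine ⟨(τ - a) / (b - a), div_nonneg (by linarith) this.le, (div_le_one this).2 (by linarith), ?_⟩
    field_simp
    ring

theorem fol_line (E : ℕ) :
    Fol E (fun t => t) (fun _ => nat_lit 0) (fun _ _ => nat_lit 0) (fun τ => τ) (fun _ => 0) := by
  intro t0 t1 _ τ h1 h2
  obtain ⟨l, l0, l1, h⟩ := exists_l h1 h2
  exact ⟨l, l0, l1, by simp [← h], by simp⟩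

end Vale.Agent.P030.Ck
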