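import Vale.Agent.P030.CkChain

/-!
# P030: the tail bound and the curve for the checker
-/

namespace Vale.Agent.P030.Ck

theorem box1_sound {c ya yb r : ℕ} (h : box1 c ya yb r = true) {x : ℝ} (hx : 64 * 2 ^ 32 ≤ |x|) :
    |Real.log (NR (x + 2 ^ 38) 0 c ya yb r) - Real.log (x ^ 2)| ≤ 1 / 4 := by
  simp only [box1, Bool.and_eq_true, Nat.ble_eq] at h
  have c1 : (58 * 2 ^ 32 : ℝ) ≤ c := by exact_mod_cast h.1.1
  have c2 : (c : ℝ) ≤ 70 * 2 ^ 32 := by exact_mod_cast h.1.2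
  have c3 : (ya : ℝ) + yb + r ≤ 2 * 2 ^ 32 := by exact_mod_cast h.2
  obtain ⟨d, hd, e⟩ : ∃ d : ℝ, |d| ≤ 6 * 2 ^ 32 ∧ x + 2 ^ 38 - c = x + d :=
    ⟨2 ^ 38 - c, abs_le.2 ⟨by linarith, by linarith⟩, by ring⟩
  have a1 : |x + 2 ^ 38 - c| ≤ 70 / 64 * |x| := by
    have := abs_add_le x d
    rw [e]
    linarith
  have a2 : 58 / 64 * |x| ≤ |x + 2 ^ 38 - c| := by
    have h1 := abs_sub (x + d) d
    rw [add_sub_cancel_right] at h1
    rw [e]
    linarith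
  have a3 : |(0 : ℝ) + yb - ya| + r ≤ 2 / 64 * |x| := by
    have : |(0 : ℝ) + yb - ya| ≤ ya + yb :=
      abs_le.2 ⟨by linarith [Nat.cast_nonneg (α := ℝ) yb], by linarith [Nat.cast_nonneg (α := ℝ) ya]⟩
    linarith
  have a4 : 0 ≤ |(0 : ℝ) + yb - ya| + r := by positivity
  unfold NR
  rw [← sq_abs (x + 2 ^ 38 - c), ← sq_abs x]
  have p : 0 < |x| := by linarith [show (0 : ℝ) < 64 * 2 ^ 32 by norm_num]
  generalize |x| = t at *
  generalize |x + 2 ^ 38 - c| = a at *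
  generalize |(0 : ℝ) + yb - ya| + r = b at *
  have b1 : a ^ 2 + b ^ 2 ≤ 5 / 4 * t ^ 2 := by nlinarith
  have b2 : t ^ 2 ≤ 5 / 4 * (a ^ 2 + b ^ 2) := by nlinarith
  have p1 : 0 < t ^ 2 := by positivity
  have p2 : 0 < a ^ 2 + b ^ 2 := by linarith
  have d1 := Real.log_le_sub_one_of_pos (div_pos p1 p2)
  have d2 := Real.log_le_sub_one_of_pos (div_pos p2 p1)
  rw [Real.log_div (by positivity) (by positivity)] at d1 d2
  have e1 := (div_le_iff₀ p1).2 b1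
  have e2 := (div_le_iff₀ p2).2 b2
  exact abs_le.2 ⟨by linarith, by linarith⟩

theorem tail (L : BL) (h : box L = true) {x : ℝ} (hx : 64 * 2 ^ 32 ≤ |x|) :
    potJ L (x + 2 ^ 38) 0 ≤ ((psum L : ℝ) - nsum L) * Real.log (x ^ 2) + ((psum L : ℝ) + nsum L) / 4 := by
  induction L with
  | nil => simp [potJ, psum, nsum]
  | pos c ya yb r w t ih =>
    have h' : (box1 c ya yb r && box t) = true := h
    rw [Bool.and_eq_true] at h'
    have h1 := mul_le_mul_of_nonneg_left (abs_le.1 (box1_sound h'.1 hx)).2 (Nat.cast_nonneg (α := ℝ) w)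
    have h2 := ih h'.2
    change _ ≤ (((w + psum t : ℕ) : ℝ) - nsum t) * _ + (((w + psum t : ℕ) : ℝ) + nsum t) / 4
    rw [potJ, Nat.cast_add]
    linarith
  | neg c ya yb r w t ih =>
    have h' : (box1 c ya yb r && box t) = true := h
    rw [Bool.and_eq_true] at h'
    have h1 := mul_le_mul_of_nonneg_left (abs_le.1 (box1_sound h'.1 hx)).1 (Nat.cast_nonneg (α := ℝ) w)
    have h2 := ih h'.2
    change _ ≤ ((psum t : ℝ) - (w + nsum t : ℕ)) * _ + ((psum t : ℝ) + (w + nsum t : ℕ)) / 4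
    rw [potJ, Nat.cast_add]
    linarith

/-- The tail version of the covering bound. -/
theorem tail_cov (L : BL) (h : box L = true) {G : ℕ} (h1 : psum L ≤ nsum L)
    (h2 : 2 ^ 30 * (psum L + nsum L) + 2 ^ 38 * nsum L ≤ G + 52 * 2 ^ 32 * (nsum L - psum L))
    {x : ℝ} (hx : 64 * 2 ^ 32 ≤ |x|) : 2 ^ 32 * potJ L (x + 2 ^ 38) 0 + 2 ^ 38 * (nsum L : ℝ) ≤ G := by
  have t := tail L h hx
  have a1 : (52 : ℝ) ≤ Real.log (x ^ 2) := by
    have b1 : ((2 : ℝ) ^ 38) ^ 2 ≤ x ^ 2 := by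
      rw [← sq_abs x]
      gcongr
      linarith
    have b2 := Real.log_le_log (by positivity) b1
    rw [Real.log_pow, Real.log_pow] at b2
    have := Real.log_two_gt_d9
    push_cast at b2
    linarith
  have a2 : (psum L : ℝ) ≤ nsum L := by exact_mod_cast h1
  have a3 := (Nat.cast_le (α := ℝ)).2 h2
  simp only [Nat.cast_add, Nat.cast_mul, Nat.cast_sub h1, Nat.cast_pow, Nat.cast_ofNat] at a3
  generalize potJ L (x + 2 ^ 38) 0 = P at t ⊢
  linarith [mul_le_mul_of_nonneg_left a1 (sub_nonneg.2 a2)]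

theorem chord {z0 z1 : ℂ} {l x : ℝ} (h0 : 0 ≤ l) (h1 : l ≤ 1) (hx : 0 < x) (a0 : x ≤ z0.re)
    (a1 : x ≤ z1.re) :
    ‖(((1 - l) * z0 + l * z1) + ((1 - l) * z0 + l * z1)⁻¹) / 2 -
      ((1 - l) * ((z0 + z0⁻¹) / 2) + l * ((z1 + z1⁻¹) / 2))‖ ≤ ‖z0 - z1‖ ^ 2 / (8 * x ^ 3) := by
  have a2 : x ≤ ((1 - l) * z0 + l * z1 : ℂ).re := by
    simp only [Complex.add_re, Complex.mul_re, Complex.sub_re, Complex.one_re, Complex.ofReal_re,
      Complex.sub_im, Complex.one_im, Complex.ofReal_im]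
    nlinarith
  have b0 := a0.trans (Complex.re_le_norm z0)
  have b1 := a1.trans (Complex.re_le_norm z1)
  have b2 := a2.trans (Complex.re_le_norm _)
  have c0 : z0 ≠ 0 := norm_pos_iff.1 (hx.trans_le b0)
  have c1 : z1 ≠ 0 := norm_pos_iff.1 (hx.trans_le b1)
  have c2 := norm_pos_iff.1 (hx.trans_le b2)
  have e : (((1 - l) * z0 + l * z1) + ((1 - l) * z0 + l * z1)⁻¹) / 2 -
      ((1 - l) * ((z0 + z0⁻¹) / 2) + l * ((z1 + z1⁻¹) / 2)) =
      -((l * (1 - l) / 2 : ℝ) * (z0 - z1) ^ 2 / (((1 - l) * z0 + l * z1) * z0 * z1)) := by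
    push_cast
    field_simp
    ring
  rw [e, norm_neg, norm_div, norm_mul, norm_mul, norm_mul, norm_pow, Complex.norm_real,
    Real.norm_of_nonneg (by nlinarith)]
  have d : l * (1 - l) / 2 ≤ 1 / 8 := by nlinarith [sq_nonneg (l - 1 / 2)]
  calc _ ≤ 1 / 8 * ‖z0 - z1‖ ^ 2 / (x * x * x) := by gcongr
    _ = _ := by field_simp

/-- The upper segment in grid units. -/
noncomputable def zt (τ : ℝ) : ℂ := ⟨(87 * 2 ^ 20 + 113 * τ) / (290 * 2 ^ 20), 210 * τ / (290 * 2 ^ 20)⟩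

noncomputable def gx (τ : ℝ) : ℝ := 2 ^ 32 * ((zt τ + (zt τ)⁻¹) / 2).re + 2 ^ 38

noncomputable def gy (τ : ℝ) : ℝ := 2 ^ 32 * -((zt τ + (zt τ)⁻¹) / 2).im

theorem cN_pos (t : ℕ) : 0 < cN t := by unfold cN cA; positivity

theorem cx_near (t : ℕ) : |gx t - cx t| ≤ 1 := by
  have p := cN_pos t
  have h1 := Nat.cast_div_le (α := ℝ) (m := 2 ^ 32 * cA t * (cN t + (290 * 2 ^ 20) ^ 2))
    (n := 2 * (290 * 2 ^ 20) * cN t)
  have h2 := cast_div_ge (2 ^ 32 * cA t * (cN t + (290 * 2 ^ 20) ^ 2)) (2 * (290 * 2 ^ 20) * cN t) (by positivity)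
  have e : gx t = ((2 ^ 32 * cA t * (cN t + (290 * 2 ^ 20) ^ 2) : ℕ) : ℝ) / (2 * (290 * 2 ^ 20) * cN t : ℕ) +
      2 ^ 38 := by
    have : (0 : ℝ) ≤ t := Nat.cast_nonneg t
    simp only [gx, zt, cN, cA, Complex.div_ofNat_re, Complex.add_re, Complex.inv_re, Complex.normSq_mk]
    push_cast
    field_simp
    ring
  rw [e, cx, Nat.cast_add, Nat.cast_pow, Nat.cast_ofNat]
  exact abs_le.2 ⟨by linarith, by linarith⟩

theorem cy_near {t : ℕ} (ht : t ≤ 2 ^ 20) : |gy t - cy t| ≤ 1 := by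
  have p := cN_pos t
  have q : cN t ≤ (290 * 2 ^ 20) ^ 2 := by
    unfold cN cA
    calc _ ≤ (87 * 2 ^ 20 + 113 * 2 ^ 20) * (87 * 2 ^ 20 + 113 * 2 ^ 20) + 210 * 2 ^ 20 * (210 * 2 ^ 20) := by
          gcongr
      _ = _ := by norm_num
  have h1 := Nat.cast_div_le (α := ℝ) (m := 2 ^ 32 * (210 * t) * ((290 * 2 ^ 20) ^ 2 - cN t))
    (n := 2 * (290 * 2 ^ 20) * cN t)
  have h2 := cast_div_ge (2 ^ 32 * (210 * t) * ((290 * 2 ^ 20) ^ 2 - cN t)) (2 * (290 * 2 ^ 20) * cN t)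
    (by positivity)
  have e : gy t = ((2 ^ 32 * (210 * t) * ((290 * 2 ^ 20) ^ 2 - cN t) : ℕ) : ℝ) /
      (2 * (290 * 2 ^ 20) * cN t : ℕ) := by
    have : (0 : ℝ) ≤ t := Nat.cast_nonneg t
    rw [Nat.cast_mul, Nat.cast_sub q]
    simp only [gy, zt, cN, cA, Complex.div_ofNat_im, Complex.add_im, Complex.inv_im, Complex.normSq_mk]
    push_cast
    field_simp
    ring
  rw [e, cy]
  exact abs_le.2 ⟨by linarith, by linarith⟩

theorem fol_curve {E : ℕ} (hE : E ≤ 2 ^ 20) : Fol E cx cy cr gx gy := by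
  intro t0 t1 ht τ h1 h2
  obtain ⟨l, l0, l1, h⟩ := exists_l h1 h2
  have h01 : t0 ≤ t1 := by exact_mod_cast h1.trans h2
  have h01' : (t0 : ℝ) ≤ t1 := h1.trans h2
  have p0 : (0 : ℝ) ≤ t0 := Nat.cast_nonneg t0
  have e : zt τ = (1 - l) * zt t0 + l * zt t1 := by
    rw [h]
    apply Complex.ext <;> simp [zt] <;> ring
  have c := chord (z0 := zt t0) (z1 := zt t1) l0 l1 (x := (zt t0).re) (by simp only [zt]; positivity) le_rfl
    (by simp only [zt]; gcongr)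
  rw [← e] at c
  have r1 := cast_div_ge (2 ^ 32 * (t1 - t0) ^ 2 * 56869 * (290 * 2 ^ 20)) (8 * cA t0 ^ 3)
    (by unfold cA; positivity)
  have r2 : 2 ^ 32 * (‖zt t0 - zt t1‖ ^ 2 / (8 * (zt t0).re ^ 3)) =
      ((2 ^ 32 * (t1 - t0) ^ 2 * 56869 * (290 * 2 ^ 20) : ℕ) : ℝ) / (8 * cA t0 ^ 3 : ℕ) := by
    rw [Complex.sq_norm, Complex.normSq_apply]
    simp only [zt, cA, Complex.sub_re, Complex.sub_im]
    push_cast [h01]
    field_simp
    ring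
  have r3 : 2 ^ 32 * (‖zt t0 - zt t1‖ ^ 2 / (8 * (zt t0).re ^ 3)) + 1 ≤ cr t0 t1 := by
    rw [cr, Nat.cast_add, Nat.cast_ofNat, r2]
    linarith
  have cre := abs_le.1 ((Complex.abs_re_le_norm _).trans c)
  have cim := abs_le.1 ((Complex.abs_im_le_norm _).trans c)
  have x0 := abs_le.1 (cx_near t0)
  have x1 := abs_le.1 (cx_near t1)
  have y0 := abs_le.1 (cy_near (h01.trans (ht.trans hE)))
  have y1 := abs_le.1 (cy_near (ht.trans hE))
  have l2 := sub_nonneg.2 l1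
  refine ⟨l, l0, l1, ?_⟩
  unfold gx gy at *
  generalize (zt τ + (zt τ)⁻¹) / 2 = u at *
  generalize (zt t0 + (zt t0)⁻¹) / 2 = u0 at *
  generalize (zt t1 + (zt t1)⁻¹) / 2 = u1 at *
  simp only [Complex.add_re, Complex.mul_re, Complex.sub_re, Complex.one_re, Complex.ofReal_re,
    Complex.sub_im, Complex.one_im, Complex.ofReal_im, Complex.add_im, Complex.mul_im] at cre cim
  refine ⟨abs_le.2 ⟨?_, ?_⟩, abs_le.2 ⟨?_, ?_⟩⟩
  · linarith [mul_le_mul_of_nonneg_left x0.1 l2, mul_le_mul_of_nonneg_left x1.1 l0]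
  · linarith [mul_le_mul_of_nonneg_left x0.2 l2, mul_le_mul_of_nonneg_left x1.2 l0]
  · linarith [mul_le_mul_of_nonneg_left y0.1 l2, mul_le_mul_of_nonneg_left y1.1 l0]
  · linarith [mul_le_mul_of_nonneg_left y0.2 l2, mul_le_mul_of_nonneg_left y1.2 l0]

end Vale.Agent.P030.Ck
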