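import Vale.Agent.P030.Defs
import Vale.Agent.P030.CkTail

/-!
# P030: from the integer checker to the certificate structure
-/

namespace Vale.Agent.P030.Ck

open Finset

noncomputable def wt (D : List Bl) (w : Bl → ℤ) : Fin D.length → ℝ := fun k => (w D[k.1] : ℝ) / 2 ^ 20

noncomputable def cF (D : List Bl) : Fin D.length → ℝ := fun k => (D[k.1].c : ℝ) / 2 ^ 32 - 64

noncomputable def yF (D : List Bl) : Fin D.length → ℝ := fun k => ((D[k.1].ya : ℝ) - D[k.1].yb) / 2 ^ 32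

noncomputable def rF (D : List Bl) : Fin D.length → ℝ := fun k => (D[k.1].r : ℝ) / 2 ^ 32

noncomputable def PU (D : List Bl) (w : Bl → ℤ) (z : ℂ) : ℝ := pot (cF D) (yF D) (rF D) (wt D w) z

noncomputable def PE (D : List Bl) (w : Bl → ℤ) : ℝ := en (cF D) (yF D) (rF D) (wt D w)

noncomputable def cdOf (D : List Bl) : CD where
  K := D.length
  c := cF D
  y := yF D
  ρ := rF D
  w1 := wt D Bl.w1
  w2 := wt D Bl.w2
  w3 := wt D Bl.w3
  w4 := wt D Bl.w4
  Fb := -18659 / 1000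
  Fu := 4070 / 1000
  Fs := -58376 / 1000

theorem potJ_mk1 (c ya yb r : ℕ) (w : ℤ) (t : BL) (X Y : ℝ) :
    potJ (mk1 c ya yb r w t) X Y = w * Real.log (NR X Y c ya yb r) + potJ t X Y := by
  cases w with
  | ofNat n => simp [mk1, potJ]
  | negSucc n => simp [mk1, potJ, Int.cast_negSucc]; ring

theorem potJ_toBL (ya yb r : Bl → ℕ) (w : Bl → ℤ) (D : List Bl) (X Y : ℝ) :
    potJ (toBL ya yb r w D) X Y =
      ∑ k : Fin D.length, w D[k.1] * Real.log (NR X Y D[k.1].c (ya D[k.1]) (yb D[k.1]) (r D[k.1])) := by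
  rw [Fin.sum_univ_fun_getElem D fun b => w b * Real.log (NR X Y b.c (ya b) (yb b) (r b))]
  induction D with
  | nil => simp [toBL, potJ]
  | cons b D ih => rw [List.map_cons, List.sum_cons, ← ih, ← potJ_mk1]; rfl

theorem log_NR {X Y A S R : ℝ} {c ya yb r : ℕ} (hA : X - c = 2 ^ 32 * A) (hS : Y + yb - ya = 2 ^ 32 * S)
    (hR : (r : ℝ) = 2 ^ 32 * R) (hr : 0 < r) :
    Real.log (NR X Y c ya yb r) = 64 * Real.log 2 + 2 * kk A (|S| + R) := by
  have h1 : 0 < R := by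
    have : (0 : ℝ) < r := by exact_mod_cast hr
    linarith
  have h2 : NR X Y c ya yb r = 2 ^ 64 * (A ^ 2 + (|S| + R) ^ 2) := by
    rw [NR, hA, hS, hR, abs_mul, abs_of_pos (by positivity : (0 : ℝ) < 2 ^ 32)]
    ring
  rw [h2, Real.log_mul (by positivity) (by positivity), Real.log_pow, kk]
  push_cast
  ring

theorem sum_wt (D : List Bl) (w : Bl → ℤ) : ∑ k, wt D w k = ((D.map w).sum : ℤ) / 2 ^ 20 := by
  rw [← Fin.sum_univ_fun_getElem D w, Int.cast_sum, sum_div]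
  rfl

theorem pot_aux (D : List Bl) (w : Bl → ℤ) (z : ℂ) :
    ∑ k : Fin D.length, (w D[k.1] : ℝ) * (64 * Real.log 2 +
      2 * kk (z.re - cF D k) (|z.im - yF D k| + rF D k)) =
    64 * Real.log 2 * ((D.map w).sum : ℤ) + 2 ^ 21 * PU D w z := by
  rw [← Fin.sum_univ_fun_getElem D w, Int.cast_sum, PU, pot, mul_sum, mul_sum, ← sum_add_distrib]
  exact sum_congr rfl fun k _ => by unfold wt; ring

variable {D : List Bl} (hr : ∀ b ∈ D, 0 < b.r)
include hr

theorem pot_link (w : Bl → ℤ) (z : ℂ) :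
    potJ (toBL Bl.ya Bl.yb Bl.r w D) (2 ^ 32 * z.re + 2 ^ 38) (2 ^ 32 * z.im) =
      64 * Real.log 2 * ((D.map w).sum : ℤ) + 2 ^ 21 * PU D w z := by
  rw [potJ_toBL, ← pot_aux]
  refine sum_congr rfl fun k _ => ?_
  rw [log_NR ?_ ?_ ?_ (hr _ (List.getElem_mem _))] <;> simp only [cF, yF, rF] <;> ring

theorem pot_link' (w : Bl → ℤ) (z : ℂ) :
    potJ (toBL Bl.yb Bl.ya Bl.r w D) (2 ^ 32 * z.re + 2 ^ 38) (2 ^ 32 * -z.im) =
      64 * Real.log 2 * ((D.map w).sum : ℤ) + 2 ^ 21 * PU D w z := by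
  rw [potJ_toBL, ← pot_aux]
  refine sum_congr rfl fun k _ => ?_
  rw [← abs_neg (z.im - _), log_NR ?_ ?_ ?_ (hr _ (List.getElem_mem _))] <;> simp only [cF, yF, rF] <;> ring

theorem pot_real (w : Bl → ℤ) (x : ℝ) :
    potJ (toBL Bl.ya Bl.yb Bl.r w D) (2 ^ 32 * x + 2 ^ 38) 0 =
      64 * Real.log 2 * ((D.map w).sum : ℤ) + 2 ^ 21 * PU D w x := by
  simpa using pot_link hr w x

omit hr in
theorem U_add (w w' : Bl → ℤ) (z : ℂ) : PU D (fun b => Int.add (w b) (w' b)) z =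
    PU D w z + PU D w' z := by
  simp only [PU, pot, ← sum_add_distrib]
  refine sum_congr rfl fun k _ => ?_
  simp only [wt, Int.add_def, Int.cast_add]
  ring

omit hr in
theorem U_sub (w w' : Bl → ℤ) (z : ℂ) : PU D (fun b => Int.sub (w b) (w' b)) z =
    PU D w z - PU D w' z := by
  simp only [PU, pot, ← sum_sub_distrib]
  refine sum_congr rfl fun k _ => ?_
  simp only [wt, show ∀ a b : ℤ, Int.sub a b = a - b from fun _ _ => rfl, Int.cast_sub]
  ring

omit hr in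
theorem log_sing {x : ℝ} (hx : x ≠ 0) (X : ℝ) (c r : ℕ) (h : X - c = 2 ^ 32 * x) :
    64 * Real.log 2 + 2 * Real.log |x| ≤ Real.log (NR X 0 c 0 0 r) ∧
    64 * Real.log 2 + 2 * Real.log |x| = Real.log (NR X 0 c 0 0 0) := by
  have e : 64 * Real.log 2 + 2 * Real.log |x| = Real.log ((2 ^ 32 * x) ^ 2) := by
    rw [Real.log_pow, Real.log_mul (by positivity) hx, Real.log_pow, Real.log_abs]
    push_cast
    ring
  rw [e, NR, NR, h]
  exact ⟨Real.log_le_log (by positivity) (le_add_of_nonneg_right (sq_nonneg _)), by simp⟩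

/-- The lists for the conditions on the nodes `σ`. -/
noncomputable def Lab (w : Bl → ℤ) (D : List Bl) : BL :=
  .neg 274877906944 0 0 0 28311552 (.pos 279172874240 0 0 4096 1048576 (toBL Bl.ya Bl.yb Bl.r w D))

noncomputable def Lss (w : Bl → ℤ) (D : List Bl) : BL :=
  .pos 274877906944 0 0 4096 3145728 (.pos 279172874240 0 0 4096 1048576 (toBL Bl.ya Bl.yb Bl.r w D))

theorem ab_link (w : Bl → ℤ) {σ : ℝ} (h0 : σ ≠ 0) (h1 : σ - 1 ≠ 0) :
    64 * Real.log 2 * (((D.map w).sum : ℤ) - 26 * 2 ^ 20) +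
      2 ^ 21 * (PU D w σ + Real.log |σ - 1| - 27 * Real.log |σ|) ≤
    potJ (Lab w D) (2 ^ 32 * σ + 2 ^ 38) 0 := by
  have a := (log_sing h0 (2 ^ 32 * σ + 2 ^ 38) 274877906944 0 (by push_cast; ring)).2
  have b := (log_sing h1 (2 ^ 32 * σ + 2 ^ 38) 279172874240 4096 (by push_cast; ring)).1
  simp only [Lab, potJ]
  rw [pot_real hr, ← a]
  generalize Real.log (NR _ _ _ _ _ _) = u at b
  push_cast
  linarith

theorem s_link (w : Bl → ℤ) {σ : ℝ} (h0 : σ ≠ 0) (h1 : σ - 1 ≠ 0) :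
    64 * Real.log 2 * (((D.map w).sum : ℤ) + 4 * 2 ^ 20) +
      2 ^ 21 * (PU D w σ + 3 * Real.log |σ| + Real.log |σ - 1|) ≤
    potJ (Lss w D) (2 ^ 32 * σ + 2 ^ 38) 0 := by
  have a := (log_sing h0 (2 ^ 32 * σ + 2 ^ 38) 274877906944 4096 (by push_cast; ring)).1
  have b := (log_sing h1 (2 ^ 32 * σ + 2 ^ 38) 279172874240 4096 (by push_cast; ring)).1
  simp only [Lss, potJ]
  rw [pot_real hr]
  generalize Real.log (NR _ _ 274877906944 _ _ _) = u at a
  generalize Real.log (NR _ _ 279172874240 _ _ _) = v at b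
  push_cast
  linarith

omit hr in
theorem enV_sound (D' : List Bl) :
    2 ^ 32 * ∑ k : Fin D'.length, potJ (enL D D'[k.1]) D'[k.1].c D'[k.1].ya + 2 ^ 38 * (enN D D' : ℝ) ≤ enV D D' := by
  rw [Fin.sum_univ_fun_getElem D' fun a => potJ (enL D a) a.c a.ya]
  induction D' with
  | nil => simp [enN, enV]
  | cons a D' ih =>
    change _ + _ * ((nsum (enL D a) + enN D D' : ℕ) : ℝ) ≤ ((val (enL D a) a.c a.ya + enV D D' : ℕ) : ℝ)
    have := val_sound (enL D a) a.c a.ya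
    rw [List.map_cons, List.sum_cons, Nat.cast_add, Nat.cast_add]
    linarith

omit hr in
theorem en_shift {K : ℕ} (c y ρ w : Fin K → ℝ) (L : ℝ) :
    ∑ k, ∑ l, w k * w l * (L + 2 * kk (c k - c l) (|y k - y l| + (ρ k + ρ l))) =
      L * (∑ k, w k) ^ 2 + 2 * en c y ρ w := by
  rw [en, sq, sum_mul_sum]
  simp only [mul_sum, ← sum_add_distrib]
  exact sum_congr rfl fun k _ => sum_congr rfl fun l _ => by rw [add_assoc]; ring

theorem en_link :
    ∑ k : Fin D.length, potJ (enL D D[k.1]) D[k.1].c D[k.1].ya =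
      -2 ^ 40 * ((64 * Real.log 2 * (∑ k, wt D Bl.w1 k) ^ 2 + 2 * PE D Bl.w1) +
        (64 * Real.log 2 * (∑ k, wt D Bl.w2 k) ^ 2 + 2 * PE D Bl.w2) +
        (64 * Real.log 2 * (∑ k, wt D Bl.w3 k) ^ 2 + 2 * PE D Bl.w3) +
        (64 * Real.log 2 * (∑ k, wt D Bl.w4 k) ^ 2 + 2 * PE D Bl.w4)) := by
  simp only [PE, ← en_shift, ← sum_add_distrib]
  rw [mul_sum]
  refine sum_congr rfl fun k _ => ?_
  rw [enL, potJ_toBL, mul_sum]
  refine sum_congr rfl fun l _ => ?_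
  rw [log_NR (A := cF D k - cF D l) (S := yF D k - yF D l) (r := Nat.add D[k.1].r D[l.1].r)
    (R := rF D k + rF D l) ?_ ?_ ?_ (Nat.add_pos_left (hr _ (List.getElem_mem _)) _)]
  · generalize 64 * Real.log 2 + 2 * kk _ _ = u
    have : ww4 D[k.1] D[l.1] = -(D[k.1].w1 * D[l.1].w1 + D[k.1].w2 * D[l.1].w2 + D[k.1].w3 * D[l.1].w3 +
      D[k.1].w4 * D[l.1].w4) := rfl
    simp only [this, wt]
    push_cast
    ring
  all_goals simp only [cF, yF, rF, Nat.add_eq, Nat.cast_add]; ring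

end Vale.Agent.P030.Ck
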