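import Mathlib
import Vale.Agent.P030.CkDef

/-!
# P030: soundness of the logarithm bounds of the checker
-/

namespace Vale.Agent.P030.Ck

open Finset

theorem cast_div_ge (a b : ℕ) (hb : 0 < b) : (a : ℝ) / b ≤ ((a / b : ℕ) : ℝ) + 1 := by
  have h : (0 : ℝ) < b := by exact_mod_cast hb
  rw [div_le_iff₀ h]
  exact_mod_cast (Nat.lt_div_mul_add hb).le.trans_eq (by ring)

theorem ser1_eq (z : ℕ) : ser1 z =
    (((((35 * (z * z) + 45 * 2 ^ 64) * (z * z) + 63 * 2 ^ 128) * (z * z) + 105 * 2 ^ 192) * (z * z) +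
      315 * 2 ^ 256) * z) / (315 * 2 ^ 255) := rfl

theorem ser_eq (N q : ℕ) : ser N q = ser1 ((N - q) * 2 ^ 32 / (N + q)) := by
  rw [← Nat.shiftLeft_eq]; rfl

theorem ser1_real (z : ℕ) :
    ((((((35 * (z * z) + 45 * 2 ^ 64) * (z * z) + 63 * 2 ^ 128) * (z * z) + 105 * 2 ^ 192) * (z * z) +
      315 * 2 ^ 256) * z : ℕ) : ℝ) / ((315 * 2 ^ 255 : ℕ) : ℝ) =
    2 ^ 33 * ∑ i ∈ range 5, ((z : ℝ) / 2 ^ 32) ^ (2 * i + 1) / (2 * i + 1) := by
  simp only [sum_range_succ, sum_range_zero]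
  push_cast
  ring

theorem log_ratio {N q : ℕ} (hq : 0 < q) (h : q ≤ N) :
    Real.log N - Real.log q =
      Real.log ((1 + ((N : ℝ) - q) / (N + q)) / (1 - ((N : ℝ) - q) / (N + q))) := by
  have h1 : (0 : ℝ) < q := by exact_mod_cast hq
  have h2 : (q : ℝ) ≤ N := by exact_mod_cast h
  rw [← Real.log_div (by linarith) h1.ne']
  congr 1
  have : (N : ℝ) + q ≠ 0 := by linarith
  have e1 : 1 + ((N : ℝ) - q) / (N + q) = 2 * N / (N + q) := by field_simp; ring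
  have e2 : 1 - ((N : ℝ) - q) / (N + q) = 2 * q / (N + q) := by field_simp; ring
  rw [e1, e2]
  field_simp

theorem z_bounds {N q : ℕ} (hq : 0 < q) (h : q ≤ N) :
    (((N - q) * 2 ^ 32 / (N + q) : ℕ) : ℝ) / 2 ^ 32 ≤ ((N : ℝ) - q) / (N + q) ∧
    ((N : ℝ) - q) / (N + q) ≤ (((N - q) * 2 ^ 32 / (N + q) : ℕ) : ℝ) / 2 ^ 32 + 1 / 2 ^ 32 := by
  have h1 := Nat.cast_div_le (α := ℝ) (m := (N - q) * 2 ^ 32) (n := N + q)
  have h2 := cast_div_ge ((N - q) * 2 ^ 32) (N + q) (by omega)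
  rw [Nat.cast_mul, Nat.cast_sub h, Nat.cast_add, mul_div_right_comm] at h1 h2
  push_cast at h1 h2
  constructor
  · rw [div_le_iff₀ (by norm_num)]; linarith
  · rw [← add_div, le_div_iff₀ (by norm_num)]; linarith

theorem ser_le {N q : ℕ} (hq : 0 < q) (h : q ≤ N) :
    (ser N q : ℝ) ≤ 2 ^ 32 * (Real.log N - Real.log q) := by
  have h1 : (0 : ℝ) < q := by exact_mod_cast hq
  have h2 : (q : ℝ) ≤ N := by exact_mod_cast h
  obtain ⟨hz, -⟩ := z_bounds hq h
  rw [log_ratio hq h, ser_eq, ser1_eq]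
  refine Nat.cast_div_le.trans ?_
  rw [ser1_real]
  generalize ((N - q) * 2 ^ 32 / (N + q) : ℕ) = z at hz
  have h3 : ((N : ℝ) - q) / (N + q) < 1 := by rw [div_lt_one (by linarith)]; linarith
  generalize ((N : ℝ) - q) / (N + q) = ζ at hz h3
  have h4 : (0 : ℝ) ≤ (z : ℝ) / 2 ^ 32 := by positivity
  have h5 := Real.sum_range_le_log_div h4 (hz.trans_lt h3) 5
  generalize (z : ℝ) / 2 ^ 32 = x at hz h4 h5
  have h6 : Real.log ((1 + x) / (1 - x)) ≤ Real.log ((1 + ζ) / (1 - ζ)) :=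
    Real.log_le_log (div_pos (by linarith) (by linarith)) (by gcongr; linarith)
  linarith

theorem le_ser {N q : ℕ} (hq : 0 < q) (h : q ≤ N) (h' : N ≤ q + q) :
    2 ^ 32 * (Real.log N - Real.log q) ≤ (ser N q : ℝ) + 54600 := by
  have h1 : (0 : ℝ) < q := by exact_mod_cast hq
  have h2 : (q : ℝ) ≤ N := by exact_mod_cast h
  have h2' : (N : ℝ) ≤ q + q := by exact_mod_cast h'
  obtain ⟨hz, hz'⟩ := z_bounds hq h
  rw [log_ratio hq h, ser_eq, ser1_eq]
  generalize ((N - q) * 2 ^ 32 / (N + q) : ℕ) = z at hz hz'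
  have h0 := cast_div_ge (((((35 * (z * z) + 45 * 2 ^ 64) * (z * z) + 63 * 2 ^ 128) * (z * z) +
    105 * 2 ^ 192) * (z * z) + 315 * 2 ^ 256) * z) (315 * 2 ^ 255) (by positivity)
  rw [ser1_real] at h0
  have h3 : ((N : ℝ) - q) / (N + q) ≤ 1 / 3 := by rw [div_le_iff₀ (by linarith)]; linarith
  generalize ((N : ℝ) - q) / (N + q) = ζ at hz hz' h3
  have h4 : (0 : ℝ) ≤ (z : ℝ) / 2 ^ 32 := by positivity
  have h5 := Real.log_div_le_sum_range_add h4 (by linarith) 5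
  generalize (z : ℝ) / 2 ^ 32 = x at hz hz' h4 h5 h0
  have h6 : x ^ (2 * 5 + 1) / (1 - x ^ 2) ≤ (1 / 3) ^ (2 * 5 + 1) / (1 - (1 / 3) ^ 2) := by
    have : x ≤ 1 / 3 := by linarith
    gcongr
  have h7 : Real.log ((1 + ζ) / (1 - ζ)) ≤ Real.log ((1 + x) / (1 - x)) + 3 / 2 ^ 32 := by
    have e1 : 0 < (1 + ζ) / (1 - ζ) := div_pos (by linarith) (by linarith)
    have e2 : 0 < (1 + x) / (1 - x) := div_pos (by linarith) (by linarith)
    have e3 := Real.log_le_sub_one_of_pos (div_pos e1 e2)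
    rw [Real.log_div e1.ne' e2.ne'] at e3
    have e4 : (1 + ζ) / (1 - ζ) / ((1 + x) / (1 - x)) - 1 = 2 * (ζ - x) / ((1 - ζ) * (1 + x)) := by
      have : 1 - ζ ≠ 0 := by linarith
      have : 1 - x ≠ 0 := by linarith
      have : 1 + x ≠ 0 := by linarith
      field_simp
      ring
    have e5 : 2 * (ζ - x) / ((1 - ζ) * (1 + x)) ≤ 3 / 2 ^ 32 := by
      rw [div_le_iff₀ (mul_pos (by linarith) (by linarith))]
      nlinarith
    linarith
  norm_num at h5 h6 h7 h0 ⊢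
  linarith

theorem lgL_le (N : ℕ) : (lgL N : ℝ) ≤ 2 ^ 32 * Real.log N := by
  unfold lgL lgL1 lgL2
  generalize hint N = k
  rw [show Nat.shiftLeft (nat_lit 1) k = 2 ^ k from Nat.one_shiftLeft k]
  cases h : Nat.ble (2 ^ k) N
  · have := Real.log_natCast_nonneg N
    simp only [CharP.cast_eq_zero]
    positivity
  · have h1 := ser_le (by positivity) (Nat.le_of_ble_eq_true h)
    have h2 := Real.log_two_gt_d9
    have h3 : (0 : ℝ) ≤ k := by positivity
    rw [Nat.cast_pow, Real.log_pow] at h1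
    change ((k * 2977044470 + ser N (2 ^ k) : ℕ) : ℝ) ≤ _
    push_cast at h1 ⊢
    nlinarith

theorem le_lgU (N : ℕ) : 2 ^ 32 * Real.log N ≤ (lgU N : ℝ) := by
  unfold lgU lgU1 lgU2
  generalize hint N = k
  rw [show Nat.shiftLeft (nat_lit 1) k = 2 ^ k from Nat.one_shiftLeft k]
  cases h : Nat.ble N (Nat.add (2 ^ k) (2 ^ k))
  · change _ ≤ ((N <<< 32 : ℕ) : ℝ)
    rw [Nat.shiftLeft_eq]
    have := Real.log_le_self (Nat.cast_nonneg (α := ℝ) N)
    push_cast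
    linarith
  · change _ ≤ ((k * 2977044473 + ser N (2 ^ k) + 54600 : ℕ) : ℝ)
    have h2 := Real.log_two_lt_d9
    have h3 : (0 : ℝ) ≤ k := by positivity
    have h4 : 2 ^ 32 * (Real.log N - Real.log (2 ^ k : ℕ)) ≤ (ser N (2 ^ k) : ℝ) + 54600 := by
      rcases le_or_gt (2 ^ k) N with h5 | h5
      · exact le_ser (by positivity) h5 (Nat.le_of_ble_eq_true h)
      · have h6 : Real.log N ≤ Real.log (2 ^ k : ℕ) := by
          rcases N.eq_zero_or_pos with rfl | h7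
          · simpa using Real.log_natCast_nonneg (2 ^ k)
          · exact Real.log_le_log (by exact_mod_cast h7) (by exact_mod_cast h5.le)
        have : (0 : ℝ) ≤ ser N (2 ^ k) := by positivity
        nlinarith
    rw [Nat.cast_pow, Real.log_pow] at h4
    push_cast at h4 ⊢
    nlinarith

end Vale.Agent.P030.Ck
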