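import Vale.Agent.P030.CkLog

/-!
# P030: soundness of the segment checker
-/

namespace Vale.Agent.P030.Ck

theorem geo {a0 a1 s0 s1 ρ r α β l : ℝ} (hρ : 0 ≤ ρ) (h0 : 0 ≤ l) (h1 : l ≤ 1) (hα : |α| ≤ r)
    (hβ : |β| ≤ r) :
    ((1 - l) * a0 + l * a1 + α) ^ 2 + (|(1 - l) * s0 + l * s1 + β| + ρ) ^ 2 ≤
      (1 - l) * (a0 ^ 2 + (|s0| + ρ) ^ 2) + l * (a1 ^ 2 + (|s1| + ρ) ^ 2) +
        2 * r * (|a0| + (|s0| + ρ) + (|a0 - a1| + |s0 - s1| + r)) ∧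
    (1 - l) * (a0 ^ 2 + (|s0| + ρ) ^ 2) + l * (a1 ^ 2 + (|s1| + ρ) ^ 2) -
      (2 * r * (|a0| + (|s0| + ρ) + (|a0 - a1| + |s0 - s1| + r)) +
        (((a0 - a1) ^ 2 + (s0 - s1) ^ 2) / 4 + 2 * ρ * (|s0| + |s1| - |s0 + s1|))) ≤
      ((1 - l) * a0 + l * a1 + α) ^ 2 + (|(1 - l) * s0 + l * s1 + β| + ρ) ^ 2 := by
  have hr : 0 ≤ r := (abs_nonneg _).trans hα
  have h2 : 0 ≤ 1 - l := by linarith
  have tri : ∀ u v x y : ℝ, 0 ≤ u → 0 ≤ v → |u * x + v * y| ≤ u * |x| + v * |y| := fun u v x y hu hv =>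
    (abs_add_le _ _).trans (by rw [abs_mul, abs_mul, abs_of_nonneg hu, abs_of_nonneg hv])
  have near : ∀ x y : ℝ, |(1 - l) * x + l * y| ≤ |x| + |x - y| := fun x y => by
    have := tri 1 l x (y - x) zero_le_one h0
    rw [show 1 * x + l * (y - x) = (1 - l) * x + l * y by ring, abs_sub_comm] at this
    nlinarith [abs_nonneg (x - y)]
  have k0 := tri (1 - l) l s0 s1 h2 h0
  have k1 : |s0 + s1| ≤ |(1 - l) * s0 + l * s1| + (l * |s0| + (1 - l) * |s1|) := by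
    refine le_trans ?_ (add_le_add_right (tri l (1 - l) s0 s1 h0 h2) _)
    refine le_of_eq_of_le ?_ (abs_add_le _ _)
    congr 1
    ring
  have na := near a0 a1
  have ns := near s0 s1
  have id1 : (1 - l) * (a0 ^ 2 + (|s0| + ρ) ^ 2) + l * (a1 ^ 2 + (|s1| + ρ) ^ 2) =
      ((1 - l) * a0 + l * a1) ^ 2 + (|(1 - l) * s0 + l * s1| + ρ) ^ 2 +
        l * (1 - l) * ((a0 - a1) ^ 2 + (s0 - s1) ^ 2) +
        2 * ρ * ((1 - l) * |s0| + l * |s1| - |(1 - l) * s0 + l * s1|) := by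
    simp only [add_sq, sq_abs]
    ring
  have p1 : |(|(1 - l) * s0 + l * s1 + β|) - (|(1 - l) * s0 + l * s1|)| ≤ r :=
    (abs_abs_sub_abs_le_abs_sub _ _).trans (by simpa using hβ)
  rw [id1]
  generalize (1 - l) * s0 + l * s1 = s at *
  generalize (1 - l) * a0 + l * a1 = a at *
  have q1 : 0 ≤ l * (1 - l) * ((a0 - a1) ^ 2 + (s0 - s1) ^ 2) := by positivity
  have q2 : l * (1 - l) * ((a0 - a1) ^ 2 + (s0 - s1) ^ 2) ≤ ((a0 - a1) ^ 2 + (s0 - s1) ^ 2) / 4 := by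
    have : 0 ≤ (a0 - a1) ^ 2 + (s0 - s1) ^ 2 := by positivity
    nlinarith [mul_nonneg this (sq_nonneg (l - 1 / 2))]
  have q3 : 0 ≤ 2 * ρ * ((1 - l) * |s0| + l * |s1| - |s|) := mul_nonneg (by positivity) (by linarith)
  have q4 : 2 * ρ * ((1 - l) * |s0| + l * |s1| - |s|) ≤ 2 * ρ * (|s0| + |s1| - |s0 + s1|) :=
    mul_le_mul_of_nonneg_left (by linarith) (by positivity)
  have q5 : |a * α| ≤ |a| * r := by rw [abs_mul]; gcongr
  have q6 : |(|s| + ρ) * (|s + β| - |s|)| ≤ (|s| + ρ) * r := by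
    rw [abs_mul, abs_of_nonneg (by positivity : 0 ≤ |s| + ρ)]; gcongr
  have q7 : α ^ 2 ≤ r ^ 2 := sq_le_sq' (abs_le.1 hα).1 (abs_le.1 hα).2
  have q8 : (|s + β| - |s|) ^ 2 ≤ r ^ 2 := sq_le_sq' (abs_le.1 p1).1 (abs_le.1 p1).2
  have q9 : r * (|a| + |s|) ≤ r * (|a0| + |a0 - a1| + (|s0| + |s0 - s1|)) :=
    mul_le_mul_of_nonneg_left (add_le_add na ns) hr
  have id2 : (a + α) ^ 2 + (|s + β| + ρ) ^ 2 = a ^ 2 + (|s| + ρ) ^ 2 + 2 * (a * α) + α ^ 2 +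
      2 * ((|s| + ρ) * (|s + β| - |s|)) + (|s + β| - |s|) ^ 2 := by ring
  rw [id2]
  have := abs_le.1 q5
  have := abs_le.1 q6
  constructor <;> linarith [sq_nonneg α, sq_nonneg (|s + β| - |s|), sq_nonneg r]

theorem log_up {N0 N1 m N D l : ℝ} (hm : 0 < m) (m0 : m ≤ N0) (m1 : m ≤ N1) (h0 : 0 ≤ l) (h1 : l ≤ 1)
    (hD : 0 ≤ D) (hN : 0 < N) (h : N ≤ (1 - l) * N0 + l * N1 + D) :
    Real.log N ≤ (1 - l) * Real.log N0 + l * Real.log N1 + ((N0 - N1) ^ 2 / (4 * (N0 * N1)) + D / m) := by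
  have p0 : 0 < N0 := hm.trans_le m0
  have p1 : 0 < N1 := hm.trans_le m1
  have h2 : 0 ≤ 1 - l := by linarith
  have hM : m ≤ (1 - l) * N0 + l * N1 := by nlinarith
  have e : (1 - l) * (((1 - l) * N0 + l * N1) / N0 - 1) + l * (((1 - l) * N0 + l * N1) / N1 - 1) =
      l * (1 - l) * ((N0 - N1) ^ 2 / (N0 * N1)) := by field_simp; ring
  generalize (1 - l) * N0 + l * N1 = M at *
  have pM : 0 < M := hm.trans_le hM
  have a0 := Real.log_le_sub_one_of_pos (div_pos pM p0)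
  have a1 := Real.log_le_sub_one_of_pos (div_pos pM p1)
  have a2 := Real.log_le_sub_one_of_pos (div_pos hN pM)
  rw [Real.log_div (by positivity) (by positivity)] at a0 a1 a2
  have a3 : N / M - 1 ≤ D / m := by
    rw [div_sub_one pM.ne']
    exact (div_le_div_of_nonneg_right (by linarith : N - M ≤ D) pM.le).trans (by gcongr)
  have a4 : l * (1 - l) * ((N0 - N1) ^ 2 / (N0 * N1)) ≤ (N0 - N1) ^ 2 / (4 * (N0 * N1)) := by
    have : 0 ≤ (N0 - N1) ^ 2 / (N0 * N1) := by positivity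
    rw [mul_comm 4, ← div_div _ _ (4 : ℝ)]
    nlinarith [mul_nonneg this (sq_nonneg (l - 1 / 2))]
  linarith [mul_le_mul_of_nonneg_left a0 h2, mul_le_mul_of_nonneg_left a1 h0]

theorem log_low {N0 N1 m N D l : ℝ} (hm : D < m) (m0 : m ≤ N0) (m1 : m ≤ N1) (h0 : 0 ≤ l) (h1 : l ≤ 1)
    (hD : 0 ≤ D) (h : (1 - l) * N0 + l * N1 - D ≤ N) :
    (1 - l) * Real.log N0 + l * Real.log N1 - D / (m - D) ≤ Real.log N := by
  have pm : 0 < m := hD.trans_lt hm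
  have p0 : 0 < N0 := pm.trans_le m0
  have p1 : 0 < N1 := pm.trans_le m1
  have h2 : 0 ≤ 1 - l := by linarith
  have hM : m ≤ (1 - l) * N0 + l * N1 := by nlinarith
  have e : (1 - l) * (N0 / ((1 - l) * N0 + l * N1) - 1) + l * (N1 / ((1 - l) * N0 + l * N1) - 1) = 0 := by
    have : (1 - l) * N0 + l * N1 ≠ 0 := (pm.trans_le hM).ne'
    field_simp
    ring
  generalize (1 - l) * N0 + l * N1 = M at *
  have pM : 0 < M := pm.trans_le hM
  have hN : 0 < M - D := by linarith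
  have a0 := Real.log_le_sub_one_of_pos (div_pos p0 pM)
  have a1 := Real.log_le_sub_one_of_pos (div_pos p1 pM)
  have a2 := Real.log_le_sub_one_of_pos (div_pos pM hN)
  rw [Real.log_div (by positivity) (by positivity)] at a0 a1 a2
  have a3 : M / (M - D) - 1 ≤ D / (m - D) := by
    rw [div_sub_one hN.ne', sub_sub_cancel]
    have : 0 < m - D := by linarith
    gcongr
  have a4 := Real.log_le_log hN h
  linarith [mul_le_mul_of_nonneg_left a0 h2, mul_le_mul_of_nonneg_left a1 h0]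

end Vale.Agent.P030.Ck
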