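import Vale.Agent.P030.Defs

/-!
# P030: the logarithmic kernel is conditionally negative definite
-/

namespace Vale.Agent.P030

open Finset MeasureTheory Filter Topology

namespace Cnd

theorem min_pd {ι : Type} [Fintype ι] (u η : ι → ℝ) (hu : ∀ i, 0 ≤ u i) :
    0 ≤ ∑ i, ∑ j, η i * η j * min (u i) (u j) := by
  have h1 : ∀ i j, min (u i) (u j) =
      ∫ s : ℝ, (Set.Ioo 0 (u i)).indicator (fun _ => (1 : ℝ)) s *
        (Set.Ioo 0 (u j)).indicator (fun _ => (1 : ℝ)) s := by
    intro i j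
    have : (fun s : ℝ => (Set.Ioo 0 (u i)).indicator (fun _ => (1 : ℝ)) s *
        (Set.Ioo 0 (u j)).indicator (fun _ => (1 : ℝ)) s) =
        (Set.Ioo 0 (min (u i) (u j))).indicator (fun _ => (1 : ℝ)) := by
      funext s
      rw [← Set.inter_indicator_mul, Set.Ioo_inter_Ioo]
      simp
    rw [this, integral_indicator measurableSet_Ioo]
    simp [hu i, hu j]
  have h2 : ∀ i j, Integrable (fun s : ℝ => (Set.Ioo 0 (u i)).indicator (fun _ => (1 : ℝ)) s *
        (Set.Ioo 0 (u j)).indicator (fun _ => (1 : ℝ)) s) := by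
    intro i j
    have : (fun s : ℝ => (Set.Ioo 0 (u i)).indicator (fun _ => (1 : ℝ)) s *
        (Set.Ioo 0 (u j)).indicator (fun _ => (1 : ℝ)) s) =
        (Set.Ioo 0 (min (u i) (u j))).indicator (fun _ => (1 : ℝ)) := by
      funext s
      rw [← Set.inter_indicator_mul, Set.Ioo_inter_Ioo]
      simp
    rw [this, integrable_indicator_iff measurableSet_Ioo]
    exact integrableOn_const (by simp)
  have h3 : ∑ i, ∑ j, η i * η j * min (u i) (u j) =
      ∫ s : ℝ, (∑ i, η i * (Set.Ioo 0 (u i)).indicator (fun _ => (1 : ℝ)) s) ^ 2 := by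
    simp_rw [sq, Finset.sum_mul_sum]
    have h4 : ∀ i j, Integrable (fun s : ℝ =>
        η i * (Set.Ioo 0 (u i)).indicator (fun _ => (1 : ℝ)) s *
        (η j * (Set.Ioo 0 (u j)).indicator (fun _ => (1 : ℝ)) s)) := by
      intro i j
      refine ((h2 i j).const_mul (η i * η j)).congr (Eventually.of_forall fun s => ?_)
      simp only
      ring
    rw [integral_finsetSum _ (fun i _ => integrable_finsetSum _ fun j _ => h4 i j)]
    refine Finset.sum_congr rfl fun i _ => ?_
    rw [integral_finsetSum _ fun j _ => h4 i j]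
    refine Finset.sum_congr rfl fun j _ => ?_
    rw [h1, ← integral_const_mul]
    refine integral_congr_ae (Eventually.of_forall fun s => ?_)
    simp only
    ring
  rw [h3]
  exact integral_nonneg fun s => sq_nonneg _

theorem exp_pd {ι : Type} [Fintype ι] (y η : ι → ℝ) :
    0 ≤ ∑ i, ∑ j, η i * η j * Real.exp (-|y i - y j|) := by
  have h := min_pd (fun i => Real.exp (2 * y i)) (fun i => η i * Real.exp (-y i))
    (fun i => (Real.exp_pos _).le)
  refine h.trans_eq (Finset.sum_congr rfl fun i _ => Finset.sum_congr rfl fun j _ => ?_)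
  rcases le_total (y i) (y j) with hij | hij
  · rw [min_eq_left (Real.exp_le_exp.2 (by linarith)), abs_of_nonpos (by linarith)]
    have : Real.exp (- -(y i - y j)) = Real.exp (-y i) * Real.exp (-y j) * Real.exp (2 * y i) := by
      rw [← Real.exp_add, ← Real.exp_add]; congr 1; ring
    rw [this]; ring
  · rw [min_eq_right (Real.exp_le_exp.2 (by linarith)), abs_of_nonneg (by linarith)]
    have : Real.exp (-(y i - y j)) = Real.exp (-y i) * Real.exp (-y j) * Real.exp (2 * y j) := by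
      rw [← Real.exp_add, ← Real.exp_add]; congr 1; ring
    rw [this]; ring

theorem ker_pd {ι : Type} [Fintype ι] (c y ρ ξ : ι → ℝ) (l w : ℝ) (hw : 0 ≤ w) :
    0 ≤ ∑ i, ∑ j, ξ i * ξ j *
      (Real.exp (-(|y i - y j| + ρ i + ρ j + l) * w) * Real.cos ((c i - c j) * w)) := by
  have h1 := exp_pd (fun i => w * y i) (fun i => ξ i * Real.exp (-ρ i * w) * Real.cos (c i * w))
  have h2 := exp_pd (fun i => w * y i) (fun i => ξ i * Real.exp (-ρ i * w) * Real.sin (c i * w))
  have h3 := mul_nonneg (Real.exp_pos (-l * w)).le (add_nonneg h1 h2)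
  refine h3.trans_eq ?_
  rw [← Finset.sum_add_distrib, Finset.mul_sum]
  refine Finset.sum_congr rfl fun i _ => ?_
  rw [← Finset.sum_add_distrib, Finset.mul_sum]
  refine Finset.sum_congr rfl fun j _ => ?_
  have e1 : Real.exp (-(|y i - y j| + ρ i + ρ j + l) * w) =
      Real.exp (-|w * y i - w * y j|) * Real.exp (-ρ i * w) * Real.exp (-ρ j * w) *
        Real.exp (-l * w) := by
    rw [← Real.exp_add, ← Real.exp_add, ← Real.exp_add, ← mul_sub, abs_mul, abs_of_nonneg hw]
    congr 1; ring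
  rw [e1, sub_mul, Real.cos_sub]
  ring

theorem lap (a b : ℝ) (hb : 0 < b) :
    IntegrableOn (fun w : ℝ => Real.exp (-b * w) * Real.cos (a * w)) (Set.Ioi 0) ∧
    ∫ w in Set.Ioi (0 : ℝ), Real.exp (-b * w) * Real.cos (a * w) = b / (a ^ 2 + b ^ 2) := by
  have hre : (⟨-b, a⟩ : ℂ).re < 0 := by simpa using hb
  have h1 := integrableOn_exp_mul_complex_Ioi hre 0
  have h2 := integral_exp_mul_complex_Ioi hre 0
  have h3 : ∀ w : ℝ, (Complex.exp ((⟨-b, a⟩ : ℂ) * w)).re =
      Real.exp (-b * w) * Real.cos (a * w) := by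
    intro w
    rw [Complex.exp_re]
    simp
  have h4 : IntegrableOn (fun w : ℝ => (Complex.exp ((⟨-b, a⟩ : ℂ) * w)).re) (Set.Ioi 0) := h1.re
  simp_rw [h3] at h4
  refine ⟨h4, ?_⟩
  have h5 := integral_re h1
  simp only [RCLike.re_to_complex] at h5
  simp_rw [h3] at h5
  rw [h5, h2]
  simp [Complex.div_re, Complex.normSq_apply]
  have : 0 < a ^ 2 + b ^ 2 := by positivity
  field_simp
  ring

theorem rat_pd {ι : Type} [Fintype ι] (c y ρ ξ : ι → ℝ) (hρ : ∀ i, 0 < ρ i) (l : ℝ) (hl : 0 ≤ l) :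
    0 ≤ ∑ i, ∑ j, ξ i * ξ j * ((|y i - y j| + ρ i + ρ j + l) /
      ((c i - c j) ^ 2 + (|y i - y j| + ρ i + ρ j + l) ^ 2)) := by
  have hb : ∀ i j, 0 < |y i - y j| + ρ i + ρ j + l := fun i j => by
    have := hρ i; have := hρ j; positivity
  have h3 : ∑ i, ∑ j, ξ i * ξ j * ((|y i - y j| + ρ i + ρ j + l) /
      ((c i - c j) ^ 2 + (|y i - y j| + ρ i + ρ j + l) ^ 2)) =
      ∫ w in Set.Ioi (0 : ℝ), ∑ i, ∑ j, ξ i * ξ j *
      (Real.exp (-(|y i - y j| + ρ i + ρ j + l) * w) * Real.cos ((c i - c j) * w)) := by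
    rw [integral_finsetSum _ (fun i _ => integrable_finsetSum _ fun j _ =>
      ((lap _ _ (hb i j)).1.const_mul _))]
    refine Finset.sum_congr rfl fun i _ => ?_
    rw [integral_finsetSum _ fun j _ => ((lap _ _ (hb i j)).1.const_mul _)]
    refine Finset.sum_congr rfl fun j _ => ?_
    rw [integral_const_mul, (lap _ _ (hb i j)).2]
  rw [h3]
  exact setIntegral_nonneg measurableSet_Ioi fun w hw => ker_pd c y ρ ξ l w (le_of_lt hw)

theorem kk_deriv (a b l : ℝ) (h : 0 < b + l) :
    HasDerivAt (fun l => kk a (b + l)) ((b + l) / (a ^ 2 + (b + l) ^ 2)) l := by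
  have hp : a ^ 2 + (b + l) ^ 2 ≠ 0 := by positivity
  have h1 : HasDerivAt (fun l => a ^ 2 + (b + l) ^ 2) (2 * (b + l)) l := by
    have := ((hasDerivAt_id l).const_add b).pow 2
    simpa using this.const_add (a ^ 2)
  have h2 := (h1.log hp).div_const 2
  refine h2.congr_deriv ?_
  field_simp

theorem kk_lim (a b : ℝ) (hb : 0 < b) :
    Tendsto (fun l => kk a (b + l) - Real.log l) atTop (𝓝 0) := by
  have h1 : Tendsto (fun l : ℝ => (a * l⁻¹) ^ 2 + (b * l⁻¹ + 1) ^ 2) atTop
      (𝓝 ((a * 0) ^ 2 + (b * 0 + 1) ^ 2)) :=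
    ((tendsto_inv_atTop_zero.const_mul a).pow 2).add
      (((tendsto_inv_atTop_zero.const_mul b).add_const 1).pow 2)
  have h2 := (h1.log (by norm_num)).div_const 2
  simp only [mul_zero, ne_eq, OfNat.ofNat_ne_zero, not_false_eq_true, zero_pow, zero_add,
    one_pow, Real.log_one, zero_div] at h2
  refine h2.congr' ?_
  filter_upwards [eventually_gt_atTop 0] with l hl
  have e : a ^ 2 + (b + l) ^ 2 = ((a * l⁻¹) ^ 2 + (b * l⁻¹ + 1) ^ 2) * l ^ 2 := by
    field_simp
  rw [kk, e, Real.log_mul (by positivity) (by positivity), Real.log_pow]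
  push_cast
  ring

end Cnd

theorem cnd : CndStmt := by
  intro ι _ c y ρ ξ hρ hξ
  have hb : ∀ i j, 0 < |y i - y j| + ρ i + ρ j := fun i j => by
    have := hρ i; have := hρ j; positivity
  set F : ℝ → ℝ := fun l => ∑ i, ∑ j, ξ i * ξ j * kk (c i - c j) (|y i - y j| + ρ i + ρ j + l)
    with hF
  have hd : ∀ l, 0 ≤ l → HasDerivAt F (∑ i, ∑ j, ξ i * ξ j * ((|y i - y j| + ρ i + ρ j + l) /
      ((c i - c j) ^ 2 + (|y i - y j| + ρ i + ρ j + l) ^ 2))) l := by
    intro l hl
    refine HasDerivAt.fun_sum fun i _ => HasDerivAt.fun_sum fun j _ => ?_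
    exact (Cnd.kk_deriv _ _ l (by have := hb i j; linarith)).const_mul _
  have hmono : MonotoneOn F (Set.Ici 0) := by
    refine monotoneOn_of_deriv_nonneg (convex_Ici 0)
      (fun l hl => (hd l hl).continuousAt.continuousWithinAt) (fun l hl => ?_) (fun l hl => ?_)
    · exact (hd l (interior_subset hl)).differentiableAt.differentiableWithinAt
    · rw [(hd l (interior_subset hl)).deriv]
      exact Cnd.rat_pd c y ρ ξ hρ l (interior_subset hl)
  have hlim : Tendsto F atTop (𝓝 0) := by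
    have h1 : Tendsto (fun l => ∑ i, ∑ j, ξ i * ξ j *
        (kk (c i - c j) (|y i - y j| + ρ i + ρ j + l) - Real.log l)) atTop
        (𝓝 (∑ i, ∑ j, ξ i * ξ j * 0)) :=
      tendsto_finsetSum _ fun i _ => tendsto_finsetSum _ fun j _ =>
        (Cnd.kk_lim _ _ (hb i j)).const_mul _
    simp only [mul_zero, Finset.sum_const_zero] at h1
    refine h1.congr fun l => ?_
    simp only [hF, mul_sub, Finset.sum_sub_distrib]
    have : ∑ i, ∑ j, ξ i * ξ j * Real.log l = 0 := by
      simp_rw [mul_assoc, ← Finset.mul_sum, ← Finset.sum_mul, hξ]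
      simp
    rw [this, sub_zero]
  have h0 : F 0 ≤ 0 := by
    refine ge_of_tendsto hlim ?_
    filter_upwards [eventually_ge_atTop 0] with l hl
    exact hmono (Set.mem_Ici.2 le_rfl) hl hl
  simpa [hF] using h0

end Vale.Agent.P030
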