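import Vale.Agent.P030.Defs

/-! # P030: the two constants -/

namespace Vale.Agent.P030

open MeasureTheory Filter Set

namespace Const

/-- The odd moments. -/
noncomputable def al (l : ℕ) : ℝ := (aa (((2 * l : ℕ) : ℤ) + 1) : ℝ)

theorem al_eq (l : ℕ) : al l = 2 / ((2 * l + 1) * ((Nat.centralBinom l : ℝ) / 4 ^ l)) := by
  have h1 : ((((2 * l : ℕ) : ℤ) + 1) / 2).toNat = l := by omega
  rw [al, aa, if_pos (by omega), h1, cc]
  push_cast
  ring

theorem al_unique {f : ℕ → ℝ} (h0 : f 0 = 2)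
    (h : ∀ l : ℕ, (2 * (l : ℝ) + 3) * f (l + 1) = (2 * l + 2) * f l) (l : ℕ) : f l = al l := by
  induction l with
  | zero => rw [h0, al_eq]; simp
  | succ l ih =>
    have h1 : (Nat.centralBinom (l + 1) : ℝ) = 2 * (2 * l + 1) * Nat.centralBinom l / (l + 1) := by
      rw [eq_div_iff (by positivity), mul_comm]
      exact_mod_cast Nat.succ_mul_centralBinom_succ l
    have h2 : (0 : ℝ) < Nat.centralBinom l := by exact_mod_cast Nat.centralBinom_pos l
    have h3 : f (l + 1) = (2 * l + 2) * f l / (2 * l + 3) := by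
      rw [eq_div_iff (by positivity), mul_comm, h l]
    rw [h3, ih, al_eq, al_eq, h1]
    push_cast
    field_simp
    ring

theorem of_even {g : ℕ → ℝ} {a : ℝ} (h : HasSum (fun l => al l / g (2 * l)) a) :
    HasSum (fun k : ℕ => (aa ((k : ℤ) + 1) : ℝ) / g k) a := by
  refine (Function.Injective.hasSum_iff (g := fun l : ℕ => 2 * l)
    (mul_right_injective₀ two_ne_zero) fun k hk => ?_).1 h
  have : k % 2 = 1 := by
    by_contra h1
    exact hk ⟨k / 2, by simp only; omega⟩
  rw [aa, if_neg (by omega)]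
  simp

theorem hs_congr {f g : ℕ → ℝ} {a b : ℝ} (h : HasSum f a) (h1 : ∀ k, g k = f k) (h2 : b = a) :
    HasSum g b := h2 ▸ h.congr_fun h1

theorem int_ms (f : ℝ → ℝ) : ∫ y, f y ∂ms = ∫ y in (0 : ℝ)..1, f y := by
  rw [ms, intervalIntegral.integral_of_le zero_le_one, integral_Ioc_eq_integral_Ioo]

theorem int_cont {f : ℝ → ℝ} (hf : Continuous f) : Integrable f ms :=
  (hf.integrableOn_Icc (a := 0) (b := 1)).mono_set Ioo_subset_Icc_self

theorem int_log {f : ℝ → ℝ} (hf : Continuous f) : Integrable (fun y => -Real.log y * f y) ms :=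
  ((intervalIntegrable_iff_integrableOn_Ioo_of_le zero_le_one).1
    (intervalIntegral.intervalIntegrable_log'.neg.mul_continuousOn hf.continuousOn))

theorem ae_ms {p : ℝ → Prop} (h : ∀ y, 0 < y → y < 1 → p y) : ∀ᵐ y ∂ms, p y :=
  (ae_restrict_mem measurableSet_Ioo).mono fun y hy => h y hy.1 hy.2

theorem swap {F : ℕ → ℝ → ℝ} {f : ℝ → ℝ} (hF : ∀ k, Integrable (F k) ms)
    (hs : Summable fun k => ∫ y, ‖F k y‖ ∂ms)
    (h : ∀ y, 0 < y → y < 1 → HasSum (fun k => F k y) (f y)) :
    HasSum (fun k => ∫ y, F k y ∂ms) (∫ y, f y ∂ms) := by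
  have h1 := hasSum_integral_of_summable_integral_norm hF hs
  rwa [integral_congr_ae (ae_ms fun y h0 h1 => (h y h0 h1).tsum_eq)] at h1

theorem swap_pos {F : ℕ → ℝ → ℝ} {f : ℝ → ℝ} (hF : ∀ k, Integrable (F k) ms)
    (hf : Integrable f ms) (h0 : ∀ k y, 0 < y → y < 1 → 0 ≤ F k y)
    (h : ∀ y, 0 < y → y < 1 → HasSum (fun k => F k y) (f y)) :
    HasSum (fun k => ∫ y, F k y ∂ms) (∫ y, f y ∂ms) := by
  refine swap hF (summable_of_sum_range_le (c := ∫ y, f y ∂ms)
    (fun k => integral_nonneg fun y => norm_nonneg _) fun n => ?_) h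
  rw [← integral_finsetSum _ fun k _ => (hF k).norm]
  refine integral_mono_ae (integrable_finsetSum _ fun k _ => (hF k).norm) hf
    (ae_ms fun y a b => ?_)
  simp only [fun k => Real.norm_of_nonneg (h0 k y a b)]
  exact sum_le_hasSum _ (fun k _ => h0 k y a b) (h y a b)

theorem log_moment (m : ℕ) : ∫ y, -Real.log y * y ^ m ∂ms = 1 / ((m : ℝ) + 1) ^ 2 := by
  have hm : (0 : ℝ) < m + 1 := by positivity
  have hc := Real.continuous_mul_log
  rw [int_ms, intervalIntegral.integral_eq_sub_of_hasDerivAt_of_le zero_le_one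
    (f := fun y => y ^ (m + 1) / ((m : ℝ) + 1) ^ 2 - y ^ m * (y * Real.log y) / (m + 1))
    (f' := fun y => -Real.log y * y ^ m) (by fun_prop) (fun y hy => ?_)
    (intervalIntegral.intervalIntegrable_log'.neg.mul_continuousOn (by fun_prop))]
  · simp
  · have h1 := ((hasDerivAt_pow (m + 1) y).div_const (((m : ℝ) + 1) ^ 2)).sub
      (((hasDerivAt_pow (m + 1) y).mul (Real.hasDerivAt_log hy.1.ne')).div_const ((m : ℝ) + 1))
    refine (h1.congr_deriv ?_).congr_of_eventuallyEq (Eventually.of_forall fun z => ?_)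
    · have := hy.1.ne'
      push_cast
      field_simp
      ring
    · simp only [Pi.sub_apply, Pi.mul_apply]
      ring

theorem odd_summable : Summable fun k : ℕ => 1 / (2 * (k : ℝ) + 1) ^ 2 := by
  have := hasSum_zeta_two.summable.comp_injective (i := fun k : ℕ => 2 * k + 1)
    fun a b h => by simp only at h; omega
  refine this.congr fun k => ?_
  simp

theorem odd_sum : HasSum (fun k : ℕ => 1 / (2 * (k : ℝ) + 1) ^ 2) (Real.pi ^ 2 / 8) := by
  have h1 : HasSum (fun k : ℕ => 1 / ((2 * k : ℕ) : ℝ) ^ 2) (1 / 4 * (Real.pi ^ 2 / 6)) := by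
    refine (hasSum_zeta_two.mul_left (1 / 4)).congr_fun fun k => ?_
    push_cast
    ring
  have h2 : HasSum (fun k : ℕ => 1 / ((2 * k + 1 : ℕ) : ℝ) ^ 2) (∑' k : ℕ, 1 / (2 * (k : ℝ) + 1) ^ 2) := by
    refine odd_summable.hasSum.congr_fun fun k => ?_
    push_cast
    ring
  have h3 := (HasSum.even_add_odd (f := fun n : ℕ => 1 / (n : ℝ) ^ 2) h1 h2).unique hasSum_zeta_two
  have h4 : Real.pi ^ 2 / 8 = ∑' k : ℕ, 1 / (2 * (k : ℝ) + 1) ^ 2 := by linarith
  rw [h4]
  exact odd_summable.hasSum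

theorem log_series (c : ℝ) (hc : |c| = 1) :
    HasSum (fun k : ℕ => c ^ k / (2 * (k : ℝ) + 1) ^ 2) (∫ y, -Real.log y * (1 - c * y ^ 2)⁻¹ ∂ms) := by
  have e : ∀ k : ℕ, 1 / (((2 * k : ℕ) : ℝ) + 1) ^ 2 = 1 / (2 * (k : ℝ) + 1) ^ 2 := fun k => by
    push_cast; ring
  have h1 := swap (F := fun k y => c ^ k * (-Real.log y * y ^ (2 * k)))
    (f := fun y => -Real.log y * (1 - c * y ^ 2)⁻¹)
    (fun k => (int_log (by fun_prop)).const_mul _) ?_ fun y h0 h1 => ?_
  · refine h1.congr_fun fun k => ?_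
    rw [integral_const_mul, log_moment, e]
    ring
  · refine odd_summable.congr fun k => ?_
    rw [← e, ← log_moment]
    refine integral_congr_ae (ae_ms fun y h0 h1 => ?_)
    have := Real.log_nonpos h0.le h1.le
    simp only [norm_mul, norm_pow, Real.norm_eq_abs, hc, one_pow, one_mul, abs_of_pos h0]
    rw [abs_of_nonneg (by linarith)]
  · have h2 : |c * y ^ 2| < 1 := by
      rw [abs_mul, hc, one_mul, abs_of_nonneg (sq_nonneg y)]
      nlinarith
    refine ((hasSum_geometric_of_abs_lt_one h2).mul_left (-Real.log y)).congr_fun fun k => ?_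
    rw [mul_pow, ← pow_mul]
    ring

/-- The cosine of the angle in the half angle parameter. -/
noncomputable def uu (y : ℝ) : ℝ := (1 - y ^ 2) / (1 + y ^ 2)

theorem uu_cont : Continuous uu := by
  unfold uu
  exact Continuous.div (by fun_prop) (by fun_prop) fun y => by positivity

theorem wt_cont : Continuous fun y : ℝ => 4 / (1 + y ^ 2) :=
  Continuous.div (by fun_prop) (by fun_prop) fun y => by positivity

theorem cos_rec (m : ℕ) : ((m : ℝ) + 1) * ∫ y, uu y ^ (m + 1) * (4 / (1 + y ^ 2)) ∂ms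
    = m * ∫ y, uu y ^ (m - 1) * (4 / (1 + y ^ 2)) ∂ms + 2 * 0 ^ m := by
  have hu := uu_cont
  have hw := wt_cont
  rw [← sub_eq_iff_eq_add', ← integral_const_mul, ← integral_const_mul,
    ← integral_sub (int_cont (by fun_prop)) (int_cont (by fun_prop)), int_ms,
    intervalIntegral.integral_eq_sub_of_hasDerivAt
      (f := fun y => uu y ^ m * (4 * y / (1 + y ^ 2))) (fun y _ => ?_)
      (Continuous.intervalIntegrable (by fun_prop) _ _)]
  · simp [uu]
    ring
  · have h0 : 1 + y ^ 2 ≠ 0 := by positivity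
    have a1 := (hasDerivAt_pow 2 y).const_add 1
    have a2 := ((hasDerivAt_pow 2 y).const_sub 1).div a1 h0
    have a3 := ((hasDerivAt_id y).const_mul 4).div a1 h0
    refine ((a2.pow m).mul a3).congr_deriv ?_
    rcases m with _ | m
    · simp [uu]
      field_simp
      ring
    · simp only [Nat.add_sub_cancel, pow_succ (uu y), Pi.pow_apply, Pi.div_apply, id]
      change _ * uu y ^ m * _ * _ + uu y ^ (m + 1) * _ = _
      rw [pow_succ (uu y)]
      generalize uu y ^ m = A
      unfold uu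
      push_cast
      field_simp
      ring

theorem al_cos (l : ℕ) : ∫ y, uu y ^ (2 * l + 1) * (4 / (1 + y ^ 2)) ∂ms = al l := by
  refine al_unique (f := fun l => ∫ y, uu y ^ (2 * l + 1) * (4 / (1 + y ^ 2)) ∂ms) ?_
    (fun l => ?_) l
  · simpa using cos_rec 0
  · have := cos_rec (2 * l + 2)
    rw [zero_pow (by omega), mul_zero, add_zero] at this
    push_cast at this
    rw [show 2 * (l : ℝ) + 3 = 2 * l + 2 + 1 by ring]
    exact this

theorem al_pol (l : ℕ) : ∫ v, 2 * (1 - v ^ 2) ^ l ∂ms = al l := by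
  refine al_unique (f := fun l => ∫ v, 2 * (1 - v ^ 2) ^ l ∂ms) (by simp [ms]) (fun l => ?_) l
  rw [← sub_eq_zero, ← integral_const_mul, ← integral_const_mul,
    ← integral_sub (int_cont (by fun_prop)) (int_cont (by fun_prop)), int_ms,
    intervalIntegral.integral_eq_sub_of_hasDerivAt
      (f := fun v => 2 * v * (1 - v ^ 2) ^ (l + 1)) (fun v _ => ?_)
      (Continuous.intervalIntegrable (by fun_prop) _ _)]
  · simp
  · refine (((hasDerivAt_id v).const_mul 2).mul
      (((hasDerivAt_pow 2 v).const_sub 1).pow (l + 1))).congr_deriv ?_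
    simp only [Nat.add_sub_cancel, Pi.pow_apply, id]
    push_cast
    ring

theorem first : HasSum (fun l : ℕ => al l / (((2 * l : ℕ) : ℝ) + 1)) (4 * GG) := by
  have hu := uu_cont
  have hw := wt_cont
  have h1 := swap_pos
    (F := fun l y => uu y ^ (2 * l + 1) * (4 / (1 + y ^ 2)) / (((2 * l : ℕ) : ℝ) + 1))
    (f := fun y => -Real.log y * (4 / (1 + y ^ 2))) (fun l => int_cont (by fun_prop))
    (int_log hw) (fun l y h0 h1 => ?_) fun y h0 h1 => ?_
  · have h2 := (log_series (-1) (by simp)).tsum_eq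
    rw [GG, h2, ← integral_const_mul]
    simp only [integral_div, al_cos] at h1
    refine hs_congr h1 (fun _ => rfl) (integral_congr_ae (Eventually.of_forall fun y => ?_))
    simp only [neg_mul, one_mul, sub_neg_eq_add]
    ring
  · have : 0 ≤ uu y := div_nonneg (by nlinarith) (by positivity)
    positivity
  · have p : 0 < 1 + y ^ 2 := by positivity
    have h2 : |uu y| < 1 := by
      rw [uu, abs_div, abs_of_pos p, div_lt_one p, abs_lt]
      constructor <;> nlinarith
    have e1 : 1 + uu y = 2 / (1 + y ^ 2) := by unfold uu; field_simp; ring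
    have e2 : 1 - uu y = 2 / (1 + y ^ 2) * y ^ 2 := by unfold uu; field_simp; ring
    have h3 := (Real.hasSum_log_sub_log_of_abs_lt_one h2).mul_right (2 / (1 + y ^ 2))
    rw [e1, e2, Real.log_mul (by positivity) (by positivity), Real.log_pow] at h3
    refine hs_congr h3 (fun k => ?_) ?_
    · push_cast
      ring
    · push_cast
      ring

theorem second : HasSum (fun l : ℕ => al l / (((2 * l : ℕ) : ℝ) + 2)) (Real.pi ^ 2 / 4) := by
  have hi : Integrable (fun y => -Real.log y * (1 - 1 * y ^ 2)⁻¹) ms := by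
    refine ((int_log (continuous_const (y := (1 : ℝ)))).add
      (int_cont (continuous_const (y := (1 : ℝ))))).mono'
      (Measurable.aestronglyMeasurable (by fun_prop)) (ae_ms fun y h0 h1 => ?_)
    have a1 := Real.log_nonpos h0.le h1.le
    have a2 : 0 < 1 - 1 * y ^ 2 := by nlinarith
    have a3 : 1 - y⁻¹ ≤ Real.log y := Real.one_sub_inv_le_log_of_pos h0
    have a4 := Real.log_le_sub_one_of_pos h0
    have a5 : y * (1 - Real.log y) ≤ 1 := by
      have := Real.log_le_sub_one_of_pos (inv_pos.2 h0)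
      have h6 := mul_le_mul_of_nonneg_left a3 h0.le
      rw [mul_sub, mul_inv_cancel₀ h0.ne'] at h6
      nlinarith
    rw [Real.norm_of_nonneg (mul_nonneg (by linarith) (inv_pos.2 a2).le), Pi.add_apply,
      mul_inv_le_iff₀ a2]
    nlinarith [mul_nonneg h0.le (sub_nonneg.2 h1.le)]
  have h1 := swap_pos (F := fun l v => 2 * (1 - v ^ 2) ^ l / (((2 * l : ℕ) : ℝ) + 2))
    (f := fun y => 2 * (-Real.log y * (1 - 1 * y ^ 2)⁻¹)) (fun l => int_cont (by fun_prop))
    (hi.const_mul 2) (fun l y h0 h1 => ?_) fun y h0 h1 => ?_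
  · have h2 := log_series 1 (by simp)
    simp only [one_pow] at h2
    simp only [integral_div, al_pol] at h1
    rwa [integral_const_mul, h2.unique odd_sum, show 2 * (Real.pi ^ 2 / 8) = Real.pi ^ 2 / 4 by ring]
      at h1
  · have : 0 ≤ 1 - y ^ 2 := by nlinarith
    positivity
  · have p : 0 < 1 - y ^ 2 := by nlinarith
    have h2 : |1 - y ^ 2| < 1 := by
      rw [abs_of_pos p]
      nlinarith
    have h3 := (Real.hasSum_pow_div_log_of_abs_lt_one h2).mul_right (1 - y ^ 2)⁻¹
    rw [sub_sub_cancel, Real.log_pow] at h3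
    refine hs_congr h3 (fun k => ?_) ?_
    · push_cast
      field_simp
      ring
    · push_cast
      ring

end Const

theorem const (_h : MomStmt) : ConstStmt :=
  ⟨Const.of_even (g := fun k => (k : ℝ) + 1) Const.first,
    Const.of_even (g := fun k => (k : ℝ) + 2) Const.second⟩

end Vale.Agent.P030
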