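import Vale.Agent.P030.Elim1

/-! P030: the elimination step. -/

namespace Vale.Agent.P030

open Polynomial Finset MeasureTheory Filter Sum

namespace Elim

variable {p r m : ℕ}

/-- the contour functional -/
noncomputable def IL (z : ℂ)
    (h : ∀ P : ℂ[X], Integrable (fun ω => P.eval (uu ω) * kap ω * (z - uu ω)⁻¹) mo) :
    ℂ[X] →ₗ[ℂ] ℂ where
  toFun P := ∫ ω, P.eval (uu ω) * kap ω * (z - uu ω)⁻¹ ∂mo
  map_add' P Q := by simp only [eval_add, add_mul]; exact integral_add (h P) (h Q)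
  map_smul' c P := by
    simp only [eval_smul, smul_eq_mul, mul_assoc, RingHom.id_apply]; exact integral_const_mul _ _

theorem VV_nonneg {ι : Type} [DecidableEq ι] (s : Finset ι) (f : ι → ℂ) : 0 ≤ VV s f :=
  Real.sqrt_nonneg _

theorem CR_sum (σ : Fin r ⊕ Fin m → ℂ) {κ : Type} (t : Finset κ) (u : κ → ℂ) :
    CR univ σ t u = CR univ (fun i => σ (inl i)) t u * CR univ (fun i => σ (inr i)) t u :=
  Fintype.prod_sum_type _

theorem VV_sum (hC : CauchyStmt) (σ : Fin r ⊕ Fin m → ℂ) :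
    VV univ σ = VV univ (fun i => σ (inl i)) * VV univ (fun i => σ (inr i)) *
      CR univ (fun i => σ (inl i)) univ fun i => σ (inr i) := by
  have h := hC.2.2.1 _ ((univ : Finset (Fin r)).map Function.Embedding.inl)
    ((univ : Finset (Fin m)).map Function.Embedding.inr) σ (disjoint_map_inl_map_inr _ _)
  rw [hC.2.2.2, hC.2.2.2, show (univ : Finset (Fin r)).map Function.Embedding.inl ∪
    (univ : Finset (Fin m)).map Function.Embedding.inr = univ by ext (i | i) <;> simp] at h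
  simpa [CR] using h

theorem norm_van (hC : CauchyStmt) {n : ℕ} (c u : Fin n → ℂ) :
    ‖(Matrix.of fun k l : Fin n => c l * u l ^ (k : ℕ)).det‖ = (∏ l, ‖c l‖) * VV univ u := by
  rw [← hC.1, ← Matrix.det_transpose (Matrix.of fun i j : Fin n => u i ^ (j : ℕ)), ← norm_prod,
    ← norm_mul]
  exact congrArg norm (Matrix.det_mul_row c (Matrix.of fun k l : Fin n => u l ^ (k : ℕ)))

theorem gram (hA : And1Stmt) (hC : CauchyStmt) (hG : GeoStmt) (τ : Fin p → ℂ)
    (σ : Fin r ⊕ Fin m → ℂ) (hI : ∀ i, ∀ P : ℂ[X],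
      Integrable (fun ω => P.eval (uu ω) * kap ω * (σ i - uu ω)⁻¹) mo)
    (hne : ∀ i, ∀ ω ∈ Ao, σ i ≠ uu ω) (hi : Function.Injective fun l => σ (inr l)) {K C : ℝ}
    (hK : 0 ≤ K) (hC0 : 0 ≤ C) (hR : ∀ ω : Fin r → Om, (∀ l, ω l ∈ Ao) →
      K * (VV univ (fun l => uu (ω l)) * CR univ τ univ fun l => uu (ω l)) *
        (VV univ σ * VV univ (fun l => uu (ω l)) / CR univ σ univ fun l => uu (ω l)) *
        ∏ l, ‖kap (ω l)‖ ≤ C * ∏ l, ho (ω l)) :
    K * VV univ (fun l => σ (inr l)) * ‖(Matrix.of fun k i : Fin r =>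
      IL _ (hI (inl i)) (Lagrange.nodal univ τ * X ^ (k : ℕ)) -
        ∑ l, (Lagrange.basis univ (fun l => σ (inr l)) l).eval (σ (inl i)) *
          IL _ (hI (inr l)) (Lagrange.nodal univ τ * X ^ (k : ℕ))).det‖ ≤
      C * (∫ ω, ho ω ∂mo) ^ r := by
  have h0 (ω : Om) : 0 ≤ ho ω := by unfold ho; positivity
  have hJ : 0 ≤ ∫ ω, ho ω ∂mo := integral_nonneg h0
  rcases (mul_nonneg hK (VV_nonneg univ fun l => σ (inr l))).eq_or_lt with hK' | hK'
  · rw [← hK', zero_mul]; positivity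
  have : SigmaFinite mo := by unfold mo ms; infer_instance
  let f : Fin r → Om → ℂ := fun k ω =>
    (∏ j, (uu ω - τ j)) * kap ω * (∏ l, (uu ω - σ (inr l)))⁻¹ * uu ω ^ (k : ℕ)
  let g : Fin r → Om → ℂ := fun i ω => (∏ l, (σ (inl i) - σ (inr l))) * (σ (inl i) - uu ω)⁻¹
  have e (k i : Fin r) : (fun ω => f k ω * g i ω) =ᵐ[mo] fun ω =>
      (Lagrange.nodal univ τ * X ^ (k : ℕ)).eval (uu ω) * kap ω * (σ (inl i) - uu ω)⁻¹ -
      ∑ l, (Lagrange.basis univ (fun l => σ (inr l)) l).eval (σ (inl i)) *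
        ((Lagrange.nodal univ τ * X ^ (k : ℕ)).eval (uu ω) * kap ω * (σ (inr l) - uu ω)⁻¹) := by
    filter_upwards [hG.2.2.2.2.1] with ω hω
    have := interp hi (fun l => hne (inr l) ω hω) (hne (inl i) ω hω)
    simp only [mul_left_comm _ (_ * kap ω), ← mul_sum]
    rw [← mul_sub, ← this, eval_mul, Lagrange.eval_nodal, eval_pow, eval_X]
    simp only [f, g]
    ring
  have hs (k i : Fin r) := integrable_finsetSum univ fun l _ => (hI (inr l)
    (Lagrange.nodal univ τ * X ^ (k : ℕ))).const_mul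
      ((Lagrange.basis univ (fun l => σ (inr l)) l).eval (σ (inl i)))
  have h1 := hA Om mo r f g ho Ao (C / (K * VV univ fun l => σ (inr l)))
    (fun k i => ((hI (inl i) _).sub (hs k i)).congr (e k i).symm) hG.2.2.1 h0 hG.2.2.2.2.1
    (by positivity) fun ω hω => ?_
  · rw [div_mul_eq_mul_div, le_div_iff₀' hK'] at h1
    refine le_trans (le_of_eq ?_) h1
    congr 3
    ext k i
    rw [Matrix.of_apply, Matrix.of_apply, integral_congr_ae (e k i), integral_sub (hI _ _) (hs k i),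
      integral_finsetSum _ fun l _ => (hI _ _).const_mul _]
    simp only [integral_const_mul]
    rfl
  rw [div_mul_eq_mul_div, le_div_iff₀' hK']
  refine le_trans (le_of_eq ?_) (hR ω hω)
  have d2 : ‖(Matrix.of fun i l => g i (ω l)).det‖ = (∏ i, ‖∏ l, (σ (inl i) - σ (inr l))‖) *
      ‖(Matrix.of fun i l => (σ (inl i) - uu (ω l))⁻¹).det‖ := by
    rw [← norm_prod, ← norm_mul]
    exact congrArg norm (Matrix.det_mul_column _ (Matrix.of fun i l => (σ (inl i) - uu (ω l))⁻¹))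
  have d3 {n : ℕ} (t : Fin n → ℂ) : ∏ l, ∏ j, ‖uu (ω l) - t j‖ = CR univ t univ fun l => uu (ω l) := by
    rw [Finset.prod_comm]; simp only [CR, norm_sub_rev]
  rw [d2, hC.2.1 _ _ _ fun i l => hne _ _ (hω l), norm_van hC, VV_sum hC, CR_sum]
  simp only [norm_mul, norm_inv, norm_prod, prod_mul_distrib, prod_inv_distrib, d3]
  rw [CR.eq_1 univ (fun i => σ (inl i)) univ fun i => σ (inr i)]
  ring

theorem term (hA : And1Stmt) (hC : CauchyStmt) (hG : GeoStmt) {N : ℕ} (h : p + r = 18 * N)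
    (σ : J p r (2 * N) → ℂ) (hI : ∀ i, ∀ P : ℂ[X],
      Integrable (fun ω => P.eval (uu ω) * kap ω * (σ (inr i) - uu ω)⁻¹) mo)
    (hne : ∀ i, ∀ ω ∈ Ao, σ (inr i) ≠ uu ω) (hi : Function.Injective σ) {K C : ℝ}
    (hK : 0 ≤ K) (hC0 : 0 ≤ C) (hR : ∀ ω : Fin r → Om, (∀ l, ω l ∈ Ao) →
      K * (VV univ (fun k => σ (inl k)) * VV univ (fun l => uu (ω l)) *
        CR univ (fun k => σ (inl k)) univ fun l => uu (ω l)) *
        (VV univ (fun i => σ (inr i)) * VV univ (fun l => uu (ω l)) /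
          CR univ (fun i => σ (inr i)) univ fun l => uu (ω l)) *
        ∏ l, ‖kap (ω l)‖ ≤ C * ∏ l, ho (ω l)) :
    K * ‖(Matrix.of fun j i : J p r (2 * N) => Sum.elim (fun k => (St (ev j)).eval (σ (inl k)))
      (fun i => 3 / 2 * (A0 (ev j)).eval (σ (inr i)) +
        ∫ ω, (St (ev j)).eval (uu ω) * kap ω * (σ (inr i) - uu ω)⁻¹ ∂mo) i).det‖ ≤
      2 ^ (164 * N ^ 2) * 2 ^ (2 * N) * (C * (∫ ω, ho ω ∂mo) ^ r) := by
  let φ : J p r (2 * N) → (ℂ[X] × ℂ[X]) →ₗ[ℂ] ℂ := Sum.elim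
    (fun k => (leval (σ (inl k))).coprod 0)
    fun i => (IL _ (hI i)).coprod ((3 / 2 : ℂ) • leval (σ (inr i)))
  have hi' : Function.Injective fun l => σ (inr (inr l)) :=
    hi.comp (inr_injective.comp inr_injective)
  have h1 := det_vo h φ
  rw [← det_vn φ (P := Lagrange.nodal univ fun k => σ (inl k)) Lagrange.nodal_monic (by simp)
    (A := fun k => (-(2 / 3) : ℂ) • Lagrange.interpolate univ (fun l => σ (inr (inr l))) fun l =>
      IL _ (hI (inr l)) (Lagrange.nodal univ (fun k => σ (inl k)) * X ^ (k : ℕ)))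
    fun k => (degree_smul_le _ _).trans_lt (by
      simpa using Lagrange.degree_interpolate_lt (s := univ) _ hi'.injOn),
    det_blocks (Matrix.of fun j i => φ i (vn _ _ j)), norm_mul, norm_mul] at h1
  · have h2 := gram hA hC hG (fun k => σ (inl k)) (fun i => σ (inr i)) hI hne hi'
      (mul_nonneg hK (VV_nonneg univ fun k => σ (inl k))) hC0 fun ω hω =>
        le_trans (le_of_eq (by ring)) (hR ω hω)
    have e1 := norm_van hC (fun _ => 1) fun k => σ (inl k)
    have e2 := norm_van hC (fun _ => 3 / 2) fun l => σ (inr (inr l))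
    have e3 : ∏ _ : Fin (2 * N), ‖(3 / 2 : ℂ)‖ ≤ 2 ^ (2 * N) := by
      rw [prod_const, card_univ, Fintype.card_fin]
      exact pow_le_pow_left₀ (norm_nonneg _) (by simp; norm_num) _
    simp only [one_mul, norm_one, prod_const_one] at e1
    simp only [φ, vn, Matrix.of_apply, elim_inl, elim_inr, LinearMap.coprod_apply, leval_apply,
      LinearMap.smul_apply, map_zero, add_zero, zero_add, eval_pow, eval_X,
      smul_eq_mul, e1, e2, eval_smul, Lagrange.interpolate_apply, eval_finsetSum, eval_mul, eval_C,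
      ← mul_assoc (3 / 2 : ℂ), show (3 / 2 : ℂ) * -(2 / 3) = -1 by norm_num, neg_one_mul,
      ← sub_eq_add_neg, mul_comm (IL _ _ _)] at h1
    have h3 := mul_le_mul (mul_le_mul_of_nonneg_left e3 (by positivity : (0 : ℝ) ≤ 2 ^ (164 * N ^ 2)))
      h2 (by have := VV_nonneg univ fun k => σ (inl k)
             have := VV_nonneg univ fun l => σ (inr (inr l))
             positivity) (by positivity)
    refine le_trans (le_of_eq ?_) ((mul_le_mul_of_nonneg_left h1 hK).trans
      (le_trans (le_of_eq (by ring)) h3))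
    congr 3
    ext j (k | k)
    · simp
    · exact add_comm _ _
  · rintro (j | j) k
    · simp [φ, vn, Lagrange.eval_nodal_at_node (v := fun k => σ (inl k)) (mem_univ k)]
    · simp [φ, vn]
  · intro k l
    simp only [φ, vn, Matrix.of_apply, elim_inl, elim_inr, LinearMap.coprod_apply, leval_apply,
      LinearMap.smul_apply, eval_smul, Lagrange.eval_interpolate_at_node _ hi'.injOn (mem_univ l),
      smul_eq_mul]
    ring

theorem norm_det_equiv {ι κ : Type} [Fintype ι] [DecidableEq ι] [Fintype κ] [DecidableEq κ]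
    (e e' : ι ≃ κ) (M : Matrix κ κ ℂ) : ‖(Matrix.of fun j i => M (e' i) (e j)).det‖ = ‖M.det‖ := by
  have := congrArg norm (Matrix.det_reindex e.symm e'.symm M.transpose)
  rw [norm_mul, Matrix.det_transpose] at this
  refine this.trans ?_
  rcases Int.units_eq_one_or (Equiv.Perm.sign (e'.symm.trans e.symm.symm)) with h | h <;>
    rw [h] <;> simp

theorem exists_row {N : ℕ} (h : p + r = 18 * N) :
    ∃ ψ : J p r (2 * N) ≃ Fin (20 * N), ∀ j, ((ψ j : ℕ) : ℤ) - 2 * N = ev j := by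
  have h1 (j : J p r (2 * N)) : 0 ≤ ev j + 2 * N ∧ ev j + 2 * N < 20 * N := by
    rcases j with k | k | k <;> simp only [ev, elim_inl, elim_inr] <;> omega
  refine ⟨Equiv.ofBijective (fun j => ⟨(ev j + 2 * N).toNat, by have := h1 j; omega⟩)
    ((Fintype.bijective_iff_injective_and_card _).2 ⟨fun i j e => ?_, by simp; omega⟩),
    fun j => by have := h1 j; simp only [Equiv.ofBijective_apply]; omega⟩
  have e1 : ev i = ev j := by
    have := h1 i
    have := h1 j
    have := congrArg Fin.val e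
    simp only at this
    omega
  rcases i with k | k | k <;> rcases j with l | l | l <;>
    simp only [ev, elim_inl, elim_inr] at e1 <;> (congr; omega)

theorem exists_col {n : ℕ} (a : Finset (Fin n)) (h : a.card + (r + m) = n) :
    ∃ φ : J a.card r m ≃ Fin n, a = univ.map (Function.Embedding.inl.trans φ.toEmbedding) ∧
      aᶜ = univ.map (Function.Embedding.inr.trans φ.toEmbedding) := by
  let e : Fin r ⊕ Fin m ≃ {i // i ∉ a} := Fintype.equivOfCardEq (by simp; omega)
  refine ⟨(a.equivFin.symm.sumCongr e).trans (Equiv.sumCompl (· ∈ a)), ?_, ?_⟩ <;> ext i <;>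
    simp only [Finset.mem_map, mem_univ, true_and, mem_compl]
  · exact ⟨fun hi => ⟨a.equivFin ⟨i, hi⟩, by simp⟩, fun ⟨k, hk⟩ => hk ▸ (a.equivFin.symm k).2⟩
  · exact ⟨fun hi => ⟨e.symm ⟨i, hi⟩, by simp⟩, fun ⟨k, hk⟩ => hk ▸ (e k).2⟩

theorem det_zero {n k : ℕ} (a : Finset (Fin n)) (h : k < a.card) {σ : Fin n → ℂ}
    (hσ : Function.Injective σ) (M : Matrix (Fin n) (Fin n) ℂ) (P : Fin n → ℂ[X])
    (hP : ∀ e, (P e).degree < k) (hM : ∀ i ∈ a, ∀ e, M i e = (P e).eval (σ i)) : M.det = 0 := by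
  refine Matrix.exists_vecMul_eq_zero_iff.1
    ⟨fun i => if i ∈ a then (∏ j ∈ a.erase i, (σ i - σ j))⁻¹ else 0, fun h0 => ?_, funext fun e => ?_⟩
  · obtain ⟨i, hi⟩ := card_pos.1 ((Nat.zero_le k).trans_lt h)
    have := congrFun h0 i
    rw [if_pos hi, Pi.zero_apply, inv_eq_zero] at this
    exact prod_ne_zero_iff.2 (fun j hj => sub_ne_zero.2 (hσ.ne (ne_of_mem_erase hj).symm)) this
  · have h1 := Lagrange.coeff_eq_sum hσ.injOn (s := a) ((hP e).trans (Nat.cast_lt.2 h))
    rw [coeff_eq_zero_of_degree_lt ((hP e).trans_le (Nat.cast_le.2 (by omega)))] at h1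
    simp only [Matrix.vecMul, dotProduct, ite_mul, zero_mul, sum_ite_mem, univ_inter, Pi.zero_apply]
    rw [h1]
    exact sum_congr rfl fun i hi => by rw [hM i hi, div_eq_inv_mul]

end Elim

open Elim in
theorem elim (hA : And1Stmt) (hC : CauchyStmt) (hL : LensStmt) (hG : GeoStmt) : ElimStmt := by
  intro N x C hx' hi hC0 hR
  let α : Fin (20 * N) → ℂ := fun i =>
    if x i < 0 then sg x i - 1 else if x i < 3 / 10 then -(1 / 2 * (sg x i - 1)) else 0
  let β : Fin (20 * N) → ℂ := fun i => if x i < 0 then 0 else (ww (x i) : ℝ)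
  let E : Fin (20 * N) → Fin (20 * N) → ℂ := fun i e => (St (((e : ℕ) : ℤ) - 2 * N)).eval (sg x i)
  let Φ : Fin (20 * N) → Fin (20 * N) → ℂ := fun i e =>
    3 / 2 * (A0 (((e : ℕ) : ℤ) - 2 * N)).eval (sg x i) +
      ∫ ω, (St (((e : ℕ) : ℤ) - 2 * N)).eval (uu ω) * kap ω * (sg x i - uu ω)⁻¹ ∂mo
  have hp (i) (h : ¬ x i < 0) : 0 < x i := lt_of_le_of_ne (not_lt.1 h) (hx' i).2.2.1.symm
  have e1 : (Matrix.of fun i e : Fin (20 * N) => (psi (((e : ℕ) : ℤ) - 2 * N) (x i) : ℂ)) =
      (fun i e => α i * E i e) + fun i e => β i * Φ i e := by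
    ext i e
    simp only [Matrix.of_apply, Pi.add_apply, α, β, E, Φ, sg]
    by_cases h : x i < 0
    · rw [hL.1 _ _ h, if_pos h, if_pos h, zero_mul, add_zero]
    · rw [(hL.2 _ (hp i h) (hx' i).2.1 (hx' i).2.2.2).2, if_neg h, if_neg h]
      split_ifs <;> ring
  have e2 : |(Matrix.of fun e i : Fin (20 * N) => psi (((e : ℕ) : ℤ) - 2 * N) (x i)).det| =
      ‖∑ a : Finset (Fin (20 * N)), (Matrix.of (a.piecewise (fun i e => α i * E i e)
        fun i e => β i * Φ i e)).det‖ := by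
    rw [← Real.norm_eq_abs, ← Complex.norm_real, ← Matrix.det_transpose]
    refine congrArg norm ((RingHom.map_det Complex.ofRealHom _).trans
      ((congrArg Matrix.det e1).trans ?_))
    exact Matrix.detRowAlternating.toMultilinearMap.map_add_univ _ _
  have hM : 0 ≤ max 1 (∫ ω, ho ω ∂mo) := le_max_of_le_left zero_le_one
  rw [e2]
  refine (norm_sum_le _ _).trans ((sum_le_card_nsmul _ _ (2 ^ (164 * N ^ 2) * 2 ^ (2 * N) *
    (C * max 1 (∫ ω, ho ω ∂mo) ^ (18 * N))) fun a _ => ?_).trans ?_)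
  swap
  · have : (2 : ℝ) ^ (20 * N) * 2 ^ (2 * N) ≤ 4 ^ (20 * N) := by
      rw [show (4 : ℝ) = 2 * 2 by norm_num, mul_pow]
      exact mul_le_mul_of_nonneg_left (pow_le_pow_right₀ one_le_two (by omega)) (by positivity)
    rw [card_univ, Fintype.card_finset, Fintype.card_fin, nsmul_eq_mul]
    push_cast
    exact le_trans (le_of_eq (by ring)) ((mul_le_mul_of_nonneg_left this (by positivity :
      0 ≤ 2 ^ (164 * N ^ 2) * (C * max 1 (∫ ω, ho ω ∂mo) ^ (18 * N)))).trans (le_of_eq (by ring)))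
  have e3 : (Matrix.of (a.piecewise (fun i e => α i * E i e) fun i e => β i * Φ i e)).det =
      (∏ i ∈ a, α i) * (∏ i ∈ aᶜ, β i) * (Matrix.of (a.piecewise E Φ)).det := by
    have := prod_piecewise univ a α β
    rw [univ_inter, ← compl_eq_univ_sdiff] at this
    rw [← this, ← Matrix.det_mul_column]
    congr 1
    ext i e
    by_cases h : i ∈ a <;> simp [h]
  rw [e3]
  by_cases h1 : ∀ i ∈ a, x i < 3 / 10
  swap
  · push Not at h1
    obtain ⟨i, h1, h2⟩ := h1
    rw [prod_eq_zero h1 (by simp only [α]; rw [if_neg (by linarith), if_neg (by linarith)]),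
      zero_mul, zero_mul, norm_zero]
    positivity
  by_cases h2 : ∀ i ∉ a, 0 < x i
  swap
  · push Not at h2
    obtain ⟨i, h2, h3⟩ := h2
    rw [prod_eq_zero (f := β) (mem_compl.2 h2) (if_pos (lt_of_le_of_ne h3 (hx' i).2.2.1)), mul_zero,
      zero_mul, norm_zero]
    positivity
  rcases lt_or_ge (18 * N) a.card with h3 | h3
  · rw [det_zero a h3 hi (Matrix.of (a.piecewise E Φ)) (fun e => St (((e : ℕ) : ℤ) - 2 * N))
      (fun e => St_deg (by push_cast; omega) (by push_cast; omega))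
      fun i hi e => congrFun (piecewise_eq_of_mem a E Φ hi) e, mul_zero, norm_zero]
    positivity
  obtain ⟨r, hr⟩ := Nat.exists_eq_add_of_le h3
  obtain ⟨ψ, hψ⟩ := exists_row (p := a.card) (r := r) hr.symm
  obtain ⟨φ, a1, a2⟩ := exists_col (r := r) (m := 2 * N) a (by omega)
  have m1 (k) : φ (inl k) ∈ a := a1.ge (mem_map_of_mem _ (mem_univ k))
  have m2 (k) : φ (inr k) ∉ a := mem_compl.1 (a2.ge (mem_map_of_mem _ (mem_univ k)))
  have h4 := term hA hC hG hr.symm (fun j => sg x (φ j))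
    (fun i => (hL.2 _ (h2 _ (m2 i)) (hx' _).2.1 (hx' _).2.2.2).1)
    (fun i ω hω e => by
      have := (hG.1 _ (h2 _ (m2 i)) (hx' _).2.1 ω hω).2
      rw [show ((sig (x (φ (inr i))) : ℝ) : ℂ) = uu ω from e, sub_self, norm_zero] at this
      exact this.not_gt (hG.2.1 ω hω).1) (hi.comp φ.injective)
    (K := (∏ i ∈ a, |sig (x i) - 1|) * ∏ i ∈ aᶜ, |ww (x i)|) (by positivity) hC0 fun ω hω => by
      have := hR a r ω h2 h1 hr.symm hω
      rw [RB, congrArg (VV · (sg x)) a1, congrArg (VV · (sg x)) a2, hC.2.2.2, hC.2.2.2,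
        congrArg (CR · (sg x) univ fun l => uu (ω l)) a1,
        congrArg (CR · (sg x) univ fun l => uu (ω l)) a2, CR, CR, prod_map, prod_map] at this
      exact this
  have hJ : 0 ≤ ∫ ω, ho ω ∂mo := integral_nonneg fun ω => by unfold ho; positivity
  rw [norm_mul, ← norm_det_equiv ψ φ]
  refine le_trans (mul_le_mul ?_ (le_of_eq ?_) (norm_nonneg _) (by positivity)) (h4.trans ?_)
  · rw [norm_mul, norm_prod, norm_prod]
    gcongr with i hi i hi
    · have e : ‖sg x i - 1‖ = |sig (x i) - 1| := by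
        rw [sg, ← Complex.ofReal_one, ← Complex.ofReal_sub, Complex.norm_real, Real.norm_eq_abs]
      simp only [α]
      split_ifs
      · exact e.le
      · rw [norm_neg, norm_mul, e]
        exact mul_le_of_le_one_left (abs_nonneg _) (by simp; norm_num)
      · rw [norm_zero]; exact abs_nonneg _
    · simp only [β]
      rw [if_neg (h2 i (mem_compl.1 hi)).not_gt, Complex.norm_real, Real.norm_eq_abs]
  · congr 2
    ext j (k | k)
    · simp only [Matrix.of_apply, piecewise_eq_of_mem _ _ _ (m1 k), E, hψ, elim_inl]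
    · simp only [Matrix.of_apply, piecewise_eq_of_notMem _ _ _ (m2 k), Φ, hψ, elim_inr]
  · gcongr
    exact (pow_le_pow_left₀ hJ (le_max_right 1 _) r).trans
      (pow_le_pow_right₀ (le_max_left _ _) (by omega))

end Vale.Agent.P030
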