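import Vale.Agent.P030.Defs

/-! P030: linear algebra for the elimination step. -/

namespace Vale.Agent.P030.Elim

open Polynomial Finset MeasureTheory Filter Sum

/-- index type -/
abbrev J (p r m : ℕ) : Type := Fin p ⊕ Fin r ⊕ Fin m

variable {p r m : ℕ}

/-- coefficients of a pair of polynomials -/
noncomputable def cfv (v : ℂ[X] × ℂ[X]) : J p r m → ℂ :=
  Sum.elim (fun k => v.1.coeff k) (Sum.elim (fun k => v.1.coeff (p + k)) fun l => v.2.coeff l)

/-- the monomial basis -/
noncomputable def bv : J p r m → ℂ[X] × ℂ[X] :=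
  Sum.elim (fun k => (X ^ (k : ℕ), 0))
    (Sum.elim (fun k => (X ^ (p + k), 0)) fun l => (0, X ^ (l : ℕ)))

theorem sum_mono {n : ℕ} {P : ℂ[X]} (h : P.degree < n) :
    ∑ i : Fin n, P.coeff i • X ^ (i : ℕ) = P := by
  rw [Polynomial.sum_fin (fun i a => a • (X : ℂ[X]) ^ i) (fun i => zero_smul _ _) h]
  simp only [smul_eq_C_mul, sum_C_mul_X_pow_eq]

theorem expand {v : ℂ[X] × ℂ[X]} (h1 : v.1.degree < (p + r : ℕ)) (h2 : v.2.degree < m) :
    ∑ j : J p r m, cfv v j • bv j = v := by
  have e := sum_mono h1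
  rw [Fin.sum_univ_add] at e
  refine Prod.ext ?_ ?_
  · simpa [Prod.fst_sum, cfv, bv] using e
  · simpa [Prod.snd_sum, cfv, bv] using sum_mono h2

theorem det_fac (φ : J p r m → (ℂ[X] × ℂ[X]) →ₗ[ℂ] ℂ) (v : J p r m → ℂ[X] × ℂ[X])
    (h1 : ∀ j, (v j).1.degree < (p + r : ℕ)) (h2 : ∀ j, (v j).2.degree < m) :
    (Matrix.of fun j i => φ i (v j)).det =
      (Matrix.of fun j i => cfv (v j) i).det * (Matrix.of fun j i => φ i (bv j)).det := by
  rw [← Matrix.det_mul]
  congr 1
  ext j i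
  refine (congrArg (φ i) (expand (h1 j) (h2 j)).symm).trans ?_
  simp only [map_sum, Matrix.mul_apply, map_smul, Matrix.of_apply, smul_eq_mul]

theorem det_tri {ι : Type} [Fintype ι] [DecidableEq ι] (w : ι → ℕ) (hw : Function.Injective w)
    (M : Matrix ι ι ℂ) (h : ∀ i j, w i < w j → M i j = 0) : M.det = ∏ i, M i i := by
  let _ := LinearOrder.lift' w hw
  convert Matrix.det_of_isLowerTriangular M fun i j hij => h i j hij

theorem det_blocks (M : Matrix (J p r m) (J p r m) ℂ) (h1 : ∀ j k, M (inr j) (inl k) = 0)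
    (h2 : ∀ k l, M (inr (inl k)) (inr (inr l)) = 0) :
    M.det = (Matrix.of fun k k' => M (inl k) (inl k')).det *
      ((Matrix.of fun k k' => M (inr (inl k)) (inr (inl k'))).det *
        (Matrix.of fun l l' => M (inr (inr l)) (inr (inr l'))).det) := by
  rw [← Matrix.fromBlocks_toBlocks M, show M.toBlocks₂₁ = 0 from Matrix.ext h1,
    Matrix.det_fromBlocks_zero₂₁, ← Matrix.fromBlocks_toBlocks M.toBlocks₂₂,
    show M.toBlocks₂₂.toBlocks₁₂ = 0 from Matrix.ext h2, Matrix.det_fromBlocks_zero₁₂]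
  rfl

/-- the adapted basis -/
noncomputable def vn (P : ℂ[X]) (A : Fin r → ℂ[X]) : J p r m → ℂ[X] × ℂ[X] :=
  Sum.elim (fun k => (X ^ (k : ℕ), 0))
    (Sum.elim (fun k => (P * X ^ (k : ℕ), A k)) fun l => (0, X ^ (l : ℕ)))

theorem det_vn (φ : J p r m → (ℂ[X] × ℂ[X]) →ₗ[ℂ] ℂ) {P : ℂ[X]} (hP : P.Monic)
    (hd : P.natDegree = p) {A : Fin r → ℂ[X]} (hA : ∀ k, (A k).degree < m) :
    (Matrix.of fun j i => φ i (vn P A j)).det = (Matrix.of fun j i => φ i (bv j)).det := by
  have h1 (k : ℕ) : (P * X ^ k).natDegree = p + k := by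
    rw [hP.natDegree_mul (monic_X_pow k), hd, natDegree_X_pow]
  rw [det_fac, det_tri (ι := J p r m)
    (Sum.elim (fun k => m + k) (Sum.elim (fun k => m + p + k) fun l => l)),
    prod_eq_one, one_mul]
  · rintro (k | k | k) -
    · simp [cfv, vn]
    · exact (congrArg (coeff _) (h1 k).symm).trans (hP.mul (monic_X_pow k)).coeff_natDegree
    · simp [cfv, vn]
  · rintro (k | k | k) (l | l | l) h <;> simp only [elim_inl, elim_inr] at h <;>
      (congr; omega)
  · rintro (k | k | k) (l | l | l) h <;> simp only [elim_inl, elim_inr] at h <;>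
      simp only [Matrix.of_apply, cfv, vn, elim_inl, elim_inr, coeff_zero, coeff_X_pow] <;>
      first | omega | exact if_neg (by omega) | exact coeff_eq_zero_of_natDegree_lt (by rw [h1]; omega)
  · rintro (k | k | k)
    · exact (degree_X_pow_le _).trans_lt (Nat.cast_lt.2 (by omega))
    · exact degree_le_natDegree.trans_lt (Nat.cast_lt.2 ((h1 k).trans_lt (by omega)))
    · exact WithBot.bot_lt_coe _
  · rintro (k | k | k)
    · exact WithBot.bot_lt_coe _
    · exact hA k
    · exact (degree_X_pow_le _).trans_lt (Nat.cast_lt.2 k.2)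

theorem St_nat (k : ℕ) : (St k).natDegree = k ∧ ‖(St k).coeff k‖ = 2 ^ k := by
  have h1 : (Chebyshev.T ℂ k).degree < (Chebyshev.T ℂ (k + 1)).degree := by
    rw [Chebyshev.degree_T, Chebyshev.degree_T]; exact Nat.cast_lt.2 (by omega)
  have h2 : (S0 ℂ k).degree = (k + 1 : ℕ) := by
    rw [S0, degree_sub_eq_right_of_degree_lt h1, Chebyshev.degree_T]; rfl
  have h3 : (St k).natDegree = k := by
    rw [St, natDegree_divByMonic _ (monic_X_sub_C 1), natDegree_eq_of_degree_eq_some h2,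
      natDegree_X_sub_C, Nat.add_sub_cancel]
  refine ⟨h3, ?_⟩
  rw [show (St k).coeff k = (St k).leadingCoeff by rw [leadingCoeff, h3], St, leadingCoeff_divByMonic_X_sub_C _ (by rw [h2]; exact Nat.cast_ne_zero.2 (by omega)), S0,
    leadingCoeff_sub_of_degree_lt' h1, Chebyshev.leadingCoeff_T, norm_neg, norm_pow]
  simp only [Complex.norm_ofNat]
  rfl

theorem St_deg {e : ℤ} {n : ℕ} (h1 : -(n : ℤ) ≤ e) (h2 : e + 1 ≤ n) : (St e).degree < n := by
  refine degree_le_natDegree.trans_lt (Nat.cast_lt.2 ?_)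
  have := natDegree_sub_le (Chebyshev.T ℂ e) (Chebyshev.T ℂ (e + 1))
  rw [Chebyshev.natDegree_T, Chebyshev.natDegree_T] at this
  rw [St, natDegree_divByMonic _ (monic_X_sub_C 1), natDegree_X_sub_C, S0]
  omega

theorem A0_neg (l : ℕ) : (A0 (-(l + 1))).natDegree = l ∧ ‖(A0 (-(l + 1))).coeff l‖ = 2 ^ (l + 1) := by
  have h1 : (Chebyshev.U ℂ (l - 1)).degree < (Chebyshev.U ℂ l).degree := by
    rw [Chebyshev.degree_U_natCast]
    cases l with
    | zero => simp
    | succ l =>
      rw [show ((l + 1 : ℕ) : ℤ) - 1 = l by omega, Chebyshev.degree_U_natCast]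
      exact Nat.cast_lt.2 l.lt_succ_self
  have e : A0 (-(l + 1)) = C 2 * (Chebyshev.U ℂ l - Chebyshev.U ℂ (l - 1)) := by
    rw [A0, if_pos (by omega), show -(-((l : ℤ) + 1)) - 1 = l by ring,
      show -(-((l : ℤ) + 1)) - 2 = l - 1 by ring, C_ofNat]
  have h3 : (A0 (-(l + 1))).natDegree = l := by
    rw [e, natDegree_C_mul two_ne_zero, natDegree_eq_of_degree_eq_some
      ((degree_sub_eq_left_of_degree_lt h1).trans (Chebyshev.degree_U_natCast ℂ l))]
  refine ⟨h3, ?_⟩
  rw [show (A0 (-(l + 1))).coeff l = (A0 (-(l + 1))).leadingCoeff by rw [leadingCoeff, h3],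
    e, leadingCoeff_mul, leadingCoeff_C, leadingCoeff_sub_of_degree_lt h1,
    Chebyshev.leadingCoeff_U_natCast, norm_mul, norm_pow, Complex.norm_ofNat, pow_succ']

/-- the row exponents -/
def ev : J p r m → ℤ := Sum.elim (fun k => k) (Sum.elim (fun k => (p + k : ℕ)) fun l => -(l + 1))

theorem det_vo {N : ℕ} (h : p + r = 18 * N) (φ : J p r (2 * N) → (ℂ[X] × ℂ[X]) →ₗ[ℂ] ℂ) :
    ‖(Matrix.of fun j i => φ i (St (ev j), A0 (ev j))).det‖ ≤
      2 ^ (164 * N ^ 2) * ‖(Matrix.of fun j i => φ i (bv j)).det‖ := by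
  have h0 (k : ℕ) : A0 k = 0 := if_neg (by omega)
  rw [det_fac φ fun j => (St (ev j), A0 (ev j)), norm_mul,
    det_tri (ι := J p r (2 * N))
    (Sum.elim (fun k => k) (Sum.elim (fun k => p + k) fun l => p + r + l))]
  · refine mul_le_mul_of_nonneg_right ?_ (norm_nonneg _)
    have e1 := sum_range_id_mul_two (p + r)
    have e2 := sum_range_id_mul_two (2 * N + 1)
    rw [sum_range, Fin.sum_univ_add] at e1
    rw [sum_range_succ', sum_range] at e2
    rw [norm_prod]
    simp only [Fintype.prod_sum_type, Matrix.of_apply, cfv, ev, elim_inl, elim_inr,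
      (St_nat _).2, (A0_neg _).2, prod_pow_eq_pow_sum, ← pow_add]
    refine pow_le_pow_right₀ one_le_two ?_
    simp only [Fin.val_castAdd, Fin.val_natAdd, Nat.add_sub_cancel, h] at e1 e2
    have e3 : 18 * N * (18 * N - 1) + 18 * N = 18 * N * (18 * N) := by
      cases N with
      | zero => rfl
      | succ n => rw [show 18 * (n + 1) - 1 = 18 * n + 17 by omega]; ring
    nlinarith
  · rintro (k | k | k) (l | l | l) h <;> simp only [elim_inl, elim_inr] at h <;>
      (congr; omega)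
  · rintro (k | k | k) (l | l | l) h <;> simp only [elim_inl, elim_inr] at h <;>
      simp only [Matrix.of_apply, cfv, ev, elim_inl, elim_inr, h0, coeff_zero] <;>
      first | omega | exact coeff_eq_zero_of_natDegree_lt (by rw [(St_nat _).1]; omega) |
        exact coeff_eq_zero_of_natDegree_lt (by rw [(A0_neg _).1]; omega)
  · rintro (k | k | k) <;> refine St_deg ?_ ?_ <;> simp only [ev, elim_inl, elim_inr] <;> omega
  · rintro (k | k | k)
    · exact (congrArg degree (h0 k)).trans_lt (WithBot.bot_lt_coe _)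
    · exact (congrArg degree (h0 (p + k))).trans_lt (WithBot.bot_lt_coe _)
    · exact degree_le_natDegree.trans_lt (Nat.cast_lt.2 ((A0_neg k).1.trans_lt k.2))

theorem interp {σ : Fin m → ℂ} (hσ : Function.Injective σ) {u z : ℂ} (hu : ∀ l, σ l ≠ u)
    (hz : z ≠ u) : (∏ l, (u - σ l))⁻¹ * ((∏ l, (z - σ l)) * (z - u)⁻¹) =
      (z - u)⁻¹ - ∑ l, (Lagrange.basis univ σ l).eval z * (σ l - u)⁻¹ := by
  set P := Lagrange.nodal univ σ
  have h1 : (X - C u) * ((C (P.eval u) - P) /ₘ (X - C u)) = C (P.eval u) - P :=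
    mul_divByMonic_eq_iff_isRoot.2 (by simp)
  have h2 : ((C (P.eval u) - P) /ₘ (X - C u)).degree < (univ : Finset (Fin m)).card := by
    by_cases h : C (P.eval u) - P = 0
    · rw [h, zero_divByMonic]; exact WithBot.bot_lt_coe _
    · refine (degree_divByMonic_lt _ _ h (by simp)).trans_le
        ((degree_sub_le _ _).trans (max_le (degree_C_le.trans (Nat.cast_nonneg _)) ?_))
      exact Lagrange.degree_nodal.le
  set Q := (C (P.eval u) - P) /ₘ (X - C u)
  have h3 (y : ℂ) : (y - u) * Q.eval y = P.eval u - P.eval y := by simpa using congrArg (eval y) h1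
  have h4 := congrArg (eval z) (Lagrange.eq_interpolate hσ.injOn h2)
  have h5 (l) : Q.eval (σ l) = P.eval u * (σ l - u)⁻¹ := by
    rw [eq_mul_inv_iff_mul_eq₀ (sub_ne_zero.2 (hu l)), mul_comm, h3,
      Lagrange.eval_nodal_at_node (mem_univ l), sub_zero]
  have h6 : P.eval u ≠ 0 := Lagrange.eval_nodal_not_at_node fun l _ => (hu l).symm
  simp only [Lagrange.interpolate_apply, eval_finsetSum, eval_mul, eval_C, h5, mul_assoc,
    ← mul_sum] at h4
  have h7 := sub_ne_zero.2 hz
  rw [← Lagrange.eval_nodal, ← Lagrange.eval_nodal]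
  simp only [mul_comm (eval z _)]
  rw [← mul_right_inj' h6, mul_sub, ← h4, mul_inv_cancel_left₀ h6, ← mul_right_inj' h7, mul_sub, h3]
  field_simp
  ring

end Vale.Agent.P030.Elim
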