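import Vale.Agent.P030.Defs

/-! P030: the energy estimate. -/

namespace Vale.Agent.P030

open Polynomial Finset MeasureTheory Filter

namespace Energy

theorem exp_le {r b N : ℝ} (hN : 0 < N) (hr : 0 < r) (hb : 0 ≤ b) (h : 1 ≤ b ^ 2 * (2 * r)) :
    Real.exp (-(Real.log (2 * (r / N)) / 2)) ≤ √N * b := by
  refine (sq_le_sq₀ (Real.exp_pos _).le (by positivity)).1 ?_
  rw [← Real.exp_nat_mul, show ((2 : ℕ) : ℝ) * -(Real.log (2 * (r / N)) / 2) =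
    -Real.log (2 * (r / N)) by push_cast; ring, Real.exp_neg, Real.exp_log (by positivity), mul_pow,
    Real.sq_sqrt hN.le, inv_le_iff_one_le_mul₀ (by positivity)]
  exact h.trans (le_of_eq (by field_simp))

theorem one' (hO : OneStmt) (d : CD) (w : Fin d.K → ℝ) {ρ0 : ℝ} (h0 : 0 < ρ0) (hρ : ∀ k, ρ0 ≤ d.ρ k)
    {N : ℕ} (hN : 1 ≤ N) {ι κ : Type} [DecidableEq ι] [DecidableEq κ] (s : Finset ι) (t : Finset κ)
    (p : ι → ℂ) (q : κ → ℂ) (rp bp : ι → ℝ) (rq bq : κ → ℝ)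
    (hm : N * ∑ k, w k = (s.card : ℝ) - t.card) (hs : s.card ≤ 20 * N) (ht : t.card ≤ 20 * N)
    (h1 : ∀ i ∈ s, 0 < rp i ∧ rp i ≤ 1 ∧ 0 ≤ bp i ∧ 1 ≤ bp i ^ 2 * (2 * rp i))
    (h2 : ∀ j ∈ t, 0 < rq j ∧ rq j ≤ 1 ∧ 0 ≤ bq j ∧ 1 ≤ bq j ^ 2 * (2 * rq j))
    (h3 : ∀ i ∈ s, ∀ j ∈ t, rp i + rq j ≤ ‖p i - q j‖) :
    VV s p * VV t q / CR s p t q ≤
      Real.exp (-((N : ℝ) ^ 2 * d.E w / 2) + N * (400 + 40 * (∑ k, |w k|) / ρ0)) *
        (∏ i ∈ s, Real.exp (N * d.U w (p i)) * (√N * bp i)) *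
        ∏ j ∈ t, Real.exp (-(N * d.U w (q j))) * (√N * bq j) := by
  have hN0 : (0 : ℝ) < N := by exact_mod_cast hN
  have hs' : (s.card : ℝ) ≤ 20 * N := by exact_mod_cast hs
  have ht' : (t.card : ℝ) ≤ 20 * N := by exact_mod_cast ht
  refine (hO ι κ s t p q (fun i => rp i / N) (fun j => rq j / N) d.K d.c d.y d.ρ w N (1 / N) (1 / N)
    ρ0 h0 hρ hN0.le hm (by positivity)
    (fun i hi => ⟨div_pos (h1 i hi).1 hN0, div_le_div_of_nonneg_right (h1 i hi).2.1 hN0.le⟩)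
    (fun i hi => ⟨div_pos (h2 i hi).1 hN0, div_le_div_of_nonneg_right (h2 i hi).2.1 hN0.le⟩)
    fun i hi j hj => by
      rw [← add_div, one_div_mul_eq_div]
      exact div_le_div_of_nonneg_right (h3 i hi j hj) hN0.le).trans ?_
  have e1 : (s.card : ℝ) * t.card * (1 / N) ≤ N * 400 := by
    rw [mul_one_div, div_le_iff₀ hN0]
    nlinarith [mul_le_mul hs' ht' (Nat.cast_nonneg _) (by positivity)]
  have e2 : N * ((s.card : ℝ) + t.card) * (∑ k, |w k|) * (1 / N) / ρ0 ≤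
      N * (40 * (∑ k, |w k|) / ρ0) := by
    rw [show N * ((s.card : ℝ) + t.card) * (∑ k, |w k|) * (1 / N) / ρ0 =
      ((s.card : ℝ) + t.card) * ((∑ k, |w k|) / ρ0) by field_simp, mul_div_assoc, ← mul_assoc]
    exact mul_le_mul_of_nonneg_right (by linarith) (by positivity)
  calc _ ≤ Real.exp (-((N : ℝ) ^ 2 * d.E w / 2) + N * (400 + 40 * (∑ k, |w k|) / ρ0) +
          ∑ i ∈ s, (N * d.U w (p i) + -(Real.log (2 * (rp i / N)) / 2)) +
          ∑ j ∈ t, (-(N * d.U w (q j)) + -(Real.log (2 * (rq j / N)) / 2))) := by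
        refine Real.exp_le_exp.2 ?_
        simp only [sum_add_distrib, sum_neg_distrib, ← mul_sum, ← sum_div, CD.U, CD.E]
        linarith
    _ ≤ _ := by
        rw [Real.exp_add, Real.exp_add _ (∑ i ∈ s, _), Real.exp_sum, Real.exp_sum]
        gcongr with i hi j hj
        · exact mul_nonneg (Real.exp_pos _).le (prod_nonneg fun i hi => mul_nonneg
            (Real.exp_pos _).le (mul_nonneg (Real.sqrt_nonneg _) (h1 i hi).2.2.1))
        · rw [Real.exp_add]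
          gcongr
          exact exp_le hN0 (h1 i hi).1 (h1 i hi).2.2.1 (h1 i hi).2.2.2
        · rw [Real.exp_add]
          gcongr
          exact exp_le hN0 (h2 j hj).1 (h2 j hj).2.2.1 (h2 j hj).2.2.2

theorem ev {C B η : ℝ} (hC : 1 ≤ C) (hη : 0 < η) :
    ∀ᶠ N : ℕ in atTop, (10 * C * N) ^ (58 * N) * Real.exp (N * B) ≤ Real.exp (η * (N : ℝ) ^ 2) := by
  filter_upwards [tendsto_natCast_atTop_atTop.eventually
    (Real.isLittleO_log_id_atTop.bound (show 0 < η / 116 by positivity)),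
    tendsto_natCast_atTop_atTop.eventually_ge_atTop ((58 * Real.log (10 * C) + B) / (η / 2)),
    eventually_ge_atTop 1] with N h1 h2 h3
  have hN0 : (0 : ℝ) < N := by exact_mod_cast h3
  rw [div_le_iff₀ (by positivity)] at h2
  rw [id, Real.norm_of_nonneg hN0.le] at h1
  rw [← Real.exp_log (by positivity : 0 < 10 * C * N), ← Real.exp_nat_mul, ← Real.exp_add,
    Real.exp_le_exp, Real.log_mul (by positivity) hN0.ne']
  have h4 := (le_abs_self _).trans h1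
  push_cast
  nlinarith

theorem gap {x s : ℝ} (h : x ∈ Ax) (h0 : 0 < s) (h1 : s < 1) :
    (1 - x) ^ 2 / 8 + (1 - s) / 2 ≤ ‖((sig x : ℝ) : ℂ) - s‖ := by
  obtain ⟨a1, a2, a3, -⟩ := h
  rw [← Complex.ofReal_sub, Complex.norm_real, Real.norm_eq_abs]
  rcases lt_or_gt_of_ne a3 with h | h
  · have e : sig x = -1 - (1 + x) ^ 2 / (2 * -x) := by rw [sig]; field_simp; ring
    have : 0 ≤ (1 + x) ^ 2 / (2 * -x) := div_nonneg (sq_nonneg _) (by linarith)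
    exact le_abs.2 (Or.inr (by nlinarith))
  · have e : sig x = 1 + (1 - x) ^ 2 / (2 * x) := by rw [sig]; field_simp; ring
    have : (1 - x) ^ 2 / 2 ≤ (1 - x) ^ 2 / (2 * x) :=
      div_le_div_of_nonneg_left (sq_nonneg _) (by positivity) (by linarith)
    exact le_abs.2 (Or.inl (by nlinarith [sq_nonneg (1 - x)]))

theorem prod_bd {ι : Type} {s : Finset ι} {f h : ι → ℝ} {M F : ℝ} (h0 : ∀ i ∈ s, 0 ≤ f i)
    (h1 : ∀ i ∈ s, f i ≤ M * Real.exp F * h i) :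
    ∏ i ∈ s, f i ≤ M ^ s.card * Real.exp (s.card * F) * ∏ i ∈ s, h i := by
  refine (prod_le_prod h0 h1).trans (le_of_eq ?_)
  rw [prod_mul_distrib, prod_const, mul_pow, Real.exp_nat_mul]

theorem comb {n r : ℕ} (a : Finset (Fin n)) {A1 A2 A3 A4 E1 E2 E3 E4 : ℝ}
    {fa fb g u1 u2 u3 q t3 t4 : Fin n → ℝ} {k v1 v2 : Fin r → ℝ} (p1 : ∀ i, 0 ≤ fa i)
    (p2 : ∀ i, 0 ≤ fb i) (p3 : ∀ i, 0 ≤ g i) (p4 : ∀ i, 0 ≤ q i) (p5 : ∀ i, 0 ≤ k i)
    (a1 : 0 ≤ A1) (a2 : 0 ≤ A2) (a3 : 0 ≤ A3) (a4 : 0 ≤ A4)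
    (h1 : A1 ≤ E1 * (∏ i ∈ aᶜ, u1 i) * ∏ l, v1 l) (h2 : A2 ≤ E2 * ((∏ i ∈ a, u2 i) * ∏ l, v2 l))
    (h3 : A3 ≤ E3 * (∏ i, u3 i) * ∏ j, t3 j) (h4 : A4 ≤ E4 * ∏ j, t4 j) :
    (∏ i ∈ a, fa i) * (∏ i ∈ aᶜ, fb i) * A2 * A1 * (∏ l, k l) * ((∏ i, g i) * A3 * A4 * ∏ j, q j) ≤
      E1 * E2 * E3 * E4 * ((∏ i ∈ a, fa i * g i * u2 i * u3 i) * (∏ i ∈ aᶜ, fb i * g i * u1 i * u3 i) *
        ((∏ l, k l * v2 l * v1 l) * ∏ j, q j * t3 j * t4 j)) := by
  have AA := mul_le_mul_of_nonneg_left (mul_le_mul (mul_le_mul h1 h2 a2 (a1.trans h1))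
    (mul_le_mul h3 h4 a4 (a3.trans h3)) (mul_nonneg a3 a4) (mul_nonneg (a1.trans h1) (a2.trans h2)))
    (mul_nonneg (mul_nonneg (mul_nonneg (mul_nonneg (prod_nonneg fun i (_ : i ∈ a) => p1 i)
      (prod_nonneg fun i (_ : i ∈ aᶜ) => p2 i)) (prod_nonneg fun i (_ : i ∈ univ) => p5 i))
      (prod_nonneg fun i (_ : i ∈ univ) => p3 i)) (prod_nonneg fun i (_ : i ∈ univ) => p4 i))
  refine le_trans (le_of_eq (by ring)) (AA.trans (le_of_eq ?_))
  rw [← prod_mul_prod_compl a g, ← prod_mul_prod_compl a u3]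
  simp only [prod_mul_distrib]
  ring

theorem fin {M C1 C2 C3 C4 E F1 F2 F3 F4 p1 p2 p3 X Y Z : ℝ} {k1 k2 k3 k4 K : ℕ} (hM : 1 ≤ M)
    (hk : k1 + k2 + k3 + k4 ≤ K) (hE : 0 ≤ E) (c2 : 0 ≤ C2) (c3 : 0 ≤ C3) (c4 : 0 ≤ C4)
    (q1 : 0 ≤ p1) (q2 : 0 ≤ p2) (q3 : 0 ≤ p3)
    (B1 : C1 ≤ M ^ k1 * Real.exp F1 * p1) (B2 : C2 ≤ M ^ k2 * Real.exp F2 * p2)
    (B3 : C3 ≤ M ^ k3 * Real.exp F3 * p3) (B4 : C4 ≤ M ^ k4 * Real.exp F4 * 1)
    (E1 : E * (Real.exp F1 * Real.exp F2 * Real.exp F3 * Real.exp F4) ≤ Real.exp X * Real.exp Y)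
    (hev : M ^ K * Real.exp Y ≤ Real.exp Z) :
    E * (C1 * C2 * (C3 * C4)) ≤ Real.exp X * Real.exp Z * (p1 * p2) * p3 := by
  have M0 : 0 ≤ M := zero_le_one.trans hM
  have BB := mul_le_mul (mul_le_mul B1 B2 c2 (by positivity)) (mul_le_mul B3 B4 c4 (by positivity))
    (mul_nonneg c3 c4) (by positivity)
  have M2 : M ^ k1 * M ^ k2 * M ^ k3 * M ^ k4 ≤ M ^ K := by
    rw [← pow_add, ← pow_add, ← pow_add]
    exact pow_le_pow_right₀ hM hk
  have h1 := mul_le_mul E1 M2 (by positivity) (by positivity)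
  have h2 := mul_le_mul_of_nonneg_left hev (Real.exp_pos X).le
  have h3 := mul_le_mul_of_nonneg_right (h1.trans (le_trans (le_of_eq (by ring)) h2))
    (mul_nonneg (mul_nonneg q1 q2) q3)
  exact (mul_le_mul_of_nonneg_left BB hE).trans
    (le_trans (le_of_eq (by ring)) (h3.trans (le_of_eq (by ring))))

theorem x1 {x : ℝ} (h : x ∈ Ax) : 0 < 1 - x := sub_pos.2 h.2.1

theorem x2 {x : ℝ} (h : x ∈ Ax) : 0 < |x - 3 / 10| := abs_pos.2 (sub_ne_zero.2 h.2.2.2)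

theorem x3 {x : ℝ} (h : x ∈ Ax) : 0 < hx x := inv_pos.2 (Real.sqrt_pos.2 (x2 h))

theorem sq1 {y : ℝ} (hy : 0 < y) : 1 ≤ (√y)⁻¹ ^ 2 * (2 * (y / 2)) := by
  rw [inv_pow, Real.sq_sqrt hy.le, mul_div_cancel₀ _ two_ne_zero, inv_mul_cancel₀ hy.ne']

theorem radA {x : ℝ} (h : x ∈ Ax) (h4 : 0 < x) : 0 < 1 / 40 * |x - 3 / 10| * (1 - x) ^ 2 ∧
    1 / 40 * |x - 3 / 10| * (1 - x) ^ 2 ≤ 1 ∧ 0 ≤ 5 * hx x / (1 - x) ∧
    1 ≤ (5 * hx x / (1 - x)) ^ 2 * (2 * (1 / 40 * |x - 3 / 10| * (1 - x) ^ 2)) := by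
  have h1 := x1 h
  have h2 := x2 h
  have h3 := x3 h
  have h5 : |x - 3 / 10| ≤ 1 := abs_le.2 ⟨by linarith, by linarith⟩
  have x4 : hx x ^ 2 * |x - 3 / 10| = 1 := by
    rw [hx, inv_pow, Real.sq_sqrt h2.le, inv_mul_cancel₀ h2.ne']
  refine ⟨by positivity, by nlinarith [mul_le_one₀ h5 (sq_nonneg (1 - x)) (by nlinarith)],
    by positivity, ?_⟩
  rw [show (5 * hx x / (1 - x)) ^ 2 * (2 * (1 / 40 * |x - 3 / 10| * (1 - x) ^ 2)) =
    5 / 4 * (hx x ^ 2 * |x - 3 / 10|) by field_simp; ring, x4]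
  norm_num

theorem radB {x : ℝ} (h : x ∈ Ax) : 0 < (1 - x) ^ 2 / 8 ∧ (1 - x) ^ 2 / 8 ≤ 1 ∧ 0 ≤ 2 / (1 - x) ∧
    1 ≤ (2 / (1 - x)) ^ 2 * (2 * ((1 - x) ^ 2 / 8)) := by
  have h1 := x1 h
  exact ⟨by positivity, by nlinarith [h.1], by positivity, le_of_eq (by field_simp; norm_num)⟩

theorem nodeA {P N U V y C F h : ℝ} (hN : 0 ≤ N) (hC : 0 ≤ C) (hh : 0 ≤ h)
    (H : P * Real.exp (N * (U + V)) / y ≤ C * Real.exp F * h) :
    P * (Real.exp (N * U) * √N) * (Real.exp (N * V) * (√N * (2 / y))) ≤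
      10 * C * N * Real.exp F * h := by
  have h1 := mul_le_mul_of_nonneg_left H (by positivity : 0 ≤ 2 * N)
  have h3 : 0 ≤ C * N * Real.exp F * h := by positivity
  refine le_trans (le_of_eq ?_) (h1.trans (by linarith))
  rw [mul_add, Real.exp_add]
  linear_combination (2 * P * Real.exp (N * U) * Real.exp (N * V) / y) * Real.mul_self_sqrt hN

theorem nodeB {P N U V y C F h : ℝ} (hN : 0 ≤ N) (hh : 0 ≤ h)
    (H : P * Real.exp (N * (U + V)) / y ^ 2 ≤ C * Real.exp F) :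
    P * (Real.exp (N * U) * (√N * (5 * h / y))) * (Real.exp (N * V) * (√N * (2 / y))) ≤
      10 * C * N * Real.exp F * h := by
  have h1 := mul_le_mul_of_nonneg_left H (by positivity : 0 ≤ 10 * N * h)
  refine le_trans (le_of_eq ?_) (h1.trans (le_of_eq (by ring)))
  rw [mul_add, Real.exp_add]
  linear_combination (10 * h * P * Real.exp (N * U) * Real.exp (N * V) / y ^ 2) *
    Real.mul_self_sqrt hN

theorem nodeU {k N U V m C F h : ℝ} (hN : 0 ≤ N) (hC : 1 ≤ C) (hm : 0 < m) (hk : 0 ≤ k)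
    (H1 : k ≤ 10 * √m * h) (H2 : U - V ≤ F) :
    k * (Real.exp (N * U) * √N) * (Real.exp (-(N * V)) * (√N * (√m)⁻¹)) ≤
      10 * C * N * Real.exp (N * F) * h := by
  have h1 : k * (√m)⁻¹ ≤ 10 * h := by
    rw [mul_inv_le_iff₀ (Real.sqrt_pos.2 hm)]; linarith
  have h2 : Real.exp (N * U) * Real.exp (-(N * V)) ≤ C * Real.exp (N * F) := by
    rw [← Real.exp_add]
    exact (Real.exp_le_exp.2 (by nlinarith)).trans (le_mul_of_one_le_left (Real.exp_pos _).le hC)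
  have h3 := mul_le_mul_of_nonneg_left (mul_le_mul h1 h2 (by positivity)
    (le_trans (by positivity) h1)) hN
  refine le_trans (le_of_eq ?_) (h3.trans (le_of_eq (by ring)))
  linear_combination (k * (√m)⁻¹ * Real.exp (N * U) * Real.exp (-(N * V))) * Real.mul_self_sqrt hN

theorem nodeS {P N U V y C F : ℝ} (hN : 0 ≤ N) (hC : 0 ≤ C)
    (H : P * Real.exp (N * (U - V)) / y ≤ C * Real.exp F) :
    P * (Real.exp (-(N * V)) * (√N * y⁻¹)) * (Real.exp (N * U) * √N) ≤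
      10 * C * N * Real.exp F * 1 := by
  have h1 := mul_le_mul_of_nonneg_left H hN
  have h3 : 0 ≤ C * N * Real.exp F := by positivity
  refine le_trans (le_of_eq ?_) (h1.trans (by linarith))
  rw [mul_sub, sub_eq_add_neg, Real.exp_add]
  linear_combination (P * Real.exp (-(N * V)) * y⁻¹ * Real.exp (N * U)) * Real.mul_self_sqrt hN

theorem two (hO : OneStmt) (hC : CauchyStmt) (d : CD) (w : Fin d.K → ℝ) {ρ0 : ℝ} (h0 : 0 < ρ0)
    (hρ : ∀ k, ρ0 ≤ d.ρ k) {N : ℕ} (hN : 1 ≤ N) {ι κ : Type} [DecidableEq ι] [DecidableEq κ]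
    (s : Finset ι) (t : Finset κ) (p : ι → ℂ) (q : κ → ℂ)
    (hm : N * ∑ k, w k = (s.card + t.card : ℕ)) (hs : s.card + t.card ≤ 20 * N) :
    VV s p * VV t q * CR s p t q ≤
      Real.exp (-((N : ℝ) ^ 2 * d.E w / 2) + N * (400 + 40 * (∑ k, |w k|) / ρ0)) *
        ((∏ i ∈ s, Real.exp (N * d.U w (p i)) * √N) * ∏ j ∈ t, Real.exp (N * d.U w (q j)) * √N) := by
  have dj : Disjoint (s.map Function.Embedding.inl) (t.map Function.Embedding.inr) :=
    disjoint_map_inl_map_inr _ _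
  have A2 := one' hO d w h0 hρ hN (s.map Function.Embedding.inl ∪ t.map Function.Embedding.inr)
    (∅ : Finset Unit) (Sum.elim p q) (fun _ => 0) (fun _ => 1) (fun _ => 1) (fun _ => 1)
    (fun _ => 1) (by rw [hm, card_union_of_disjoint dj, card_map, card_map]; simp)
    (by rwa [card_union_of_disjoint dj, card_map, card_map])
    (by simp) (fun _ _ => by norm_num) (by simp) (by simp)
  rw [hC.2.2.1 _ _ _ _ dj, hC.2.2.2, hC.2.2.2, prod_union dj] at A2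
  simpa [CR, show VV (∅ : Finset Unit) (fun _ => 0) = 1 by simp [VV]] using A2

theorem nn {ι κ : Type} [DecidableEq ι] [DecidableEq κ] (t : Finset ι) (t' : Finset κ) (p : ι → ℂ)
    (q : κ → ℂ) : 0 ≤ VV t p * VV t' q / CR t p t' q ∧ 0 ≤ VV t p * VV t' q * CR t p t' q := by
  unfold VV CR
  constructor <;> positivity

end Energy

open Energy in
theorem energy (hO : OneStmt) (hC : CauchyStmt) (hG : GeoStmt) (hN : NodeStmt) (hK : CertStmt) :
    EnergyStmt := by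
  intro η hη
  obtain ⟨d, hd⟩ := hK
  obtain ⟨C, hC1, hN⟩ := hN d hd
  obtain ⟨ρ0, h0, hρ⟩ : ∃ ρ0 : ℝ, 0 < ρ0 ∧ ∀ k, ρ0 ≤ d.ρ k := by
    obtain ⟨M, hM⟩ := Finite.exists_le fun k => (d.ρ k)⁻¹
    exact ⟨(max M 1)⁻¹, by positivity, fun k =>
      inv_le_of_inv_le₀ (hd.pos k) ((hM k).trans (le_max_left _ _))⟩
  filter_upwards [ev (B := (400 + 40 * (∑ k, |d.w1 k|) / ρ0) + (400 + 40 * (∑ k, |d.w2 k|) / ρ0) +
    (400 + 40 * (∑ k, |d.w3 k|) / ρ0) + (400 + 40 * (∑ k, |d.w4 k|) / ρ0)) hC1 hη,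
    eventually_ge_atTop 1] with N hev hN1 x s a r ω hx' hs ha1 ha2 har hω
  obtain ⟨n1, n2, n3, n4⟩ := hN N hN1
  clear hN
  have hN0 : (0 : ℝ) ≤ N := N.cast_nonneg
  have hC0 : 0 ≤ C := zero_le_one.trans hC1
  have hac : aᶜ.card + a.card = 20 * N := by rw [card_compl, Fintype.card_fin]; omega
  have har' : (a.card : ℝ) + r = 18 * N := by exact_mod_cast har
  have hac' : (aᶜ.card : ℝ) + a.card = 20 * N := by exact_mod_cast hac
  have hr : (univ : Finset (Fin r)).card = r := by simp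
  have hn : (univ : Finset (Fin (20 * N))).card = 20 * N := by simp
  have s1 (j) : 0 < 1 - s j := sub_pos.2 (hs j).2
  have m1 (l) := hG.2.1 (ω l) (hω l)
  have A1 := one' hO d d.w1 h0 hρ hN1 aᶜ univ (sg x) (fun l => uu (ω l)) _ _ _ _
    (by rw [hd.m1, hr]; linarith) (by omega) (by omega)
    (fun i hi => radA (hx' i) (ha1 i (mem_compl.1 hi)))
    (fun l _ => ⟨half_pos (m1 l).1, by linarith [(m1 l).2.1], by positivity, sq1 (m1 l).1⟩)
    fun i hi l _ => by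
      have := hG.1 (x i) (ha1 i (mem_compl.1 hi)) (hx' i).2.1 (ω l) (hω l)
      simp only [sg]
      linarith [this.1, this.2]
  have A2 := two hO hC d d.w2 h0 hρ hN1 a univ (sg x) (fun l => uu (ω l))
    (by rw [hd.m2, hr, har]; push_cast; ring) (by omega)
  have A3 := one' hO d d.w3 h0 hρ hN1 univ univ (sg x) (fun j => (s j : ℂ)) _ _ _ _
    (by rw [hd.m3, mul_zero, sub_self]) hn.le hn.le (fun i _ => radB (hx' i))
    (fun j _ => ⟨half_pos (s1 j), by linarith [(hs j).1], by positivity, sq1 (s1 j)⟩)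
    fun i _ j _ => gap (hx' i) (hs j).1 (hs j).2
  have A4 := two hO hC d d.w4 h0 hρ hN1 univ (∅ : Finset Unit) (fun j => (s j : ℂ)) (fun _ => 0)
    (by rw [hd.m4, hn]; simp [mul_comm]) (by simp)
  rw [show VV (∅ : Finset Unit) (fun _ => 0) = 1 by simp [VV], CR, prod_empty, mul_one, mul_one,
    prod_eq_one fun _ _ => prod_empty, mul_one] at A4
  have hq (j) : 0 ≤ qq N 0 (s j) := mul_nonneg (pow_nonneg (s1 j).le _) (pow_nonneg (hs j).1.le _)
  refine (comb a (fun _ => abs_nonneg _) (fun _ => abs_nonneg _) (fun _ => by positivity) hq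
    (fun _ => norm_nonneg _) (nn _ _ _ _).1 (nn _ _ _ _).2 (nn _ _ _ _).1 (Real.sqrt_nonneg _)
    A1 A2 A3 A4).trans ?_
  clear A1 A2 A3 A4
  rw [← prod_mul_prod_compl a fun i => hx (x i), add_mul _ η, Real.exp_add _ (η * _)]
  refine fin (by nlinarith [(Nat.one_le_cast.2 hN1 : (1 : ℝ) ≤ N)]) ?_ (by positivity)
    (prod_nonneg fun i _ => by have := x1 (hx' i); have := x3 (hx' i); positivity)
    (prod_nonneg fun i _ => by positivity) (prod_nonneg fun j _ => by have := hq j; positivity)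
    (prod_nonneg fun i _ => (x3 (hx' i)).le) (prod_nonneg fun i _ => (x3 (hx' i)).le)
    (prod_nonneg fun l _ => by unfold ho; positivity)
    (prod_bd (fun i _ => by have := x1 (hx' i); positivity)
      fun i hi => nodeA hN0 hC0 (x3 (hx' i)).le (n1 (x i) (hx' i) (ha2 i hi)))
    (prod_bd (fun i _ => by have := x1 (hx' i); have := x3 (hx' i); positivity)
      fun i hi => nodeB hN0 (x3 (hx' i)).le (n2 (x i) (hx' i) (ha1 i (mem_compl.1 hi))))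
    (prod_bd (fun l _ => by positivity)
      fun l _ => nodeU hN0 hC1 (m1 l).1 (norm_nonneg _) (m1 l).2.2 (n4 _ (hω l)))
    ((prod_bd (fun j _ => by have := hq j; positivity)
      fun j _ => nodeS hN0 hC0 (n3 (s j) (hs j).1 (hs j).2)).trans (by rw [prod_const_one])) ?_ hev
  · omega
  · simp only [← Real.exp_add, Real.exp_le_exp, hr, hn]
    rw [show (aᶜ.card : ℝ) = 20 * N - a.card by linarith, show (r : ℝ) = 18 * N - a.card by linarith]
    push_cast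
    linarith [mul_le_mul_of_nonneg_left hd.tot (sq_nonneg (N : ℝ))]

end Vale.Agent.P030
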