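import Vale.Agent.P030.Base

/-!
# P030: the matrix entries as double integrals
-/

namespace Vale.Agent.P030

open Polynomial Finset MeasureTheory Filter Topology

namespace Entry

instance : IsFiniteMeasure mx := by unfold mx; infer_instance

instance : IsFiniteMeasure ms := by unfold ms; infer_instance

theorem abs_tt_le (x : ℝ) : |tt x| ≤ 1 := by
  have h : 0 < 1 + x ^ 2 := by positivity
  rw [tt, abs_div, abs_of_pos h, div_le_one h, abs_le]
  constructor <;> nlinarith [sq_nonneg (x + 1), sq_nonneg (x - 1)]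

theorem meas_tt : Measurable tt := by unfold tt; fun_prop

theorem int_pow (n : ℕ) : ∫ s, s ^ n ∂ms = 1 / ((n : ℝ) + 1) := by
  rw [ms, ← integral_Ioc_eq_integral_Ioo, ← intervalIntegral.integral_of_le zero_le_one,
    integral_pow]
  simp

theorem ae_ms : ∀ᵐ s ∂ms, 0 < s ∧ s < 1 := ae_restrict_mem measurableSet_Ioo

theorem intg_pow (n : ℕ) : Integrable (fun s : ℝ => s ^ n) ms := by
  refine Integrable.of_bound (by fun_prop) 1 ?_
  filter_upwards [ae_ms] with s hs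
  rw [norm_pow, Real.norm_of_nonneg hs.1.le]
  exact pow_le_one₀ hs.1.le hs.2.le

theorem key (φ : ℝ → ℝ) (hφ : Measurable φ) (C : ℝ) (hC : ∀ x, |φ x| ≤ C) (j : ℕ) (a b : ℕ → ℝ)
    (ha : ∀ m, ∫ x, φ x * tt x ^ m ∂mx = a m) (hb : ∀ m, ∫ x, |φ x * tt x ^ m| ∂mx ≤ b m)
    (hs : Summable fun m : ℕ => b m / ((j : ℝ) + m + 1)) :
    Integrable (fun z : ℝ × ℝ => φ z.1 * (1 - tt z.1 * z.2)⁻¹ * z.2 ^ j) (mx.prod ms) ∧
    HasSum (fun m : ℕ => a m / ((j : ℝ) + m + 1))
      (∫ z : ℝ × ℝ, φ z.1 * (1 - tt z.1 * z.2)⁻¹ * z.2 ^ j ∂(mx.prod ms)) := by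
  have hm := meas_tt
  have hi : ∀ m, Integrable (fun x => φ x * tt x ^ m) mx := by
    intro m
    refine Integrable.of_bound (by fun_prop : Measurable _).aestronglyMeasurable C
      (Eventually.of_forall fun x => ?_)
    rw [Real.norm_eq_abs, abs_mul, abs_pow]
    exact (mul_le_of_le_one_right (abs_nonneg _)
      (pow_le_one₀ (abs_nonneg _) (abs_tt_le x))).trans (hC x)
  set F : ℕ → ℝ × ℝ → ℝ := fun m z => (φ z.1 * tt z.1 ^ m) * z.2 ^ (j + m) with hF
  have hFi : ∀ m, Integrable (F m) (mx.prod ms) := fun m => (hi m).mul_prod (intg_pow _)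
  have hFa : ∀ m, ∫ z, F m z ∂(mx.prod ms) = a m / ((j : ℝ) + m + 1) := by
    intro m
    rw [hF, integral_prod_mul (fun x => φ x * tt x ^ m) (fun s => s ^ (j + m)), ha, int_pow]
    push_cast
    ring
  have hFn : ∀ m, ∫ z, ‖F m z‖ ∂(mx.prod ms) ≤ b m / ((j : ℝ) + m + 1) := by
    intro m
    simp only [hF, norm_mul (φ _ * tt _ ^ m)]
    rw [integral_prod_mul (fun x => ‖φ x * tt x ^ m‖) (fun s : ℝ => ‖s ^ (j + m)‖)]
    have : ∫ s : ℝ, ‖s ^ (j + m)‖ ∂ms = 1 / ((j : ℝ) + m + 1) := by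
      rw [← Nat.cast_add, ← int_pow]
      refine integral_congr_ae ?_
      filter_upwards [ae_ms] with s hs
      exact Real.norm_of_nonneg (pow_nonneg hs.1.le _)
    rw [this, mul_one_div]
    exact div_le_div_of_nonneg_right (hb m) (by positivity)
  have hsum : Summable fun m => ∫ z, ‖F m z‖ ∂(mx.prod ms) :=
    Summable.of_nonneg_of_le (fun m => integral_nonneg fun z => norm_nonneg _) hFn hs
  have hae : ∀ᵐ z ∂(mx.prod ms), ∑' m, F m z = φ z.1 * (1 - tt z.1 * z.2)⁻¹ * z.2 ^ j := by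
    have : ∀ᵐ z ∂(mx.prod ms), 0 < z.2 ∧ z.2 < 1 :=
      Measure.quasiMeasurePreserving_snd.ae ae_ms
    filter_upwards [this] with z hz
    have h1 : |tt z.1 * z.2| < 1 := by
      rw [abs_mul, abs_of_pos hz.1]
      exact (mul_le_of_le_one_left hz.1.le (abs_tt_le _)).trans_lt hz.2
    have h2 := ((hasSum_geometric_of_abs_lt_one h1).mul_left (φ z.1)).mul_right (z.2 ^ j)
    rw [← h2.tsum_eq]
    refine tsum_congr fun m => ?_
    simp only [hF]
    ring
  have hH := hasSum_integral_of_summable_integral_norm hFi hsum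
  simp only [hFa] at hH
  rw [integral_congr_ae hae] at hH
  refine ⟨⟨(by fun_prop : Measurable _).aestronglyMeasurable, ?_⟩, hH⟩
  rw [HasFiniteIntegral]
  calc ∫⁻ z, ‖φ z.1 * (1 - tt z.1 * z.2)⁻¹ * z.2 ^ j‖ₑ ∂(mx.prod ms)
      ≤ ∫⁻ z, ∑' m, ‖F m z‖ₑ ∂(mx.prod ms) := by
        refine lintegral_mono_ae ?_
        filter_upwards [hae] with z hz
        rw [← hz]
        exact enorm_tsum_le_tsum_enorm
    _ = ∑' m, ∫⁻ z, ‖F m z‖ₑ ∂(mx.prod ms) := lintegral_tsum fun m => (hFi m).1.enorm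
    _ = ENNReal.ofReal (∑' m, ∫ z, ‖F m z‖ ∂(mx.prod ms)) := by
        rw [ENNReal.ofReal_tsum_of_nonneg (fun m => integral_nonneg fun z => norm_nonneg _) hsum]
        exact tsum_congr fun m => (ofReal_integral_norm_eq_lintegral_enorm (hFi m)).symm
    _ < ⊤ := ENNReal.ofReal_lt_top

noncomputable def p1 (x : ℝ) : ℝ := 2 / (1 + x ^ 2) * |tt x|

noncomputable def p2 (x : ℝ) : ℝ := if 0 < x then 2 / (1 + x ^ 2) * ((1 - x ^ 2) / (1 + x ^ 2)) else 0

theorem two_div_le (x : ℝ) : 0 ≤ 2 / (1 + x ^ 2) ∧ 2 / (1 + x ^ 2) ≤ 2 :=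
  ⟨by positivity, div_le_self (by norm_num) (by nlinarith [sq_nonneg x])⟩

theorem p1_nonneg (x : ℝ) : 0 ≤ p1 x := mul_nonneg (two_div_le x).1 (abs_nonneg _)

theorem p1_le (x : ℝ) : |p1 x| ≤ 2 := by
  rw [abs_of_nonneg (p1_nonneg x)]
  exact (mul_le_of_le_one_right (two_div_le x).1 (abs_tt_le x)).trans (two_div_le x).2

theorem p2_le (x : ℝ) : |p2 x| ≤ 2 := by
  unfold p2
  split_ifs
  · rw [abs_mul, abs_of_nonneg (two_div_le x).1]
    refine (mul_le_of_le_one_right (two_div_le x).1 ?_).trans (two_div_le x).2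
    have h : 0 < 1 + x ^ 2 := by positivity
    rw [abs_div, abs_of_pos h, div_le_one h, abs_le]
    constructor <;> nlinarith [sq_nonneg x]
  · simp

theorem meas_p1 : Measurable p1 := by have := meas_tt; unfold p1; fun_prop

theorem meas_p2 : Measurable p2 :=
  Measurable.ite measurableSet_Ioi (by fun_prop) measurable_const

theorem aa_even {m : ℤ} (h : m % 2 = 0) : aa m = 0 := if_neg (by omega)

theorem mul_pow_le {φ : ℝ → ℝ} (h : ∀ x, |φ x| ≤ 2) (i : ℕ) (x : ℝ) : |φ x * tt x ^ i| ≤ 2 := by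
  rw [abs_mul, abs_pow]
  exact (mul_le_of_le_one_right (abs_nonneg _)
    (pow_le_one₀ (abs_nonneg _) (abs_tt_le x))).trans (h x)

theorem J1 (h1 : MomStmt) (h2 : SerStmt) (i j : ℕ) :
    Integrable (fun z : ℝ × ℝ => (p1 z.1 * tt z.1 ^ i) * (1 - tt z.1 * z.2)⁻¹ * z.2 ^ j)
      (mx.prod ms) ∧
    ∫ z : ℝ × ℝ, (p1 z.1 * tt z.1 ^ i) * (1 - tt z.1 * z.2)⁻¹ * z.2 ^ j ∂(mx.prod ms) =
      (MM i j : ℝ) + 4 * GG * (cz ((i : ℤ) - j) : ℝ) +
        Real.pi ^ 2 / 4 * (cz ((j : ℤ) - i - 1) : ℝ) := by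
  have hm := meas_tt
  have hm1 := meas_p1
  have ha : ∀ n : ℕ, ∫ x, p1 x * tt x ^ n ∂mx = (aa ((n : ℤ) + 1) : ℝ) := h1.1
  have hb : ∀ n : ℕ, ∫ x, |p1 x * tt x ^ n| ∂mx ≤ (aa ((n : ℤ) + 1) : ℝ) + (aa n : ℝ) := by
    intro n
    rcases Nat.even_or_odd' n with ⟨l, rfl | rfl⟩
    · rw [aa_even (m := ((2 * l : ℕ) : ℤ)) (by omega), ← ha]
      simp only [Rat.cast_zero, add_zero]
      refine le_of_eq (integral_congr_ae (Eventually.of_forall fun x => abs_of_nonneg ?_))
      exact mul_nonneg (p1_nonneg x) (by rw [pow_mul]; positivity)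
    · rw [aa_even (m := ((2 * l + 1 : ℕ) : ℤ) + 1) (by omega), Nat.cast_succ, ← ha]
      simp only [Rat.cast_zero, zero_add]
      refine integral_mono_of_nonneg (Eventually.of_forall fun x => abs_nonneg _)
        (Integrable.of_bound (by fun_prop : Measurable _).aestronglyMeasurable 2
          (Eventually.of_forall fun x => mul_pow_le p1_le _ x)) (Eventually.of_forall fun x => ?_)
      simp only
      rw [abs_mul, abs_of_nonneg (p1_nonneg x), pow_succ, abs_mul,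
        abs_of_nonneg (by rw [pow_mul]; positivity : 0 ≤ tt x ^ (2 * l))]
      exact mul_le_mul_of_nonneg_left
        (mul_le_of_le_one_right (by rw [pow_mul]; positivity) (abs_tt_le x)) (p1_nonneg x)
  have hk := key (fun x => p1 x * tt x ^ i) (by fun_prop) 2 (mul_pow_le p1_le i) j
    (fun m => (aa ((i : ℤ) + m + 1) : ℝ))
    (fun m => (aa ((i : ℤ) + m + 1) : ℝ) + (aa ((i : ℤ) + m) : ℝ))
    (fun m => by simp only [mul_assoc, ← pow_add]; rw [ha]; push_cast; rfl)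
    (fun m => by simp only [mul_assoc, ← pow_add]; exact_mod_cast hb (i + m))
    (by
      simp only [add_div]
      refine (h2 i j).1.summable.add ?_
      rw [← summable_nat_add_iff 1]
      refine (h2 i (j + 1)).1.summable.congr fun m => ?_
      push_cast
      rw [add_assoc (i : ℤ)]
      ring)
  exact ⟨hk.1, hk.2.unique (h2 i j).1⟩

theorem int_p2 (g : ℝ → ℝ) : ∫ x, (if 0 < x then g x else 0) ∂mx = ∫ x in Set.Ioo (0 : ℝ) 1, g x := by
  have : (fun x => if 0 < x then g x else 0) = (Set.Ioi 0).indicator g := by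
    funext x; simp [Set.indicator]
  rw [this, mx, integral_indicator measurableSet_Ioi, Measure.restrict_restrict measurableSet_Ioi]
  have : Set.Ioi (0 : ℝ) ∩ Set.Ioo (-1) 1 = Set.Ioo 0 1 := by
    ext x; simp only [Set.mem_inter_iff, Set.mem_Ioi, Set.mem_Ioo]
    constructor
    · rintro ⟨a, -, c⟩; exact ⟨a, c⟩
    · rintro ⟨a, c⟩; exact ⟨a, by linarith, c⟩
  rw [this]

theorem J2 (h1 : MomStmt) (h2 : SerStmt) (i j : ℕ) :
    Integrable (fun z : ℝ × ℝ => (p2 z.1 * tt z.1 ^ i) * (1 - tt z.1 * z.2)⁻¹ * z.2 ^ j)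
      (mx.prod ms) ∧
    ∫ z : ℝ × ℝ, (p2 z.1 * tt z.1 ^ i) * (1 - tt z.1 * z.2)⁻¹ * z.2 ^ j ∂(mx.prod ms) =
      (ZZ i j : ℝ) + if i = j then Real.pi ^ 2 / 6 else 0 := by
  have hm := meas_tt
  have hm2 := meas_p2
  have ha : ∀ n : ℕ, ∫ x, p2 x * tt x ^ n ∂mx = 1 / ((n : ℝ) + 1) := by
    intro n
    rw [← h1.2, ← int_p2]
    simp only [p2, ite_mul, zero_mul]
  have hb : ∀ n : ℕ, ∫ x, |p2 x * tt x ^ n| ∂mx = 1 / ((n : ℝ) + 1) := by
    intro n
    rw [← ha]
    refine integral_congr_ae ?_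
    filter_upwards [ae_restrict_mem (μ := volume) (measurableSet_Ioo (a := (-1 : ℝ)) (b := 1))]
      with x hx
    refine abs_of_nonneg ?_
    unfold p2
    split_ifs with h
    · have : 0 ≤ 1 - x ^ 2 := by nlinarith [hx.2]
      unfold tt
      positivity
    · simp
  have hk := key (fun x => p2 x * tt x ^ i) (by fun_prop) 2 (mul_pow_le p2_le i) j
    (fun m => 1 / ((i : ℝ) + m + 1)) (fun m => 1 / ((i : ℝ) + m + 1))
    (fun m => by simp only [mul_assoc, ← pow_add]; rw [ha]; push_cast; rfl)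
    (fun m => by simp only [mul_assoc, ← pow_add]; rw [hb]; push_cast; rfl)
    (by simpa only [div_div] using (h2 i j).2.summable)
  refine ⟨hk.1, hk.2.unique ?_⟩
  simpa only [div_div] using (h2 i j).2

theorem eval_expand (P : ℚ[X]) {n : ℕ} (h : ∀ k, n ≤ k → P.coeff k = 0) (x : ℝ) :
    aeval x P = ∑ k ∈ range n, (P.coeff k : ℝ) * x ^ k := by
  rcases eq_or_ne P 0 with rfl | hP
  · simp
  have : P.natDegree < n := by
    by_contra hn
    exact hP (leadingCoeff_eq_zero.1 (h _ (not_lt.1 hn)))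
  rw [aeval_eq_sum_range' this]
  simp [Algebra.smul_def]

theorem aeval_S0 (e : ℤ) (x : ℝ) : aeval x (S0 ℚ e) = (S0 ℝ e).eval x := by
  rw [← S0_map (algebraMap ℚ ℝ), eval_map_algebraMap]

theorem aeval_D0 (e : ℤ) (x : ℝ) : aeval x (D0 ℚ e) = (D0 ℝ e).eval x := by
  rw [← D0_map (algebraMap ℚ ℝ), eval_map_algebraMap]

theorem qq_expand (N : ℕ) (k : Fin (20 * N)) (s : ℝ) :
    qq N k s = ∑ j ∈ range (27 * N), ((colQ N k).coeff j : ℝ) * s ^ j := by
  rw [← eval_expand _ (fun j hj => coeff_colQ_eq_zero N k (Or.inr (by have := k.2; omega)))]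
  simp [qq, colQ]

theorem Wt_expand (N : ℕ) (e : Fin (20 * N)) {x : ℝ} (hx : x ≠ 0) :
    Wt N x * psi (((e : ℕ) : ℤ) - 2 * N) x = ∑ k ∈ range (27 * N),
      (((rowS N e).coeff k : ℝ) * (p1 x * tt x ^ (27 * N - 1 - k)) -
        3 / 2 * ((rowD N e).coeff k : ℝ) * (p2 x * tt x ^ (27 * N - 1 - k))) := by
  have hN : 1 ≤ N := by have := e.2; omega
  have hp : 1 + x ^ 2 ≠ 0 := by positivity
  have hts : tt x * sig x = 1 := by unfold tt sig; field_simp; ring
  have hpow : ∀ k ∈ range (27 * N), tt x ^ (27 * N - 1 - k) = tt x ^ (27 * N - 1) * sig x ^ k := by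
    intro k hk
    rw [mem_range] at hk
    rw [show 27 * N - 1 = (27 * N - 1 - k) + k by omega, pow_add, mul_assoc, ← mul_pow, hts]
    simp
  have hS := eval_expand (rowS N e) (n := 27 * N) (fun k hk => coeff_eq_zero_of_natDegree_lt
    ((natDegree_rowS_le N e).trans_lt (by omega))) (sig x)
  have hD := eval_expand (rowD N e) (n := 27 * N)
    (fun k hk => coeff_rowD_eq_zero N e (by omega)) (sig x)
  have hW : Wt N x = p1 x * (tt x ^ (27 * N - 1) * (sig x - 1) ^ N) := by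
    rw [Wt, p1, show 27 * N - 1 = (26 * N - 1) + N by omega, pow_add, mul_assoc (tt x ^ _),
      ← mul_pow, mul_sub, hts]
    ring
  have e1 : ∑ k ∈ range (27 * N),
      (((rowS N e).coeff k : ℝ) * (p1 x * tt x ^ (27 * N - 1 - k)) -
        3 / 2 * ((rowD N e).coeff k : ℝ) * (p2 x * tt x ^ (27 * N - 1 - k))) =
      p1 x * tt x ^ (27 * N - 1) * aeval (sig x) (rowS N e) -
        3 / 2 * p2 x * tt x ^ (27 * N - 1) * aeval (sig x) (rowD N e) := by
    rw [hS, hD, mul_sum, mul_sum, ← sum_sub_distrib]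
    refine sum_congr rfl fun k hk => ?_
    rw [hpow k hk]
    ring
  rw [e1, hW, psi]
  simp only [rowS, rowD, map_mul, map_pow, map_sub, aeval_X, map_one, aeval_S0, aeval_D0]
  split_ifs with h
  · have : p2 x = p1 x * ww x := by
      have : 0 < tt x := by unfold tt; positivity
      rw [p2, if_pos h, p1, abs_of_pos this, tt, ww]
      field_simp
    rw [this]
    ring
  · rw [p2, if_neg h]
    ring

end Entry

open Entry in
theorem entry (h1 : MomStmt) (h2 : SerStmt) (h3 : PadeStmt) : EntryStmt := by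
  intro N e k
  have hN : 1 ≤ N := by have := e.2; omega
  set G : ℕ → ℕ → ℝ × ℝ → ℝ := fun a j z => ((colQ N k).coeff j : ℝ) *
    (((rowS N e).coeff a : ℝ) *
      ((p1 z.1 * tt z.1 ^ (27 * N - 1 - a)) * (1 - tt z.1 * z.2)⁻¹ * z.2 ^ j) -
    3 / 2 * ((rowD N e).coeff a : ℝ) *
      ((p2 z.1 * tt z.1 ^ (27 * N - 1 - a)) * (1 - tt z.1 * z.2)⁻¹ * z.2 ^ j)) with hG
  have hGi : ∀ a j, Integrable (G a j) (mx.prod ms) := fun a j =>
    (((J1 h1 h2 _ j).1.const_mul _).sub ((J2 h1 h2 _ j).1.const_mul _)).const_mul _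
  have hae : (fun z : ℝ × ℝ => ∑ a ∈ range (27 * N), ∑ j ∈ range (27 * N), G a j z) =ᵐ[mx.prod ms]
      fun z : ℝ × ℝ => (Wt N z.1 * psi (((e : ℕ) : ℤ) - 2 * N) z.1) * (1 - tt z.1 * z.2)⁻¹ *
        qq N k z.2 := by
    have h0 : ∀ᵐ x ∂mx, x ≠ 0 := ae_restrict_of_ae (Measure.ae_ne volume 0)
    filter_upwards [Measure.quasiMeasurePreserving_fst.ae h0] with z hz
    rw [Wt_expand N e hz, qq_expand, sum_mul, sum_mul_sum]
    refine sum_congr rfl fun a _ => sum_congr rfl fun j _ => ?_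
    simp only [hG]
    ring
  have hint : Integrable (fun z : ℝ × ℝ => ∑ a ∈ range (27 * N), ∑ j ∈ range (27 * N), G a j z)
      (mx.prod ms) := integrable_finsetSum _ fun a _ => integrable_finsetSum _ fun j _ => hGi a j
  refine ⟨hint.congr hae, ?_⟩
  rw [← integral_congr_ae hae,
    integral_finsetSum _ fun a _ => integrable_finsetSum _ fun j _ => hGi a j]
  have hI : 27 * N - 1 + 1 = 27 * N := by omega
  have hcalc : ∀ a ∈ range (27 * N), ∫ z, ∑ j ∈ range (27 * N), G a j z ∂(mx.prod ms) =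
      ∑ j ∈ range (27 * N),
        (((((rowS N e).coeff a * MM (((27 * N - 1 : ℕ) : ℤ) - a) j -
          3 / 2 * (rowD N e).coeff a * ZZ (((27 * N - 1 : ℕ) : ℤ) - a) j) * (colQ N k).coeff j : ℚ) : ℝ)
        + GG * (((rowS N e).coeff a * (4 * cz (((27 * N - 1 : ℕ) : ℤ) - a - j)) *
          (colQ N k).coeff j : ℚ) : ℝ)
        + Real.pi ^ 2 / 4 * ((colQ N k).coeff j * ((rowS N e).coeff a * cz ((j : ℤ) + a - 27 * N) -
          if a = 27 * N - 1 - j then (rowD N e).coeff a else 0) : ℚ)) := by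
    intro a ha
    rw [mem_range] at ha
    rw [integral_finsetSum _ fun j _ => hGi a j]
    refine sum_congr rfl fun j hj => ?_
    rw [mem_range] at hj
    simp only [hG]
    rw [integral_const_mul, integral_sub ((J1 h1 h2 _ j).1.const_mul _)
      ((J2 h1 h2 _ j).1.const_mul _), integral_const_mul, integral_const_mul,
      (J1 h1 h2 _ j).2, (J2 h1 h2 _ j).2]
    have c1 : ((27 * N - 1 - a : ℕ) : ℤ) = ((27 * N - 1 : ℕ) : ℤ) - a := by omega
    have c2 : (j : ℤ) - (((27 * N - 1 : ℕ) : ℤ) - a) - 1 = (j : ℤ) + a - 27 * N := by omega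
    rw [c1, c2]
    by_cases h : a = 27 * N - 1 - j
    · rw [if_pos h, if_pos (by omega)]
      push_cast
      ring
    · rw [if_neg h, if_neg (by omega)]
      push_cast
      ring
  rw [sum_congr rfl hcalc]
  simp only [sum_add_distrib, ← mul_sum, ← Rat.cast_sum]
  have hz : ∑ a ∈ range (27 * N), ∑ j ∈ range (27 * N),
      (colQ N k).coeff j * ((rowS N e).coeff a * cz ((j : ℤ) + a - 27 * N) -
          if a = 27 * N - 1 - j then (rowD N e).coeff a else 0) = 0 := by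
    rw [sum_comm]
    refine sum_eq_zero fun j _ => ?_
    rw [← mul_sum]
    rcases lt_or_ge j (24 * N) with hj | hj
    · rw [sum_sub_distrib, h3 N e j hj, sum_ite_eq' , if_pos (mem_range.2 (by omega)), sub_self,
        mul_zero]
    · rw [coeff_colQ_eq_zero N k (Or.inr (by have := k.2; omega)), zero_mul]
  rw [hz]
  simp only [B0, B1, Matrix.of_apply, form, formG, hI, Rat.cast_zero, mul_zero, add_zero]

end Vale.Agent.P030
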