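import Vale.Agent.P030.Base

/-!
# P030: the pairing modulo `p`
-/

namespace Vale.Agent.P030

open Polynomial Finset

namespace Form

/-- Values at the multiples of `p`. -/
def fz (p : ℕ) (f : ℤ → ℚ) (k : ℤ) : ℚ := if (p : ℤ) ∣ k then f (k / p) else 0

theorem fr_eq (p : ℕ) (f : ℤ → ℚ) (k : ℤ) :
    fr p f k = ∑ r ∈ range (p / 2 + 1), bb p r * fz p f (k - 2 * r) := by
  simp only [fr, fz, mul_ite, mul_zero]

variable {p : ℕ} [hp : Fact p.Prime]

theorem pz_ne : (p : ℤ) ≠ 0 := by exact_mod_cast hp.out.ne_zero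

theorem fz_mul (f : ℤ → ℚ) (q : ℤ) : fz p f (p * q) = f q := by
  rw [fz, if_pos (dvd_mul_right _ _), Int.mul_ediv_cancel_left _ pz_ne]

theorem fz_shift (f : ℤ → ℚ) (x t : ℤ) : fz p f (x + p * t) = fz p (fun q => f (q + t)) x := by
  by_cases h : (p : ℤ) ∣ x
  · obtain ⟨q, rfl⟩ := h
    rw [← mul_add, fz_mul, fz_mul]
  · rw [fz, fz, if_neg h, if_neg]
    rwa [dvd_add_left (dvd_mul_right _ _)]

theorem fz_TT (K a : ℤ → ℚ) (x : ℤ) (j : ℕ) :
    fz p K (x - p * j) - ∑ r ∈ range j, fz p a (x - p * j + p * (r + 1)) / ((r : ℚ) + 1) =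
      fz p (fun q => TT K a q j) x := by
  have h1 : x - p * j = x + p * (-(j : ℤ)) := by ring
  have h2 : ∀ r : ℕ, x + p * (-(j : ℤ)) + p * (r + 1) = x + p * (-(j : ℤ) + r + 1) := fun r => by
    ring
  simp only [h1, h2, fz_shift]
  simp only [fz, TT]
  split_ifs
  · simp only [sub_eq_add_neg, add_assoc]
  · simp

theorem pow_mono {a b : ℕ} (h : a ≤ b) {x : ℚ} (hx : (p : ℚ) ^ a * x ∈ O p) :
    (p : ℚ) ^ b * x ∈ O p := by
  obtain ⟨c, rfl⟩ := Nat.exists_eq_add_of_le h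
  rw [add_comm, pow_add, mul_assoc]
  exact mul_mem (pow_mem (nat_mem_O p) _) hx

theorem zz_mem {M : ℕ} {m : ℤ} (h : m ≤ M) : (p : ℚ) ^ Nat.log p M * zz m ∈ O p := by
  unfold zz
  split_ifs with h0
  · obtain ⟨n, rfl⟩ := Int.eq_ofNat_of_zero_le h0.le
    rw [mul_one_div, Int.cast_natCast]
    exact pow_log_div_mem_O (by exact_mod_cast h)
  · simp

theorem zz_cg (m : ℤ) : Cg p (p * zz m) (fz p zz m) := by
  by_cases h : (p : ℤ) ∣ m
  · obtain ⟨q, rfl⟩ := h
    have hp0 : (0 : ℤ) < p := by exact_mod_cast hp.out.pos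
    refine Cg.of_eq ?_
    rw [fz_mul, zz, zz]
    simp only [mul_pos_iff_of_pos_left hp0]
    split_ifs
    · have := p_ne_zero (p := p)
      push_cast
      field_simp
    · simp
  · rw [fz, if_neg h]
    refine cg_p_mul ?_
    unfold zz
    split_ifs
    · rw [one_div]
      exact inv_int_mem_O h
    · exact zero_mem _

theorem tt_mem {K a : ℤ → ℚ} {I j : ℕ} {i : ℤ} (hj : j ≤ I) (hi : i ≤ I)
    (hK : (p : ℚ) ^ (2 * Nat.log p I) * K (i - j) ∈ O p)
    (ha : ∀ m : ℤ, m ≤ I → (p : ℚ) ^ Nat.log p I * a m ∈ O p) :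
    (p : ℚ) ^ (2 * Nat.log p I) * TT K a i j ∈ O p := by
  rw [TT, mul_sub, mul_sum]
  refine sub_mem hK (sum_mem fun r hr => ?_)
  have hr' := mem_range.1 hr
  have h := mul_mem (ha (i - j + r + 1) (by omega))
    (pow_log_div_mem_O (p := p) (M := I) (n := r + 1) (by omega))
  convert h using 1
  push_cast
  ring

theorem sum_multiples {ρ j : ℕ} (hρ : ρ < p) (g : ℕ → ℚ) :
    ∑ r ∈ range (ρ + p * j), (if p ∣ r + 1 then g ((r + 1) / p - 1) else 0) = ∑ s ∈ range j, g s := by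
  have hp0 := hp.out.pos
  rw [← sum_filter]
  refine sum_nbij' (fun r => (r + 1) / p - 1) (fun s => p * (s + 1) - 1) (fun r hr => ?_)
    (fun s hs => ?_) (fun r hr => ?_) (fun s _ => ?_) fun _ _ => rfl
  · obtain ⟨h1, t, ht⟩ := mem_filter.1 hr
    rw [mem_range] at h1 ⊢
    rw [ht, Nat.mul_div_cancel_left _ hp0]
    have h2 : p * t < p * (j + 1) := by rw [mul_add]; omega
    have h3 := lt_of_mul_lt_mul_left h2 (Nat.zero_le _)
    rcases t with _ | t <;> omega
  · have h1 := Nat.mul_le_mul_left p (Nat.succ_le_of_lt (mem_range.1 hs))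
    have h2 : 0 < p * (s + 1) := by positivity
    simp only [mem_filter, mem_range]
    refine ⟨by simp only [Nat.succ_eq_add_one] at h1; omega, s + 1, by omega⟩
  · obtain ⟨-, t, ht⟩ := mem_filter.1 hr
    simp only [ht, Nat.mul_div_cancel_left _ hp0]
    rcases t with _ | t
    · omega
    · rw [Nat.add_sub_cancel, ← ht, Nat.add_sub_cancel]
  · have h2 : 0 < p * (s + 1) := by positivity
    simp only [Nat.sub_add_cancel h2, Nat.mul_div_cancel_left _ hp0, Nat.add_sub_cancel]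

theorem tt_cg {K a A : ℤ → ℚ} {i : ℤ} {ρ j : ℕ} {Kd : ℚ} (hρ : ρ < p) (hj : j < p)
    (hK : Cg p ((p : ℚ) ^ 2 * K (i - ρ - p * j)) Kd)
    (ha : ∀ m ≤ i, Cg p (p * a m) (A m)) (ha' : ∀ m ≤ i, p * a m ∈ O p) :
    Cg p ((p : ℚ) ^ 2 * TT K a i (ρ + p * j))
      (Kd - ∑ r ∈ range j, A (i - ρ - p * j + p * (r + 1)) / ((r : ℚ) + 1)) := by
  have e : i - ((ρ + p * j : ℕ) : ℤ) = i - ρ - p * j := by push_cast; ring
  rw [TT, e, mul_sub, mul_sum,
    ← sum_multiples hρ fun r => A (i - ρ - p * j + p * (r + 1)) / ((r : ℚ) + 1)]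
  refine hK.sub (Cg.sum fun r hr => ?_)
  have hr' := mem_range.1 hr
  have hm : i - ρ - p * j + r + 1 ≤ i := by
    have : ((r + 1 : ℕ) : ℤ) ≤ ((ρ + p * j : ℕ) : ℤ) := by exact_mod_cast hr'
    push_cast at this
    linarith
  have hp0 := p_ne_zero (p := p)
  split_ifs with h
  · obtain ⟨t, ht⟩ := h
    rcases t with _ | t
    · omega
    have h2 : p * (t + 1) < p * (j + 1) := by rw [mul_add p j]; omega
    have h3 := lt_of_mul_lt_mul_left h2 (Nat.zero_le _)
    have h4 : (r : ℤ) + 1 = p * (t + 1) := by exact_mod_cast ht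
    have h5 : (r : ℚ) + 1 = p * (t + 1) := by exact_mod_cast ht
    have h6 := (ha _ hm).mul_right (inv_nat_mem_O (p := p) (n := t + 1)
      (Nat.not_dvd_of_pos_of_lt (by omega) (by omega)))
    rw [ht, Nat.mul_div_cancel_left _ hp.out.pos, Nat.add_sub_cancel, h5, ← h4, ← add_assoc]
    convert h6 using 1
    · push_cast
      field_simp
    · push_cast
      rw [div_eq_mul_inv]
  · have h6 := cg_p_mul (mul_mem (ha' _ hm) (inv_nat_mem_O h))
    convert h6 using 1
    push_cast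
    ring

omit hp in
theorem one_sub_sq_pow (p : ℕ) :
    ((1 - X ^ 2) ^ (p / 2) : ℚ[X]) = ∑ r ∈ range (p / 2 + 1), monomial (2 * r) (bb p r) := by
  rw [sub_eq_neg_add, add_pow]
  refine sum_congr rfl fun r _ => ?_
  rw [← C_mul_X_pow_eq_monomial, bb, neg_pow, pow_mul]
  simp only [one_pow, mul_one, map_mul, map_pow, map_neg, map_one, map_natCast]
  ring

omit hp in
theorem sum_coeff_mul {S : ℚ[X]} {I : ℕ} (hS : S.natDegree ≤ I) (φ : ℤ → ℚ) :
    ∑ m ∈ range (I + p + 1), (S * (1 - X ^ 2) ^ (p / 2)).coeff m * φ m =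
      ∑ k ∈ range (I + 1), S.coeff k * ∑ r ∈ range (p / 2 + 1), bb p r * φ (k + 2 * r) := by
  conv_lhs => rw [S.as_sum_range' (I + 1) (by omega), one_sub_sq_pow, sum_mul_sum]
  simp only [finsetSum_coeff, monomial_mul_monomial, coeff_monomial, sum_mul, mul_sum]
  rw [sum_comm]
  refine sum_congr rfl fun k hk => ?_
  rw [sum_comm]
  refine sum_congr rfl fun r hr => ?_
  rw [mem_range] at hk hr
  simp only [ite_mul, zero_mul]
  rw [sum_ite_eq, if_pos (mem_range.2 (by omega))]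
  push_cast
  ring

theorem reidx (P : ℚ[X]) (g : ℤ → ℚ) {n R : ℕ} {c : ℤ} (h1 : c ≤ n) (h2 : n < c + p)
    (h3 : c < p * (R + 1)) :
    ∑ m ∈ range (n + 1), P.coeff m * fz p g (c - m) =
      ∑ k ∈ range (R + 1), cf P (c - p * k) * g k := by
  have hp0 : (0 : ℤ) < p := by exact_mod_cast hp.out.pos
  simp only [fz, cf, mul_ite, ite_mul, mul_zero, zero_mul]
  rw [← sum_filter, ← sum_filter]
  refine (sum_nbij' (fun k : ℕ => (c - p * k).toNat) (fun m : ℕ => ((c - m) / p).toNat)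
    (fun k hk => ?_) (fun m hm => ?_) (fun k hk => ?_) (fun m hm => ?_) fun k hk => ?_).symm
  · obtain ⟨-, h4⟩ := mem_filter.1 hk
    have h5 : (0 : ℤ) ≤ p * k := by positivity
    simp only [mem_filter, mem_range]
    rw [Int.toNat_of_nonneg h4, sub_sub_cancel]
    exact ⟨by omega, dvd_mul_right _ _⟩
  · obtain ⟨h4, t, ht⟩ := mem_filter.1 hm
    rw [mem_range] at h4
    have h5 : -1 < t := lt_of_mul_lt_mul_left (by omega : (p : ℤ) * -1 < p * t) hp0.le
    have h6 : t < R + 1 := lt_of_mul_lt_mul_left (by omega : (p : ℤ) * t < p * (R + 1)) hp0.le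
    simp only [mem_filter, mem_range]
    rw [ht, Int.mul_ediv_cancel_left _ pz_ne, Int.toNat_of_nonneg (by omega)]
    omega
  · obtain ⟨-, h4⟩ := mem_filter.1 hk
    rw [Int.toNat_of_nonneg h4, sub_sub_cancel, Int.mul_ediv_cancel_left _ pz_ne, Int.toNat_natCast]
  · obtain ⟨h4, t, ht⟩ := mem_filter.1 hm
    rw [mem_range] at h4
    have h5 : -1 < t := lt_of_mul_lt_mul_left (by omega : (p : ℤ) * -1 < p * t) hp0.le
    rw [ht, Int.mul_ediv_cancel_left _ pz_ne, Int.toNat_of_nonneg (by omega), ← ht, sub_sub_cancel,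
      Int.toNat_natCast]
  · obtain ⟨-, h4⟩ := mem_filter.1 hk
    rw [Int.toNat_of_nonneg h4, sub_sub_cancel, Int.mul_ediv_cancel_left _ pz_ne]

end Form

open Form in
theorem formS (h1 : Frob1Stmt) (h2 : Frob2Stmt) : FormStmt := by
  intro p hp hp2 I S D hS hD
  obtain ⟨hc, -, ha, hf⟩ := h1 p hp2
  obtain ⟨hk, hk'⟩ := h2 p hp2
  refine ⟨fun Q hQ => ⟨?_, ?_⟩, fun R ρ j hR hI hdeg hρ hj => ?_⟩
  · simp only [form, mul_sum]
    refine sum_mem fun k hk1 => sum_mem fun j hj => ?_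
    rw [mem_range] at hk1 hj
    have h3 := hk I ((I : ℤ) - k - j) (abs_le.2 ⟨by omega, by omega⟩)
    have h4 := tt_mem (by omega : j ≤ I) (by omega : (I : ℤ) - k ≤ I) h3.1 (ha I)
    have h5 := tt_mem (by omega : j ≤ I) (by omega : (I : ℤ) - k ≤ I) h3.2 fun _ => zz_mem
    convert mul_mem (sub_mem (mul_mem (hS k) h4)
      (mul_mem (mul_mem (three_half_mem_O hp2) (hD k)) h5)) (hQ j) using 1
    rw [MM, ZZ]
    ring
  · exact sum_mem fun k _ => sum_mem fun j _ =>
      mul_mem (mul_mem (hS k) (mul_mem (by simp) (hc _))) (hQ j)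
  have hI' : (I : ℤ) < p * R := by exact_mod_cast hI
  have hj' : (ρ : ℤ) + p * j ≤ I := by exact_mod_cast hj
  have hjp : j < p := (lt_of_mul_lt_mul_left (by omega : p * j < p * R) (Nat.zero_le _)).trans hR
  have hlog : Nat.log p I ≤ 1 := by
    rcases eq_or_ne I 0 with rfl | h0
    · simp
    · exact Nat.lt_succ_iff.1 (Nat.log_lt_of_lt_pow h0
        (hI.trans (by rw [sq]; exact Nat.mul_lt_mul_of_pos_left hR hp.out.pos)))
  have hpj : (0 : ℤ) ≤ p * j := by positivity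
  have key : ∀ k ∈ range (I + 1), Cg p ((p : ℚ) ^ 2 * (S.coeff k * MM ((I : ℤ) - k) (ρ + p * j) -
      3 / 2 * D.coeff k * ZZ ((I : ℤ) - k) (ρ + p * j)))
      (S.coeff k * (chi p * fr p (fun q => MM q j) ((I : ℤ) - ρ - k)) -
        3 / 2 * D.coeff k * fz p (fun q => ZZ q j) ((I : ℤ) - ρ - k)) := by
    intro k hk1
    rw [mem_range] at hk1
    have h3 := hk' R ((I : ℤ) - k - ρ - p * j) hR (abs_lt.2 ⟨by omega, by omega⟩)
    have h4 := tt_cg hρ hjp h3.1 (fun m hm => (hf R m hR (by omega)).2) fun m hm => by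
      simpa using pow_mono hlog (ha I m (by omega))
    have h5 := tt_cg (A := fz p zz) (Kd := fz p KZ ((I : ℤ) - k - ρ - p * j)) hρ hjp h3.2
      (fun m _ => zz_cg m) fun m hm => by simpa using pow_mono hlog (zz_mem (by omega : m ≤ I))
    rw [fz_TT] at h5
    have e1 : (I : ℤ) - k - ρ = I - ρ - k := by ring
    have e2 : chi p * fr p KM ((I : ℤ) - k - ρ - p * j) - ∑ r ∈ range j,
        chi p * fr p aa ((I : ℤ) - k - ρ - p * j + p * (r + 1)) / ((r : ℚ) + 1) =
        chi p * fr p (fun q => MM q j) ((I : ℤ) - ρ - k) := by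
      simp only [fr_eq, MM, ← fz_TT, mul_sub, sum_sub_distrib, mul_sum, sum_div, e1]
      rw [sum_comm]
      congr 1
      · refine sum_congr rfl fun r _ => ?_
        congr 3
        ring
      · refine sum_congr rfl fun r _ => sum_congr rfl fun s _ => ?_
        rw [mul_div_assoc, mul_div_assoc]
        congr 4
        ring
    rw [e2] at h4
    rw [e1] at h5
    refine (Cg.of_eq ?_).trans
      ((h4.mul_left (hS k)).sub (h5.mul_left (mul_mem (three_half_mem_O hp2) (hD k))))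
    rw [MM, ZZ]
    ring
  rw [form_X_pow I S D hj, mul_sum]
  refine (Cg.sum key).trans (Cg.of_eq ?_)
  have hp1 : (p : ℤ) * (R + 1) = p * R + p := by ring
  have h6 := reidx (p := p) D (fun q => ZZ q j) (n := I) (R := R) (c := (I : ℤ) - ρ) (by omega)
    (by omega) (by omega)
  have h7 := reidx (p := p) (S * (1 - X ^ 2) ^ (p / 2)) (fun q => MM (q - 1) j) (n := I + p)
    (R := R) (c := (I : ℤ) - ρ + p) (by push_cast; omega) (by push_cast; omega) (by omega)
  rw [sum_coeff_mul hdeg fun m => fz p (fun q => MM (q - 1) j) ((I : ℤ) - ρ + p - m)] at h7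
  have e3 : ∀ k : ℕ, (I : ℤ) - ρ + p - p * k = I - ρ - p * (k - 1) := fun k => by ring
  have e4 : ∀ k r : ℕ, fz p (fun q => MM (q - 1) j) ((I : ℤ) - ρ + p - (k + 2 * r)) =
      fz p (fun q => MM q j) ((I : ℤ) - ρ - k - 2 * r) := fun k r => by
    rw [show (I : ℤ) - ρ + p - (k + 2 * r) = I - ρ - k - 2 * r + p * 1 by ring, fz_shift]
    simp only [add_sub_cancel_right]
  simp only [e3, e4, ← fr_eq] at h7
  simp only [sum_sub_distrib, mul_assoc, ← mul_sum]
  rw [h6, ← h7]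
  congr 1
  rw [mul_sum]
  exact sum_congr rfl fun _ _ => by ring

end Vale.Agent.P030
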