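import Vale.Agent.P030.Base

/-! # P030: Frobenius congruences for `cz` and `aa` -/

namespace Vale.Agent.P030

open Finset

namespace Frob1

theorem cc_pos (m : ℕ) : 0 < cc m := by
  have := Nat.centralBinom_pos m
  unfold cc
  positivity

theorem cc_zero : cc 0 = 1 := by simp [cc]

theorem cc_succ (m : ℕ) : (2 * (m : ℚ) + 2) * cc (m + 1) = (2 * m + 1) * cc m := by
  have h : ((m : ℚ) + 1) * (Nat.centralBinom (m + 1) : ℚ) = 2 * (2 * m + 1) * Nat.centralBinom m := by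
    exact_mod_cast Nat.succ_mul_centralBinom_succ m
  unfold cc
  rw [pow_succ]
  field_simp
  linear_combination 2 * h

theorem cc_succ' (m : ℕ) : cc (m + 1) = (2 * m + 1) * (2 * (m : ℚ) + 2)⁻¹ * cc m := by
  have : (2 * (m : ℚ) + 2) ≠ 0 := by positivity
  rw [mul_right_comm, ← cc_succ]
  field_simp

theorem cz_even (l : ℕ) : cz (2 * l) = cc l := by
  have h : (2 * (l : ℤ)) / 2 = l := by omega
  rw [cz, if_pos ⟨by omega, by omega⟩, h, Int.toNat_natCast]

theorem cz_odd {k : ℤ} (h : k % 2 = 1) : cz k = 0 := if_neg (by omega)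

theorem cz_neg {k : ℤ} (h : k < 0) : cz k = 0 := if_neg (by omega)

theorem aa_odd (l : ℕ) : aa (2 * l + 1) = 2 * ((2 * (l : ℚ) + 1)⁻¹ * (cc l)⁻¹) := by
  have h : (2 * (l : ℤ) + 1) / 2 = l := by omega
  rw [aa, if_pos ⟨by omega, by omega⟩, h, Int.toNat_natCast]
  push_cast
  rw [div_eq_mul_inv, mul_inv]

theorem aa_even {k : ℤ} (h : k % 2 = 0) : aa k = 0 := if_neg (by omega)

theorem aa_neg {k : ℤ} (h : k < 0) : aa k = 0 := if_neg (by omega)

theorem aa_succ (l : ℕ) :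
    aa (2 * (l + 1 : ℕ) + 1) = (2 * l + 2) * (2 * (l : ℚ) + 3)⁻¹ * aa (2 * l + 1) := by
  have := (cc_pos l).ne'
  rw [aa_odd, aa_odd, cc_succ']
  push_cast
  field_simp
  ring

/-- The beta type numbers `l! 2^l / ((2j+1)(2j+3)...(2j+2l+1))`. -/
def B : ℕ → ℕ → ℚ
  | 0, j => 1 / (2 * j + 1)
  | l + 1, j => B l j * (2 * l + 2) / (2 * j + 2 * l + 3)

theorem B_shift (l j : ℕ) : B l (j + 1) = B l j * (2 * j + 1) / (2 * j + 2 * l + 3) := by
  induction l with
  | zero =>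
    simp only [B]
    push_cast
    field_simp
    ring
  | succ l ih =>
    simp only [B, ih]
    push_cast
    field_simp
    ring

theorem B_succ (l j : ℕ) : B (l + 1) j = B l j - B l (j + 1) := by
  rw [B_shift, B]
  field_simp
  ring

theorem aa_eq_B (l : ℕ) : aa (2 * l + 1) = 2 * B l 0 := by
  induction l with
  | zero =>
    rw [aa_odd, cc_zero]
    simp [B]
  | succ l ih =>
    rw [aa_succ, ih, B]
    push_cast
    field_simp
    ring

variable {p : ℕ} [hp : Fact p.Prime]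

theorem B_mem (M l : ℕ) : ∀ j : ℕ, 2 * j + 2 * l + 1 ≤ M → (p : ℚ) ^ Nat.log p M * B l j ∈ O p := by
  induction l with
  | zero =>
    intro j hj
    have := pow_log_div_mem_O (p := p) (n := 2 * j + 1) (M := M) (by omega)
    push_cast at this
    rwa [B, mul_one_div]
  | succ l ih =>
    intro j hj
    rw [B_succ, mul_sub]
    exact sub_mem (ih j (by omega)) (ih (j + 1) (by omega))

theorem aa_mem (M : ℕ) (m : ℤ) (h : m ≤ M) : (p : ℚ) ^ Nat.log p M * aa m ∈ O p := by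
  by_cases hm : 0 < m ∧ m % 2 = 1
  · obtain ⟨l, rfl⟩ : ∃ l : ℕ, m = 2 * l + 1 := ⟨(m / 2).toNat, by omega⟩
    rw [aa_eq_B, mul_left_comm]
    exact mul_mem (by simp) (B_mem M l 0 (by omega))
  · rw [aa, if_neg hm, mul_zero]
    exact zero_mem _

theorem cc_mem (h2 : p ≠ 2) (m : ℕ) : cc m ∈ O p := by
  have e : cc m = Nat.centralBinom m * ((2 : ℚ)⁻¹ * 2⁻¹) ^ m := by
    rw [cc, div_eq_mul_inv, ← inv_pow]
    norm_num
  rw [e]
  exact mul_mem (nat_mem_O _) (pow_mem (mul_mem (inv_two_mem_O h2) (inv_two_mem_O h2)) _)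

theorem cz_mem (h2 : p ≠ 2) (k : ℤ) : cz k ∈ O p := by
  unfold cz
  split_ifs
  exacts [cc_mem h2 _, zero_mem _]

theorem inv_mem {x : ℚ} (_hx : x ∈ O p) (h : (x : ZMod p) ≠ 0) : x⁻¹ ∈ O p := by
  have h1 : ¬ (p : ℤ) ∣ x.num := fun h1 => h (by
    rw [Rat.cast_def, (ZMod.intCast_zmod_eq_zero_iff_dvd _ _).2 h1, zero_div])
  have e : x⁻¹ = (x.den : ℚ) * (x.num : ℚ)⁻¹ := by
    conv_lhs => rw [← Rat.num_div_den x]
    rw [inv_div, div_eq_mul_inv]
  rw [e]
  exact mul_mem (nat_mem_O _) (inv_int_mem_O h1)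

theorem cg_inv {x y : ℚ} (h : Cg p x y) (hy : y ∈ O p) (h0 : (y : ZMod p) ≠ 0) :
    Cg p x⁻¹ y⁻¹ := by
  have hx := h.mem hy
  have hx0 : (x : ZMod p) ≠ 0 := by rwa [(cast_eq_iff hx hy).2 h]
  have h1 : x ≠ 0 := fun h => hx0 (by rw [h, Rat.cast_zero])
  have h2 : y ≠ 0 := fun h => h0 (by rw [h, Rat.cast_zero])
  have := (h.symm.mul_left (mul_mem (inv_mem hx hx0) (inv_mem hy h0)))
  rwa [mul_assoc, inv_mul_cancel₀ h2, mul_one, mul_right_comm, inv_mul_cancel₀ h1, one_mul] at this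

theorem natz {n : ℕ} (h0 : 0 < n) (h : n < p) : (n : ZMod p) ≠ 0 := fun h1 =>
  absurd (Nat.le_of_dvd h0 ((ZMod.natCast_eq_zero_iff _ _).1 h1)) h.not_ge

theorem two_ne (h2 : p ≠ 2) : (2 : ZMod p) ≠ 0 := by
  have := natz (p := p) (n := 2) two_pos (lt_of_le_of_ne hp.out.two_le h2.symm)
  exact_mod_cast this

theorem p_eq (h2 : p ≠ 2) : p = 2 * (p / 2) + 1 := by
  have := hp.out.eq_two_or_odd
  omega

/-- The reduction of `cc m`. -/
def c (p : ℕ) [Fact p.Prime] (m : ℕ) : ZMod p := (cc m : ZMod p)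

theorem c_zero : c p 0 = 1 := by rw [c, cc_zero, Rat.cast_one]

theorem c_succ (h2 : p ≠ 2) (m : ℕ) : (2 * (m : ZMod p) + 2) * c p (m + 1) = (2 * m + 1) * c p m := by
  have h := congrArg (fun x : ℚ => (x : ZMod p))
    (show ((2 * m + 2 : ℕ) : ℚ) * cc (m + 1) = ((2 * m + 1 : ℕ) : ℚ) * cc m by
      push_cast
      exact cc_succ m)
  simp only [cast_mul_O (nat_mem_O _) (cc_mem h2 _), Rat.cast_natCast] at h
  push_cast at h
  exact h

theorem c_four (h2 : p ≠ 2) (m : ℕ) : 4 ^ m * c p m = (Nat.centralBinom m : ZMod p) := by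
  have h := congrArg (fun x : ℚ => (x : ZMod p))
    (show ((4 ^ m : ℕ) : ℚ) * cc m = (Nat.centralBinom m : ℚ) by
      push_cast
      rw [cc, mul_div_cancel₀ _ (by positivity)])
  simp only [cast_mul_O (nat_mem_O _) (cc_mem h2 _), Rat.cast_natCast] at h
  push_cast at h
  exact h

theorem lin_ne (h2 : p ≠ 2) {r : ℕ} (hr : r + 1 < p) : 2 * (r : ZMod p) + 2 ≠ 0 := by
  have := mul_ne_zero (two_ne h2) (natz (Nat.succ_pos r) hr)
  push_cast at this
  rwa [mul_add, mul_one] at this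

theorem c_lucas (h2 : p ≠ 2) (m : ℕ) : ∀ r : ℕ, r < p → c p (p * m + r) = c p m * c p r := by
  intro r
  induction r with
  | zero =>
    intro _
    have h4 : (4 : ZMod p) ^ m ≠ 0 := pow_ne_zero _ (by
      have := mul_ne_zero (two_ne h2) (two_ne h2)
      rwa [show (2 : ZMod p) * 2 = 4 by norm_num] at this)
    have h1 := c_four h2 (p * m)
    have h3 : ((Nat.centralBinom (p * m) : ℕ) : ZMod p) = (Nat.centralBinom m : ℕ) := by
      rw [ZMod.natCast_eq_natCast_iff, Nat.centralBinom, Nat.centralBinom, mul_left_comm]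
      exact Choose.choose_mul_mul_modEq_choose_nat
    rw [pow_mul, ZMod.pow_card, h3, ← c_four h2 m] at h1
    rw [add_zero, c_zero, mul_one]
    exact mul_left_cancel₀ h4 h1
  | succ r ih =>
    intro hr
    have h1 := c_succ h2 (p * m + r)
    have h3 := c_succ h2 r
    rw [ih (by omega)] at h1
    push_cast at h1
    rw [ZMod.natCast_self, zero_mul, zero_add] at h1
    apply mul_left_cancel₀ (lin_ne h2 hr)
    rw [← add_assoc, h1]
    linear_combination (-c p m) * h3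

theorem c_eq (h2 : p ≠ 2) : ∀ r : ℕ, r < p → c p r = (-1) ^ r * ((p / 2).choose r : ℕ) := by
  intro r
  induction r with
  | zero =>
    intro _
    simp [c_zero]
  | succ r ih =>
    intro hr
    apply mul_left_cancel₀ (lin_ne h2 hr)
    rw [c_succ h2, ih (by omega)]
    rcases le_or_gt r (p / 2) with h | h
    · have h1 : (((p / 2).choose (r + 1) * (r + 1) : ℕ) : ZMod p)
          = ((p / 2).choose r * (p / 2 - r) : ℕ) := by rw [Nat.choose_succ_right_eq]
      have h3 : ((2 * (p / 2) + 1 : ℕ) : ZMod p) = 0 := by rw [← p_eq h2, ZMod.natCast_self]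
      rw [Nat.cast_mul, Nat.cast_mul, Nat.cast_sub h] at h1
      simp only [Nat.cast_add, Nat.cast_mul, Nat.cast_one, Nat.cast_ofNat] at h1 h3
      linear_combination (2 * (-1) ^ r) * h1 + (-1) ^ r * (((p / 2).choose r : ℕ) : ZMod p) * h3
    · rw [Nat.choose_eq_zero_of_lt h, Nat.choose_eq_zero_of_lt (h.trans r.lt_succ_self)]
      simp

theorem c_ne (h2 : p ≠ 2) : ∀ r : ℕ, r ≤ p / 2 → c p r ≠ 0 := by
  intro r
  induction r with
  | zero =>
    intro _
    rw [c_zero]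
    exact one_ne_zero
  | succ r ih =>
    intro hr h0
    have h1 := c_succ h2 r
    have h3 := natz (p := p) (n := 2 * r + 1) (by omega) (by have := p_eq h2; omega)
    push_cast at h3
    rw [h0, mul_zero] at h1
    exact mul_ne_zero h3 (ih (by omega)) h1.symm

theorem cc_bb (h2 : p ≠ 2) {r : ℕ} (hr : r < p) : Cg p (cc r) (bb p r) := by
  rw [← cast_eq_iff (cc_mem h2 r) (bb_mem_O r)]
  have e : bb p r = (((-1) ^ r * ((p / 2).choose r : ℕ) : ℤ) : ℚ) := by
    push_cast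
    rfl
  rw [e, Rat.cast_intCast]
  push_cast
  exact c_eq h2 r hr

theorem cc_lucas (h2 : p ≠ 2) (m : ℕ) {r : ℕ} (hr : r < p) :
    Cg p (cc (p * m + r)) (cc m * cc r) := by
  rw [← cast_eq_iff (cc_mem h2 _) (mul_mem (cc_mem h2 _) (cc_mem h2 _)),
    cast_mul_O (cc_mem h2 _) (cc_mem h2 _)]
  exact c_lucas h2 m r hr

theorem fr_even (h2 : p ≠ 2) (f : ℤ → ℚ) (q : ℤ) {r : ℕ} (hr : r ≤ p / 2) :
    fr p f (p * q + 2 * r) = bb p r * f q := by
  have h1 := p_eq h2
  have h0 : (p : ℤ) ≠ 0 := by exact_mod_cast hp.out.ne_zero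
  rw [fr, sum_eq_single r]
  · rw [add_sub_cancel_right, if_pos (dvd_mul_right _ _), Int.mul_ediv_cancel_left _ h0]
  · intro s hs hsr
    rw [if_neg]
    intro h
    rw [add_sub_assoc, Int.dvd_add_right (dvd_mul_right _ _)] at h
    have := Int.eq_zero_of_abs_lt_dvd h (by
      rw [mem_range] at hs
      rw [abs_lt]
      omega)
    omega
  · intro h
    exact absurd (mem_range.2 (Nat.lt_succ_of_le hr)) h

theorem fr_odd (h2 : p ≠ 2) (f : ℤ → ℚ) (q : ℤ) {s : ℕ} (hs : s < p / 2) :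
    fr p f (p * q + (2 * s + 1)) = 0 := by
  have h1 := p_eq h2
  refine sum_eq_zero fun r hr => if_neg fun h => ?_
  rw [add_sub_assoc, Int.dvd_add_right (dvd_mul_right _ _)] at h
  have := Int.eq_zero_of_abs_lt_dvd h (by
    rw [mem_range] at hr
    rw [abs_lt]
    omega)
  omega

theorem aa_small (h2 : p ≠ 2) {q : ℕ} (hq : q < p / 2) : aa (2 * q + 1) ∈ O p := by
  have h1 := p_eq h2
  have := aa_mem (p := p) (2 * q + 1) (2 * q + 1) (by omega)
  rwa [Nat.log_of_lt (by omega), pow_zero, one_mul] at this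

theorem aa_key (h2 : p ≠ 2) {q : ℕ} (hq : q < p / 2) : ∀ r : ℕ, r ≤ p / 2 →
    Cg p (p * aa (2 * (p * q + p / 2 + r : ℕ) + 1)) (chi p * (cc r * aa (2 * q + 1))) := by
  have h1 := p_eq h2
  have hp' : (p : ℚ) = 2 * (p / 2 : ℕ) + 1 := by exact_mod_cast h1
  intro r
  induction r with
  | zero =>
    intro _
    have hχ : (chi p : ZMod p) ≠ 0 := by
      have e : chi p = (((-1) ^ (p / 2) : ℤ) : ℚ) := by
        push_cast
        rfl
      rw [e, Rat.cast_intCast]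
      push_cast
      exact pow_ne_zero _ (neg_ne_zero.2 one_ne_zero)
    have h3 : Cg p (cc (p * q + p / 2)) (cc q * chi p) := by
      refine (cc_lucas h2 q (by omega)).trans (Cg.mul_left (cc_mem h2 q) ?_)
      have := cc_bb h2 (r := p / 2) (by omega)
      rwa [bb, Nat.choose_self, Nat.cast_one, mul_one] at this
    have h4 := cg_inv h3 (mul_mem (cc_mem h2 q) chi_mem_O) (by
      rw [cast_mul_O (cc_mem h2 q) chi_mem_O]
      exact mul_ne_zero (c_ne h2 q hq.le) hχ)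
    have h5 : ((2 * q + 1 : ℕ) : ℚ)⁻¹ ∈ O p :=
      inv_nat_mem_O fun h => absurd (Nat.le_of_dvd (by omega) h) (by omega)
    have h6 := h4.mul_left (mul_mem (nat_mem_O (p := p) 2) h5)
    have e1 : 2 * ((p * q + p / 2 : ℕ) : ℚ) + 1 = p * (2 * q + 1) := by
      rw [Nat.cast_add, Nat.cast_mul]
      linear_combination -hp'
    have e2 : (chi p)⁻¹ = chi p := inv_eq_of_mul_eq_one_left (chi_mul_self p)
    rw [add_zero, aa_odd, aa_odd, e1, cc_zero]
    convert h6 using 1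
    · have := p_ne_zero (p := p)
      push_cast
      field_simp
    · rw [mul_inv, e2]
      push_cast
      ring
  | succ r ih =>
    intro hr
    have h3 : Cg p (2 * ((p * q + p / 2 + r : ℕ) : ℚ) + 2) (2 * r + 1) := by
      have := (cg_p_mul (p := p) (nat_mem_O (2 * q + 1))).add (Cg.refl (2 * (r : ℚ) + 1))
      rw [zero_add] at this
      convert this using 1
      rw [Nat.cast_add, Nat.cast_add, Nat.cast_mul]
      push_cast
      linear_combination -hp'
    have h4 : Cg p (2 * ((p * q + p / 2 + r : ℕ) : ℚ) + 3) (2 * r + 2) := by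
      have := h3.add (Cg.refl 1)
      convert this using 1 <;> ring
    have m1 : (2 * (r : ℚ) + 1) ∈ O p := by exact_mod_cast nat_mem_O (p := p) (2 * r + 1)
    have m2 : (2 * (r : ℚ) + 2) ∈ O p := by exact_mod_cast nat_mem_O (p := p) (2 * r + 2)
    have n2 : ((2 * (r : ℚ) + 2 : ℚ) : ZMod p) ≠ 0 := by
      have e : (2 * (r : ℚ) + 2 : ℚ) = ((2 * r + 2 : ℕ) : ℚ) := by push_cast; rfl
      rw [e, Rat.cast_natCast]
      exact natz (by omega) (by omega)
    have h5 := (h3.mul (cg_inv h4 m2 n2) m1 (inv_mem m2 n2)).mul (ih (by omega))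
      (mul_mem m1 (inv_mem m2 n2))
      (mul_mem chi_mem_O (mul_mem (cc_mem h2 r) (aa_small h2 hq)))
    rw [← add_assoc, aa_succ, cc_succ']
    convert h5 using 1 <;> ring

theorem aa_int (h2 : p ≠ 2) {q s : ℕ} (hq : q ≤ p / 2) (hs : s < p / 2) :
    aa (2 * (p * q + s : ℕ) + 1) ∈ O p := by
  have h1 := p_eq h2
  have h3 : ((2 * (p * q + s) + 1 : ℕ) : ℚ)⁻¹ ∈ O p := inv_nat_mem_O fun h => by
    have e : 2 * (p * q + s) + 1 = p * (2 * q) + (2 * s + 1) := by ring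
    rw [e, Nat.dvd_add_right (dvd_mul_right _ _)] at h
    exact absurd (Nat.le_of_dvd (by omega) h) (by omega)
  have h4 : (cc (p * q + s))⁻¹ ∈ O p := inv_mem (cc_mem h2 _) (by
    have := c_lucas h2 q s (by omega)
    rw [c] at this
    rw [this]
    exact mul_ne_zero (c_ne h2 q hq) (c_ne h2 s hs.le))
  rw [aa_odd]
  refine mul_mem (by simp) (mul_mem ?_ h4)
  exact_mod_cast h3

theorem main (h2 : p ≠ 2) (R : ℕ) (k : ℤ) (hR : R < p) (hk : k < p * R) :
    Cg p (cz k) (fr p cz k) ∧ Cg p (p * aa k) (chi p * fr p aa k) := by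
  have h1 := p_eq h2
  have h0 : (0 : ℤ) < p := by exact_mod_cast hp.out.pos
  obtain ⟨q, ρ, rfl, hρ0, hρ⟩ : ∃ q ρ : ℤ, k = p * q + ρ ∧ 0 ≤ ρ ∧ ρ < p :=
    ⟨k / p, k % p, (Int.mul_ediv_add_emod k p).symm, Int.emod_nonneg _ h0.ne',
      Int.emod_lt_of_pos _ h0⟩
  have hqR : q < R := lt_of_mul_lt_mul_left (by omega : (p : ℤ) * q < p * R) h0.le
  have hz : Cg p (0 : ℚ) 0 := Cg.refl 0
  rcases lt_or_ge q 0 with hq | hq
  · have hneg : (p : ℤ) * q + ρ < 0 := by nlinarith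
    rw [cz_neg hneg, aa_neg hneg, mul_zero]
    rcases Int.emod_two_eq_zero_or_one ρ with h | h
    · obtain ⟨r, rfl⟩ : ∃ r : ℕ, ρ = 2 * r := ⟨(ρ / 2).toNat, by omega⟩
      rw [fr_even h2 _ _ (by omega), fr_even h2 _ _ (by omega), cz_neg hq, aa_neg hq]
      simpa using hz
    · obtain ⟨s, rfl⟩ : ∃ s : ℕ, ρ = 2 * s + 1 := ⟨(ρ / 2).toNat, by omega⟩
      rw [fr_odd h2 _ _ (by omega), fr_odd h2 _ _ (by omega)]
      simpa using hz
  have hp' : (p : ℤ) = 2 * (p / 2 : ℕ) + 1 := by exact_mod_cast h1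
  rcases Int.emod_two_eq_zero_or_one ρ with h | h
  · obtain ⟨r, rfl⟩ : ∃ r : ℕ, ρ = 2 * r := ⟨(ρ / 2).toNat, by omega⟩
    have hr : r ≤ p / 2 := by omega
    rw [fr_even h2 _ _ hr, fr_even h2 _ _ hr]
    rcases Int.emod_two_eq_zero_or_one q with h' | h'
    · obtain ⟨q', rfl⟩ : ∃ q' : ℕ, q = 2 * q' := ⟨(q / 2).toNat, by omega⟩
      have e : (p : ℤ) * (2 * q') + 2 * r = 2 * (p * q' + r : ℕ) := by push_cast; ring
      rw [e, cz_even, cz_even, aa_even (by omega), aa_even (by omega), mul_comm (bb p r)]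
      exact ⟨(cc_lucas h2 q' (by omega)).trans ((cc_bb h2 (by omega)).mul_left (cc_mem h2 _)),
        by simpa using hz⟩
    · obtain ⟨q', rfl⟩ : ∃ q' : ℕ, q = 2 * q' + 1 := ⟨(q / 2).toNat, by omega⟩
      have e : (p : ℤ) * (2 * q' + 1) + 2 * r = 2 * (p * q' + p / 2 + r : ℕ) + 1 := by
        rw [Nat.cast_add, Nat.cast_add, Nat.cast_mul]
        linear_combination hp'
      have hq' : q' < p / 2 := by omega
      rw [e, cz_odd (by omega), cz_odd (by omega)]
      exact ⟨by simpa using hz, (aa_key h2 hq' r hr).trans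
        (((cc_bb h2 (by omega)).mul_right (aa_small h2 hq')).mul_left chi_mem_O)⟩
  · obtain ⟨s, rfl⟩ : ∃ s : ℕ, ρ = 2 * s + 1 := ⟨(ρ / 2).toNat, by omega⟩
    have hs : s < p / 2 := by omega
    rw [fr_odd h2 _ _ hs, fr_odd h2 _ _ hs, mul_zero]
    rcases Int.emod_two_eq_zero_or_one q with h' | h'
    · obtain ⟨q', rfl⟩ : ∃ q' : ℕ, q = 2 * q' := ⟨(q / 2).toNat, by omega⟩
      have e : (p : ℤ) * (2 * q') + (2 * s + 1) = 2 * (p * q' + s : ℕ) + 1 := by push_cast; ring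
      rw [e, cz_odd (by omega)]
      exact ⟨hz, cg_p_mul (aa_int h2 (by omega) hs)⟩
    · obtain ⟨q', rfl⟩ : ∃ q' : ℕ, q = 2 * q' + 1 := ⟨(q / 2).toNat, by omega⟩
      have e : (p : ℤ) * (2 * q' + 1) + (2 * s + 1) = 2 * (p * q' + (p / 2 + s + 1) : ℕ) := by
        rw [Nat.cast_add, Nat.cast_add, Nat.cast_add, Nat.cast_mul, Nat.cast_one]
        linear_combination hp'
      rw [e, cz_even, aa_even (by omega), mul_zero]
      refine ⟨(cc_lucas h2 q' (by omega)).trans ?_, hz⟩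
      have := (cc_bb h2 (r := p / 2 + s + 1) (by omega)).mul_left (cc_mem h2 q')
      rwa [bb, Nat.choose_eq_zero_of_lt (by omega), Nat.cast_zero, mul_zero, mul_zero] at this

end Frob1

theorem frob1 : Frob1Stmt := fun p _ h2 =>
  ⟨Frob1.cz_mem h2,
    fun _ hr => Frob1.cc_bb h2 (by have := Frob1.p_eq h2; omega), Frob1.aa_mem, Frob1.main h2⟩

end Vale.Agent.P030
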