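import Vale.Agent.P030.Base

/-!
# P030: Frobenius congruences for `KM` and `KZ`
-/

namespace Vale.Agent.P030

open Finset

namespace Frob2

/-! ### Exact identities -/

theorem cc_pos (m : ℕ) : 0 < cc m := by
  have := Nat.centralBinom_pos m
  unfold cc; positivity

theorem cc_zero : cc 0 = 1 := by simp [cc]

theorem cc_succ (m : ℕ) : cc (m + 1) = (2 * (m : ℚ) + 1) / (2 * m + 2) * cc m := by
  have h : ((m : ℚ) + 1) * Nat.centralBinom (m + 1) = 2 * (2 * m + 1) * Nat.centralBinom m := by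
    exact_mod_cast Nat.succ_mul_centralBinom_succ m
  unfold cc
  rw [pow_succ]
  field_simp
  linear_combination 2 * h

theorem cz_even (m : ℕ) : cz (2 * (m : ℤ)) = cc m := by
  unfold cz
  rw [if_pos ⟨by omega, by omega⟩]
  congr 1; omega

theorem aa_odd (m : ℕ) : aa (2 * (m : ℤ) + 1) = 2 / ((2 * (m : ℚ) + 1) * cc m) := by
  unfold aa
  rw [if_pos ⟨by omega, by omega⟩, show ((2 * (m : ℤ) + 1) / 2).toNat = m by omega]
  push_cast; rfl

theorem aa_even (m : ℤ) : aa (2 * m) = 0 := by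
  unfold aa
  rw [if_neg (by omega)]

theorem KM_even (m : ℕ) :
    KM (2 * (m : ℤ)) = cc m * ∑ k ∈ range m, aa (2 * k + 1) ^ 2 / 2 := by
  unfold KM
  rw [if_pos (by omega), if_pos (by omega), cz_even, show (2 * (m : ℤ) / 2).toNat = m by omega]

theorem KM_odd (m : ℕ) :
    KM (2 * (m : ℤ) + 1) = aa (2 * m + 1) * ∑ k ∈ range (m + 1), 1 / (2 * (k : ℚ) + 1) := by
  unfold KM
  rw [if_pos (by omega), if_neg (by omega), show ((2 * (m : ℤ) + 1) / 2).toNat = m by omega]

theorem KM_nodd (m : ℕ) :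
    KM (-(2 * (m : ℤ) + 1)) = cc m * ∑ k ∈ range m, aa (2 * k + 1) / (2 * (k : ℚ) + 2) := by
  unfold KM
  rw [if_neg (by omega), if_pos (by omega), show - -(2 * (m : ℤ) + 1) - 1 = 2 * m by ring, cz_even,
    show (2 * (m : ℤ) / 2).toNat = m by omega]

theorem KM_neven (m : ℕ) :
    KM (-(2 * (m : ℤ) + 2)) = aa (2 * m + 1) * ∑ k ∈ range (m + 1), cc k / (2 * (k : ℚ) + 1) := by
  unfold KM
  rw [if_neg (by omega), if_neg (by omega), show - -(2 * (m : ℤ) + 2) - 1 = 2 * m + 1 by ring,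
    show (- -(2 * (m : ℤ) + 2) / 2).toNat = m + 1 by omega]

/-- The inhomogeneous term of the recurrence for `KM`. -/
def gg (d : ℤ) : ℚ := if 0 < d then aa (d - 1) + aa d else 2 / (1 - (d : ℚ))

theorem int_cases (d : ℤ) : (∃ m : ℕ, d = 2 * m) ∨ (∃ m : ℕ, d = 2 * m + 1) ∨
    (∃ m : ℕ, d = -(2 * m + 1)) ∨ ∃ m : ℕ, d = -(2 * m + 2) := by
  by_cases h : 0 ≤ d
  · by_cases h2 : d % 2 = 0
    · exact Or.inl ⟨(d / 2).toNat, by omega⟩
    · exact Or.inr (Or.inl ⟨(d / 2).toNat, by omega⟩)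
  · by_cases h2 : d % 2 = 0
    · exact Or.inr (Or.inr (Or.inr ⟨(-d / 2 - 1).toNat, by omega⟩))
    · exact Or.inr (Or.inr (Or.inl ⟨(-d / 2).toNat, by omega⟩))

theorem KM_rec (d : ℤ) : (d : ℚ) * KM d = (d - 1) * KM (d - 2) + gg d := by
  rcases int_cases d with ⟨m, rfl⟩ | ⟨m, rfl⟩ | ⟨m, rfl⟩ | ⟨m, rfl⟩
  · rcases m with _ | m
    · have h := KM_neven 0
      have h1 := aa_odd 0
      simp only [Nat.cast_zero, mul_zero, zero_add, cc_zero, range_one, sum_singleton] at h h1 ⊢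
      rw [h1] at h
      rw [gg, if_neg (by omega), show (0 : ℤ) - 2 = -2 by rfl, h]
      norm_num
    · have e1 : (2 * ((m + 1 : ℕ) : ℤ)) - 2 = 2 * (m : ℤ) := by push_cast; ring
      have e2 : (2 * ((m + 1 : ℕ) : ℤ)) - 1 = 2 * (m : ℤ) + 1 := by push_cast; ring
      rw [e1, KM_even, KM_even, gg, if_pos (by omega), e2, aa_even, sum_range_succ, cc_succ, aa_odd]
      have := (cc_pos m).ne'
      push_cast
      field_simp
      ring
  · rcases m with _ | m
    · have h := KM_odd 0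
      have h0 := aa_even 0
      simp only [Nat.cast_zero, mul_zero, zero_add, range_one, sum_singleton] at h h0 ⊢
      rw [gg, if_pos (by omega), h, sub_self, h0]
      norm_num
    · have e1 : (2 * ((m + 1 : ℕ) : ℤ) + 1) - 2 = 2 * (m : ℤ) + 1 := by push_cast; ring
      have e2 : (2 * ((m + 1 : ℕ) : ℤ) + 1) - 1 = 2 * ((m : ℤ) + 1) := by push_cast; ring
      rw [e1, KM_odd, KM_odd, gg, if_pos (by omega), e2, aa_even, sum_range_succ, aa_odd, aa_odd,
        cc_succ]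
      have := (cc_pos m).ne'
      push_cast
      field_simp
      ring
  · have e1 : -(2 * (m : ℤ) + 1) - 2 = -(2 * ((m + 1 : ℕ) : ℤ) + 1) := by push_cast; ring
    rw [e1, KM_nodd, KM_nodd, gg, if_neg (by omega), sum_range_succ, cc_succ, aa_odd]
    have := (cc_pos m).ne'
    push_cast
    rw [show (1 : ℚ) - -(2 * m + 1) = 2 * m + 2 by ring]
    field_simp
    ring
  · have e1 : -(2 * (m : ℤ) + 2) - 2 = -(2 * ((m + 1 : ℕ) : ℤ) + 2) := by push_cast; ring
    rw [e1, KM_neven, KM_neven, gg, if_neg (by omega), sum_range_succ _ (m + 1), aa_odd, aa_odd,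
      cc_succ]
    have := (cc_pos m).ne'
    push_cast
    rw [show (1 : ℚ) - -(2 * m + 2) = 2 * (m + 1) + 1 by ring]
    field_simp
    ring

/-! ### Tools -/

variable {p : ℕ} [hp : Fact p.Prime]

theorem cg_iff {x y : ℚ} : Cg p x y ↔ ∃ z ∈ O p, x = y + p * z := by
  constructor
  · intro h
    exact ⟨_, h, by rw [mul_div_cancel₀ _ p_ne_zero]; ring⟩
  · rintro ⟨z, hz, rfl⟩
    unfold Cg
    rwa [add_sub_cancel_left, mul_div_cancel_left₀ _ p_ne_zero]

theorem cancel {n : ℤ} (hn : ¬ (p : ℤ) ∣ n) {x y : ℚ} (h : Cg p (n * x) (n * y)) : Cg p x y := by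
  have h0 : (n : ℚ) ≠ 0 := by
    intro h0
    exact hn (by rw [show n = 0 by exact_mod_cast h0]; simp)
  have := h.mul_left (inv_int_mem_O hn)
  rwa [inv_mul_cancel_left₀ h0, inv_mul_cancel_left₀ h0] at this

omit hp in
theorem not_dvd_of_abs {n : ℤ} (h0 : n ≠ 0) (h : |n| < p) : ¬ (p : ℤ) ∣ n := fun hd =>
  h0 (Int.eq_zero_of_abs_lt_dvd hd h)

omit hp in
theorem not_dvd_add {m r : ℤ} (h0 : r ≠ 0) (h : |r| < p) : ¬ (p : ℤ) ∣ p * m + r := fun hd =>
  not_dvd_of_abs h0 h ((Int.dvd_add_right (dvd_mul_right _ _)).1 hd)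

theorem odd_p (h2 : p ≠ 2) : 2 * (p / 2) + 1 = p := by
  have := hp.out.eq_two_or_odd
  omega

theorem chi_mem : chi p ∈ O p := pow_mem (neg_mem (one_mem _)) _

omit hp in
theorem chi_sq : chi p * chi p = 1 := by
  rw [chi, ← mul_pow]; simp

theorem bb_mem (r : ℕ) : bb p r ∈ O p := mul_mem (pow_mem (neg_mem (one_mem _)) _) (nat_mem_O _)

omit hp in
theorem bb_top : bb p (p / 2) = chi p := by simp [bb, chi]

omit hp in
theorem bb_zero : bb p 0 = 1 := by simp [bb]

theorem fr_even (h2 : p ≠ 2) (f : ℤ → ℚ) (m : ℤ) {r : ℕ} (hr : r ≤ p / 2) :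
    fr p f (p * m + 2 * r) = bb p r * f m := by
  have ho := odd_p h2
  unfold fr
  rw [sum_eq_single r]
  · have hp0 : (p : ℤ) ≠ 0 := by exact_mod_cast hp.out.ne_zero
    rw [add_sub_cancel_right, if_pos (dvd_mul_right _ _), Int.mul_ediv_cancel_left _ hp0]
  · intro s hs hsr
    rw [mem_range] at hs
    rw [if_neg]
    rw [add_sub_assoc]
    exact not_dvd_add (by omega) (by rw [abs_lt]; constructor <;> omega)
  · intro h
    exact absurd (mem_range.2 (by omega)) h

theorem fr_odd (h2 : p ≠ 2) (f : ℤ → ℚ) (m : ℤ) {r : ℕ} (hr : r < p / 2) :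
    fr p f (p * m + (2 * r + 1)) = 0 := by
  have ho := odd_p h2
  unfold fr
  refine sum_eq_zero fun s hs => ?_
  rw [mem_range] at hs
  rw [if_neg]
  rw [add_sub_assoc]
  exact not_dvd_add (by omega) (by rw [abs_lt]; constructor <;> omega)

theorem log_one : Nat.log p (p ^ 2 - 1) = 1 := by
  have h1 := hp.out.two_le
  have h2 : p ^ 1 ≤ p ^ 2 - 1 := by
    have : p * 2 ≤ p * p := Nat.mul_le_mul_left p h1
    rw [pow_one, pow_two]; omega
  have h3 : p ^ 2 - 1 < p ^ (1 + 1) := Nat.sub_lt (pow_pos hp.out.pos 2) one_pos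
  exact (Nat.log_eq_iff (Or.inl one_ne_zero)).2 ⟨h2, h3⟩

theorem log_zero : Nat.log p (p - 1) = 0 := Nat.log_of_lt (Nat.sub_lt hp.out.pos one_pos)

/-! ### Integrality -/

theorem KZ_mem (M : ℕ) (d : ℤ) (hd : |d| ≤ M) : (p : ℚ) ^ (2 * Nat.log p M) * KZ d ∈ O p := by
  have hM : d.natAbs ≤ M := by rw [Int.abs_eq_natAbs] at hd; exact_mod_cast hd
  have e : (p : ℚ) ^ (2 * Nat.log p M) * KZ d =
      (∑ k ∈ range d.natAbs, (p : ℚ) ^ Nat.log p M / ((k + 1 : ℕ) : ℚ)) *
        ((p : ℚ) ^ Nat.log p M / (d.natAbs : ℚ)) := by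
    rw [KZ, two_mul, pow_add, sum_div, mul_sum, sum_mul]
    refine sum_congr rfl fun k _ => ?_
    push_cast; ring
  rw [e]
  exact mul_mem (sum_mem fun k hk => pow_log_div_mem_O (by rw [mem_range] at hk; omega))
    (pow_log_div_mem_O hM)

section F1

variable (hF : Frob1Stmt) (h2 : p ≠ 2)
include hF h2

theorem cc_mem (m : ℕ) : cc m ∈ O p := by
  rw [← cz_even]; exact (hF p h2).1 _

theorem KM_mem (M : ℕ) (d : ℤ) (hd : |d| ≤ M) : (p : ℚ) ^ (2 * Nat.log p M) * KM d ∈ O p := by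
  have ha := (hF p h2).2.2.1 M
  rw [abs_le] at hd
  rw [two_mul, pow_add]
  set q : ℚ := (p : ℚ) ^ Nat.log p M with hq
  rcases int_cases d with ⟨m, rfl⟩ | ⟨m, rfl⟩ | ⟨m, rfl⟩ | ⟨m, rfl⟩
  · have e : q * q * KM (2 * (m : ℤ)) =
        cc m * ∑ k ∈ range m, (q * aa (2 * k + 1)) ^ 2 * (2 : ℚ)⁻¹ := by
      rw [KM_even, mul_left_comm, mul_sum]
      congr 1
      exact sum_congr rfl fun k _ => by ring
    rw [e]
    refine mul_mem (cc_mem hF h2 m) (sum_mem fun k hk => mul_mem (pow_mem (ha _ ?_) _)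
      (inv_two_mem_O h2))
    rw [mem_range] at hk; omega
  · have e : q * q * KM (2 * (m : ℤ) + 1) =
        q * aa (2 * m + 1) * ∑ k ∈ range (m + 1), q / ((2 * k + 1 : ℕ) : ℚ) := by
      rw [KM_odd, mul_mul_mul_comm, mul_sum]
      congr 1
      exact sum_congr rfl fun k _ => by push_cast; ring
    rw [e]
    refine mul_mem (ha _ (by omega)) (sum_mem fun k hk => pow_log_div_mem_O ?_)
    rw [mem_range] at hk; omega
  · have e : q * q * KM (-(2 * (m : ℤ) + 1)) =
        cc m * ∑ k ∈ range m, q * aa (2 * k + 1) * (q / ((2 * k + 2 : ℕ) : ℚ)) := by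
      rw [KM_nodd, mul_left_comm, mul_sum]
      congr 1
      exact sum_congr rfl fun k _ => by push_cast; ring
    rw [e]
    refine mul_mem (cc_mem hF h2 m) (sum_mem fun k hk => ?_)
    rw [mem_range] at hk
    exact mul_mem (ha _ (by omega)) (pow_log_div_mem_O (by omega))
  · have e : q * q * KM (-(2 * (m : ℤ) + 2)) =
        q * aa (2 * m + 1) * ∑ k ∈ range (m + 1), cc k * (q / ((2 * k + 1 : ℕ) : ℚ)) := by
      rw [KM_neven, mul_mul_mul_comm, mul_sum]
      congr 1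
      exact sum_congr rfl fun k _ => by push_cast; ring
    rw [e]
    refine mul_mem (ha _ (by omega)) (sum_mem fun k hk => ?_)
    rw [mem_range] at hk
    exact mul_mem (cc_mem hF h2 k) (pow_log_div_mem_O (by omega))

theorem F_mem {d : ℤ} (h1 : -(p : ℤ) ^ 2 < d) (h3 : d < (p : ℤ) ^ 2) :
    (p : ℚ) ^ 2 * KM d ∈ O p := by
  have h := KM_mem hF h2 (p ^ 2 - 1) d (by
    rw [Nat.cast_sub (pow_pos hp.out.pos 2), abs_le]; push_cast; constructor <;> omega)
  rwa [log_one] at h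

theorem aa_mem {d : ℤ} (h : d < p) : aa d ∈ O p := by
  have h1 := (hF p h2).2.2.1 (p - 1) d (by rw [Nat.cast_sub hp.out.pos]; push_cast; omega)
  rwa [log_zero, pow_zero, one_mul] at h1

theorem paa_mem {d : ℤ} (h : d < (p : ℤ) ^ 2) : (p : ℚ) * aa d ∈ O p := by
  have h1 := (hF p h2).2.2.1 (p ^ 2 - 1) d (by
    rw [Nat.cast_sub (pow_pos hp.out.pos 2)]; push_cast; omega)
  rwa [log_one, pow_one] at h1

theorem gg_mem {d : ℤ} (h1 : -(p : ℤ) ^ 2 + 1 < d) (h3 : d < (p : ℤ) ^ 2) :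
    (p : ℚ) * gg d ∈ O p := by
  unfold gg
  split_ifs with h
  · rw [mul_add]
    exact add_mem (paa_mem hF h2 (by omega)) (paa_mem hF h2 h3)
  · obtain ⟨n, hn⟩ : ∃ n : ℕ, (n : ℤ) = 1 - d := ⟨(1 - d).toNat, by omega⟩
    have h4 : n ≤ p ^ 2 - 1 := by
      have : (n : ℤ) < (p : ℤ) ^ 2 := by omega
      have : n < p ^ 2 := by exact_mod_cast this
      omega
    have h5 := pow_log_div_mem_O (p := p) h4
    rw [log_one, pow_one] at h5
    have e : (p : ℚ) * (2 / (1 - (d : ℚ))) = 2 * (p / n) := by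
      rw [show (1 : ℚ) - d = n by exact_mod_cast hn.symm]; ring
    rw [e]
    exact mul_mem (by simp) h5

omit hF h2 hp in
theorem bounds {m : ℤ} (h1 : -(p : ℤ) + 1 ≤ m) (h3 : m ≤ p - 2) :
    -(p : ℤ) ^ 2 + p ≤ p * m ∧ p * m ≤ (p : ℤ) ^ 2 - 2 * p := by
  have : (0 : ℤ) ≤ p := Int.natCast_nonneg p
  constructor <;> nlinarith

theorem even_cg {m : ℤ} (h1 : -(p : ℤ) + 1 ≤ m) (h3 : m ≤ p - 2) {r : ℕ} (hr : r ≤ p / 2) :
    Cg p ((p : ℚ) ^ 2 * KM (p * m + 2 * r)) (cc r * ((p : ℚ) ^ 2 * KM (p * m))) := by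
  obtain ⟨b1, b2⟩ := bounds h1 h3
  have ho := odd_p h2
  have hp2 := hp.out.two_le
  have h0 := F_mem hF h2 (d := p * m) (by omega) (by omega)
  induction r with
  | zero => simpa [cc_zero] using Cg.refl _
  | succ r ih =>
    obtain ⟨z, hz, e⟩ := cg_iff.1 (ih (by omega))
    have hrec := KM_rec (p * m + 2 * ((r + 1 : ℕ) : ℤ))
    rw [show p * m + 2 * ((r + 1 : ℕ) : ℤ) - 2 = p * m + 2 * r by push_cast; ring] at hrec
    have hg := gg_mem hF h2 (d := p * m + 2 * ((r + 1 : ℕ) : ℤ)) (by omega) (by omega)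
    have hc : (2 * (r : ℚ) + 2) * cc (r + 1) = (2 * r + 1) * cc r := by
      rw [cc_succ]; field_simp
    refine cancel (n := p * m + 2 * ((r + 1 : ℕ) : ℤ))
      (not_dvd_add (by omega) (by rw [abs_lt]; constructor <;> omega)) (cg_iff.2 ?_)
    refine ⟨m * cc r * ((p : ℚ) ^ 2 * KM (p * m)) + ((p * m + 2 * r + 1 : ℤ) : ℚ) * z +
      p * gg (p * m + 2 * ((r + 1 : ℕ) : ℤ)) - m * cc (r + 1) * ((p : ℚ) ^ 2 * KM (p * m)), ?_, ?_⟩
    · exact sub_mem (add_mem (add_mem (mul_mem (mul_mem (int_mem_O _) (cc_mem hF h2 _)) h0)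
        (mul_mem (int_mem_O _) hz)) hg) (mul_mem (mul_mem (int_mem_O _) (cc_mem hF h2 _)) h0)
    · push_cast at hrec ⊢
      linear_combination (p : ℚ) ^ 2 * hrec + ((p : ℚ) * m + 2 * r + 1) * e -
        (p : ℚ) ^ 2 * KM (p * m) * hc

theorem odd_mem {m : ℤ} (h1 : -(p : ℤ) + 1 ≤ m) (h3 : m ≤ p - 2) {r : ℕ} (hr : r < p / 2) :
    (p : ℚ) * KM (p * m + (2 * r + 1)) ∈ O p := by
  obtain ⟨b1, b2⟩ := bounds h1 h3
  have ho := odd_p h2
  have hp2 := hp.out.two_le
  have key : ∀ r : ℕ, r < p / 2 → ∀ x : ℚ,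
      ((p * m + (2 * r + 1) : ℤ) : ℚ) * x ∈ O p → x ∈ O p := by
    intro r hr x hx
    have hn : ¬ (p : ℤ) ∣ p * m + (2 * r + 1) :=
      not_dvd_add (by omega) (by rw [abs_lt]; constructor <;> omega)
    have h0 : ((p * m + (2 * r + 1) : ℤ) : ℚ) ≠ 0 := by
      intro h0
      exact hn (by rw [show p * m + (2 * r + 1) = (0 : ℤ) by exact_mod_cast h0]; simp)
    have := mul_mem (inv_int_mem_O hn) hx
    rwa [inv_mul_cancel_left₀ h0] at this
  induction r with
  | zero =>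
    refine key 0 hr _ ?_
    have hrec := KM_rec (p * m + (2 * ((0 : ℕ) : ℤ) + 1))
    have hg := gg_mem hF h2 (d := p * m + (2 * ((0 : ℕ) : ℤ) + 1)) (by omega) (by omega)
    have h0 := F_mem hF h2 (d := p * m + (2 * ((0 : ℕ) : ℤ) + 1) - 2) (by omega) (by omega)
    have := add_mem (mul_mem (int_mem_O m) h0) hg
    convert this using 1
    push_cast at hrec ⊢
    linear_combination (p : ℚ) * hrec
  | succ r ih =>
    refine key (r + 1) hr _ ?_
    have hrec := KM_rec (p * m + (2 * ((r + 1 : ℕ) : ℤ) + 1))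
    rw [show p * m + (2 * ((r + 1 : ℕ) : ℤ) + 1) - 2 = p * m + (2 * r + 1) by push_cast; ring]
      at hrec
    have hg := gg_mem hF h2 (d := p * m + (2 * ((r + 1 : ℕ) : ℤ) + 1)) (by omega) (by omega)
    have := add_mem (mul_mem (int_mem_O (p * m + 2 * r + 2)) (ih (by omega))) hg
    convert this using 1
    push_cast at hrec ⊢
    linear_combination (p : ℚ) * hrec

theorem cc_top : Cg p (cc (p / 2)) (chi p) := by
  rw [← bb_top]; exact (hF p h2).2.1 _ le_rfl

theorem chain {n : ℤ} (h1 : -(p : ℤ) + 2 ≤ n) (h3 : n ≤ p - 3) {s : ℕ} (hs : s ≤ p / 2) :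
    Cg p (cc s * ((p * n + (2 * s + 1) : ℤ) : ℚ) * ((p : ℚ) * KM (p * n + (2 * s + 1))))
      (n * chi p * ((p : ℚ) ^ 2 * KM (p * (n - 1))) +
        ∑ t ∈ range (s + 1), cc t * (p * gg (p * n + (2 * t + 1)))) := by
  obtain ⟨b1, b2⟩ := bounds (p := p) (m := n - 1) (by omega) (by omega)
  have ho := odd_p h2
  have hp2 := hp.out.two_le
  induction s with
  | zero =>
    have h0 := F_mem hF h2 (d := p * (n - 1)) (by omega) (by omega)
    have h4 := (even_cg hF h2 (m := n - 1) (by omega) (by omega) le_rfl).trans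
      ((cc_top hF h2).mul_right h0)
    obtain ⟨z, hz, e⟩ := cg_iff.1 h4
    have hrec := KM_rec (p * n + (2 * ((0 : ℕ) : ℤ) + 1))
    rw [show p * n + (2 * ((0 : ℕ) : ℤ) + 1) - 2 = p * (n - 1) + 2 * ((p / 2 : ℕ) : ℤ) by
      rw [mul_sub]; omega] at hrec
    refine cg_iff.2 ⟨n * z, mul_mem (int_mem_O _) hz, ?_⟩
    rw [sum_range_one, cc_zero]
    generalize KM (p * (n - 1) + 2 * ((p / 2 : ℕ) : ℤ)) = y at hrec e
    push_cast at hrec ⊢
    linear_combination (p : ℚ) * hrec + n * e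
  | succ s ih =>
    obtain ⟨z, hz, e⟩ := cg_iff.1 (ih (by omega))
    have hH := odd_mem hF h2 (m := n) (by omega) (by omega) (r := s) (by omega)
    have hrec := KM_rec (p * n + (2 * ((s + 1 : ℕ) : ℤ) + 1))
    rw [show p * n + (2 * ((s + 1 : ℕ) : ℤ) + 1) - 2 = p * n + (2 * s + 1) by push_cast; ring]
      at hrec
    have hc : (2 * (s : ℚ) + 2) * cc (s + 1) = (2 * s + 1) * cc s := by
      rw [cc_succ]; field_simp
    refine cg_iff.2 ⟨z + n * (cc (s + 1) - cc s) * ((p : ℚ) * KM (p * n + (2 * s + 1))), ?_, ?_⟩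
    · exact add_mem hz (mul_mem (mul_mem (int_mem_O _)
        (sub_mem (cc_mem hF h2 _) (cc_mem hF h2 _))) hH)
    · rw [sum_range_succ _ (s + 1)]
      generalize ∑ t ∈ range (s + 1), cc t * (p * gg (p * n + (2 * t + 1))) = S at e ⊢
      push_cast at hrec e ⊢
      linear_combination cc (s + 1) * (p : ℚ) * hrec + e +
        (p : ℚ) * KM (p * n + (2 * s + 1)) * hc

theorem sum_bb_sq : Cg p (∑ t ∈ range (p / 2 + 1), bb p t * bb p t) (chi p) := by
  have e1 : ∑ t ∈ range (p / 2 + 1), bb p t * bb p t = cc (p / 2) * 4 ^ (p / 2) := by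
    rw [cc, div_mul_cancel₀ _ (by positivity), Nat.centralBinom_eq_two_mul_choose,
      ← Nat.sum_range_choose_sq]
    push_cast
    refine sum_congr rfl fun t _ => ?_
    rw [bb, mul_mul_mul_comm, ← mul_pow]
    simp [sq]
  have e2 : Cg p (4 ^ (p / 2)) 1 := by
    have ho := odd_p h2
    have h1 : IsCoprime (2 : ℤ) (p : ℤ) := by
      have : Nat.Coprime 2 p := (Nat.coprime_primes Nat.prime_two hp.out).2 (Ne.symm h2)
      exact Nat.isCoprime_iff_coprime.2 this
    have h3 := (Int.ModEq.pow_card_sub_one_eq_one hp.out h1).symm.dvd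
    rw [show p - 1 = 2 * (p / 2) by omega, pow_mul] at h3
    have h4 := cg_int_iff.2 h3
    push_cast at h4
    exact h4
  rw [e1]
  simpa using (cc_top hF h2).mul e2 chi_mem (one_mem _)

theorem sum_gg {n : ℤ} (h1 : -(p : ℤ) + 2 ≤ n) (h3 : n ≤ p - 3) :
    Cg p (∑ t ∈ range (p / 2 + 1), cc t * (p * gg (p * n + (2 * t + 1)))) (gg (n + 1)) := by
  have ho := odd_p h2
  have hp2 := hp.out.two_le
  have hp0 : (0 : ℤ) ≤ p := Int.natCast_nonneg p
  by_cases hn : 0 ≤ n
  · have b0 : 0 ≤ p * n := mul_nonneg hp0 hn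
    have b1 : p * n ≤ p * ((p - 1 : ℕ) : ℤ) - 2 * p := by
      rw [Nat.cast_sub hp.out.pos]; push_cast; nlinarith
    have ha := fun k hk => ((hF p h2).2.2.2 (p - 1) k (by omega) hk).2
    have an := aa_mem hF h2 (d := n) (by omega)
    have an1 := aa_mem hF h2 (d := n + 1) (by omega)
    have e : ∀ t : ℕ, cc t * (p * gg (p * n + (2 * t + 1))) =
        cc t * (p * aa (p * n + 2 * t)) + cc t * (p * aa (p * n + (2 * t + 1))) := by
      intro t
      rw [gg, if_pos (by omega), show p * n + (2 * (t : ℤ) + 1) - 1 = p * n + 2 * t by ring]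
      ring
    simp only [e]
    rw [sum_add_distrib, gg, if_pos (by omega), add_sub_cancel_right]
    refine Cg.add ?_ ?_
    · have c1 : Cg p (∑ t ∈ range (p / 2 + 1), cc t * (p * aa (p * n + 2 * t)))
          (∑ t ∈ range (p / 2 + 1), bb p t * (chi p * (bb p t * aa n))) := by
        refine Cg.sum fun t ht => ?_
        rw [mem_range] at ht
        have c := ha (p * n + 2 * t) (by omega)
        rw [fr_even h2 _ _ (by omega)] at c
        exact ((hF p h2).2.1 t (by omega)).mul c (bb_mem t)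
          (mul_mem chi_mem (mul_mem (bb_mem t) an))
      refine c1.trans ?_
      have c2 := (sum_bb_sq hF h2).mul_right (mul_mem chi_mem an)
      rw [← mul_assoc (chi p), chi_sq, one_mul, sum_mul] at c2
      refine (Cg.of_eq (sum_congr rfl fun t _ => ?_)).trans c2
      ring
    · rw [sum_range_succ, ← zero_add (aa (n + 1))]
      refine Cg.add ?_ ?_
      · have c1 : Cg p (∑ t ∈ range (p / 2), cc t * (p * aa (p * n + (2 * t + 1))))
            (∑ t ∈ range (p / 2), 0) := by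
          refine Cg.sum fun t ht => ?_
          rw [mem_range] at ht
          have c := ha (p * n + (2 * t + 1)) (by omega)
          rw [fr_odd h2 _ _ ht, mul_zero] at c
          simpa using c.mul_left (cc_mem hF h2 t)
        simpa using c1
      · have e1 : p * n + (2 * ((p / 2 : ℕ) : ℤ) + 1) = p * (n + 1) + 2 * ((0 : ℕ) : ℤ) := by
          rw [mul_add]; omega
        have c := ha (p * n + (2 * ((p / 2 : ℕ) : ℤ) + 1)) (by omega)
        rw [e1, fr_even h2 _ _ (Nat.zero_le _), bb_zero, one_mul, ← e1] at c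
        have c2 := (cc_top hF h2).mul c chi_mem (mul_mem chi_mem an1)
        rwa [← mul_assoc (chi p), chi_sq, one_mul] at c2
  · have b0 : p * n ≤ -p := by nlinarith
    rw [sum_range_succ', ← zero_add (gg (n + 1))]
    refine Cg.add ?_ (Cg.of_eq ?_)
    · have c1 : Cg p (∑ t ∈ range (p / 2),
          cc (t + 1) * (p * gg (p * n + (2 * ((t + 1 : ℕ) : ℤ) + 1)))) (∑ t ∈ range (p / 2), 0) := by
        refine Cg.sum fun t ht => ?_
        rw [mem_range] at ht
        have hn : ¬ (p : ℤ) ∣ p * n + 2 * ((t + 1 : ℕ) : ℤ) :=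
          not_dvd_add (by omega) (by rw [abs_lt]; constructor <;> omega)
        have c := cg_p_mul (mul_mem (cc_mem hF h2 (t + 1))
          (mul_mem (int_mem_O (-2)) (inv_int_mem_O hn)))
        refine (Cg.of_eq ?_).trans c
        rw [gg, if_neg (by omega)]
        push_cast
        rw [show (1 : ℚ) - (p * n + (2 * (t + 1) + 1)) = -(p * n + 2 * (t + 1)) by ring,
          div_neg, div_eq_mul_inv]
        ring
      simpa using c1
    · rw [gg, if_neg (by omega), gg, if_neg (by omega), cc_zero]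
      have hq : (p : ℚ) ≠ 0 := p_ne_zero
      have hn0 : (n : ℚ) ≠ 0 := by exact_mod_cast (by omega : n ≠ 0)
      push_cast
      rw [show (1 : ℚ) - (p * n + 1) = -(p * n) by ring,
        show (1 : ℚ) - (n + 1) = -n by ring]
      field_simp

theorem block {n : ℤ} (h1 : -(p : ℤ) + 2 ≤ n) (h3 : n ≤ p - 3) :
    Cg p (((n + 1 : ℤ) : ℚ) * ((p : ℚ) ^ 2 * KM (p * (n + 1)) - chi p * KM (n + 1)))
      (n * ((p : ℚ) ^ 2 * KM (p * (n - 1)) - chi p * KM (n - 1))) := by
  have ho := odd_p h2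
  have hp2 := hp.out.two_le
  obtain ⟨b1, b2⟩ := bounds (p := p) (m := n + 1) (by omega) (by omega)
  have h0 := F_mem hF h2 (d := p * (n + 1)) (by omega) (by omega)
  have c := chain hF h2 h1 h3 (s := p / 2) le_rfl
  rw [show p * n + (2 * ((p / 2 : ℕ) : ℤ) + 1) = p * (n + 1) by rw [mul_add]; omega] at c
  obtain ⟨z, hz, e⟩ := cg_iff.1 (c.trans ((Cg.refl _).add (sum_gg hF h2 h1 h3)))
  obtain ⟨w, hw, e'⟩ := cg_iff.1 (cc_top hF h2)
  have hrec := KM_rec (n + 1)
  rw [show n + 1 - 2 = n - 1 by ring] at hrec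
  have hχ := chi_sq (p := p)
  refine cg_iff.2 ⟨chi p * (z - w * ((n + 1 : ℤ) : ℚ) * ((p : ℚ) ^ 2 * KM (p * (n + 1)))), ?_, ?_⟩
  · exact mul_mem chi_mem (sub_mem hz (mul_mem (mul_mem hw (int_mem_O _)) h0))
  · rw [e'] at e
    push_cast at hrec e ⊢
    linear_combination chi p * e - chi p * hrec -
      ((n + 1) * ((p : ℚ) ^ 2 * KM (p * (n + 1))) - n * ((p : ℚ) ^ 2 * KM (p * (n - 1)))) * hχ

theorem base_cg {m : ℤ} (h1 : -(p : ℤ) + 1 ≤ m) (h3 : m ≤ p - 2) :
    Cg p ((p : ℚ) ^ 2 * KM (p * m)) (chi p * KM m) := by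
  have ho := odd_p h2
  have hp2 := hp.out.two_le
  let Q : ℤ → Prop := fun m => Cg p ((p : ℚ) ^ 2 * KM (p * m) - chi p * KM m) 0
  have k0 : KM 0 = 0 := by simpa using KM_even 0
  have k1 : KM (-1) = 0 := by simpa using KM_nodd 0
  have q0 : Q 0 := by
    simp only [Q, mul_zero, k0, sub_self]
    exact Cg.refl _
  have q1 : Q (-1) := by
    simp only [Q, k1, mul_zero, sub_zero]
    rw [show (p : ℤ) * -1 = -(2 * ((p / 2 : ℕ) : ℤ) + 1) by omega, KM_nodd, sq, mul_assoc]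
    refine cg_p_mul (mul_mem (nat_mem_O _) (mul_mem (cc_mem hF h2 _) (sum_mem fun k hk => ?_)))
    rw [mem_range] at hk
    have := mul_mem (aa_mem hF h2 (d := 2 * k + 1) (by omega))
      (inv_nat_mem_O (p := p) (n := 2 * k + 2) (Nat.not_dvd_of_pos_of_lt (by omega) (by omega)))
    push_cast at this
    exact this
  have up : ∀ j : ℕ, j + 2 ≤ p → Q (j - 1) ∧ Q j := by
    intro j hj
    induction j with
    | zero => exact ⟨q1, q0⟩
    | succ j ih =>
      obtain ⟨a, b⟩ := ih (by omega)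
      refine ⟨by simpa using b, ?_⟩
      have c := (block hF h2 (n := j) (by omega) (by omega)).trans (a.mul_left (int_mem_O j))
      refine cancel (n := j + 1) (not_dvd_of_abs (by omega) (by
        rw [abs_lt]; constructor <;> omega)) ?_
      simpa using c
  have down : ∀ j : ℕ, j + 2 ≤ p → Q (-j) ∧ Q (-j - 1) := by
    intro j hj
    induction j with
    | zero => exact ⟨q0, q1⟩
    | succ j ih =>
      obtain ⟨a, b⟩ := ih (by omega)
      have e : -((j + 1 : ℕ) : ℤ) = -j - 1 := by push_cast; ring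
      rw [e]
      refine ⟨b, ?_⟩
      have c := block hF h2 (n := -j - 1) (by omega) (by omega)
      rw [sub_add_cancel] at c
      have c2 := c.symm.trans (a.mul_left (int_mem_O (-j)))
      refine cancel (n := -j - 1) (not_dvd_of_abs (by omega) (by
        rw [abs_lt]; constructor <;> omega)) ?_
      simpa only [mul_zero] using c2
  have hQ : Q m := by
    by_cases hm : 0 ≤ m
    · obtain ⟨j, rfl⟩ := Int.eq_ofNat_of_zero_le hm
      exact (up j (by omega)).2
    · obtain ⟨j, rfl⟩ : ∃ j : ℕ, m = -j - 1 := ⟨(-m - 1).toNat, by omega⟩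
      exact (down j (by omega)).2
  simpa [Q, Cg] using hQ

theorem KM_cg (R : ℕ) (d : ℤ) (hR : R < p) (hd : |d| < p * R) :
    Cg p ((p : ℚ) ^ 2 * KM d) (chi p * fr p KM d) := by
  have ho := odd_p h2
  have hp0 : (0 : ℤ) < p := by exact_mod_cast hp.out.pos
  have hR' : (p : ℤ) * R ≤ p * (p - 1) := mul_le_mul_of_nonneg_left (by omega) hp0.le
  rw [abs_lt] at hd
  have e := Int.mul_ediv_add_emod d p
  have r0 := Int.emod_nonneg d hp0.ne'
  have r1 := Int.emod_lt_of_pos d hp0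
  set m := d / p
  set ρ := d % p
  have h1 : -(p : ℤ) + 1 ≤ m := by
    by_contra h
    have : p * m ≤ p * (-(p : ℤ)) := mul_le_mul_of_nonneg_left (by omega) hp0.le
    nlinarith
  have h3 : m ≤ p - 2 := by
    by_contra h
    have : p * ((p : ℤ) - 1) ≤ p * m := mul_le_mul_of_nonneg_left (by omega) hp0.le
    omega
  by_cases hρ : ρ % 2 = 0
  · obtain ⟨r, hr⟩ : ∃ r : ℕ, ρ = 2 * r := ⟨(ρ / 2).toNat, by omega⟩
    have hr' : r ≤ p / 2 := by omega
    have hK : KM m ∈ O p := by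
      have := KM_mem hF h2 (p - 1) m (by
        rw [Nat.cast_sub hp.out.pos, abs_le]; push_cast; constructor <;> omega)
      rwa [log_zero, mul_zero, pow_zero, one_mul] at this
    rw [← e, hr, fr_even h2 _ _ hr', mul_left_comm]
    exact (even_cg hF h2 h1 h3 hr').trans (((hF p h2).2.1 r hr').mul (base_cg hF h2 h1 h3)
      (bb_mem r) (mul_mem chi_mem hK))
  · obtain ⟨r, hr⟩ : ∃ r : ℕ, ρ = 2 * r + 1 := ⟨(ρ / 2).toNat, by omega⟩
    have hr' : r < p / 2 := by omega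
    rw [← e, hr, fr_odd h2 _ _ hr', mul_zero, sq, mul_assoc]
    exact cg_p_mul (odd_mem hF h2 h1 h3 hr')

end F1

theorem harm (n : ℕ) : Cg p (p * ∑ k ∈ range n, 1 / ((k : ℚ) + 1))
    (∑ k ∈ range (n / p), 1 / ((k : ℚ) + 1)) := by
  induction n with
  | zero => simpa using Cg.refl 0
  | succ n ih =>
    rw [sum_range_succ, mul_add]
    by_cases h : p ∣ n + 1
    · rw [Nat.succ_div_of_dvd h, sum_range_succ]
      refine ih.add (Cg.of_eq ?_)
      have h1 : n + 1 = p * (n / p + 1) := by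
        rw [← Nat.succ_div_of_dvd h, Nat.mul_div_cancel' h]
      have h2 : (n : ℚ) + 1 = p * (((n / p : ℕ) : ℚ) + 1) := by exact_mod_cast h1
      have hq : (p : ℚ) ≠ 0 := p_ne_zero
      rw [h2]
      field_simp
    · rw [Nat.succ_div_of_not_dvd h]
      have h1 := cg_p_mul (inv_nat_mem_O h)
      push_cast at h1
      simpa using ih.add h1

theorem KZ_cg (R : ℕ) (d : ℤ) (hR : R < p) (hd : |d| < p * R) :
    Cg p ((p : ℚ) ^ 2 * KZ d) (if (p : ℤ) ∣ d then KZ (d / p) else 0) := by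
  have hp0 : (0 : ℤ) < p := by exact_mod_cast hp.out.pos
  have hd' : d.natAbs < p * R := by rw [Int.abs_eq_natAbs] at hd; exact_mod_cast hd
  have hlt : d.natAbs / p < p := Nat.div_lt_of_lt_mul
    (hd'.trans_le (Nat.mul_le_mul_left p hR.le))
  split_ifs with h
  · obtain ⟨e, rfl⟩ := h
    rw [Int.mul_ediv_cancel_left _ hp0.ne']
    rcases eq_or_ne e 0 with rfl | he
    · simpa [KZ] using Cg.refl 0
    have h1 : (p * e : ℤ).natAbs = p * e.natAbs := by rw [Int.natAbs_mul, Int.natAbs_natCast]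
    rw [h1, Nat.mul_div_cancel_left _ hp.out.pos] at hlt
    have h2 := harm (p := p) (p * e.natAbs)
    rw [Nat.mul_div_cancel_left _ hp.out.pos] at h2
    have h3 := h2.mul_right (inv_nat_mem_O
      (Nat.not_dvd_of_pos_of_lt (Int.natAbs_pos.2 he) hlt))
    rw [KZ, KZ, h1, div_eq_mul_inv _ (e.natAbs : ℚ)]
    refine (Cg.of_eq ?_).trans h3
    have hq : (p : ℚ) ≠ 0 := p_ne_zero
    rw [Nat.cast_mul]
    field_simp
  · have h1 : ¬ p ∣ d.natAbs := fun h1 => h (Int.natCast_dvd.2 h1)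
    have h2 : (p : ℚ) * ∑ k ∈ range d.natAbs, 1 / ((k : ℚ) + 1) ∈ O p := by
      refine (harm _).mem (sum_mem fun k hk => ?_)
      rw [mem_range] at hk
      have := inv_nat_mem_O (p := p) (n := k + 1) (Nat.not_dvd_of_pos_of_lt (by omega) (by omega))
      push_cast at this
      rwa [one_div]
    refine (Cg.of_eq ?_).trans (cg_p_mul (mul_mem h2 (inv_nat_mem_O h1)))
    rw [KZ]; ring

end Frob2

theorem frob2 (h : Frob1Stmt) : Frob2Stmt := fun _ _ h2 =>
  ⟨fun M d hd => ⟨Frob2.KM_mem h h2 M d hd, Frob2.KZ_mem M d hd⟩,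
    fun R d hR hd => ⟨Frob2.KM_cg h h2 R d hR hd, Frob2.KZ_cg R d hR hd⟩⟩

end Vale.Agent.P030
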