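import Vale.Agent.P030.Defs

/-!
# P030: geometry of the contour
-/

namespace Vale.Agent.P030

open MeasureTheory

namespace Geo

theorem sig_sub_one {x : ℝ} (hx : x ≠ 0) : sig x - 1 = (1 - x) ^ 2 / (2 * x) := by
  unfold sig
  field_simp
  ring

theorem real_piece {x u : ℝ} (h0 : 0 < x) (h1 : x < 1) (hu : u ≤ 1) :
    1 / 20 * |x - 3 / 10| * (1 - x) ^ 2 ≤ ‖((sig x : ℝ) : ℂ) - (u : ℂ)‖ ∧
      1 - u ≤ ‖((sig x : ℝ) : ℂ) - (u : ℂ)‖ := by
  have h2 : (1 - x) ^ 2 / 2 ≤ sig x - 1 := by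
    rw [sig_sub_one h0.ne']
    exact div_le_div_of_nonneg_left (sq_nonneg _) (by linarith) (by linarith)
  have h3 : |x - 3 / 10| ≤ 1 := by
    rw [abs_le]
    constructor <;> linarith
  have h4 := sq_nonneg (1 - x)
  rw [← Complex.ofReal_sub, Complex.norm_real, Real.norm_eq_abs]
  have h5 := le_abs_self (sig x - u)
  constructor <;> nlinarith

theorem ho_ge {τ : ℝ} (h0 : 0 < τ) (h1 : τ < 1) : 1 ≤ (√(τ * (1 - τ)))⁻¹ := by
  have h2 : 0 < τ * (1 - τ) := mul_pos h0 (by linarith)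
  exact (one_le_inv₀ (Real.sqrt_pos.2 h2)).2 (Real.sqrt_le_one.2 (by nlinarith))

theorem real_kap {τ θ : ℝ} {c : ℂ} (h0 : 0 < τ) (h1 : τ < 1) (h2 : 0 < θ) (h3 : θ ≤ Real.pi)
    (hc : ‖c‖ ≤ 3 / 2) :
    0 < 1 - Real.cos θ ∧ 1 - Real.cos θ ≤ 2 ∧
      ‖c * (((Real.cos θ : ℝ) : ℂ) - 1)‖ ≤ 10 * √(1 - Real.cos θ) * (√(τ * (1 - τ)))⁻¹ := by
  have h4 : Real.cos θ < 1 := by
    rw [← Real.cos_zero]
    exact Real.cos_lt_cos_of_nonneg_of_le_pi le_rfl h3 h2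
  have h5 := Real.neg_one_le_cos θ
  refine ⟨by linarith, by linarith, ?_⟩
  have h6 : ‖((Real.cos θ : ℝ) : ℂ) - 1‖ = 1 - Real.cos θ := by
    rw [← Complex.ofReal_one, ← Complex.ofReal_sub, Complex.norm_real, Real.norm_eq_abs,
      abs_sub_comm, abs_of_pos (by linarith)]
  have h7 := Real.mul_self_sqrt (show 0 ≤ 1 - Real.cos θ by linarith)
  have h8 := Real.sqrt_nonneg (1 - Real.cos θ)
  have h9 : √(1 - Real.cos θ) ≤ 2 := by nlinarith
  have h10 := ho_ge h0 h1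
  rw [norm_mul, h6]
  have h11 : ‖c‖ * (1 - Real.cos θ) ≤ 3 / 2 * (1 - Real.cos θ) :=
    mul_le_mul_of_nonneg_right hc (by linarith)
  nlinarith

/-- Points of the two segments. -/
structure Seg (z : ℂ) (τ : ℝ) : Prop where
  t0 : 0 < τ
  t1 : τ < 1
  re : z.re = 3 / 10 + 113 / 290 * τ
  im : |z.im| = 21 / 29 * τ

theorem seg2 {τ : ℝ} (h0 : 0 < τ) (h1 : τ < 1) : Seg (zc z2 τ) τ := by
  refine ⟨h0, h1, ?_, ?_⟩
  · simp [zc, z2]
    ring
  · have : (zc z2 τ).im = 21 / 29 * τ := by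
      simp [zc, z2]
      ring
    rw [this, abs_of_pos (by positivity)]

theorem seg3 {τ : ℝ} (h0 : 0 < τ) (h1 : τ < 1) : Seg (zc z3 τ) τ := by
  refine ⟨h0, h1, ?_, ?_⟩
  · simp [zc, z3]
    ring
  · have : (zc z3 τ).im = -(21 / 29 * τ) := by
      simp [zc, z3]
      ring
    rw [this, abs_neg, abs_of_pos (by positivity)]

variable {z : ℂ} {τ : ℝ}

theorem Seg.imsq (h : Seg z τ) : z.im * z.im = (21 / 29 * τ) ^ 2 := by
  rw [← h.im, sq_abs, sq]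

theorem Seg.lo (h : Seg z τ) : 3 / 10 ≤ ‖z‖ := by
  have := Complex.re_le_norm z
  rw [h.re] at this
  linarith [h.t0]

theorem Seg.sq_le (h : Seg z τ) : ‖z‖ ^ 2 ≤ 1 - 91 / 100 * (1 - τ) := by
  rw [Complex.sq_norm, Complex.normSq_apply, h.imsq, h.re]
  nlinarith [mul_pos h.t0 (sub_pos.2 h.t1)]

theorem Seg.hi (h : Seg z τ) : ‖z‖ ≤ 1 := by
  have := h.sq_le
  nlinarith [h.t1, norm_nonneg z]

theorem Seg.ne (h : Seg z τ) : z ≠ 0 := norm_pos_iff.1 (by linarith [h.lo])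

theorem Seg.im_eq (h : Seg z τ) :
    |(sigc z).im| = 21 / 29 * τ * (1 - ‖z‖ ^ 2) / (2 * ‖z‖ ^ 2) := by
  have h0 : 0 < ‖z‖ := by linarith [h.lo]
  have h1 : (sigc z).im = z.im * ((‖z‖ ^ 2 - 1) / (2 * ‖z‖ ^ 2)) := by
    rw [sigc, Complex.div_ofNat_im, Complex.add_im, Complex.inv_im, Complex.normSq_eq_norm_sq]
    field_simp
    ring
  have h2 : ‖z‖ ^ 2 ≤ 1 := pow_le_one₀ h0.le h.hi
  rw [h1, abs_mul, h.im, abs_div, abs_sub_comm, abs_of_nonneg (sub_nonneg.2 h2),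
    abs_of_pos (show 0 < 2 * ‖z‖ ^ 2 by positivity), mul_div_assoc]

theorem Seg.im_ge (h : Seg z τ) : τ * (1 - τ) / 4 ≤ |(sigc z).im| := by
  have h0 : 0 < ‖z‖ := by linarith [h.lo]
  have h1 := h.sq_le
  have h2 : ‖z‖ ^ 2 ≤ 1 := pow_le_one₀ h0.le h.hi
  have h3 := mul_pos h.t0 (sub_pos.2 h.t1)
  have h4 := h.t0
  rw [h.im_eq, div_le_div_iff₀ (by norm_num) (by positivity)]
  nlinarith

theorem Seg.norm_sigc (h : Seg z τ) : ‖sigc z‖ ≤ 13 / 6 := by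
  have h1 : ‖z⁻¹‖ ≤ 10 / 3 := by
    rw [norm_inv, inv_le_comm₀ (by linarith [h.lo]) (by norm_num)]
    linarith [h.lo]
  have h2 := norm_add_le z z⁻¹
  rw [sigc, norm_div, Complex.norm_ofNat]
  linarith [h.hi]

theorem Seg.im_le (h : Seg z τ) : |(sigc z).im| ≤ 2 := by
  have h0 : 0 < ‖z‖ := by linarith [h.lo]
  have h1 := Complex.abs_im_le_norm z
  have h2 : ‖z‖ ^ 2 ≤ 1 := pow_le_one₀ h0.le h.hi
  have h3 := h.lo
  rw [h.im] at h1
  rw [h.im_eq, div_le_iff₀ (by positivity)]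
  have h4 : 21 / 29 * τ * (1 - ‖z‖ ^ 2) ≤ ‖z‖ * 1 :=
    mul_le_mul h1 (by nlinarith) (by linarith) h0.le
  nlinarith

theorem Seg.dist (h : Seg z τ) {x : ℝ} (h0 : 0 < x) (h1 : x < 1) :
    1 / 20 * |x - 3 / 10| * (1 - x) ^ 2 ≤ ‖((sig x : ℝ) : ℂ) - sigc z‖ ∧
      |(sigc z).im| ≤ ‖((sig x : ℝ) : ℂ) - sigc z‖ := by
  constructor
  · have hz := h.ne
    have hx : (x : ℂ) ≠ 0 := Complex.ofReal_ne_zero.2 h0.ne'
    have e : ((sig x : ℝ) : ℂ) - sigc z = ((x : ℂ) - z) * (z - ((x⁻¹ : ℝ) : ℂ)) / (2 * z) := by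
      rw [sig, sigc]
      push_cast
      field_simp
      ring
    have a1 : |x - 3 / 10| / 3 ≤ ‖(x : ℂ) - z‖ := by
      refine (sq_le_sq₀ (by positivity) (norm_nonneg _)).1 ?_
      rw [div_pow, sq_abs, Complex.sq_norm, Complex.normSq_apply]
      simp only [Complex.sub_re, Complex.sub_im, Complex.ofReal_re, Complex.ofReal_im, zero_sub,
        neg_mul_neg, h.imsq, h.re]
      nlinarith [sq_nonneg (x - 3 / 10 - 113 / 145 * τ), sq_nonneg τ, sq_nonneg (x - 3 / 10)]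
    have a2 : 9 / 29 ≤ ‖z - ((x⁻¹ : ℝ) : ℂ)‖ := by
      have b1 := Complex.re_le_norm (((x⁻¹ : ℝ) : ℂ) - z)
      have b2 : 1 ≤ x⁻¹ := (one_le_inv₀ h0).2 h1.le
      rw [Complex.sub_re, Complex.ofReal_re, h.re] at b1
      rw [norm_sub_rev]
      linarith [h.t1]
    have a3 : |x - 3 / 10| / 3 * (9 / 29) ≤ ‖(x : ℂ) - z‖ * ‖z - ((x⁻¹ : ℝ) : ℂ)‖ :=
      mul_le_mul a1 a2 (by norm_num) (norm_nonneg _)
    have a4 : (1 - x) ^ 2 * ‖z‖ ≤ 1 * 1 :=
      mul_le_mul (pow_le_one₀ (by linarith) (by linarith)) h.hi (norm_nonneg _) zero_le_one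
    have a5 := abs_nonneg (x - 3 / 10)
    rw [e, norm_div, norm_mul, norm_mul, Complex.norm_ofNat,
      le_div_iff₀ (by linarith [h.lo])]
    nlinarith
  · have := Complex.abs_im_le_norm (((sig x : ℝ) : ℂ) - sigc z)
    simpa using this

theorem Seg.kap (h : Seg z τ) {c : ℂ} (hc : ‖c‖ ≤ 1) :
    0 < |(sigc z).im| ∧ |(sigc z).im| ≤ 2 ∧
      ‖c / (4 * Real.pi * Complex.I * z) * (sigc z - 1)‖ ≤
        10 * √|(sigc z).im| * (√(τ * (1 - τ)))⁻¹ := by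
  have h3 := mul_pos h.t0 (sub_pos.2 h.t1)
  have h4 := h.im_ge
  refine ⟨by linarith, h.im_le, ?_⟩
  have h5 : √(τ * (1 - τ)) ≤ 2 * √|(sigc z).im| := by
    rw [Real.sqrt_le_left (by positivity), mul_pow, Real.sq_sqrt (abs_nonneg _)]
    linarith
  have h6 : 5 ≤ 10 * √|(sigc z).im| * (√(τ * (1 - τ)))⁻¹ := by
    rw [← div_eq_mul_inv, le_div_iff₀ (Real.sqrt_pos.2 h3)]
    linarith
  refine le_trans ?_ h6
  have h7 : ‖c / (4 * Real.pi * Complex.I * z)‖ ≤ 1 := by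
    have := Real.pi_gt_three
    rw [norm_div, norm_mul, norm_mul, norm_mul, Complex.norm_I, Complex.norm_real,
      Complex.norm_ofNat, Real.norm_of_nonneg Real.pi_pos.le]
    refine div_le_one_of_le₀ ?_ (by positivity)
    nlinarith [h.lo]
  have h8 : ‖sigc z - 1‖ ≤ 5 := by
    have := norm_sub_le (sigc z) 1
    rw [norm_one] at this
    linarith [h.norm_sigc]
  rw [norm_mul]
  nlinarith [norm_nonneg (sigc z - 1), norm_nonneg (c / (4 * Real.pi * Complex.I * z))]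

theorem int_sing (c a b : ℝ) : IntegrableOn (fun x : ℝ => (√|x - c|)⁻¹) (Set.Ioo a b) := by
  have h1 : LocallyIntegrable (fun y : ℝ => (√|y|)⁻¹) volume := by
    refine locallyIntegrable_of_norm_le_rpow (C := 1) (α := 1 / 2) (by simp)
      (by simp; norm_num) (ae_of_all _ fun y => le_of_eq ?_)
      (Measurable.aestronglyMeasurable (by fun_prop))
    rw [one_mul, Real.norm_eq_abs, Real.norm_eq_abs, abs_of_nonneg (by positivity),
      Real.rpow_neg (abs_nonneg _), Real.sqrt_eq_rpow]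
  have h2 : IntervalIntegrable (fun y : ℝ => (√|y|)⁻¹) volume (a - c) (b - c) :=
    (h1.integrableOn_isCompact isCompact_uIcc).intervalIntegrable
  have h3 := h2.comp_sub_right c
  rw [sub_add_cancel, sub_add_cancel] at h3
  exact h3.1.mono_set Set.Ioo_subset_Ioc_self

theorem ae_ms : ∀ᵐ τ ∂ms, τ ∈ Set.Ioo (0 : ℝ) 1 := ae_restrict_mem measurableSet_Ioo

theorem int_ho : Integrable (fun τ : ℝ => (√(τ * (1 - τ)))⁻¹) ms := by
  refine Integrable.mono' ((int_sing 0 0 1).add (int_sing 1 0 1))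
    (Measurable.aestronglyMeasurable (by fun_prop)) ?_
  filter_upwards [ae_ms] with τ hτ
  have h0 := hτ.1
  have h1 : 0 < 1 - τ := sub_pos.2 hτ.2
  have a1 := Real.sqrt_pos.2 h0
  have a2 := Real.sqrt_pos.2 h1
  have a3 : τ ≤ √τ := Real.le_sqrt_of_sq_le (by nlinarith)
  have a4 : 1 - τ ≤ √(1 - τ) := Real.le_sqrt_of_sq_le (by nlinarith)
  rw [Real.norm_of_nonneg (by positivity), Pi.add_apply, sub_zero, abs_of_pos h0, abs_sub_comm,
    abs_of_pos h1, Real.sqrt_mul h0.le, inv_add_inv a1.ne' a2.ne', inv_eq_one_div]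
  exact div_le_div_of_nonneg_right (by linarith) (by positivity)

theorem ph0_pos : 0 < ph0 := Real.arccos_pos.2 (by norm_num)

theorem ph0_le : ph0 ≤ Real.pi := Real.arccos_le_pi _

theorem norm_z2 : ‖z2 - 3 / 10‖ ≤ 1 := by
  refine (sq_le_sq₀ (norm_nonneg _) zero_le_one).1 ?_
  rw [Complex.sq_norm, Complex.normSq_apply]
  simp [z2]
  norm_num

theorem norm_z3 : ‖-(z3 - 3 / 10)‖ ≤ 1 := by
  refine (sq_le_sq₀ (norm_nonneg _) zero_le_one).1 ?_
  rw [Complex.sq_norm, Complex.normSq_apply]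
  simp [z3]
  norm_num

end Geo

open Geo in
theorem geo : GeoStmt := by
  have hπ := Real.pi_pos
  have : IsFiniteMeasure ms := by unfold ms; infer_instance
  refine ⟨fun x h0 h1 ω hω => ?_, fun ω hω => ?_, int_ho.comp_snd _, int_sing _ _ _, ?_, ?_⟩
  · obtain ⟨i, τ⟩ := ω
    obtain ⟨t0, t1⟩ := hω
    fin_cases i
    · exact real_piece h0 h1 (Real.cos_le_one _)
    · exact real_piece h0 h1 (Real.cos_le_one _)
    · exact (seg2 t0 t1).dist h0 h1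
    · exact (seg3 t0 t1).dist h0 h1
  · obtain ⟨i, τ⟩ := ω
    obtain ⟨t0, t1⟩ := hω
    change 0 < τ at t0
    change τ < 1 at t1
    fin_cases i
    · exact real_kap t0 t1 (mul_pos hπ t0) (by nlinarith) (c := 3 / 2) (by simp)
    · refine real_kap t0 t1 (mul_pos ph0_pos t0) (by nlinarith [ph0_pos, ph0_le])
        (c := -(ph0 : ℂ) / (2 * Real.pi)) ?_
      rw [norm_div, norm_neg, norm_mul, Complex.norm_real, Complex.norm_real, Complex.norm_ofNat,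
        Real.norm_of_nonneg ph0_pos.le, Real.norm_of_nonneg hπ.le, div_le_iff₀ (by positivity)]
      linarith [ph0_le]
    · exact (seg2 t0 t1).kap norm_z2
    · exact (seg3 t0 t1).kap norm_z3
  · exact Measure.quasiMeasurePreserving_snd.ae ae_ms
  · have h1 : ∀ᵐ x ∂mx, x ∈ Set.Ioo (-1 : ℝ) 1 := ae_restrict_mem measurableSet_Ioo
    have h2 : ∀ c : ℝ, ∀ᵐ x ∂mx, x ≠ c := fun c => ae_restrict_of_ae (volume.ae_ne c)
    filter_upwards [h1, h2 0, h2 (3 / 10)] with x a1 a2 a3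
    exact ⟨a1.1, a1.2, a2, a3⟩

end Vale.Agent.P030
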