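import Vale.Agent.P030.Base

/-!
# P030: the lattice lemma
-/

namespace Vale.Agent.P030

open Finset

namespace Lattice

variable {p : ℕ} [hp : Fact p.Prime] {n : ℕ}

theorem exists_pivot (hn : 0 < n) (v : Fin n → ℚ) (hv : ∀ j, v j ∈ O p) :
    ∃ (i : Fin n) (c : Fin n → ℤ), ∀ j, Cg p (v j) (c j * v i) := by
  by_cases h : ∀ j, ((v j : ℚ) : ZMod p) = 0
  · exact ⟨⟨0, hn⟩, 0, fun j => by simpa using (cast_eq_zero_iff (hv j)).1 (h j)⟩
  · push Not at h
    obtain ⟨i, hi⟩ := h
    refine ⟨i, fun j => ((((v j : ℚ) : ZMod p) / ((v i : ℚ) : ZMod p)).val : ℤ), fun j => ?_⟩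
    rw [← cast_eq_iff (hv j) (mul_mem (int_mem_O _) (hv i)), cast_mul_O (int_mem_O _) (hv i)]
    rw [Rat.cast_intCast, Int.cast_natCast, ZMod.natCast_zmod_val, div_mul_cancel₀ _ hi]

theorem step (hn : 0 < n) (v : Fin n → ℚ) (hv : ∀ j, v j ∈ O p) :
    ∃ E : Matrix (Fin n) (Fin n) ℤ, E.det = p ∧ ∀ j, (∑ k, (E j k : ℚ) * v k) / p ∈ O p := by
  obtain ⟨i, c, hc⟩ := exists_pivot hn v hv
  refine ⟨(1 : Matrix (Fin n) (Fin n) ℤ).updateCol i fun j => if j = i then p else -c j, ?_,
    fun j => ?_⟩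
  · rw [← Matrix.cramer_apply, Matrix.cramer_one]
    simp
  · rw [← add_sum_erase _ _ (mem_univ i), Matrix.updateCol_self]
    have h1 : ∑ k ∈ univ.erase i, (((1 : Matrix (Fin n) (Fin n) ℤ).updateCol i
        (fun j => if j = i then p else -c j) j k : ℤ) : ℚ) * v k = if j = i then 0 else v j := by
      rw [sum_congr rfl (g := fun k => if j = k then v k else 0) fun k hk => by
        rw [Matrix.updateCol_ne (ne_of_mem_erase hk), Matrix.one_apply]
        split_ifs <;> simp]
      rw [sum_ite_eq]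
      simp
    rw [h1]
    by_cases hj : j = i
    · subst hj
      simp only [if_true, add_zero, Int.cast_natCast]
      rw [mul_div_cancel_left₀ _ p_ne_zero]
      exact hv j
    · simp only [hj, if_false, Int.cast_neg]
      have := hc j
      unfold Cg at this
      rwa [show v j - c j * v i = -(c j : ℚ) * v i + v j by ring] at this

theorem map_row (l : (Fin n → ℤ) →+ ℚ) (E U : Matrix (Fin n) (Fin n) ℤ) (r : Fin n) :
    l ((E * U) r) = ∑ k, (E r k : ℚ) * l (U k) := by
  have : (E * U) r = ∑ k, E r k • U k := by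
    funext s
    simp [Matrix.mul_apply]
  rw [this, map_sum]
  exact sum_congr rfl fun k _ => by rw [map_zsmul, zsmul_eq_mul]

theorem exists_basis (hn : 0 < n) {ι : Type} [Fintype ι] (l : ι → (Fin n → ℤ) →+ ℚ)
    (hl : ∀ i f, l i f ∈ O p) (N : ℕ) : ∀ e : ι → ℕ, ∑ i, e i = N →
    ∃ U : Matrix (Fin n) (Fin n) ℤ, U.det = (p : ℤ) ^ N ∧
      ∀ i r, l i (U r) / (p : ℚ) ^ e i ∈ O p := by
  classical
  induction N with
  | zero =>
    intro e he
    refine ⟨1, by simp, fun i r => ?_⟩
    rw [sum_eq_zero_iff.1 he i (mem_univ i)]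
    simpa using hl i _
  | succ N ih =>
    intro e he
    obtain ⟨i, -, hi⟩ := exists_ne_zero_of_sum_ne_zero (s := univ) (f := e) (by omega)
    obtain ⟨k, hk⟩ := Nat.exists_eq_succ_of_ne_zero hi
    have hs : ∑ j, Function.update e i k j = N := by
      rw [sum_update_of_mem (mem_univ i)]
      rw [← add_sum_erase _ _ (mem_univ i), hk, ← sdiff_singleton_eq_erase] at he
      omega
    obtain ⟨U, hU, hU2⟩ := ih _ hs
    obtain ⟨E, hE, hE2⟩ := step hn (fun r => l i (U r) / (p : ℚ) ^ k) fun r => by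
      simpa using hU2 i r
    refine ⟨E * U, by rw [Matrix.det_mul, hE, hU, pow_succ'], fun j r => ?_⟩
    rw [map_row]
    by_cases hj : j = i
    · subst hj
      have := hE2 r
      simp only [← mul_div_assoc, ← sum_div] at this
      rwa [div_div, ← pow_succ, ← Nat.succ_eq_add_one, ← hk] at this
    · rw [sum_div]
      refine sum_mem fun s _ => ?_
      rw [mul_div_assoc]
      refine mul_mem (int_mem_O _) ?_
      simpa [Function.update_of_ne hj] using hU2 j s

end Lattice

theorem lattice : LatticeStmt := by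
  intro p _ n A c ι κ _ _ l e m e' hl hm h
  rcases Nat.eq_zero_or_pos n with rfl | hn
  · simpa using pow_mem (nat_mem_O (p := p) p) _
  obtain ⟨U, hU, hU2⟩ := Lattice.exists_basis hn l hl _ e rfl
  obtain ⟨V, hV, hV2⟩ := Lattice.exists_basis hn m hm _ e' rfl
  have h1 : (c • (U.map (Int.castRingHom ℚ) * A * (V.map (Int.castRingHom ℚ)).transpose)).det ∈
      O p := by
    refine det_mem_O fun r s => ?_
    have := h (U r) (V s) (fun i => hU2 i r) fun k => hV2 k s
    rw [sum_comm] at this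
    simpa [Matrix.mul_apply, sum_mul] using this
  rw [Matrix.det_smul, Matrix.det_mul, Matrix.det_mul, Matrix.det_transpose] at h1
  have h2 : (U.map (Int.castRingHom ℚ)).det = (p : ℚ) ^ ∑ i, e i := by
    rw [← RingHom.mapMatrix_apply, ← RingHom.map_det, hU]; simp
  have h3 : (V.map (Int.castRingHom ℚ)).det = (p : ℚ) ^ ∑ i, e' i := by
    rw [← RingHom.mapMatrix_apply, ← RingHom.map_det, hV]; simp
  rw [h2, h3, Fintype.card_fin] at h1
  rw [pow_add]
  rwa [show c ^ n * ((p : ℚ) ^ (∑ i, e i) * A.det * (p : ℚ) ^ ∑ i, e' i) =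
    (p : ℚ) ^ (∑ i, e i) * (p : ℚ) ^ (∑ i, e' i) * c ^ n * A.det by ring] at h1

end Vale.Agent.P030
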