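import Vale.Agent.P030.Base

/-!
# P030: the contour representation of the row functions
-/

namespace Vale.Agent.P030

open Polynomial Finset MeasureTheory Filter Topology

namespace Lens

theorem mo_eq : mo = ∑ i : Fin 4, ms.map (Prod.mk i) := by
  have : IsFiniteMeasure ms := by unfold ms; infer_instance
  rw [mo, Measure.count, Measure.prod_sum_left, Measure.sum_fintype]
  simp only [Measure.dirac_prod]

theorem intg_mo {f : Om → ℂ} (h : ∀ i, ContinuousOn (fun τ => f (i, τ)) (Set.Icc 0 1)) :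
    Integrable f mo ∧ ∫ ω, f ω ∂mo = ∑ i, ∫ τ in (0 : ℝ)..1, f (i, τ) := by
  have h1 : ∀ i, Integrable f (ms.map (Prod.mk i)) := by
    intro i
    rw [(measurableEmbedding_prodMk_left i).integrable_map_iff]
    exact ((h i).integrableOn_Icc).mono_set Set.Ioo_subset_Icc_self
  rw [mo_eq]
  refine ⟨integrable_finsetSum_measure.2 fun i _ => h1 i, ?_⟩
  rw [integral_finsetSum_measure fun i _ => h1 i]
  refine sum_congr rfl fun i _ => ?_
  rw [(measurableEmbedding_prodMk_left i).integral_map, intervalIntegral.integral_of_le zero_le_one,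
    integral_Ioc_eq_integral_Ioo, ms]

theorem sig_cast (x : ℝ) : ((sig x : ℝ) : ℂ) = sigc x := by simp [sig, sigc]

theorem one_lt_sig {x : ℝ} (h0 : 0 < x) (h1 : x < 1) : 1 < sig x := by
  have : sig x - 1 = (1 - x) ^ 2 / (2 * x) := by unfold sig; field_simp; ring
  have h2 : 0 < (1 - x) ^ 2 / (2 * x) := by
    have : 0 < 1 - x := by linarith
    positivity
  linarith

theorem ww_pos {x : ℝ} (h0 : 0 < x) (h1 : x < 1) : 0 < ww x := by
  have : 1 < x⁻¹ := (one_lt_inv₀ h0).2 h1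
  unfold ww; linarith

theorem cos_ne {x : ℝ} (h0 : 0 < x) (h1 : x < 1) (θ : ℝ) :
    ((sig x : ℝ) : ℂ) - ((Real.cos θ : ℝ) : ℂ) ≠ 0 := by
  rw [← Complex.ofReal_sub, Complex.ofReal_ne_zero]
  have := one_lt_sig h0 h1
  have := Real.cos_le_one θ
  linarith

theorem sig_sub {x z : ℂ} (hx : x ≠ 0) (hz : z ≠ 0) :
    sigc x - sigc z = -((z - x) * (z - x⁻¹)) / (2 * z) := by
  unfold sigc; field_simp; ring

theorem inv_ne {x : ℝ} (h0 : 0 < x) (h1 : x < 1) {z : ℂ} (hz : z.re ≤ 1) :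
    0 < ((x : ℂ)⁻¹ - z).re := by
  have : 1 < x⁻¹ := (one_lt_inv₀ h0).2 h1
  rw [← Complex.ofReal_inv, Complex.sub_re, Complex.ofReal_re]
  linarith

theorem sig_ne {x : ℝ} (h0 : 0 < x) (h1 : x < 1) {z : ℂ} (hz : z ≠ 0) (hzx : z ≠ x)
    (hr : z.re ≤ 1) : ((sig x : ℝ) : ℂ) - sigc z ≠ 0 := by
  have hx : (x : ℂ) ≠ 0 := by exact_mod_cast h0.ne'
  have h2 : z - (x : ℂ)⁻¹ ≠ 0 := by
    intro h
    have := inv_ne h0 h1 hr
    rw [← neg_sub, h] at this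
    simp at this
  rw [sig_cast, sig_sub hx hz]
  exact div_ne_zero (neg_ne_zero.2 (mul_ne_zero (sub_ne_zero.2 hzx) h2)) (by simpa using hz)

theorem zc_re {z : ℂ} (hz : z.re = 20 / 29) (τ : ℝ) : (zc z τ).re = 3 / 10 + τ * (113 / 290) := by
  simp [zc, hz]; norm_num

theorem zc_im (z : ℂ) (τ : ℝ) : (zc z τ).im = τ * z.im := by simp [zc]

theorem zc_facts {z : ℂ} (hz : z.re = 20 / 29) (hi : z.im ^ 2 = (21 / 29) ^ 2) {τ : ℝ}
    (hτ : τ ∈ Set.Icc (0 : ℝ) 1) :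
    zc z τ ∈ Metric.ball (2 : ℂ) 2 ∧ (zc z τ).re ≤ 1 ∧ 3 / 10 ≤ (zc z τ).re ∧
      ((zc z τ).im = 0 → (zc z τ).re = 3 / 10) := by
  obtain ⟨h0, h1⟩ := hτ
  refine ⟨?_, by rw [zc_re hz]; linarith, by rw [zc_re hz]; linarith, fun h => ?_⟩
  · rw [Metric.mem_ball, dist_eq_norm, ← sq_lt_sq₀ (norm_nonneg _) (by norm_num),
      Complex.sq_norm, Complex.normSq_apply]
    simp only [Complex.sub_re, Complex.sub_im, Complex.re_ofNat, Complex.im_ofNat, zc_re hz, zc_im]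
    have : τ * z.im * (τ * z.im) = τ ^ 2 * (21 / 29) ^ 2 := by rw [← hi]; ring
    nlinarith
  · rw [zc_im, mul_eq_zero] at h
    rcases h with h | h
    · rw [zc_re hz, h]; simp
    · rw [h] at hi; norm_num at hi

theorem ball_ne {z : ℂ} (hz : z ∈ Metric.ball (2 : ℂ) 2) : z ≠ 0 := by
  rintro rfl
  simp at hz

theorem zc_ne {x : ℝ} (h3 : x ≠ 3 / 10) {z : ℂ} (hz : z.re = 20 / 29)
    (hi : z.im ^ 2 = (21 / 29) ^ 2) {τ : ℝ} (hτ : τ ∈ Set.Icc (0 : ℝ) 1) : zc z τ ≠ x := by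
  intro h
  have := (zc_facts hz hi hτ).2.2.2 (by rw [h]; simp)
  rw [h] at this
  exact h3 (by simpa using this)

theorem cont_cos (P : ℂ[X]) {x : ℝ} (h0 : 0 < x) (h1 : x < 1) (a : ℝ) :
    Continuous fun τ : ℝ => P.eval ((Real.cos (a * τ) : ℝ) : ℂ) *
      (((sig x : ℝ) : ℂ) - ((Real.cos (a * τ) : ℝ) : ℂ))⁻¹ :=
  (P.continuous.comp (by fun_prop)).mul
    (Continuous.inv₀ (by fun_prop) fun τ => cos_ne h0 h1 _)

theorem cont_seg (P : ℂ[X]) {x : ℝ} (h0 : 0 < x) (h1 : x < 1) (h3 : x ≠ 3 / 10) {z : ℂ}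
    (hz : z.re = 20 / 29) (hi : z.im ^ 2 = (21 / 29) ^ 2) :
    ContinuousOn (fun τ : ℝ => P.eval (sigc (zc z τ)) *
      (((sig x : ℝ) : ℂ) - sigc (zc z τ))⁻¹ * (zc z τ)⁻¹) (Set.Icc 0 1) := by
  have hc : Continuous (zc z) := by unfold zc; fun_prop
  have hi' : ContinuousOn (fun τ => (zc z τ)⁻¹) (Set.Icc 0 1) :=
    hc.continuousOn.inv₀ fun τ hτ => ball_ne (zc_facts hz hi hτ).1
  have hs : ContinuousOn (fun τ => sigc (zc z τ)) (Set.Icc 0 1) :=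
    (hc.continuousOn.add hi').div_const 2
  exact ((P.continuous.comp_continuousOn hs).mul ((continuousOn_const.sub hs).inv₀ fun τ hτ =>
    sig_ne h0 h1 (ball_ne (zc_facts hz hi hτ).1) (zc_ne h3 hz hi hτ) (zc_facts hz hi hτ).2.1)).mul hi'

theorem path (Φ γ γ' g : ℂ → ℂ) (h : ℝ → ℂ) (hγ : ∀ z, HasDerivAt γ (γ' z) z)
    (hΦ : ∀ τ ∈ Set.Icc (0 : ℝ) 1, HasDerivAt Φ (g (γ τ)) (γ τ))
    (hh : ∀ τ ∈ Set.Icc (0 : ℝ) 1, g (γ τ) * γ' τ = h τ) (hc : ContinuousOn h (Set.Icc 0 1)) :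
    ∫ τ in (0 : ℝ)..1, h τ = Φ (γ 1) - Φ (γ 0) := by
  have := intervalIntegral.integral_eq_sub_of_hasDerivAt (f := fun τ : ℝ => Φ (γ τ)) (f' := h)
    (a := 0) (b := 1) (fun τ hτ => ?_) (hc.intervalIntegrable_of_Icc zero_le_one)
  · simpa using this
  · rw [Set.uIcc_of_le zero_le_one] at hτ
    rw [← hh τ hτ]
    exact ((hΦ τ hτ).comp (τ : ℂ) (hγ τ)).comp_ofReal

theorem prim (S : ℂ[X]) {x : ℝ} (h0 : 0 < x) (h1 : x < 1) : ∃ F : ℂ → ℂ, ∀ (L : ℂ → ℂ) (z : ℂ),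
    z ∈ Metric.ball (2 : ℂ) 2 → z ≠ x → z.re ≤ 1 → HasDerivAt L (z - x)⁻¹ z →
    HasDerivAt (fun z => S.eval ((sig x : ℝ) : ℂ) / (ww x : ℝ) *
      (L z - Complex.log ((x : ℂ)⁻¹ - z)) - F z)
      (S.eval (sigc z) * (((sig x : ℝ) : ℂ) - sigc z)⁻¹ * z⁻¹) z := by
  set σ : ℂ := ((sig x : ℝ) : ℂ) with hσ
  set R := S /ₘ (X - C σ) with hR
  have hS : ∀ u, S.eval u = S.eval σ + (u - σ) * R.eval u := by
    intro u
    have := congrArg (eval u) (modByMonic_add_div S (X - C σ))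
    rw [modByMonic_X_sub_C_eq_C_eval] at this
    simpa using this.symm
  have hd : DifferentiableOn ℂ (fun z => R.eval (sigc z) * z⁻¹) (Metric.ball (2 : ℂ) 2) := by
    intro z hz
    have hi : DifferentiableAt ℂ (fun z : ℂ => z⁻¹) z := differentiableAt_inv (ball_ne hz)
    have hs : DifferentiableAt ℂ sigc z := (differentiableAt_id.add hi).div_const 2
    exact ((R.differentiableAt.comp z hs).mul hi).differentiableWithinAt
  obtain ⟨F, hF⟩ := hd.isExactOn_ball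
  refine ⟨F, fun L z hz hzx hr hL => ?_⟩
  have hpos := inv_ne h0 h1 hr
  have hlog : HasDerivAt (fun z => Complex.log ((x : ℂ)⁻¹ - z)) (-1 / ((x : ℂ)⁻¹ - z)) z :=
    ((hasDerivAt_id z).const_sub _).clog (Or.inl hpos)
  refine (((hL.sub hlog).const_mul _).sub (hF z hz)).congr_deriv ?_
  have hx : (x : ℂ) ≠ 0 := by exact_mod_cast h0.ne'
  have hz0 := ball_ne hz
  have hne : σ - sigc z ≠ 0 := sig_ne h0 h1 hz0 hzx hr
  have hw : ((ww x : ℝ) : ℂ) ≠ 0 := by exact_mod_cast (ww_pos h0 h1).ne'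
  have h2 : (x : ℂ)⁻¹ - z ≠ 0 := fun h => by rw [h] at hpos; simp at hpos
  have h3 : z - x ≠ 0 := sub_ne_zero.2 hzx
  have e1 : (z - x)⁻¹ - -1 / ((x : ℂ)⁻¹ - z) = (ww x : ℝ) * ((σ - sigc z)⁻¹ * z⁻¹) := by
    have : ((ww x : ℝ) : ℂ) = ((x : ℂ)⁻¹ - x) / 2 := by simp [ww]
    rw [hσ, sig_cast, sig_sub hx hz0, this, ← mul_neg, neg_sub]
    generalize (x : ℂ)⁻¹ = y at h2 ⊢
    field_simp
    ring
  rw [e1, hS (sigc z)]
  field_simp
  ring

theorem cos_ph0 : Real.cos ph0 = 20 / 29 := Real.cos_arccos (by norm_num) (by norm_num)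

theorem sin_ph0 : Real.sin ph0 = 21 / 29 := by
  rw [ph0, Real.sin_arccos, show (1 : ℝ) - (20 / 29) ^ 2 = (21 / 29) ^ 2 by norm_num,
    Real.sqrt_sq (by norm_num)]

theorem cos_ge {τ : ℝ} (hτ : τ ∈ Set.Icc (0 : ℝ) 1) : 20 / 29 ≤ Real.cos (ph0 * τ) := by
  have h0 : 0 ≤ ph0 := Real.arccos_nonneg _
  rw [← cos_ph0]
  exact Real.cos_le_cos_of_nonneg_of_le_pi (mul_nonneg h0 hτ.1) (Real.arccos_le_pi _)
    (mul_le_of_le_one_right h0 hτ.2)

theorem sigc_exp (θ : ℝ) : sigc (Complex.exp (θ * Complex.I)) = ((Real.cos θ : ℝ) : ℂ) := by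
  rw [sigc, ← Complex.exp_neg, Complex.ofReal_cos, Complex.cos, neg_mul]

theorem arc (S : ℂ[X]) {x : ℝ} (h0 : 0 < x) (h1 : x < 1) (Φ : ℂ → ℂ)
    (hΦ : ∀ z, z ∈ Metric.ball (2 : ℂ) 2 → z - x ∈ Complex.slitPlane → z.re ≤ 1 →
      HasDerivAt Φ (S.eval (sigc z) * (((sig x : ℝ) : ℂ) - sigc z)⁻¹ * z⁻¹) z)
    (a : ℝ) (ha : ∀ τ, Real.cos (a * τ) = Real.cos (ph0 * τ)) :
    (∫ τ in (0 : ℝ)..1, S.eval ((Real.cos (ph0 * τ) : ℝ) : ℂ) *
      (((sig x : ℝ) : ℂ) - ((Real.cos (ph0 * τ) : ℝ) : ℂ))⁻¹) * (a * Complex.I) =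
      Φ (Complex.exp (a * Complex.I)) - Φ 1 := by
  rw [← intervalIntegral.integral_mul_const]
  have := path Φ (fun z => Complex.exp (a * z * Complex.I))
    (fun z => Complex.exp (a * z * Complex.I) * (a * Complex.I))
    (fun z => S.eval (sigc z) * (((sig x : ℝ) : ℂ) - sigc z)⁻¹ * z⁻¹) _ (fun z => ?_)
    (fun τ hτ => ?_) (fun τ hτ => ?_) ((cont_cos S h0 h1 ph0).mul
      (continuous_const (y := (a : ℂ) * Complex.I))).continuousOn
  · simpa using this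
  · simpa using (((hasDerivAt_id z).const_mul (a : ℂ)).mul_const Complex.I).cexp
  · have hc := cos_ge hτ
    rw [← ha] at hc
    have hsc := Real.sin_sq_add_cos_sq (a * τ)
    simp only [← Complex.ofReal_mul]
    refine hΦ _ ?_ ?_ ?_
    · rw [Metric.mem_ball, dist_eq_norm, ← sq_lt_sq₀ (norm_nonneg _) (by norm_num),
        Complex.sq_norm, Complex.normSq_apply]
      simp only [Complex.sub_re, Complex.sub_im, Complex.re_ofNat, Complex.im_ofNat,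
        Complex.exp_ofReal_mul_I_re, Complex.exp_ofReal_mul_I_im]
      nlinarith
    · rw [Complex.mem_slitPlane_iff]
      simp only [Complex.sub_re, Complex.sub_im, Complex.ofReal_re, Complex.ofReal_im,
        Complex.exp_ofReal_mul_I_re, Complex.exp_ofReal_mul_I_im, sub_zero]
      by_cases h : Real.sin (a * τ) = 0
      · left
        rw [h] at hsc
        nlinarith
      · exact Or.inr h
    · rw [Complex.exp_ofReal_mul_I_re]
      exact Real.cos_le_one _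
  · simp only [← Complex.ofReal_mul, sigc_exp, ha, Pi.mul_apply]
    have := Complex.exp_ne_zero (((a * τ : ℝ) : ℂ) * Complex.I)
    field_simp

theorem seg (S : ℂ[X]) {x : ℝ} (h0 : 0 < x) (h1 : x < 1) (h3 : x ≠ 3 / 10) (Ψ : ℂ → ℂ) {z : ℂ}
    (hz : z.re = 20 / 29) (hi : z.im ^ 2 = (21 / 29) ^ 2)
    (hΨ : ∀ τ ∈ Set.Icc (0 : ℝ) 1, HasDerivAt Ψ (S.eval (sigc (zc z τ)) *
      (((sig x : ℝ) : ℂ) - sigc (zc z τ))⁻¹ * (zc z τ)⁻¹) (zc z τ)) :
    (∫ τ in (0 : ℝ)..1, S.eval (sigc (zc z τ)) *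
      (((sig x : ℝ) : ℂ) - sigc (zc z τ))⁻¹ * (zc z τ)⁻¹) * (z - 3 / 10) = Ψ z - Ψ (3 / 10) := by
  rw [← intervalIntegral.integral_mul_const]
  have := path Ψ (fun u => 3 / 10 + u * (z - 3 / 10)) (fun _ => z - 3 / 10)
    (fun z => S.eval (sigc z) * (((sig x : ℝ) : ℂ) - sigc z)⁻¹ * z⁻¹) _ (fun u => ?_)
    hΨ (fun τ hτ => rfl) ((cont_seg S h0 h1 h3 hz hi).mul
      (continuousOn_const (c := z - 3 / 10)))
  · simpa [zc] using this
  · simpa using ((hasDerivAt_id u).mul_const (z - 3 / 10)).const_add (3 / 10)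

theorem log_neg {a : ℂ} (h : 0 < a.im) :
    Complex.log a - Complex.log (-a) = Real.pi * Complex.I := by
  simp only [Complex.log, norm_neg, Complex.arg_neg_eq_arg_sub_pi_of_im_pos h]
  push_cast
  ring

theorem exp_ph0 : Complex.exp (ph0 * Complex.I) = z2 := by
  apply Complex.ext
  · rw [Complex.exp_ofReal_mul_I_re, cos_ph0]; rfl
  · rw [Complex.exp_ofReal_mul_I_im, sin_ph0]; rfl

theorem exp_ph0' : Complex.exp (((-ph0 : ℝ) : ℂ) * Complex.I) = z3 := by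
  apply Complex.ext
  · rw [Complex.exp_ofReal_mul_I_re, Real.cos_neg, cos_ph0]; rfl
  · rw [Complex.exp_ofReal_mul_I_im, Real.sin_neg, sin_ph0]; rfl

theorem lensB (S : ℂ[X]) {x : ℝ} (h0 : 0 < x) (h1 : x < 1) (h3 : x ≠ 3 / 10) :
    2 * ((∫ τ in (0 : ℝ)..1, S.eval ((Real.cos (ph0 * τ) : ℝ) : ℂ) *
      (((sig x : ℝ) : ℂ) - ((Real.cos (ph0 * τ) : ℝ) : ℂ))⁻¹) * (ph0 * Complex.I)) -
    (∫ τ in (0 : ℝ)..1, S.eval (sigc (zc z2 τ)) *
      (((sig x : ℝ) : ℂ) - sigc (zc z2 τ))⁻¹ * (zc z2 τ)⁻¹) * (z2 - 3 / 10) +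
    (∫ τ in (0 : ℝ)..1, S.eval (sigc (zc z3 τ)) *
      (((sig x : ℝ) : ℂ) - sigc (zc z3 τ))⁻¹ * (zc z3 τ)⁻¹) * (z3 - 3 / 10) =
    if x < 3 / 10 then 0 else
      S.eval ((sig x : ℝ) : ℂ) / (ww x : ℝ) * (2 * Real.pi * Complex.I) := by
  obtain ⟨F, hF⟩ := prim S h0 h1
  have hL : ∀ z : ℂ, z - x ∈ Complex.slitPlane →
      HasDerivAt (fun z => Complex.log (z - x)) (z - x)⁻¹ z := fun z hz => by
    simpa using ((hasDerivAt_id z).sub_const (x : ℂ)).clog hz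
  have hL' : ∀ z : ℂ, x - z ∈ Complex.slitPlane →
      HasDerivAt (fun z => Complex.log (x - z)) (z - x)⁻¹ z := fun z hz => by
    refine (((hasDerivAt_id z).const_sub (x : ℂ)).clog hz).congr_deriv ?_
    rw [id, ← neg_sub z, neg_div_neg_eq, one_div]
  have hA := arc S h0 h1 _ fun z hz hs hr =>
    hF _ z hz (sub_ne_zero.1 (Complex.slitPlane_ne_zero hs)) hr (hL z hs)
  have a1 := hA ph0 fun _ => rfl
  have a2 := hA (-ph0) fun τ => by rw [neg_mul, Real.cos_neg]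
  rw [exp_ph0] at a1
  rw [exp_ph0', Complex.ofReal_neg] at a2
  have r2 : z2.re = 20 / 29 := rfl
  have r3 : z3.re = 20 / 29 := rfl
  have i2 : z2.im ^ 2 = (21 / 29) ^ 2 := rfl
  have i3 : z3.im ^ 2 = (21 / 29) ^ 2 := by simp [z3]
  split_ifs with h
  · have hs : ∀ z : ℂ, z.re = 20 / 29 → z.im ^ 2 = (21 / 29) ^ 2 → _ := fun z hz hi =>
      seg S h0 h1 h3 _ hz hi fun τ hτ => hF _ _ (zc_facts hz hi hτ).1 (zc_ne h3 hz hi hτ)
        (zc_facts hz hi hτ).2.1 (hL _ (Or.inl (by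
          have := (zc_facts hz hi hτ).2.2.1
          rw [Complex.sub_re, Complex.ofReal_re]; linarith)))
    rw [hs z2 r2 i2, hs z3 r3 i3]
    linear_combination a1 - a2
  · have h' : 3 / 10 < x := lt_of_le_of_ne (not_lt.1 h) (Ne.symm h3)
    have hs : ∀ z : ℂ, z.re = 20 / 29 → z.im ^ 2 = (21 / 29) ^ 2 → _ := fun z hz hi =>
      seg S h0 h1 h3 _ hz hi fun τ hτ => hF _ _ (zc_facts hz hi hτ).1 (zc_ne h3 hz hi hτ)
        (zc_facts hz hi hτ).2.1 (hL' _ (by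
          by_cases hi0 : (zc z τ).im = 0
          · left
            rw [Complex.sub_re, Complex.ofReal_re, (zc_facts hz hi hτ).2.2.2 hi0]; linarith
          · right
            simpa using hi0))
    rw [hs z2 r2 i2, hs z3 r3 i3]
    have l2 := log_neg (a := z2 - x) (by simp [z2])
    have l3 := log_neg (a := x - z3) (by simp [z3])
    rw [neg_sub] at l2 l3
    linear_combination a1 - a2 + S.eval ((sig x : ℝ) : ℂ) / (ww x : ℝ) * (l2 + l3)

theorem lensA {x : ℝ} (h0 : 0 < x) (h1 : x < 1) (e : ℤ) :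
    (ww x : ℝ) * (∫ τ in (0 : ℝ)..1, (Chebyshev.T ℂ e).eval ((Real.cos (Real.pi * τ) : ℝ) : ℂ) *
      (((sig x : ℝ) : ℂ) - ((Real.cos (Real.pi * τ) : ℝ) : ℂ))⁻¹) = (x : ℂ) ^ e.natAbs := by
  rw [← Chebyshev.T_natAbs]
  generalize e.natAbs = n
  have hx : (x : ℂ) ≠ 0 := by exact_mod_cast h0.ne'
  have hd : DifferentiableOn ℂ (fun z : ℂ => 2 * z ^ n / ((x : ℂ)⁻¹ - z)) (Metric.closedBall 0 1) := by
    refine DifferentiableOn.div (by fun_prop) (by fun_prop) fun z hz h => ?_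
    have := inv_ne h0 h1 ((Complex.re_le_norm z).trans (by simpa using hz))
    rw [h] at this
    simp at this
  have hC := hd.circleIntegral_sub_inv_smul (w := x) (by simp [abs_of_pos h0, h1])
  set G : ℝ → ℂ := fun θ => Complex.I * Complex.exp (θ * Complex.I) ^ n *
    (((sig x : ℝ) : ℂ) - ((Real.cos θ : ℝ) : ℂ))⁻¹ with hG
  have hGc : Continuous G := Continuous.mul (by fun_prop)
    (Continuous.inv₀ (by fun_prop) fun τ => cos_ne h0 h1 _)
  have e1 : (∮ z in C(0, 1), (z - x)⁻¹ • (2 * z ^ n / ((x : ℂ)⁻¹ - z))) =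
      ∫ θ in (0 : ℝ)..2 * Real.pi, G θ := by
    unfold circleIntegral
    refine intervalIntegral.integral_congr fun θ _ => ?_
    simp only [deriv_circleMap, circleMap_zero, Complex.ofReal_one, one_mul, smul_eq_mul, hG]
    have hz := Complex.exp_ne_zero ((θ : ℂ) * Complex.I)
    have hne := cos_ne h0 h1 θ
    rw [← sigc_exp, sig_cast, sig_sub hx hz, ← mul_neg, neg_sub] at hne ⊢
    have h2 := (div_ne_zero_iff.1 hne).1
    have h3 := left_ne_zero_of_mul h2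
    have h4 := right_ne_zero_of_mul h2
    generalize (x : ℂ)⁻¹ = y at h4 ⊢
    field_simp
  have e2 : ∫ θ in (0 : ℝ)..2 * Real.pi, G θ =
      ∫ θ in (0 : ℝ)..Real.pi, (G θ + G (2 * Real.pi - θ)) := by
    have hGc' : Continuous fun θ => G (2 * Real.pi - θ) := hGc.comp (by fun_prop)
    rw [intervalIntegral.integral_add (hGc.intervalIntegrable _ _) (hGc'.intervalIntegrable _ _),
      intervalIntegral.integral_comp_sub_left, show 2 * Real.pi - Real.pi = Real.pi by ring, sub_zero,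
      intervalIntegral.integral_add_adjacent_intervals (hGc.intervalIntegrable _ _)
        (hGc.intervalIntegrable _ _)]
  have e3 : ∀ θ : ℝ, G θ + G (2 * Real.pi - θ) = 2 * Complex.I *
      ((Chebyshev.T ℂ n).eval ((Real.cos θ : ℝ) : ℂ) *
        (((sig x : ℝ) : ℂ) - ((Real.cos θ : ℝ) : ℂ))⁻¹) := by
    intro θ
    have : Complex.exp (((2 * Real.pi - θ : ℝ) : ℂ) * Complex.I) =
        Complex.exp (-(θ : ℂ) * Complex.I) := by
      rw [← Complex.exp_periodic (-(θ : ℂ) * Complex.I)]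
      congr 1
      push_cast
      ring
    simp only [hG, Real.cos_two_pi_sub, this]
    have h2 := Complex.two_cos ((n : ℤ) * (θ : ℂ))
    rw [show ((n : ℤ) : ℂ) * θ * Complex.I = n * (θ * Complex.I) by push_cast; ring,
      show -(((n : ℤ) : ℂ) * θ) * Complex.I = n * (-θ * Complex.I) by push_cast; ring,
      Complex.exp_nat_mul, Complex.exp_nat_mul] at h2
    rw [Complex.ofReal_cos, Chebyshev.T_complex_cos]
    linear_combination (-Complex.I * (((sig x : ℝ) : ℂ) - Complex.cos θ)⁻¹) * h2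
  have e4 := intervalIntegral.smul_integral_comp_mul_left (a := 0) (b := 1)
    (fun θ : ℝ => (Chebyshev.T ℂ n).eval ((Real.cos θ : ℝ) : ℂ) *
        (((sig x : ℝ) : ℂ) - ((Real.cos θ : ℝ) : ℂ))⁻¹) Real.pi
  rw [e1, e2] at hC
  simp only [e3, intervalIntegral.integral_const_mul] at hC
  rw [mul_zero, mul_one] at e4
  rw [← e4, Complex.real_smul, smul_eq_mul] at hC
  have hw : ((ww x : ℝ) : ℂ) ≠ 0 := by exact_mod_cast (ww_pos h0 h1).ne'
  have e5 : (x : ℂ)⁻¹ - x = 2 * (ww x : ℝ) := by simp only [ww]; push_cast; ring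
  rw [e5] at hC
  have hpi : (Real.pi : ℂ) ≠ 0 := by exact_mod_cast Real.pi_ne_zero
  have hI := Complex.I_ne_zero
  generalize (∫ τ in (0 : ℝ)..1, (Chebyshev.T ℂ n).eval ((Real.cos (Real.pi * τ) : ℝ) : ℂ) *
      (((sig x : ℝ) : ℂ) - ((Real.cos (Real.pi * τ) : ℝ) : ℂ))⁻¹) = J at hC ⊢
  field_simp at hC
  linear_combination hC

theorem St_eval (e : ℤ) (u : ℂ) : (S0 ℂ e).eval u = (u - 1) * (St e).eval u := by
  have h : (X - C 1) * St e = S0 ℂ e := mul_divByMonic_eq_iff_isRoot.2 (S0_eval_one ℂ e)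
  rw [← h]
  simp

theorem eval_cast (P : ℝ[X]) (u : ℝ) :
    ((P.eval u : ℝ) : ℂ) = (P.map Complex.ofRealHom).eval (u : ℂ) :=
  (eval_map_apply Complex.ofRealHom u).symm

theorem cheb_id {x : ℝ} (h0 : 0 < x) (e : ℤ) :
    (S0 ℂ e).eval ((sig x : ℝ) : ℂ) - (ww x : ℝ) * (D0 ℂ e).eval ((sig x : ℝ) : ℂ) =
      (ww x : ℝ) * (A0 e).eval ((sig x : ℝ) : ℂ) +
        ((x : ℂ) ^ e.natAbs - (x : ℂ) ^ (e + 1).natAbs) := by
  have hx : (x : ℂ) ≠ 0 := by exact_mod_cast h0.ne'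
  have hw : ((ww x : ℝ) : ℂ) = ((x : ℂ)⁻¹ - x) / 2 := by simp [ww]
  have c := fun e => cheb_eval (K := ℂ) two_ne_zero hx e
  have c1 := c e
  have c2 := c (e + 1)
  have c3 := (c (-e)).2
  have c4 := (c (-(e + 1))).2
  rw [add_sub_cancel_right] at c2
  rw [neg_neg] at c3 c4
  rw [show -(e + 1) - 1 = -e - 2 by ring] at c4
  rw [sig_cast, hw, sigc, ← zpow_natCast, ← zpow_natCast]
  simp only [S0, D0, A0, eval_sub]
  split_ifs with h
  · rw [show ((e.natAbs : ℕ) : ℤ) = -e by omega, show (((e + 1).natAbs : ℕ) : ℤ) = -(e + 1) by omega]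
    simp only [eval_mul, eval_sub, eval_ofNat]
    linear_combination c1.1 - c2.1 - c1.2 + c2.2 - 2 * c3 + 2 * c4
  · rw [show ((e.natAbs : ℕ) : ℤ) = e by omega, show (((e + 1).natAbs : ℕ) : ℤ) = e + 1 by omega]
    simp only [eval_zero]
    linear_combination c1.1 - c2.1 - c1.2 + c2.2

theorem pieces (P : ℂ[X]) (σ : ℂ) (τ : ℝ) :
    (P.eval (uu (0, τ)) * kap (0, τ) * (σ - uu (0, τ))⁻¹ =
      3 / 2 * (((X - 1) * P).eval ((Real.cos (Real.pi * τ) : ℝ) : ℂ) *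
        (σ - ((Real.cos (Real.pi * τ) : ℝ) : ℂ))⁻¹)) ∧
    (P.eval (uu (1, τ)) * kap (1, τ) * (σ - uu (1, τ))⁻¹ =
      -(ph0 : ℂ) / (2 * Real.pi) * (((X - 1) * P).eval ((Real.cos (ph0 * τ) : ℝ) : ℂ) *
        (σ - ((Real.cos (ph0 * τ) : ℝ) : ℂ))⁻¹)) ∧
    (P.eval (uu (2, τ)) * kap (2, τ) * (σ - uu (2, τ))⁻¹ =
      (z2 - 3 / 10) / (4 * Real.pi * Complex.I) * (((X - 1) * P).eval (sigc (zc z2 τ)) *
        (σ - sigc (zc z2 τ))⁻¹ * (zc z2 τ)⁻¹)) ∧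
    (P.eval (uu (3, τ)) * kap (3, τ) * (σ - uu (3, τ))⁻¹ =
      -(z3 - 3 / 10) / (4 * Real.pi * Complex.I) * (((X - 1) * P).eval (sigc (zc z3 τ)) *
        (σ - sigc (zc z3 τ))⁻¹ * (zc z3 τ)⁻¹)) := by
  simp only [uu, kap, eval_mul, eval_sub, eval_X, eval_one, Matrix.cons_val_zero,
    Matrix.cons_val_one, Matrix.cons_val]
  refine ⟨by ring, by ring, by ring, by ring⟩

theorem cont_pieces (P : ℂ[X]) {x : ℝ} (h0 : 0 < x) (h1 : x < 1) (h3 : x ≠ 3 / 10) (i : Fin 4) :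
    ContinuousOn (fun τ => P.eval (uu (i, τ)) * kap (i, τ) *
      (((sig x : ℝ) : ℂ) - uu (i, τ))⁻¹) (Set.Icc 0 1) := by
  match i with
  | 0 =>
    simp only [(pieces P _ _).1]
    exact (continuous_const.mul (cont_cos _ h0 h1 _)).continuousOn
  | 1 =>
    simp only [(pieces P _ _).2.1]
    exact (continuous_const.mul (cont_cos _ h0 h1 _)).continuousOn
  | 2 =>
    simp only [(pieces P _ _).2.2.1]
    exact continuousOn_const.mul (cont_seg _ h0 h1 h3 rfl rfl)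
  | 3 =>
    simp only [(pieces P _ _).2.2.2]
    exact continuousOn_const.mul (cont_seg _ h0 h1 h3 rfl (by simp [z3]))

end Lens

open Lens in
theorem lens (_h : GeoStmt) : LensStmt := by
  refine ⟨fun e x hx => ?_, fun x h0 h1 h3 => ⟨fun P => ?_, fun e => ?_⟩⟩
  · rw [psi, if_neg (not_lt.2 hx.le), sub_zero, eval_cast, S0_map, St_eval]
  · exact (intg_mo (f := fun ω => P.eval (uu ω) * kap ω * (((sig x : ℝ) : ℂ) - uu ω)⁻¹)
      (cont_pieces P h0 h1 h3)).1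
  · rw [(intg_mo (f := fun ω => (St e).eval (uu ω) * kap ω * (((sig x : ℝ) : ℂ) - uu ω)⁻¹)
      (cont_pieces _ h0 h1 h3)).2, Fin.sum_univ_four]
    have hS : (X - 1) * St e = S0 ℂ e := mul_divByMonic_eq_iff_isRoot.2 (S0_eval_one ℂ e)
    simp only [(pieces _ _ _).1, (pieces _ _ _).2.1, (pieces _ _ _).2.2.1, (pieces _ _ _).2.2.2,
      intervalIntegral.integral_const_mul, hS]
    have hB := lensB (S0 ℂ e) h0 h1 h3
    have hA : (ww x : ℝ) * (∫ τ in (0 : ℝ)..1, (S0 ℂ e).eval ((Real.cos (Real.pi * τ) : ℝ) : ℂ) *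
        (((sig x : ℝ) : ℂ) - ((Real.cos (Real.pi * τ) : ℝ) : ℂ))⁻¹) =
        (x : ℂ) ^ e.natAbs - (x : ℂ) ^ (e + 1).natAbs := by
      rw [← lensA h0 h1, ← lensA h0 h1, ← mul_sub, ← intervalIntegral.integral_sub
        ((cont_cos _ h0 h1 _).intervalIntegrable _ _) ((cont_cos _ h0 h1 _).intervalIntegrable _ _)]
      simp only [S0, eval_sub, sub_mul]
    have hc := cheb_id h0 e
    have hw : ((ww x : ℝ) : ℂ) ≠ 0 := by exact_mod_cast (ww_pos h0 h1).ne'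
    have hpi : (Real.pi : ℂ) ≠ 0 := by exact_mod_cast Real.pi_ne_zero
    have hI := Complex.I_ne_zero
    rw [psi, if_pos h0, ← St_eval]
    push_cast [eval_cast, S0_map, D0_map] at hA hB hc ⊢
    set J0 := ∫ τ in (0 : ℝ)..1, (S0 ℂ e).eval (Complex.cos (Real.pi * τ)) *
        (((sig x : ℝ) : ℂ) - Complex.cos (Real.pi * τ))⁻¹
    set J1 := ∫ τ in (0 : ℝ)..1, (S0 ℂ e).eval (Complex.cos (ph0 * τ)) *
        (((sig x : ℝ) : ℂ) - Complex.cos (ph0 * τ))⁻¹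
    set J2 := ∫ τ in (0 : ℝ)..1, (S0 ℂ e).eval (sigc (zc z2 τ)) *
      (((sig x : ℝ) : ℂ) - sigc (zc z2 τ))⁻¹ * (zc z2 τ)⁻¹
    set J3 := ∫ τ in (0 : ℝ)..1, (S0 ℂ e).eval (sigc (zc z3 τ)) *
      (((sig x : ℝ) : ℂ) - sigc (zc z3 τ))⁻¹ * (zc z3 τ)⁻¹
    have e1 : -(ph0 : ℂ) / (2 * Real.pi) * J1 + (z2 - 3 / 10) / (4 * Real.pi * Complex.I) * J2 +
        -(z3 - 3 / 10) / (4 * Real.pi * Complex.I) * J3 =
        -(2 * (J1 * (ph0 * Complex.I)) - J2 * (z2 - 3 / 10) + J3 * (z3 - 3 / 10)) /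
          (4 * Real.pi * Complex.I) := by
      field_simp
      ring
    rw [hB] at e1
    split_ifs at e1 ⊢ with h
    · linear_combination 3 / 2 * hc - 3 / 2 * hA - (ww x : ℝ) * e1
    · have e2 : ((ww x : ℝ) : ℂ) * (-((S0 ℂ e).eval ((sig x : ℝ) : ℂ) / (ww x : ℝ) *
          (2 * Real.pi * Complex.I)) / (4 * Real.pi * Complex.I)) =
          -(S0 ℂ e).eval ((sig x : ℝ) : ℂ) / 2 := by
        field_simp
        ring
      linear_combination 3 / 2 * hc - 3 / 2 * hA - (ww x : ℝ) * e1 - e2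

end Vale.Agent.P030
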