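import Vale.Agent.P030.Base

/-! # The arithmetic lower bound -/

namespace Vale.Agent.P030

open Finset Filter

namespace Lower

theorem one_le_abs {x : ℚ} (hx : x ≠ 0) (h : ∀ p : ℕ, p.Prime → ¬ p ∣ x.den) :
    (1 : ℝ) ≤ |(x : ℝ)| := by
  have h1 : x.den = 1 := Nat.eq_one_iff_not_exists_prime_dvd.mpr h
  have h2 : x = (x.num : ℚ) := (Rat.den_eq_one_iff x).mp h1 |>.symm
  have h3 : x.num ≠ 0 := Rat.num_ne_zero.mpr hx
  rw [h2, Rat.cast_intCast, ← Int.cast_abs]
  exact_mod_cast Int.one_le_abs h3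

theorem E2_le {ε : ℝ} (hε : 0 < ε) :
    ∀ᶠ N : ℕ in atTop, (E2 N : ℝ) * Real.log 2 ≤ (42 * Real.log 2 + ε) * (N : ℝ) ^ 2 := by
  have hT : Tendsto (fun N : ℕ => (N : ℝ)) atTop atTop := tendsto_natCast_atTop_atTop
  have h1 := hT.eventually (Real.isLittleO_log_id_atTop.bound (show 0 < ε / 80 by positivity))
  filter_upwards [h1, eventually_ge_atTop 1,
    hT.eventually_ge_atTop ((41 * Real.log 2 + 40 * Real.log 54) * 2 / ε)] with N h1 hN h2
  have hN' : (1 : ℝ) ≤ N := by exact_mod_cast hN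
  have hlog : Real.log N ≤ ε / 80 * N := by
    have := (le_abs_self _).trans h1
    simpa using this
  have h3 : (Nat.log 2 (54 * N) : ℝ) * Real.log 2 ≤ Real.log 54 + Real.log N := by
    rw [← Real.log_mul (by norm_num) (by linarith), ← Real.log_pow]
    refine Real.log_le_log (by positivity) ?_
    exact_mod_cast Nat.pow_log_le_self 2 (by omega)
  rw [div_le_iff₀ hε] at h2
  have h4 : N * (41 * Real.log 2 + 40 * Real.log 54) ≤ N * (N * ε / 2) := by
    gcongr; linarith
  have h5 : 40 * N * ((Nat.log 2 (54 * N) : ℝ) * Real.log 2)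
      ≤ 40 * N * (Real.log 54 + ε / 80 * N) := by gcongr; linarith
  unfold E2
  push_cast
  nlinarith

end Lower

theorem lower (hA : OddAStmt) (hB : OddBStmt) (h2 : TwoStmt) (hP : PrimesStmt) : LowerStmt := by
  intro ε hε
  filter_upwards [hP (ε / 2) (half_pos hε), Lower.E2_le (half_pos hε), eventually_ge_atTop 1]
    with N h1 h3 hN a b hne
  obtain ⟨S, hS⟩ : ∃ S, S = (range (27 * N + 1)).filter Nat.Prime := ⟨_, rfl⟩
  rw [← hS] at h1
  have hSp : ∀ p ∈ S, p.Prime := fun p hp => by rw [hS] at hp; exact (mem_filter.mp hp).2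
  obtain ⟨Θ, hΘ⟩ : ∃ Θ : ℕ, Θ = 2 ^ E2 N * ∏ p ∈ S, p ^ ex N p := ⟨_, rfl⟩
  have hΘ0 : 0 < Θ := by
    rw [hΘ]
    exact mul_pos (by positivity) (prod_pos fun p hp => pow_pos (hSp p hp).pos _)
  have hint : ∀ p : ℕ, p.Prime → ¬ p ∣ ((Θ : ℚ) * Delta N a b).den := by
    intro p hp
    have : Fact p.Prime := ⟨hp⟩
    change (Θ : ℚ) * Delta N a b ∈ O p
    have key : ∀ (m : ℕ), m ∣ Θ → (m : ℚ) * Delta N a b ∈ O p → (Θ : ℚ) * Delta N a b ∈ O p := by
      rintro m ⟨c, hc⟩ hm
      have : (Θ : ℚ) * Delta N a b = (c : ℚ) * ((m : ℚ) * Delta N a b) := by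
        rw [hc]; push_cast; ring
      rw [this]
      exact (O p).mul_mem (natCast_mem (O p) c) hm
    by_cases hp2 : p = 2
    · subst hp2
      refine key (2 ^ E2 N) (by rw [hΘ]; exact Dvd.intro _ rfl) ?_
      have := h2 N a b hN
      push_cast
      exact this
    · have hmem : (p : ℚ) ^ ex N p * Delta N a b ∈ O p := by
        by_cases h14 : p ≤ 14 * N
        · exact hA N p a b hN hp2 h14
        · exact hB N p a b hN (by omega)
      refine key (p ^ ex N p) ?_ (by push_cast; exact hmem)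
      by_cases h27 : p ≤ 27 * N
      · rw [hΘ]
        refine Dvd.dvd.mul_left (dvd_prod_of_mem (fun p => p ^ ex N p) ?_) _
        rw [hS]; exact mem_filter.mpr ⟨mem_range.mpr (by omega), hp⟩
      · have : ex N p = 0 := by
          unfold ex
          rw [if_neg (by omega), if_neg (by omega)]
          omega
        rw [this]; simp
  have hΘq : (Θ : ℚ) ≠ 0 := by exact_mod_cast hΘ0.ne'
  have hone := Lower.one_le_abs (mul_ne_zero hΘq hne) hint
  have hΘr : (0 : ℝ) < Θ := by exact_mod_cast hΘ0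
  rw [Rat.cast_mul, Rat.cast_natCast, abs_mul, abs_of_pos hΘr] at hone
  have hlog : Real.log Θ = E2 N * Real.log 2 + ∑ p ∈ S, (ex N p : ℝ) * Real.log p := by
    rw [hΘ]
    push_cast
    rw [Real.log_mul (by positivity) (prod_ne_zero_iff.mpr fun p hp =>
      pow_ne_zero _ (by exact_mod_cast (hSp p hp).ne_zero)), Real.log_pow,
      Real.log_prod fun p hp => pow_ne_zero _ (by exact_mod_cast (hSp p hp).ne_zero)]
    simp only [Real.log_pow]
  calc Real.exp (-(2937 / 4 + 42 * Real.log 2 + ε) * (N : ℝ) ^ 2) ≤ Real.exp (-Real.log Θ) := by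
        refine Real.exp_le_exp.mpr ?_
        rw [hlog]; linarith
    _ = (Θ : ℝ)⁻¹ := by rw [Real.exp_neg, Real.exp_log hΘr]
    _ ≤ |(Delta N a b : ℝ)| := by
        rw [inv_le_iff_one_le_mul₀' hΘr]; exact hone

end Vale.Agent.P030
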