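import Vale.Agent.P030.Defs

namespace Vale.Agent.P030

open MeasureTheory

namespace Mom

theorem den (x : ℝ) : 1 + x ^ 2 ≠ 0 := by positivity

theorem cont_tt : Continuous tt := by
  unfold tt
  exact Continuous.div (by fun_prop) (by fun_prop) den

theorem cont_rho : Continuous fun x : ℝ => 2 / (1 + x ^ 2) :=
  Continuous.div (by fun_prop) (by fun_prop) den

theorem cont_c : Continuous fun x : ℝ => (1 - x ^ 2) / (1 + x ^ 2) :=
  Continuous.div (by fun_prop) (by fun_prop) den

theorem d_den (x : ℝ) : HasDerivAt (fun x : ℝ => 1 + x ^ 2) (2 * x) x := by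
  simpa using (hasDerivAt_pow 2 x).const_add 1

theorem d_tt (x : ℝ) :
    HasDerivAt tt (2 / (1 + x ^ 2) * ((1 - x ^ 2) / (1 + x ^ 2))) x := by
  have h := (((hasDerivAt_id x).const_mul 2).div (d_den x) (den x))
  refine HasDerivAt.congr_deriv h ?_
  have := den x
  simp only [id]
  field_simp
  ring

theorem d_c (x : ℝ) :
    HasDerivAt (fun x : ℝ => (1 - x ^ 2) / (1 + x ^ 2)) (-(2 / (1 + x ^ 2) * tt x)) x := by
  have h1 : HasDerivAt (fun x : ℝ => 1 - x ^ 2) (-(2 * x)) x := by
    simpa using (hasDerivAt_pow 2 x).const_sub 1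
  refine HasDerivAt.congr_deriv (h1.div (d_den x) (den x)) ?_
  have := den x
  unfold tt
  field_simp
  ring

/-- Moments on the positive half. -/
noncomputable def J (k : ℕ) : ℝ := ∫ x in (0 : ℝ)..1, 2 / (1 + x ^ 2) * tt x ^ k

theorem cont_J (k : ℕ) : Continuous fun x : ℝ => 2 / (1 + x ^ 2) * tt x ^ k :=
  cont_rho.mul (cont_tt.pow k)

theorem J_one : J 1 = 1 := by
  have h := intervalIntegral.integral_eq_sub_of_hasDerivAt (a := 0) (b := 1)
    (f := fun x : ℝ => -((1 - x ^ 2) / (1 + x ^ 2)))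
    (f' := fun x : ℝ => 2 / (1 + x ^ 2) * tt x ^ 1)
    (fun x _ => (d_c x).neg.congr_deriv (by ring)) ((cont_J 1).intervalIntegrable _ _)
  rw [J, h]
  norm_num

theorem J_rec (k : ℕ) : ((k : ℝ) + 1) * J k = (k + 2) * J (k + 2) := by
  have h := intervalIntegral.integral_eq_sub_of_hasDerivAt (a := 0) (b := 1)
    (f := fun x : ℝ => (1 - x ^ 2) / (1 + x ^ 2) * tt x ^ (k + 1))
    (f' := fun x : ℝ => ((k : ℝ) + 1) * (2 / (1 + x ^ 2) * tt x ^ k)
      - (k + 2) * (2 / (1 + x ^ 2) * tt x ^ (k + 2)))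
    (fun x _ => ((d_c x).mul ((d_tt x).pow (k + 1))).congr_deriv (by
      have h1 : ((1 - x ^ 2) / (1 + x ^ 2)) ^ 2 = 1 - tt x ^ 2 := by
        have := den x
        unfold tt
        field_simp
        ring
      simp only [Pi.pow_apply, Nat.add_sub_cancel]
      push_cast
      linear_combination ((k : ℝ) + 1) * (2 / (1 + x ^ 2)) * tt x ^ k * h1))
    ((((cont_J k).const_mul _).sub ((cont_J (k + 2)).const_mul _)).intervalIntegrable _ _)
  rw [intervalIntegral.integral_sub (((cont_J k).const_mul _).intervalIntegrable _ _)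
    (((cont_J (k + 2)).const_mul _).intervalIntegrable _ _),
    intervalIntegral.integral_const_mul, intervalIntegral.integral_const_mul] at h
  have h0 : tt 0 = 0 := by simp [tt]
  simp only [h0, one_pow, sub_self, zero_div, zero_mul, ne_eq, Nat.add_eq_zero_iff, one_ne_zero,
    and_false, not_false_eq_true, zero_pow, mul_zero] at h
  unfold J
  linarith

theorem cc_succ (l : ℕ) : (2 * (l : ℚ) + 2) * cc (l + 1) = (2 * l + 1) * cc l := by
  have h : ((l : ℚ) + 1) * ((l + 1).centralBinom : ℚ) = 2 * (2 * l + 1) * l.centralBinom := by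
    exact_mod_cast Nat.succ_mul_centralBinom_succ l
  unfold cc
  rw [pow_succ]
  field_simp
  linear_combination 2 * h

theorem J_odd (l : ℕ) : J (2 * l + 1) * ((2 * l + 1) * (cc l : ℝ)) = 1 := by
  induction l with
  | zero => simp [J_one, cc]
  | succ l ih =>
    have h1 := J_rec (2 * l + 1)
    have h2 : (2 * (l : ℝ) + 2) * (cc (l + 1) : ℝ) = (2 * l + 1) * (cc l : ℝ) := by
      exact_mod_cast cc_succ l
    have h3 : (2 * (l : ℝ) + 2) ≠ 0 := by positivity
    apply mul_left_cancel₀ h3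
    rw [show 2 * (l + 1) + 1 = 2 * l + 1 + 2 by ring]
    push_cast at h1 ⊢
    linear_combination (2 * (l : ℝ) + 3) * J (2 * l + 1 + 2) * h2
      - (2 * l + 1) * (cc l : ℝ) * h1 + (2 * (l : ℝ) + 2) * ih

theorem half (m : ℕ) : ∫ x in (0 : ℝ)..1, 2 / (1 + x ^ 2) * |tt x| * tt x ^ m = J (m + 1) := by
  refine intervalIntegral.integral_congr fun x hx => ?_
  rw [Set.uIcc_of_le zero_le_one] at hx
  have : 0 ≤ tt x := by
    unfold tt
    have := hx.1
    positivity
  simp only [abs_of_nonneg this]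
  ring

theorem full (m : ℕ) : ∫ x in (-1 : ℝ)..1, 2 / (1 + x ^ 2) * |tt x| * tt x ^ m
    = (1 + (-1) ^ m) * J (m + 1) := by
  have hc : Continuous fun x : ℝ => 2 / (1 + x ^ 2) * |tt x| * tt x ^ m :=
    (cont_rho.mul cont_tt.abs).mul (cont_tt.pow m)
  rw [← intervalIntegral.integral_add_adjacent_intervals (b := 0) (hc.intervalIntegrable _ _)
    (hc.intervalIntegrable _ _), half]
  have h := intervalIntegral.integral_comp_neg (a := 0) (b := 1)
    (fun x : ℝ => 2 / (1 + x ^ 2) * |tt x| * tt x ^ m)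
  have h1 : ∀ x, tt (-x) = -tt x := fun x => by unfold tt; ring
  rw [neg_zero] at h
  rw [← h, add_mul, one_mul, add_comm, ← half, ← intervalIntegral.integral_const_mul]
  congr 2
  funext x
  rw [h1, abs_neg, neg_pow (tt x), neg_sq]
  ring

end Mom

open Mom in
theorem mom : MomStmt := by
  refine ⟨fun m => ?_, fun m => ?_⟩
  · rw [← integral_Ioc_eq_integral_Ioo, ← intervalIntegral.integral_of_le (by norm_num), full]
    rcases Nat.even_or_odd' m with ⟨l, rfl | rfl⟩
    · have h := J_odd l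
      have h1 : (((2 * l : ℕ) : ℤ) + 1) / 2 = l := by omega
      have h2 : (0 : ℤ) < ((2 * l : ℕ) : ℤ) + 1 ∧ (((2 * l : ℕ) : ℤ) + 1) % 2 = 1 := by omega
      rw [aa, if_pos h2, h1, Int.toNat_natCast, pow_mul]
      push_cast
      rw [eq_div_iff (right_ne_zero_of_mul_eq_one h)]
      linear_combination 2 * h
    · rw [aa, if_neg (by omega), pow_succ, pow_mul]
      simp
  · rw [← integral_Ioc_eq_integral_Ioo, ← intervalIntegral.integral_of_le (by norm_num)]
    have h0 : (m : ℝ) + 1 ≠ 0 := by positivity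
    have h := intervalIntegral.integral_eq_sub_of_hasDerivAt (a := 0) (b := 1)
      (f := fun x : ℝ => tt x ^ (m + 1) / (m + 1))
      (f' := fun x : ℝ => 2 / (1 + x ^ 2) * ((1 - x ^ 2) / (1 + x ^ 2)) * tt x ^ m)
      (fun x _ => (((d_tt x).pow (m + 1)).div_const _).congr_deriv (by
        simp only [Nat.add_sub_cancel]
        push_cast
        field_simp))
      (((cont_rho.mul cont_c).mul (cont_tt.pow m)).intervalIntegrable _ _)
    rw [h]
    norm_num [tt]

end Vale.Agent.P030
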