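import Vale.Agent.P030.Defs

/-!
# P030: the contribution of a single node
-/

namespace Vale.Agent.P030

open Finset

namespace Node

theorem kk_bd (c : ℝ) {b : ℝ} (hb : 0 < b) :
    ∃ C, ∀ σ : ℝ, |kk (σ - c) b - Real.log (max 1 |σ|)| ≤ C := by
  refine ⟨|Real.log ((1 + |c|) ^ 2 + b ^ 2)| + |Real.log (b ^ 2 / (b ^ 2 + c ^ 2 + 1))|,
    fun σ => ?_⟩
  obtain ⟨M, hM⟩ : ∃ M, M = max 1 |σ| := ⟨_, rfl⟩
  have h1 : 1 ≤ M := hM ▸ le_max_left _ _
  have h2 : |σ| ≤ M := hM ▸ le_max_right _ _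
  have hc := abs_nonneg c
  have hp : 0 < (σ - c) ^ 2 + b ^ 2 := by positivity
  have h3 : (σ - c) ^ 2 + b ^ 2 ≤ M ^ 2 * ((1 + |c|) ^ 2 + b ^ 2) := by
    have a1 : |σ - c| ≤ M * (1 + |c|) := by nlinarith [abs_sub σ c]
    have a2 : (σ - c) ^ 2 ≤ (M * (1 + |c|)) ^ 2 := by
      rw [← sq_abs]
      exact pow_le_pow_left₀ (abs_nonneg _) a1 2
    have a3 : 1 ≤ M ^ 2 := one_le_pow₀ h1
    nlinarith [sq_nonneg b]
  have h4 : M ^ 2 * (b ^ 2 / (b ^ 2 + c ^ 2 + 1)) ≤ (σ - c) ^ 2 + b ^ 2 := by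
    rw [← mul_div_assoc, div_le_iff₀ (by positivity)]
    rcases max_choice 1 |σ| with h | h
    · rw [hM, h]
      nlinarith [sq_nonneg (σ - c), sq_nonneg b, sq_nonneg c,
        mul_nonneg hp.le (add_nonneg (sq_nonneg b) (sq_nonneg c))]
    · rw [hM, h, sq_abs]
      nlinarith [sq_nonneg (c * (σ - c) - b ^ 2)]
  have h5 := Real.log_le_log hp h3
  have h6 := Real.log_le_log (by positivity) h4
  rw [Real.log_mul (by positivity) (by positivity), Real.log_pow] at h5 h6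
  rw [← hM, kk, abs_le]
  have a1 := le_abs_self (Real.log ((1 + |c|) ^ 2 + b ^ 2))
  have a2 := neg_abs_le (Real.log (b ^ 2 / (b ^ 2 + c ^ 2 + 1)))
  have a3 := abs_nonneg (Real.log ((1 + |c|) ^ 2 + b ^ 2))
  have a4 := abs_nonneg (Real.log (b ^ 2 / (b ^ 2 + c ^ 2 + 1)))
  push_cast at h5 h6
  constructor <;> linarith

theorem pot_bd (d : CD) (hd : d.OK) (w : Fin d.K → ℝ) :
    ∃ C, ∀ σ : ℝ, |d.U w σ - (∑ k, w k) * Real.log (max 1 |σ|)| ≤ C := by
  choose C hC using fun k => kk_bd (d.c k) (b := |0 - d.y k| + d.ρ k)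
    (add_pos_of_nonneg_of_pos (abs_nonneg _) (hd.pos k))
  refine ⟨∑ k, |w k| * C k, fun σ => ?_⟩
  rw [CD.U, pot, sum_mul, ← sum_sub_distrib]
  refine (abs_sum_le_sum_abs _ _).trans (sum_le_sum fun k _ => ?_)
  rw [← mul_sub, abs_mul, Complex.ofReal_re, Complex.ofReal_im]
  exact mul_le_mul_of_nonneg_left (hC k σ) (abs_nonneg _)

theorem pow_le {A F : ℝ} (h0 : 0 ≤ A) (h : A ≤ Real.exp F) {N : ℕ} (hN : 1 ≤ N) :
    A ^ N ≤ A * Real.exp (-F) * Real.exp (N * F) := by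
  obtain ⟨n, rfl⟩ : ∃ n, N = n + 1 := ⟨N - 1, by omega⟩
  rw [pow_succ', mul_assoc, ← Real.exp_add]
  refine mul_le_mul_of_nonneg_left ((pow_le_pow_left₀ h0 h n).trans (le_of_eq ?_)) h0
  rw [← Real.exp_nat_mul]
  congr 1
  push_cast
  ring

theorem one_le_sig {x : ℝ} (hx : x ≠ 0) : 1 ≤ |sig x| := by
  have h1 : sig x ^ 2 - 1 = ((x⁻¹ - x) / 2) ^ 2 := by
    unfold sig
    field_simp
    ring
  rw [← sq_le_sq₀ zero_le_one (abs_nonneg _), sq_abs]
  nlinarith [sq_nonneg ((x⁻¹ - x) / 2)]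

theorem sig_sub_one {x : ℝ} (hx : x ≠ 0) : sig x - 1 = (1 - x) ^ 2 / (2 * x) := by
  unfold sig
  field_simp
  ring

theorem wt_eq {x : ℝ} (hx : x ≠ 0) {N : ℕ} (hN : 1 ≤ N) (U : ℝ) :
    |Wt N x| * Real.exp (N * U) =
      2 / (1 + x ^ 2) * (|sig x - 1| / |sig x| ^ 27 * Real.exp U) ^ N := by
  have h0 : sig x ≠ 0 := abs_pos.1 (zero_lt_one.trans_le (one_le_sig hx))
  have h1 : tt x = (sig x)⁻¹ := by
    unfold tt sig
    field_simp
    ring
  have h2 : 1 - (sig x)⁻¹ = (sig x - 1) * (sig x)⁻¹ := by field_simp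
  have h3 : |(sig x)⁻¹| * |(sig x)⁻¹| ^ (26 * N - 1) = |(sig x)⁻¹| ^ (26 * N) := by
    rw [← pow_succ']
    congr 1
    omega
  rw [Wt, h1, h2, abs_mul, abs_mul, abs_mul, abs_abs, abs_pow, abs_pow, abs_mul,
    abs_of_pos (show 0 < 2 / (1 + x ^ 2) by positivity), mul_assoc (2 / (1 + x ^ 2)), h3,
    Real.exp_nat_mul, abs_inv, div_eq_mul_inv |sig x - 1|, ← inv_pow]
  ring

theorem A_le {σ U F : ℝ} (h0 : σ ≠ 0) (h1 : σ ≠ 1)
    (h : U + Real.log |σ - 1| - 27 * Real.log |σ| ≤ F) :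
    |σ - 1| / |σ| ^ 27 * Real.exp U ≤ Real.exp F := by
  refine le_trans (le_of_eq ?_) (Real.exp_le_exp.2 h)
  have e : Real.exp (27 * Real.log |σ|) = |σ| ^ 27 := by
    rw [show (27 : ℝ) = ((27 : ℕ) : ℝ) by norm_num, Real.exp_nat_mul, Real.exp_log (abs_pos.2 h0)]
  rw [Real.exp_sub, Real.exp_add, Real.exp_log (abs_pos.2 (sub_ne_zero.2 h1)), e]
  ring

theorem exp_le {U C M : ℝ} {k : ℕ} (hM : 0 < M) (h : U ≤ k * Real.log M + C) :
    Real.exp U ≤ M ^ k * Real.exp C := by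
  refine (Real.exp_le_exp.2 h).trans (le_of_eq ?_)
  rw [Real.exp_add, Real.exp_nat_mul, Real.exp_log hM]

theorem part1 {x U F C : ℝ} {N : ℕ} (hN : 1 ≤ N) (hA : x ∈ Ax) (h3 : x < 3 / 10)
    (hU : U + Real.log |sig x - 1| - 27 * Real.log |sig x| ≤ F)
    (hC : U ≤ (18 : ℕ) * Real.log |sig x| + C) :
    |sig x - 1| * (|Wt N x| * |sig x|) * Real.exp (N * U) / (1 - x) ≤
      32 * Real.exp C * Real.exp (-F) * Real.exp (N * F) * hx x := by
  obtain ⟨a1, a2, a3, a4⟩ := hA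
  have hs := one_le_sig a3
  have hs0 : 0 < |sig x| := by linarith
  have hs1 : sig x ≠ 1 := by
    rw [← sub_ne_zero, sig_sub_one a3]
    exact div_ne_zero (pow_ne_zero _ (by linarith)) (mul_ne_zero two_ne_zero a3)
  have b1 := pow_le (by positivity) (A_le (abs_pos.1 hs0) hs1 hU) hN
  have b2 := exp_le hs0 hC
  have b3 : |sig x - 1| ≤ 2 * |sig x| := by
    have := abs_sub (sig x) 1
    rw [abs_one] at this
    linarith
  have b4 : 2 / (1 + x ^ 2) ≤ 2 := div_le_self zero_le_two (by nlinarith [sq_nonneg x])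
  have b5 : 1 / 2 ≤ hx x := by
    have c1 : 0 < |x - 3 / 10| := abs_pos.2 (sub_ne_zero.2 a4)
    have c2 : √|x - 3 / 10| ≤ 2 := by
      rw [Real.sqrt_le_left zero_le_two, abs_le]
      constructor <;> linarith
    rw [hx, one_div]
    exact inv_anti₀ (Real.sqrt_pos.2 c1) c2
  have b6 : |sig x - 1| * |sig x| * (|sig x - 1| / |sig x| ^ 27 * Real.exp U) ≤ 4 * Real.exp C := by
    have c1 : |sig x - 1| * |sig x| * (|sig x - 1| / |sig x| ^ 27 * Real.exp U) ≤
        2 * |sig x| * |sig x| * (2 * |sig x| / |sig x| ^ 27 * (|sig x| ^ 18 * Real.exp C)) := by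
      gcongr
    have c2 : 2 * |sig x| * |sig x| * (2 * |sig x| / |sig x| ^ 27 * (|sig x| ^ 18 * Real.exp C)) =
        4 * Real.exp C / |sig x| ^ 6 := by
      field_simp
      ring
    exact c1.trans (c2.trans_le (div_le_self (by positivity) (one_le_pow₀ hs)))
  have e : |sig x - 1| * (|Wt N x| * |sig x|) * Real.exp (N * U) =
      |sig x - 1| * |sig x| * (|Wt N x| * Real.exp (N * U)) := by ring
  rw [e, wt_eq a3 hN, div_le_iff₀ (by linarith)]
  calc |sig x - 1| * |sig x| * (2 / (1 + x ^ 2) * (|sig x - 1| / |sig x| ^ 27 * Real.exp U) ^ N)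
      ≤ |sig x - 1| * |sig x| * (2 * (|sig x - 1| / |sig x| ^ 27 * Real.exp U * Real.exp (-F) *
        Real.exp (N * F))) := by gcongr
    _ = |sig x - 1| * |sig x| * (|sig x - 1| / |sig x| ^ 27 * Real.exp U) *
        (2 * Real.exp (-F) * Real.exp (N * F)) := by ring
    _ ≤ 4 * Real.exp C * (2 * Real.exp (-F) * Real.exp (N * F)) := by gcongr
    _ = 32 * Real.exp C * Real.exp (-F) * Real.exp (N * F) * (1 / 2) * (1 / 2) := by ring
    _ ≤ _ := by
      gcongr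
      linarith

theorem part2 {x U F C : ℝ} {N : ℕ} (hN : 1 ≤ N) (h0 : 0 < x) (h1 : x < 1)
    (hU : U + Real.log |sig x - 1| - 27 * Real.log |sig x| ≤ F)
    (hC : U ≤ (2 : ℕ) * Real.log |sig x| + C) :
    |ww x| * (|Wt N x| * |sig x|) * Real.exp (N * U) / (1 - x) ^ 2 ≤
      2 * Real.exp C * Real.exp (-F) * Real.exp (N * F) := by
  have hs := one_le_sig h0.ne'
  have hs0 : 0 < |sig x| := by linarith
  have hx1 : 0 < (1 - x) ^ 2 := pow_pos (by linarith) 2
  have hs1 : sig x ≠ 1 := by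
    rw [← sub_ne_zero, sig_sub_one h0.ne']
    positivity
  have b1 := pow_le (by positivity) (A_le (abs_pos.1 hs0) hs1 hU) hN
  have b2 := exp_le hs0 hC
  have hi : 0 < x⁻¹ := inv_pos.2 h0
  have b3 : |sig x - 1| ≤ |sig x| * (1 - x) ^ 2 := by
    rw [sig_sub_one h0.ne', abs_of_pos (by positivity), div_eq_inv_mul, mul_inv]
    refine mul_le_mul_of_nonneg_right (le_trans ?_ (le_abs_self _)) hx1.le
    unfold sig
    linarith
  have b4 : 2 / (1 + x ^ 2) ≤ 2 := div_le_self zero_le_two (by nlinarith [sq_nonneg x])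
  have b5 : |ww x| ≤ |sig x| := by
    refine le_trans ?_ (le_abs_self _)
    unfold ww sig
    rw [abs_le]
    constructor <;> linarith
  have b6 : |ww x| * |sig x| * (|sig x - 1| / |sig x| ^ 27 * Real.exp U) ≤
      Real.exp C * (1 - x) ^ 2 := by
    have c1 : |ww x| * |sig x| * (|sig x - 1| / |sig x| ^ 27 * Real.exp U) ≤
        |sig x| * |sig x| * (|sig x| * (1 - x) ^ 2 / |sig x| ^ 27 * (|sig x| ^ 2 * Real.exp C)) := by
      gcongr
    have c2 : |sig x| * |sig x| * (|sig x| * (1 - x) ^ 2 / |sig x| ^ 27 *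
        (|sig x| ^ 2 * Real.exp C)) = Real.exp C * (1 - x) ^ 2 / |sig x| ^ 22 := by
      field_simp
    exact c1.trans (c2.trans_le (div_le_self (by positivity) (one_le_pow₀ hs)))
  have e : |ww x| * (|Wt N x| * |sig x|) * Real.exp (N * U) =
      |ww x| * |sig x| * (|Wt N x| * Real.exp (N * U)) := by ring
  rw [e, wt_eq h0.ne' hN, div_le_iff₀ hx1]
  calc |ww x| * |sig x| * (2 / (1 + x ^ 2) * (|sig x - 1| / |sig x| ^ 27 * Real.exp U) ^ N)
      ≤ |ww x| * |sig x| * (2 * (|sig x - 1| / |sig x| ^ 27 * Real.exp U * Real.exp (-F) *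
        Real.exp (N * F))) := by gcongr
    _ = |ww x| * |sig x| * (|sig x - 1| / |sig x| ^ 27 * Real.exp U) *
        (2 * Real.exp (-F) * Real.exp (N * F)) := by ring
    _ ≤ Real.exp C * (1 - x) ^ 2 * (2 * Real.exp (-F) * Real.exp (N * F)) := by gcongr
    _ = _ := by ring

theorem part3 {s U F C : ℝ} {N : ℕ} (hN : 1 ≤ N) (h0 : 0 < s) (h1 : s < 1)
    (hU : U + 3 * Real.log s + Real.log (1 - s) ≤ F) (hC : U ≤ C) :
    qq N 0 s * Real.exp (N * U) / √(1 - s) ≤ Real.exp C * Real.exp (-F) * Real.exp (N * F) := by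
  have h2 : 0 < 1 - s := by linarith
  have b0 : (1 - s) * s ^ 3 * Real.exp U ≤ Real.exp F := by
    refine le_trans (le_of_eq ?_) (Real.exp_le_exp.2 hU)
    have e : Real.exp (3 * Real.log s) = s ^ 3 := by
      rw [show (3 : ℝ) = ((3 : ℕ) : ℝ) by norm_num, Real.exp_nat_mul, Real.exp_log h0]
    rw [Real.exp_add, Real.exp_add, Real.exp_log h2, e]
    ring
  have b1 := pow_le (by positivity) b0 hN
  have b2 : 1 - s ≤ √(1 - s) := Real.le_sqrt_of_sq_le (by nlinarith)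
  have b3 : s ^ 3 ≤ 1 := pow_le_one₀ h0.le h1.le
  have b4 := Real.exp_le_exp.2 hC
  have e : qq N 0 s * Real.exp (N * U) = ((1 - s) * s ^ 3 * Real.exp U) ^ N := by
    rw [qq, Real.exp_nat_mul, mul_pow, mul_pow, ← pow_mul, add_zero]
  rw [e, div_le_iff₀ (Real.sqrt_pos.2 h2)]
  calc _ ≤ (1 - s) * s ^ 3 * Real.exp U * Real.exp (-F) * Real.exp (N * F) := b1
    _ ≤ √(1 - s) * 1 * Real.exp C * Real.exp (-F) * Real.exp (N * F) := by gcongr
    _ = _ := by ring

end Node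

open Node in
theorem node : NodeStmt := by
  intro d hd
  obtain ⟨C1, h1⟩ := pot_bd d hd d.w1
  obtain ⟨C2, h2⟩ := pot_bd d hd d.w2
  obtain ⟨C3, h3⟩ := pot_bd d hd d.w3
  obtain ⟨C4, h4⟩ := pot_bd d hd d.w4
  rw [hd.m1] at h1
  rw [hd.m2] at h2
  rw [hd.m3] at h3
  rw [hd.m4] at h4
  have p1 : 0 < 32 * Real.exp (C2 + C3) * Real.exp (-(d.Fb + d.Fu)) := by positivity
  have p2 : 0 < 2 * Real.exp (C1 + C3) * Real.exp (-d.Fb) := by positivity
  have p3 : 0 < Real.exp (C4 + C3) * Real.exp (-d.Fs) := by positivity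
  refine ⟨1 + 32 * Real.exp (C2 + C3) * Real.exp (-(d.Fb + d.Fu)) +
    2 * Real.exp (C1 + C3) * Real.exp (-d.Fb) + Real.exp (C4 + C3) * Real.exp (-d.Fs),
    by linarith, fun N hN => ⟨fun x hA hx3 => ?_, fun x hA h0 => ?_, fun s h0 hs1 => ?_,
      fun ω hω => ?_⟩⟩
  · have hs := one_le_sig hA.2.2.1
    have hσ : sig x ≤ -1 ∨ 109 / 60 ≤ sig x := by
      rcases lt_or_gt_of_ne hA.2.2.1 with h | h
      · left
        have : sig x < 0 := by
          have := inv_lt_zero.2 h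
          unfold sig
          linarith
        rw [abs_of_neg this] at hs
        linarith
      · right
        have e : sig x - 109 / 60 = (3 / 10 - x) * (10 / 3 - x) / (2 * x) := by
          unfold sig
          field_simp
          ring
        have : 0 < (3 / 10 - x) * (10 / 3 - x) / (2 * x) :=
          div_pos (mul_pos (by linarith) (by linarith)) (by linarith)
        linarith
    have a2 := (abs_le.1 (h2 (sig x))).2
    have a3 := (abs_le.1 (h3 (sig x))).2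
    rw [max_eq_right hs] at a2 a3
    refine (part1 (C := C2 + C3) hN hA hx3 (hd.ha _ hσ) (by push_cast; linarith)).trans ?_
    have : 0 ≤ hx x := by unfold hx; positivity
    gcongr
    linarith
  · have hs := one_le_sig h0.ne'
    have hσ : 1 < sig x := by
      rw [← sub_pos, sig_sub_one h0.ne']
      exact div_pos (pow_pos (sub_pos.2 hA.2.1) 2) (by linarith)
    have a1 := (abs_le.1 (h1 (sig x))).2
    have a3 := (abs_le.1 (h3 (sig x))).2
    rw [max_eq_right hs] at a1 a3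
    refine (part2 (C := C1 + C3) hN h0 hA.2.1 (hd.hb _ hσ) (by push_cast; linarith)).trans ?_
    gcongr
    linarith
  · have a4 := (abs_le.1 (h4 s)).2
    have a3 := (abs_le.1 (h3 s)).1
    rw [max_eq_left (by rw [abs_of_pos h0]; exact hs1.le), Real.log_one] at a4 a3
    refine (part3 (C := C4 + C3) hN h0 hs1 (hd.hs s h0 hs1) (by linarith)).trans ?_
    gcongr
    linarith
  · obtain ⟨i, τ⟩ := ω
    obtain ⟨t0, t1⟩ := hω
    fin_cases i
    · exact hd.hu _ (Real.neg_one_le_cos _) (Real.cos_le_one _)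
    · exact hd.hu _ (Real.neg_one_le_cos _) (Real.cos_le_one _)
    · exact (hd.hc τ t0.le t1.le).1
    · exact (hd.hc τ t0.le t1.le).2

end Vale.Agent.P030
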