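import Vale.Agent.P030.Nonvan2

/-!
# P030 nonvanishing of the determinant at large primes
-/

namespace Vale.Agent.P030.Nonvan

open Polynomial Finset Filter

theorem ev_den (x : ℚ) : ∀ᶠ p : ℕ in atTop, ¬ p ∣ x.den :=
  (eventually_gt_atTop x.den).mono fun _ hp h => (Nat.le_of_dvd x.den_pos h).not_gt hp

theorem ev_num {x : ℚ} (hx : x ≠ 0) : ∀ᶠ p : ℕ in atTop, ¬ (p : ℤ) ∣ x.num :=
  (eventually_gt_atTop x.num.natAbs).mono fun _ hp h =>
    (Nat.le_of_dvd (Int.natAbs_pos.2 (Rat.num_ne_zero.2 hx)) (Int.natCast_dvd.1 h)).not_gt hp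

theorem nvE_lt (l l' : ℕ → ℚ) {s : ℕ} (hs : s < 38) (c : ℕ) : nvE l s c = nvE l' s c := by
  simp only [nvE, if_pos hs]

/-- A primitive integer vector in the left kernel. -/
theorem exists_prim {n : ℕ} (hn : 0 < n) {A : Matrix (Fin n) (Fin n) ℚ} (hA : A.det = 0) :
    ∃ f : Fin n → ℤ, univ.gcd f = 1 ∧ ∀ s, ∑ e, (f e : ℚ) * A e s = 0 := by
  obtain ⟨v, hv, hvA⟩ := Matrix.exists_vecMul_eq_zero_iff.2 hA
  let d : ℕ := ∏ e, (v e).den
  have hd : (d : ℚ) ≠ 0 := by
    exact_mod_cast prod_ne_zero_iff.2 fun e _ => (v e).den_ne_zero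
  have h1 : ∀ e, ∃ z : ℤ, (z : ℚ) = d * v e := by
    intro e
    obtain ⟨m, hm⟩ : (v e).den ∣ d := dvd_prod_of_mem _ (mem_univ e)
    refine ⟨m * (v e).num, ?_⟩
    rw [hm]
    push_cast
    rw [← Rat.mul_den_eq_num]
    ring
  choose z hz using h1
  have : Nonempty (Fin n) := ⟨⟨0, hn⟩⟩
  obtain ⟨f, hf, hg⟩ := extract_gcd z (univ_nonempty (α := Fin n))
  have hg0 : ((univ.gcd z : ℤ) : ℚ) ≠ 0 := by
    intro h
    refine hv (funext fun e => ?_)
    have h2 := hz e
    rw [hf e (mem_univ e), Int.cast_mul, h, zero_mul] at h2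
    exact (mul_eq_zero.1 h2.symm).resolve_left hd
  refine ⟨f, hg, fun s => mul_left_cancel₀ hg0 ?_⟩
  have h3 := congrFun hvA s
  simp only [Matrix.vecMul, dotProduct, Pi.zero_apply] at h3
  rw [mul_zero, mul_sum, ← mul_zero (d : ℚ), ← h3, mul_sum]
  refine sum_congr rfl fun e _ => ?_
  rw [← mul_assoc, ← mul_assoc, ← hz, hf e (mem_univ e)]
  congr 1
  conv_rhs => rw [Int.cast_mul]

variable {p : ℕ} [hp : Fact p.Prime]

theorem solve (l : ℕ → ℚ) (hO : ∀ r c : Fin 39, nvE l r c ∈ O p) (hd : ¬ (p : ℤ) ∣ (nvMat l).det.num)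
    (w : ℕ → ZMod p) (hw : ∀ s < 38, ∑ c ∈ range 39, ((nvE 0 s c : ℚ) : ZMod p) * w c = 0)
    (hl : ∑ c ∈ range 20, ((l c : ℚ) : ZMod p) * w c = 0) : ∀ c < 39, w c = 0 := by
  have h1 : (Matrix.of fun r c : Fin 39 => ((nvMat l r c : ℚ) : ZMod p)).det ≠ 0 := by
    rw [← cast_det_O (A := nvMat l) hO, Rat.cast_def]
    refine div_ne_zero ?_ (den_ne_zero (det_mem_O (A := nvMat l) hO))
    rwa [Ne, ZMod.intCast_zmod_eq_zero_iff_dvd]
  have h2 := Matrix.eq_zero_of_mulVec_eq_zero h1 (v := fun c => w c) (by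
    funext s
    simp only [Matrix.mulVec, dotProduct, Matrix.of_apply, nvMat, Pi.zero_apply]
    rw [Fin.sum_univ_eq_sum_range (fun c => ((nvE l s c : ℚ) : ZMod p) * w c) 39]
    by_cases hs : (s : ℕ) < 38
    · simp only [nvE_lt l 0 hs]
      exact hw s hs
    · have h3 : ∀ c, nvE l s c = if c < 20 then l c else 0 := by
        intro c
        rw [nvE, if_neg (by omega), if_neg (by omega), if_neg (by omega), if_neg hs]
      rw [show range 39 = range (20 + 19) from rfl, sum_range_add, ← hl,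
        ← add_zero (∑ c ∈ range 20, ((l c : ℚ) : ZMod p) * w c)]
      refine congrArg₂ (· + ·) (sum_congr rfl fun c hc => ?_) (sum_eq_zero fun c _ => ?_)
      · rw [h3, if_pos (mem_range.1 hc)]
      · rw [h3, if_neg (by omega), Rat.cast_zero, zero_mul])
  intro c hc
  exact congrFun h2 ⟨c, hc⟩

noncomputable def sR (R : Type) [CommRing R] (N : ℕ) (f : Fin (20 * N) → ℤ) : R[X] :=
  ∑ e, C (f e : R) * S0 R (((e : ℕ) : ℤ) - 2 * N)

noncomputable def dR (R : Type) [CommRing R] (N : ℕ) (f : Fin (20 * N) → ℤ) : R[X] :=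
  ∑ e, C (f e : R) * D0 R (((e : ℕ) : ℤ) - 2 * N)

theorem sR_map (R : Type) [CommRing R] (N : ℕ) (f : Fin (20 * N) → ℤ) :
    (sR ℤ N f).map (Int.castRingHom R) = sR R N f := by
  simp [sR, Polynomial.map_sum, S0_map]

theorem dR_map (R : Type) [CommRing R] (N : ℕ) (f : Fin (20 * N) → ℤ) :
    (dR ℤ N f).map (Int.castRingHom R) = dR R N f := by
  simp [dR, Polynomial.map_sum, D0_map]

theorem cast_coeff (P : ℤ[X]) (t : ℕ) : (((P.map (Int.castRingHom ℚ)).coeff t : ℚ) : ZMod p) =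
    (P.map (Int.castRingHom (ZMod p))).coeff t := by
  simp [coeff_map]

theorem cast_G (f : Fin (20 * p) → ℤ) (t : ℕ) : (((Gq p f).coeff t : ℚ) : ZMod p) =
    ((X - 1) ^ p * sR (ZMod p) p f * (X ^ 2 - 1) ^ (p / 2)).coeff t := by
  have h := cast_coeff (p := p) ((X - 1) ^ p * sR ℤ p f * (X ^ 2 - 1) ^ (p / 2)) t
  simp only [Polynomial.map_mul, Polynomial.map_pow, Polynomial.map_sub, Polynomial.map_one, map_X,
    sR_map] at h
  rw [← h, Gq, sS, sR, mul_sum]
  simp only [rowS, smul_eq_C_mul, mul_left_comm (C _)]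

theorem cast_D (f : Fin (20 * p) → ℤ) (t : ℕ) : (((sD p f).coeff t : ℚ) : ZMod p) =
    ((X - 1) ^ p * dR (ZMod p) p f).coeff t := by
  have h := cast_coeff (p := p) ((X - 1) ^ p * dR ℤ p f) t
  simp only [Polynomial.map_mul, Polynomial.map_pow, Polynomial.map_sub, Polynomial.map_one, map_X,
    dR_map] at h
  rw [← h, sD, dR, mul_sum]
  simp only [rowD, smul_eq_C_mul, mul_left_comm (C _)]

theorem V_mem (f : Fin (20 * p) → ℤ) (r c : ℕ) : V p f r c ∈ O p := by
  unfold V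
  split_ifs
  · refine coeff_mul_mem_O (coeff_sS_mem p f) (fun k => ?_) _
    have := coeff_map_mem_O (p := p) ((X ^ 2 - 1) ^ (p / 2)) k
    simpa using this
  · exact coeff_sD_mem p f _

theorem eq_zero_of_blocks {R : Type} [CommRing R] (P : R[X]) {M : ℕ}
    (hM : ∀ t, p * M ≤ t → P.coeff t = 0) (h : ∀ r < p, ∀ m < M, P.coeff (r + p * m) = 0) : P = 0 := by
  have := eq_mul_expand hp.out.pos P (fun _ => 0) (fun _ => 0) hM (by simpa using h)
  simpa using this

theorem main (hP : PadeStmt) (h1 : Frob1Stmt) (hF : FormStmt) (hp60 : 60 < p)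
    (hO1 : ∀ r c : Fin 39, nvE (fun c => (c : ℚ)) r c ∈ O p)
    (hO2 : ∀ r c : Fin 39, nvE (fun c => (-1) ^ c) r c ∈ O p)
    (hd1 : ¬ (p : ℤ) ∣ (nvMat fun c => (c : ℚ)).det.num)
    (hd2 : ¬ (p : ℤ) ∣ (nvMat fun c => (-1) ^ c).det.num) (a b : ℤ) (hb : ¬ (p : ℤ) ∣ b) :
    Delta p a b ≠ 0 := by
  intro h0
  obtain ⟨f, hg, hf⟩ := exists_prim (by omega) h0
  set g : (ZMod p)[X] := (X - 1) ^ p * sR (ZMod p) p f * (X ^ 2 - 1) ^ (p / 2) with hgdef
  set d : (ZMod p)[X] := (X - 1) ^ p * dR (ZMod p) p f with hddef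
  have hg1 : ∀ r, ∀ c < 20, ((V p f r c : ℚ) : ZMod p) = g.coeff (r + p * c) := fun r c hc => by
    rw [V, if_pos hc, cast_G]
  have hd1' : ∀ r c, ((V p f r (20 + c) : ℚ) : ZMod p) = d.coeff (r + p * c) := fun r c => by
    rw [V, if_neg (by omega), cast_D, Nat.add_sub_cancel_left]
  have hgM : ∀ t, p * 20 ≤ t → g.coeff t = 0 := fun t ht => by
    rw [← cast_G, coeff_Gq_eq_zero hp60 f ht, Rat.cast_zero]
  have hdM : ∀ t, p * 19 ≤ t → d.coeff t = 0 := fun t ht => by
    rw [← cast_D, coeff_sD_eq_zero p f (by omega), Rat.cast_zero]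
  have hpc : ((X - 1) ^ p : (ZMod p)[X]) = X ^ p - 1 := by rw [sub_pow_char, one_pow]
  have hsq : (X ^ 2 - 1 : (ZMod p)[X]) = (X - 1) * (X + 1) := by ring
  have hcast : ∀ r, ∀ s < 38, Cg p (∑ c ∈ range 39, nvE 0 s c * V p f r c) 0 →
      ∑ c ∈ range 39, ((nvE 0 s c : ℚ) : ZMod p) * ((V p f r c : ℚ) : ZMod p) = 0 := by
    intro r s hs h
    have hm : ∀ c ∈ range 39, nvE 0 s c ∈ O p := fun c hc => by
      rw [nvE_lt 0 (fun c => (c : ℚ)) hs]
      exact hO1 ⟨s, by omega⟩ ⟨c, mem_range.1 hc⟩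
    rw [← cast_eq_zero_iff (sum_mem fun c hc => mul_mem (hm c hc) (V_mem f r c)),
      cast_sum_O fun c hc => mul_mem (hm c hc) (V_mem f r c)] at h
    rw [← h]
    exact sum_congr rfl fun c hc => (cast_mul_O (hm c hc) (V_mem f r c)).symm
  have hv := kill (p := p) (by omega) (fun s c => ((nvE 0 s c : ℚ) : ZMod p))
    (fun w hw hl => solve _ hO1 hd1 w hw (by simpa only [Rat.cast_natCast] using hl))
    (fun w hw hl => solve _ hO2 hd2 w hw (by
      rw [← hl]
      refine sum_congr rfl fun c _ => ?_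
      rcases neg_one_pow_eq_or ℚ c with h | h <;> rcases Nat.even_or_odd c with h' | h' <;>
        simp [h'.neg_one_pow]))
    (fun r c => ((V p f r c : ℚ) : ZMod p)) (fun r hr s hs => ?_) g (fun r _ => hg1 r) hgM ?_ ?_
  · have hg0 : g = 0 := eq_zero_of_blocks g hgM fun r hr m hm => by
      rw [← hg1 r m hm]
      exact hv r hr m (by omega)
    have hd0 : d = 0 := eq_zero_of_blocks d hdM fun r hr m hm => by
      rw [← hd1']
      exact hv r hr _ (by omega)
    have hX : (X - 1 : (ZMod p)[X]) ≠ 0 := by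
      rw [← C_1]
      exact X_sub_C_ne_zero 1
    have hY : (X ^ 2 - 1 : (ZMod p)[X]) ≠ 0 := by
      rw [← C_1]
      exact X_pow_sub_C_ne_zero (by norm_num) 1
    have hs0 : sR (ZMod p) p f = 0 :=
      (mul_eq_zero.1 ((mul_eq_zero.1 hg0).resolve_right (pow_ne_zero _ hY))).resolve_left
        (pow_ne_zero _ hX)
    have hd0' : dR (ZMod p) p f = 0 := (mul_eq_zero.1 hd0).resolve_left (pow_ne_zero _ hX)
    have h20 : (2 : ZMod p) ≠ 0 := by
      intro h
      have : ((2 : ℕ) : ZMod p) = 0 := by exact_mod_cast h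
      rw [ZMod.natCast_eq_zero_iff] at this
      have := Nat.le_of_dvd two_pos this
      omega
    have h3 : (p : ℤ) ∣ univ.gcd f := dvd_gcd fun e _ =>
      (ZMod.intCast_zmod_eq_zero_iff_dvd _ _).1 (rows_indep h20 _ (fun e => (f e : ZMod p)) hs0 hd0' e)
    rw [hg] at h3
    have := Int.le_of_dvd one_pos h3
    omega
  · rcases lt_or_ge s 16 with h | h
    · exact hcast r s hs (rowA hP h1 hp60 f hr h 0)
    rcases lt_or_ge s 18 with h' | h'
    · rw [show 39 = 20 + 19 from rfl, sum_range_add]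
      have e1 := sum_coeff_eq_zero (G := g) (by rw [hgdef, hpc, mul_assoc]; exact dvd_mul_right _ _) hgM hr
      have e2 := sum_coeff_eq_zero (G := d) (by rw [hddef, hpc]; exact dvd_mul_right _ _) hdM hr
      rcases (by omega : s = 16 ∨ s = 17) with rfl | rfl
      · rw [← add_zero (0 : ZMod p)]
        refine congrArg₂ (· + ·) (Eq.trans (sum_congr rfl fun c hc => ?_) e1) (sum_eq_zero fun c _ => ?_)
        · simp only [nvE]
          rw [if_neg (by omega), if_pos trivial, if_pos (mem_range.1 hc), Rat.cast_one, one_mul,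
            hg1 r c (mem_range.1 hc)]
        · simp only [nvE]
          rw [if_neg (by omega), if_pos trivial, if_neg (by omega), Rat.cast_zero, zero_mul]
      · rw [← add_zero (0 : ZMod p)]
        refine congrArg₂ (· + ·) (sum_eq_zero fun c hc => ?_) (Eq.trans (sum_congr rfl fun c _ => ?_) e2)
        · simp only [nvE]
          rw [if_neg (by omega), if_neg (by omega), if_pos trivial, if_pos (mem_range.1 hc),
            Rat.cast_zero, zero_mul]
        · simp only [nvE]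
          rw [if_neg (by omega), if_neg (by omega), if_pos trivial, if_neg (by omega), Rat.cast_one,
            one_mul, hd1']
    · exact hcast r s hs (rowB hF hp60 f hb hf hr h' hs 0)
  · obtain ⟨k, hk⟩ : X - C 1 ∣ sR (ZMod p) p f := by
      rw [dvd_iff_isRoot, IsRoot, sR, eval_finsetSum]
      exact sum_eq_zero fun e _ => by rw [eval_mul, S0_eval_one, mul_zero]
    rw [hgdef, hk, hsq, C_1, mul_pow, pow_add, pow_succ]
    exact ⟨k * (X + 1) ^ (p / 2), by ring⟩
  · rw [hgdef, hsq, mul_pow, ← mul_assoc]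
    exact dvd_mul_left _ _

end Vale.Agent.P030.Nonvan

namespace Vale.Agent.P030

open Filter

theorem nonvan (hP : PadeStmt) (h1 : Frob1Stmt) (hF : FormStmt) (hN : FinStmt) : NonvanStmt := by
  have e1 : ∀ l : ℕ → ℚ, ∀ᶠ p : ℕ in atTop, ∀ r c : Fin 39, ¬ p ∣ (nvE l r c).den := fun l =>
    eventually_all.2 fun r => eventually_all.2 fun c => Nonvan.ev_den _
  obtain ⟨p0, h⟩ := eventually_atTop.1 ((eventually_gt_atTop 60).and ((e1 fun c => (c : ℚ)).and
    ((e1 fun c => (-1) ^ c).and ((Nonvan.ev_num hN.1).and (Nonvan.ev_num hN.2)))))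
  refine ⟨p0, fun p hp hp0 a b hb => ?_⟩
  have := Fact.mk hp
  obtain ⟨c1, c2, c3, c4, c5⟩ := h p hp0
  exact Nonvan.main hP h1 hF c1 c2 c3 c4 c5 a b hb

end Vale.Agent.P030
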