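import Vale.Agent.P030.Base

/-!
# P030 nonvanishing, part 1: algebra over the field with `p` elements
-/

namespace Vale.Agent.P030.Nonvan

open Polynomial Finset

theorem tele {R : Type} [CommRing R] {p : ℕ} (W : R[X]) {r : ℕ} (hr : r < p) (M : ℕ) :
    ∑ m ∈ range (M + 1), (W * (X ^ p - 1)).coeff (r + p * m) = - W.coeff (r + p * M) := by
  induction M with
  | zero =>
    simp only [zero_add, range_one, sum_singleton, mul_zero, add_zero, mul_sub, mul_one, coeff_sub]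
    rw [coeff_mul_X_pow', if_neg (by omega), zero_sub]
  | succ M ih =>
    rw [sum_range_succ, ih, mul_sub, mul_one, coeff_sub, coeff_mul_X_pow',
      if_pos (by nlinarith), show r + p * (M + 1) - p = r + p * M by rw [mul_add, mul_one]; omega]
    ring

theorem sum_coeff_eq_zero {R : Type} [CommRing R] {p : ℕ} {G : R[X]} (hG : X ^ p - 1 ∣ G) {M : ℕ}
    (hM : ∀ t, p * M ≤ t → G.coeff t = 0) {r : ℕ} (hr : r < p) :
    ∑ m ∈ range M, G.coeff (r + p * m) = 0 := by
  obtain ⟨W, rfl⟩ := hG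
  have h1 := tele W hr (M + W.natDegree + 1)
  rw [coeff_eq_zero_of_natDegree_lt (p := W) (by nlinarith), neg_zero, mul_comm W] at h1
  rw [← h1]
  refine sum_subset (range_subset_range.2 (by omega)) fun m _ hm => hM _ ?_
  have : M ≤ m := by simpa using hm
  nlinarith

/-- A polynomial whose coefficients factor along the decomposition `t = r + p m`. -/
theorem eq_mul_expand {R : Type} [CommRing R] {p M : ℕ} (hp : 0 < p) (G : R[X]) (c κ : ℕ → R)
    (hM : ∀ t, p * M ≤ t → G.coeff t = 0)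
    (h : ∀ r < p, ∀ m < M, G.coeff (r + p * m) = c r * κ m) :
    G = (∑ r ∈ range p, C (c r) * X ^ r) * expand R p (∑ m ∈ range M, C (κ m) * X ^ m) := by
  ext t
  simp only [map_sum, map_mul, expand_C, map_pow, expand_X, sum_mul_sum, finsetSum_coeff]
  have h2 : ∀ r m, (C (c r) * X ^ r * (C (κ m) * (X ^ p) ^ m) : R[X]).coeff t =
      if t = r + p * m then c r * κ m else 0 := by
    intro r m
    rw [show (C (c r) * X ^ r * (C (κ m) * (X ^ p) ^ m) : R[X]) = C (c r * κ m) * X ^ (r + p * m) by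
      rw [C_mul, pow_add, pow_mul]; ring, coeff_C_mul_X_pow]
  simp only [h2]
  have h3 := Nat.mod_add_div t p
  have h4 := Nat.mod_lt t hp
  rw [sum_eq_single (t % p)]
  · by_cases h5 : t / p < M
    · rw [sum_eq_single (t / p), if_pos h3.symm, ← h _ h4 _ h5, h3]
      · intro m _ hm
        refine if_neg fun h6 => hm ?_
        have : p * m = p * (t / p) := by omega
        exact Nat.eq_of_mul_eq_mul_left hp this
      · intro h6
        exact absurd (mem_range.2 h5) h6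
    · rw [hM t (by have := Nat.mul_le_mul_left p (not_lt.1 h5); omega)]
      refine (sum_eq_zero fun m hm => if_neg fun h6 => h5 ?_).symm
      have : p * m = p * (t / p) := by omega
      rw [← Nat.eq_of_mul_eq_mul_left hp this]
      exact mem_range.1 hm
  · intro r hr hne
    refine sum_eq_zero fun m _ => if_neg fun h6 => hne ?_
    rw [h6, Nat.add_mul_mod_self_left, Nat.mod_eq_of_lt (mem_range.1 hr)]
  · intro h6
    exact absurd (mem_range.2 h4) h6

theorem coprime_of_eval {K : Type} [Field K] {a : K} {k : K[X]} (h : k.eval a ≠ 0) :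
    IsCoprime (X - C a) k :=
  (irreducible_X_sub_C a).coprime_iff_not_dvd.2 fun h1 => h (dvd_iff_isRoot.1 h1)

/-- The degree count. -/
theorem factor_eq_zero {p : ℕ} [hp : Fact p.Prime] (h2 : p ≠ 2) (c κ : (ZMod p)[X])
    (hc : c.degree < p) (h1 : κ.eval 1 = 0) (h1' : κ.derivative.eval 1 ≠ 0) (hm : κ.eval (-1) ≠ 0)
    (hd : (X - 1) ^ (p + (p / 2 + 1)) ∣ c * expand (ZMod p) p κ)
    (hd' : (X + 1) ^ (p / 2) ∣ c * expand (ZMod p) p κ) : c = 0 := by
  obtain ⟨k, hk⟩ : X - C 1 ∣ κ := dvd_iff_isRoot.2 h1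
  have hk1 : k.eval 1 ≠ 0 := by
    rw [hk] at h1'
    simpa using h1'
  rw [ZMod.expand_card] at hd hd'
  have hX : (X - 1 : (ZMod p)[X]) = X - C 1 := by rw [C_1]
  have hY : (X + 1 : (ZMod p)[X]) = X - C (-1) := by rw [C_neg, C_1, sub_neg_eq_add]
  rw [hX] at hd
  rw [hY] at hd'
  have e1 : (X - C 1) ^ (p / 2 + 1) ∣ c := by
    rw [hk, mul_pow, pow_add, mul_left_comm] at hd
    exact ((coprime_of_eval hk1).pow).dvd_of_dvd_mul_right
      ((mul_dvd_mul_iff_left (pow_ne_zero _ (X_sub_C_ne_zero 1))).1 hd)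
  have e2 : (X - C (-1)) ^ (p / 2) ∣ c := ((coprime_of_eval hm).pow).dvd_of_dvd_mul_right hd'
  have h20 : (2 : ZMod p) ≠ 0 := by
    intro h
    have : ((2 : ℕ) : ZMod p) = 0 := by exact_mod_cast h
    rw [ZMod.natCast_eq_zero_iff] at this
    exact h2 ((Nat.prime_dvd_prime_iff_eq hp.out Nat.prime_two).1 this)
  have e3 : IsCoprime (X - C (1 : ZMod p)) (X - C (-1)) := by
    refine coprime_of_eval ?_
    simpa [one_add_one_eq_two] using h20
  have e4 := e3.pow.mul_dvd e1 e2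
  refine eq_zero_of_dvd_of_degree_lt e4 (hc.trans_le (le_of_eq ?_))
  rw [degree_mul, degree_pow, degree_pow, degree_X_sub_C, degree_X_sub_C]
  have := hp.out.eq_two_or_odd.resolve_left h2
  have h3 : p = (p / 2 + 1) + p / 2 := by omega
  simp only [nsmul_eq_mul, mul_one]
  exact_mod_cast h3

theorem ev1 {K : Type} [CommRing K] (M : ℕ) (κ : ℕ → K) :
    (∑ m ∈ range M, C (κ m) * X ^ m).eval 1 = ∑ m ∈ range M, κ m := by
  simp [eval_finsetSum]

theorem ev2 {K : Type} [CommRing K] (M : ℕ) (κ : ℕ → K) :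
    (∑ m ∈ range M, C (κ m) * X ^ m).derivative.eval 1 = ∑ m ∈ range M, (m : K) * κ m := by
  rw [derivative_sum, eval_finsetSum]
  refine sum_congr rfl fun m _ => ?_
  rw [derivative_C_mul_X_pow, eval_mul, eval_C, eval_pow, eval_X, one_pow, mul_one, mul_comm]

theorem ev3 {K : Type} [CommRing K] (M : ℕ) (κ : ℕ → K) :
    (∑ m ∈ range M, C (κ m) * X ^ m).eval (-1) = ∑ m ∈ range M, (-1) ^ m * κ m := by
  rw [eval_finsetSum]
  refine sum_congr rfl fun m _ => ?_
  rw [eval_mul, eval_C, eval_pow, eval_X, mul_comm]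

/-- The linear algebra step. -/
theorem kill {p : ℕ} [hp : Fact p.Prime] (h2 : p ≠ 2) (E : ℕ → ℕ → ZMod p)
    (hA : ∀ w : ℕ → ZMod p, (∀ s < 38, ∑ c ∈ range 39, E s c * w c = 0) →
      ∑ c ∈ range 20, (c : ZMod p) * w c = 0 → ∀ c < 39, w c = 0)
    (hB : ∀ w : ℕ → ZMod p, (∀ s < 38, ∑ c ∈ range 39, E s c * w c = 0) →
      ∑ c ∈ range 20, (-1 : ZMod p) ^ c * w c = 0 → ∀ c < 39, w c = 0)
    (v : ℕ → ℕ → ZMod p) (hv : ∀ r < p, ∀ s < 38, ∑ c ∈ range 39, E s c * v r c = 0)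
    (g : (ZMod p)[X]) (hg : ∀ r < p, ∀ c < 20, v r c = g.coeff (r + p * c))
    (hM : ∀ t, p * 20 ≤ t → g.coeff t = 0)
    (hd : (X - 1) ^ (p + (p / 2 + 1)) ∣ g) (hd' : (X + 1) ^ (p / 2) ∣ g) :
    ∀ r < p, ∀ c < 39, v r c = 0 := by
  intro r0 hr0
  by_contra hne
  have a0 : ∑ c ∈ range 20, (c : ZMod p) * v r0 c ≠ 0 := fun h => hne (hA _ (hv r0 hr0) h)
  have b0 : ∑ c ∈ range 20, (-1 : ZMod p) ^ c * v r0 c ≠ 0 := fun h => hne (hB _ (hv r0 hr0) h)
  set A := ∑ c ∈ range 20, (c : ZMod p) * v r0 c with hAdef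
  let cf : ℕ → ZMod p := fun r => (∑ c ∈ range 20, (c : ZMod p) * v r c) / A
  have hpar : ∀ r < p, ∀ c < 39, v r c - cf r * v r0 c = 0 := by
    intro r hr
    refine hA (fun c => v r c - cf r * v r0 c) (fun s hs => ?_) ?_
    · simp only [mul_sub, sum_sub_distrib, mul_left_comm _ (cf r), ← mul_sum, hv r hr s hs,
        hv r0 hr0 s hs, mul_zero, sub_zero]
    · simp only [mul_sub, sum_sub_distrib, mul_left_comm _ (cf r), ← mul_sum]
      rw [← hAdef, div_mul_cancel₀ _ a0, sub_self]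
  have hfac := eq_mul_expand hp.out.pos g cf (v r0) hM fun r hr m hm => by
    rw [← hg r hr m hm]
    exact sub_eq_zero.1 (hpar r hr m (by omega))
  have hdp : (X ^ p - 1 : (ZMod p)[X]) ∣ g := by
    refine Dvd.dvd.trans ?_ hd
    rw [pow_add, sub_pow_char, one_pow]
    exact dvd_mul_right _ _
  have h16 : ∑ c ∈ range 20, v r0 c = 0 := by
    rw [← sum_coeff_eq_zero hdp hM hr0]
    exact sum_congr rfl fun c hc => hg r0 hr0 c (mem_range.1 hc)
  rw [hfac] at hd hd'
  have hdeg : (∑ r ∈ range p, C (cf r) * X ^ r : (ZMod p)[X]).degree < p := by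
    rw [← Fin.sum_univ_eq_sum_range (fun r => C (cf r) * X ^ r) p]
    exact degree_sum_fin_lt _
  have hz := factor_eq_zero h2 _ _ hdeg (by rw [ev1]; exact h16) (by rw [ev2]; exact a0)
    (by rw [ev3]; exact b0) hd hd'
  have h1 := congrArg (fun P => coeff P r0) hz
  simp only [finsetSum_coeff, coeff_C_mul_X_pow, coeff_zero] at h1
  rw [sum_ite_eq (range p) r0, if_pos (mem_range.2 hr0)] at h1
  exact a0 ((div_eq_zero_iff.1 h1).elim id id)

theorem row_eval {L : Type} [Field L] (h2 : (2 : L) ≠ 0) {x : L} (hx : x ≠ 0) (z : ℤ) :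
    (S0 L z).eval ((x + x⁻¹) / 2) - (x⁻¹ - x) / 2 * (D0 L z).eval ((x + x⁻¹) / 2) =
      x ^ z * (1 - x) := by
  have e1 := cheb_eval h2 hx z
  have e2 := cheb_eval h2 hx (z + 1)
  rw [add_sub_cancel_right] at e2
  simp only [S0, D0, eval_sub, mul_sub]
  rw [e1.1, e1.2, e2.1, e2.2, zpow_add_one₀ hx]
  field_simp
  ring

theorem rows_aux {K L : Type} [Field K] [Field L] (φ : K →+* L) (h2 : (2 : K) ≠ 0) {x : L} (hx : x ≠ 0)
    {n : ℕ} (a : ℤ) (f : Fin n → K)
    (hS : ∑ e, C (f e) * S0 K (((e : ℕ) : ℤ) - a) = 0)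
    (hD : ∑ e, C (f e) * D0 K (((e : ℕ) : ℤ) - a) = 0) :
    (∑ e : Fin n, φ (f e) * x ^ (e : ℕ)) * (1 - x) = 0 := by
  have h2' : (2 : L) ≠ 0 := by
    have := (map_ne_zero φ).2 h2
    rwa [map_ofNat] at this
  have hS' := congrArg (fun P => eval ((x + x⁻¹) / 2) (P.map φ)) hS
  have hD' := congrArg (fun P => eval ((x + x⁻¹) / 2) (P.map φ)) hD
  simp only [Polynomial.map_sum, Polynomial.map_mul, map_C, S0_map, D0_map, eval_finsetSum, eval_mul,
    eval_C, Polynomial.map_zero, eval_zero] at hS' hD'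
  have h3 : ∑ e : Fin n, φ (f e) * (x ^ (((e : ℕ) : ℤ) - a) * (1 - x)) = 0 := by
    simp only [← row_eval h2' hx, mul_sub, sum_sub_distrib, hS', mul_left_comm _ ((x⁻¹ - x) / 2),
      ← mul_sum, hD', mul_zero, sub_zero]
  have h5 := congrArg (· * x ^ a) h3
  simp only [zero_mul, sum_mul] at h5
  rw [← h5, sum_mul]
  refine sum_congr rfl fun e _ => ?_
  rw [zpow_sub₀ hx, zpow_natCast]
  have : x ^ a ≠ 0 := zpow_ne_zero _ hx
  field_simp

/-- Independence of the rows. -/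
theorem rows_indep {K : Type} [Field K] (h2 : (2 : K) ≠ 0) {n : ℕ} (a : ℤ) (f : Fin n → K)
    (hS : ∑ e, C (f e) * S0 K (((e : ℕ) : ℤ) - a) = 0)
    (hD : ∑ e, C (f e) * D0 K (((e : ℕ) : ℤ) - a) = 0) (e : Fin n) : f e = 0 := by
  have h3 := rows_aux (algebraMap K (RatFunc K)) h2 (RatFunc.X_ne_zero (K := K)) a f hS hD
  have h4 : algebraMap K[X] (RatFunc K) ((∑ e : Fin n, C (f e) * X ^ (e : ℕ)) * (1 - X)) = 0 := by
    rw [← h3]
    simp
  rw [map_eq_zero_iff _ (RatFunc.algebraMap_injective K), mul_eq_zero] at h4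
  have h6 : (1 - X : K[X]) ≠ 0 := by
    rw [← neg_sub, neg_ne_zero, ← C_1]
    exact X_sub_C_ne_zero 1
  have h7 := congrArg (fun P => coeff P e) (h4.resolve_right h6)
  simp only [finsetSum_coeff, coeff_C_mul_X_pow, coeff_zero, Fin.val_inj] at h7
  rwa [sum_ite_eq univ e, if_pos (mem_univ _)] at h7

end Vale.Agent.P030.Nonvan
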