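import Vale.Agent.P030.Nonvan1

/-!
# P030 nonvanishing, part 2: the rows of the finite system hold modulo `p`
-/

namespace Vale.Agent.P030.Nonvan

open Polynomial Finset

noncomputable def Gq (p : ℕ) (f : Fin (20 * p) → ℤ) : ℚ[X] := sS p f * (X ^ 2 - 1) ^ (p / 2)

noncomputable def V (p : ℕ) (f : Fin (20 * p) → ℤ) (r c : ℕ) : ℚ :=
  if c < 20 then (Gq p f).coeff (r + p * c) else (sD p f).coeff (r + p * (c - 20))

theorem cf_mul_X_pow (P : ℚ[X]) (n t : ℕ) : (P * X ^ n).coeff t = cf P ((t : ℤ) - n) := by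
  rw [coeff_mul_X_pow', cf]
  by_cases h : n ≤ t
  · rw [if_pos h, if_pos (by omega), show ((t : ℤ) - n).toNat = t - n by omega]
  · rw [if_neg h, if_neg (by omega)]

theorem coeff_G (S : ℚ[X]) (p t : ℕ) : (S * (X ^ 2 - 1) ^ (p / 2)).coeff t =
    ∑ i ∈ range (p / 2 + 1), bb p i * cf S ((t : ℤ) - 2 * (p / 2 : ℕ) + 2 * i) := by
  rw [show (X ^ 2 - 1 : ℚ[X]) = -1 + X ^ 2 by ring, add_pow, mul_sum, finsetSum_coeff]
  refine sum_congr rfl fun i hi => ?_
  have hi' : i ≤ p / 2 := by simpa [Nat.lt_succ_iff] using hi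
  rw [show S * ((-1) ^ i * (X ^ 2) ^ (p / 2 - i) * ((p / 2).choose i : ℚ[X])) =
    C (bb p i) * (S * X ^ (2 * (p / 2 - i))) by simp only [bb, map_mul, map_pow, map_neg, map_one, map_natCast, pow_mul]; ring,
    coeff_C_mul, cf_mul_X_pow]
  congr 2
  push_cast [hi']
  ring

theorem chi_cf (S : ℚ[X]) (p : ℕ) (m : ℤ) :
    chi p * cf (S * (1 - X ^ 2) ^ (p / 2)) m = cf (S * (X ^ 2 - 1) ^ (p / 2)) m := by
  have : S * (X ^ 2 - 1) ^ (p / 2) = C (chi p) * (S * (1 - X ^ 2) ^ (p / 2)) := by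
    rw [chi, map_pow, map_neg, map_one, mul_left_comm, ← mul_pow]
    congr 2
    ring
  rw [this]
  unfold cf
  split_ifs
  · rw [coeff_C_mul]
  · rw [mul_zero]

theorem reidx {p : ℕ} (hp : 0 < p) (S : ℚ[X]) (hS : S.natDegree ≤ 19 * p) (φ : ℤ → ℚ)
    (hφ : ∀ m < 0, φ m = 0) (ν : ℤ) (a : ℕ) (hν : 19 * (p : ℤ) < ν + p * (20 - a)) :
    ∑ k ∈ range (27 * p), S.coeff k * (if (p : ℤ) ∣ k - ν then φ ((k - ν) / p) else 0) =
      ∑ c ∈ range 20, φ ((c : ℤ) - a) * cf S (ν + p * ((c : ℤ) - a)) := by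
  have hp' : (p : ℤ) ≠ 0 := by omega
  have h1 : ∀ k : ℕ, S.coeff k * (if (p : ℤ) ∣ k - ν then φ ((k - ν) / p) else 0) =
      ∑ c ∈ range 20, if (k : ℤ) = ν + p * ((c : ℤ) - a) then φ ((c : ℤ) - a) * S.coeff k else 0 := by
    intro k
    split_ifs with h
    · obtain ⟨m, hm⟩ := h
      rw [hm, Int.mul_ediv_cancel_left _ hp']
      have h2 : ∀ c : ℕ, ((k : ℤ) = ν + p * ((c : ℤ) - a)) ↔ (c : ℤ) - a = m := by
        intro c
        constructor
        · intro h3
          exact mul_left_cancel₀ hp' (by linarith)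
        · intro h3
          rw [h3]
          linarith
      simp only [h2]
      rcases lt_or_ge m 0 with h3 | h3
      · rw [hφ m h3, mul_zero]
        refine (sum_eq_zero fun c _ => ?_).symm
        split_ifs with h4
        · rw [h4, hφ m h3, zero_mul]
        · rfl
      · rcases lt_or_ge (m + a) 20 with h4 | h4
        · rw [sum_eq_single (m + a).toNat, if_pos (by omega), show ((m + a).toNat : ℤ) - a = m by omega,
            mul_comm]
          · intro c _ hc
            exact if_neg (by omega)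
          · intro h5
            exact absurd (mem_range.2 (by omega)) h5
        · have h5 : S.coeff k = 0 := by
            refine coeff_eq_zero_of_natDegree_lt (hS.trans_lt ?_)
            have : (p : ℤ) * (20 - a) ≤ p * m := mul_le_mul_of_nonneg_left (by omega) (by omega)
            omega
          simp [h5]
    · rw [mul_zero]
      symm
      exact sum_eq_zero fun c _ => if_neg fun h2 => h ⟨(c : ℤ) - a, by linarith⟩
  simp only [h1]
  rw [sum_comm]
  refine sum_congr rfl fun c _ => ?_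
  generalize ν + p * ((c : ℤ) - a) = z
  unfold cf
  split_ifs with h2
  · rcases lt_or_ge z.toNat (27 * p) with h3 | h3
    · rw [sum_eq_single z.toNat, if_pos (by omega)]
      · intro k _ hk
        exact if_neg (by omega)
      · intro h4
        exact absurd (mem_range.2 h3) h4
    · rw [coeff_eq_zero_of_natDegree_lt (p := S) (by omega), mul_zero]
      exact sum_eq_zero fun k hk => if_neg (by have := mem_range.1 hk; omega)
  · rw [mul_zero]
    exact sum_eq_zero fun k _ => if_neg (by omega)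

theorem pade_sum (hP : PadeStmt) (N : ℕ) (f : Fin (20 * N) → ℤ) {μ : ℕ} (h1 : 3 * N ≤ μ)
    (h2 : μ < 27 * N) :
    (sD N f).coeff μ = ∑ k ∈ range (27 * N), (sS N f).coeff k * cz ((k : ℤ) - μ - 1) := by
  simp only [sD, sS, finsetSum_coeff, coeff_smul, smul_eq_mul, sum_mul]
  rw [sum_comm]
  refine sum_congr rfl fun e _ => ?_
  have h3 := hP N e (27 * N - 1 - μ) (by omega)
  rw [show 27 * N - 1 - (27 * N - 1 - μ) = μ by omega] at h3
  rw [← h3, mul_sum]
  refine sum_congr rfl fun k _ => ?_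
  rw [mul_assoc, show ((27 * N - 1 - μ : ℕ) : ℤ) + k - 27 * N = (k : ℤ) - μ - 1 by omega]

theorem sum39 (p : ℕ) (f : Fin (20 * p) → ℤ) (r : ℕ) (E : ℕ → ℚ) :
    ∑ c ∈ range 39, E c * V p f r c = ∑ c ∈ range 20, E c * (Gq p f).coeff (r + p * c) +
      ∑ m ∈ range 19, E (20 + m) * (sD p f).coeff (r + p * m) := by
  rw [show 39 = 20 + 19 from rfl, sum_range_add]
  refine congrArg₂ (· + ·) ?_ ?_
  · exact sum_congr rfl fun c hc => by rw [V, if_pos (mem_range.1 hc)]
  · exact sum_congr rfl fun c hc => by rw [V, if_neg (by omega), Nat.add_sub_cancel_left]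

variable {p : ℕ} [hp : Fact p.Prime]

theorem rowA (hP : PadeStmt) (h1 : Frob1Stmt) (hp60 : 60 < p) (f : Fin (20 * p) → ℤ) {r s : ℕ}
    (hr : r < p) (hs : s < 16) (last : ℕ → ℚ) :
    Cg p (∑ c ∈ range 39, nvE last s c * V p f r c) 0 := by
  obtain ⟨hcz, -, -, hfr⟩ := h1 p (by omega)
  have hodd := hp.out.eq_two_or_odd.resolve_left (by omega)
  rw [sum39]
  have e1 : ∑ m ∈ range 19, nvE last s (20 + m) * (sD p f).coeff (r + p * m) =
      - (sD p f).coeff (r + p * (s + 3)) := by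
    rw [sum_eq_single (s + 3)]
    · rw [nvE, if_pos hs, if_neg (by omega), if_pos (by omega), neg_one_mul]
    · intro m _ hm
      rw [nvE, if_pos hs, if_neg (by omega), if_neg (by omega), zero_mul]
    · intro h
      exact absurd (mem_range.2 (by omega)) h
  have e2 : ∑ c ∈ range 20, nvE last s c * (Gq p f).coeff (r + p * c) =
      ∑ k ∈ range (27 * p), (sS p f).coeff k * fr p cz ((k : ℤ) - (r + p * (s + 3) : ℕ) - 1) := by
    have e3 : ∀ k : ℕ, (sS p f).coeff k * fr p cz ((k : ℤ) - (r + p * (s + 3) : ℕ) - 1) =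
        ∑ i ∈ range (p / 2 + 1), bb p i * ((sS p f).coeff k *
          (if (p : ℤ) ∣ k - ((r + p * (s + 3) : ℕ) + 1 + 2 * i : ℤ) then
            cz ((k - ((r + p * (s + 3) : ℕ) + 1 + 2 * i : ℤ)) / p) else 0)) := by
      intro k
      rw [fr, mul_sum]
      refine sum_congr rfl fun i _ => ?_
      rw [show (k : ℤ) - (r + p * (s + 3) : ℕ) - 1 - 2 * i =
        k - ((r + p * (s + 3) : ℕ) + 1 + 2 * i : ℤ) by ring]
      split_ifs
      · ring
      · simp
    simp only [e3]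
    rw [sum_comm]
    simp only [← mul_sum]
    have e4 : ∀ i : ℕ, _ := fun i => reidx hp.out.pos (sS p f) (natDegree_sS_le p f) cz
      (fun m hm => if_neg (by omega)) ((r + p * (s + 3) : ℕ) + 1 + 2 * i : ℤ) (s + 4)
      (by push_cast; nlinarith)
    simp only [e4, mul_sum]
    rw [sum_comm]
    refine sum_congr rfl fun c hc => ?_
    rw [nvE, if_pos hs, if_pos (mem_range.1 hc), Gq, coeff_G, mul_sum]
    refine sum_congr rfl fun i _ => ?_
    have e5 : (p : ℤ) = 2 * (p / 2 : ℕ) + 1 := by omega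
    rw [mul_left_comm, show ((c : ℤ) - (s + 4 : ℕ)) = c - s - 4 by push_cast; ring,
      show ((r + p * c : ℕ) : ℤ) - 2 * (p / 2 : ℕ) + 2 * i =
        (r + p * (s + 3) : ℕ) + 1 + 2 * i + p * (c - s - 4) by
          generalize p / 2 = h at e5; push_cast; linarith]
  rw [e1, e2, pade_sum hP p f (μ := r + p * (s + 3)) (by nlinarith) (by nlinarith), ← sub_eq_add_neg,
    ← sub_self (∑ k ∈ range (27 * p), (sS p f).coeff k * cz ((k : ℤ) - (r + p * (s + 3) : ℕ) - 1))]
  refine Cg.sub (Cg.sum fun k hk => Cg.mul_left (coeff_sS_mem p f k) (hfr 27 _ (by omega) ?_).1.symm)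
    (Cg.refl _)
  have := mem_range.1 hk
  omega

theorem cg_coeff (P Q : ℤ[X]) (h : P.map (Int.castRingHom (ZMod p)) = Q.map (Int.castRingHom (ZMod p)))
    (j : ℕ) : Cg p ((P.map (Int.castRingHom ℚ)).coeff j) ((Q.map (Int.castRingHom ℚ)).coeff j) := by
  have h1 := congrArg (fun R => coeff R j) h
  simp only [coeff_map, eq_intCast] at h1 ⊢
  rw [cg_int_iff, ← ZMod.intCast_zmod_eq_zero_iff_dvd, Int.cast_sub, h1, sub_self]

theorem cg_colQ (k : Fin (20 * p)) (j : ℕ) :
    Cg p ((colQ p k).coeff j) ((if j = 3 * p + k then 1 else 0) - if j = 4 * p + k then 1 else 0) := by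
  have h := cg_coeff (p := p) ((1 - X) ^ p * X ^ (3 * p + (k : ℕ)))
    (X ^ (3 * p + (k : ℕ)) - X ^ (4 * p + (k : ℕ))) (by
      simp only [Polynomial.map_mul, Polynomial.map_pow, Polynomial.map_sub, Polynomial.map_one, map_X]
      rw [sub_pow_char, one_pow, show 4 * p + (k : ℕ) = p + (3 * p + k) by ring, pow_add _ p]
      ring) j
  simpa only [Polynomial.map_mul, Polynomial.map_pow, Polynomial.map_sub, Polynomial.map_one, map_X,
    coeff_sub, coeff_X_pow, colQ] using h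

theorem step (hF : FormStmt) (hp60 : 60 < p) (f : Fin (20 * p) → ℤ) {a b : ℤ} (hb : ¬ (p : ℤ) ∣ b)
    (hf : ∀ s, ∑ e, (f e : ℚ) * ((b : ℚ) • B0 p + (a : ℚ) • B1 p) e s = 0) {k : ℕ} (hk : k < 20 * p) :
    Cg p ((p : ℚ) ^ 2 * form (27 * p - 1) (sS p f) (sD p f) (X ^ (3 * p + k)))
      ((p : ℚ) ^ 2 * form (27 * p - 1) (sS p f) (sD p f) (X ^ (4 * p + k))) := by
  obtain ⟨h1, -⟩ := hF p (by omega) (27 * p - 1) (sS p f) (sD p f) (coeff_sS_mem p f) (coeff_sD_mem p f)
  have hlog : Nat.log p (27 * p - 1) = 1 :=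
    Nat.log_eq_of_pow_le_of_lt_pow (by rw [pow_one]; omega) (by
      have : 27 * p ≤ p * p := by nlinarith
      rw [pow_two]
      omega)
  rw [hlog, mul_one] at h1
  have h2 := pair_sum p a b f (Pi.single ⟨k, hk⟩ 1)
  have h3 : sQ p (Pi.single ⟨k, hk⟩ 1) = colQ p ⟨k, hk⟩ := by
    rw [sQ, sum_eq_single ⟨k, hk⟩]
    · simp
    · intro e _ he
      simp [Pi.single_eq_of_ne he]
    · simp
  rw [h3, sum_comm] at h2
  simp only [← sum_mul, hf, zero_mul, sum_const_zero] at h2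
  have hb0 : (b : ℚ) ≠ 0 := by
    intro h
    exact hb (by rw [show b = 0 by exact_mod_cast h]; simp)
  have h4 : Cg p ((p : ℚ) ^ 2 * form (27 * p - 1) (sS p f) (sD p f) (colQ p ⟨k, hk⟩)) 0 := by
    have h5 : (p : ℚ) ^ 2 * form (27 * p - 1) (sS p f) (sD p f) (colQ p ⟨k, hk⟩) =
        p * (-(p * a * (b : ℚ)⁻¹ * formG (27 * p - 1) (sS p f) (colQ p ⟨k, hk⟩))) := by
      field_simp
      linear_combination (-1 : ℚ) * h2
    rw [h5]
    exact cg_p_mul (neg_mem (mul_mem (mul_mem (mul_mem (nat_mem_O p) (int_mem_O a)) (inv_int_mem_O hb))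
      (h1 _ (coeff_colQ_mem p _)).2))
  have hX : ∀ j, (p : ℚ) ^ 2 * form (27 * p - 1) (sS p f) (sD p f) (X ^ j) ∈ O p := by
    intro j
    refine (h1 _ fun i => ?_).1
    rw [coeff_X_pow]
    split_ifs
    exacts [one_mem _, zero_mem _]
  rw [form_expand, mul_sum] at h4
  have h6 := (Cg.sum (s := range (27 * p - 1 + 1)) fun j _ =>
    (cg_colQ (p := p) ⟨k, hk⟩ j).mul_right (hX j)).symm.trans
      ((Cg.of_eq (sum_congr rfl fun j _ => mul_left_comm _ _ _)).trans h4)
  simp only [sub_mul, sum_sub_distrib, ite_mul, one_mul, zero_mul, sum_ite_eq', mem_range] at h6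
  rw [if_pos (by omega), if_pos (by omega)] at h6
  simpa [Cg] using h6

theorem coeff_Gq_eq_zero (hp60 : 60 < p) (f : Fin (20 * p) → ℤ) {t : ℕ} (ht : p * 20 ≤ t) :
    (Gq p f).coeff t = 0 := by
  refine coeff_eq_zero_of_natDegree_lt (natDegree_mul_le.trans_lt ?_)
  have h1 := natDegree_sS_le p f
  have h2 : ((X ^ 2 - 1 : ℚ[X]) ^ (p / 2)).natDegree ≤ p / 2 * 2 := by
    refine natDegree_pow_le.trans ?_
    rw [← C_1, natDegree_X_pow_sub_C]
  have hodd := hp.out.eq_two_or_odd.resolve_left (by omega)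
  omega

theorem form_row (hF : FormStmt) (hp60 : 60 < p) (f : Fin (20 * p) → ℤ) {r j : ℕ} (hr : r < p)
    (hj : j < 27) :
    Cg p ((p : ℚ) ^ 2 * form (27 * p - 1) (sS p f) (sD p f) (X ^ (p - 1 - r + p * j)))
      (∑ c ∈ range 20, MM (26 - (c : ℤ)) j * (Gq p f).coeff (r + p * c) +
        ∑ m ∈ range 19, -(3 / 2) * ZZ (26 - (m : ℤ)) j * (sD p f).coeff (r + p * m)) := by
  obtain ⟨-, h1⟩ := hF p (by omega) (27 * p - 1) (sS p f) (sD p f) (coeff_sS_mem p f) (coeff_sD_mem p f)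
  have h2 := h1 27 (p - 1 - r) j (by omega) (by omega) ((natDegree_sS_le p f).trans (by omega))
    (by omega) (by have : p * j ≤ p * 26 := Nat.mul_le_mul_left p (by omega)
                   omega)
  refine h2.trans (Cg.of_eq ?_)
  rw [sum_sub_distrib, sub_eq_add_neg, ← sum_neg_distrib]
  refine congrArg₂ (· + ·) ?_ ?_
  · rw [← sum_range_reflect, show 27 + 1 = 20 + 8 from rfl, sum_range_add]
    have e : ∀ c : ℕ, c < 28 → chi p * cf (sS p f * (1 - X ^ 2) ^ (p / 2))
        (((27 * p - 1 : ℕ) : ℤ) - (p - 1 - r : ℕ) - p * (((20 + 8 - 1 - c : ℕ) : ℤ) - 1)) *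
          MM (((20 + 8 - 1 - c : ℕ) : ℤ) - 1) j = MM (26 - (c : ℤ)) j * (Gq p f).coeff (r + p * c) := by
      intro c hc
      rw [chi_cf, show (((20 + 8 - 1 - c : ℕ) : ℤ) - 1) = 26 - c by omega,
        show ((27 * p - 1 : ℕ) : ℤ) - (p - 1 - r : ℕ) - p * (26 - c) = (r + p * c : ℕ) by
          rw [mul_sub]; push_cast; omega, cf_natCast, mul_comm, Gq]
    rw [sum_congr rfl fun c hc => e c (by have := mem_range.1 hc; omega),
      sum_congr rfl fun c hc => e (20 + c) (by have := mem_range.1 hc; omega)]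
    rw [add_eq_left]
    exact sum_eq_zero fun c _ => by rw [coeff_Gq_eq_zero hp60 f (by nlinarith), mul_zero]
  · rw [sum_range_succ, cf_of_neg _ (by push_cast; omega), mul_zero, zero_mul, neg_zero, add_zero,
      ← sum_range_reflect, show 27 = 19 + 8 from rfl, sum_range_add]
    have e : ∀ c : ℕ, c < 27 → -(3 / 2 * cf (sD p f)
        ((((19 + 8) * p - 1 : ℕ) : ℤ) - (p - 1 - r : ℕ) - p * ((19 + 8 - 1 - c : ℕ) : ℤ)) *
          ZZ ((19 + 8 - 1 - c : ℕ) : ℤ) j) =
          -(3 / 2) * ZZ (26 - (c : ℤ)) j * (sD p f).coeff (r + p * c) := by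
      intro c hc
      rw [show ((19 + 8 - 1 - c : ℕ) : ℤ) = 26 - c by omega,
        show (((19 + 8) * p - 1 : ℕ) : ℤ) - (p - 1 - r : ℕ) - p * (26 - c) = (r + p * c : ℕ) by
          rw [mul_sub]; push_cast; omega, cf_natCast]
      ring
    rw [sum_congr rfl fun c hc => e c (by have := mem_range.1 hc; omega),
      sum_congr rfl fun c hc => e (19 + c) (by have := mem_range.1 hc; omega)]
    rw [add_eq_left]
    exact sum_eq_zero fun c _ => by rw [coeff_sD_eq_zero p f (by nlinarith), mul_zero]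

theorem rowB (hF : FormStmt) (hp60 : 60 < p) (f : Fin (20 * p) → ℤ) {a b : ℤ} (hb : ¬ (p : ℤ) ∣ b)
    (hf : ∀ s, ∑ e, (f e : ℚ) * ((b : ℚ) • B0 p + (a : ℚ) • B1 p) e s = 0) {r s : ℕ}
    (hr : r < p) (hs : 18 ≤ s) (hs' : s < 38) (last : ℕ → ℚ) :
    Cg p (∑ c ∈ range 39, nvE last s c * V p f r c) 0 := by
  obtain ⟨j, rfl⟩ := Nat.exists_eq_add_of_le hs
  have h1 := form_row hF hp60 f hr (j := j + 3) (by omega)
  have h2 := form_row hF hp60 f hr (j := j + 4) (by omega)
  have h3 := step hF hp60 f hb hf (k := p - 1 - r + p * j)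
    (by have : p * j ≤ p * 19 := Nat.mul_le_mul_left p (by omega)
        omega)
  rw [show 3 * p + (p - 1 - r + p * j) = p - 1 - r + p * (j + 3) by ring,
    show 4 * p + (p - 1 - r + p * j) = p - 1 - r + p * (j + 4) by ring] at h3
  have h4 := (h1.symm.trans (h3.trans h2)).sub (Cg.refl _ : Cg p
    (∑ c ∈ range 20, MM (26 - (c : ℤ)) (j + 4) * (Gq p f).coeff (r + p * c) +
        ∑ m ∈ range 19, -(3 / 2) * ZZ (26 - (m : ℤ)) (j + 4) * (sD p f).coeff (r + p * m)) _)
  rw [sub_self] at h4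
  refine (Cg.of_eq ?_).trans h4
  rw [sum39, add_sub_add_comm, ← sum_sub_distrib, ← sum_sub_distrib]
  refine congrArg₂ (· + ·) (sum_congr rfl fun c hc => ?_) (sum_congr rfl fun c hc => ?_)
  · rw [nvE, if_neg (by omega), if_neg (by omega), if_neg (by omega), if_pos hs',
      if_pos (mem_range.1 hc), show 18 + j - 15 = j + 3 by omega, show 18 + j - 14 = j + 4 by omega]
    ring
  · rw [nvE, if_neg (by omega), if_neg (by omega), if_neg (by omega), if_pos hs',
      if_neg (by omega), show 18 + j - 15 = j + 3 by omega, show 18 + j - 14 = j + 4 by omega,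
      show (46 : ℤ) - (20 + c : ℕ) = 26 - c by omega]
    ring

end Vale.Agent.P030.Nonvan
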