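import Vale.Agent.P030.Base

/-!
# P030: the odd primes up to `14 N`
-/

namespace Vale.Agent.P030

open Polynomial Finset

namespace OddA

theorem MM_neg_one_zero : MM (-1) 0 = 0 := by simp [MM, TT, KM]

theorem MM_zero_zero : MM 0 0 = 0 := by simp [MM, TT, KM]

theorem MM_zero_one : MM 0 1 = 0 := by simp [MM, TT, KM, aa]

theorem MM_one : MM 1 0 + MM 1 1 = 0 := by simp [MM, TT, KM, aa]

theorem ZZ_zero_zero : ZZ 0 0 = 0 := by simp [ZZ, TT, KZ]

theorem ZZ_one : ZZ 1 0 + ZZ 1 1 = 0 := by simp [ZZ, TT, KZ, zz]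

theorem form_smul (I : ℕ) (c : ℚ) (S D Q : ℚ[X]) :
    form I (c • S) (c • D) Q = c * form I S D Q := by
  simp only [form, coeff_smul, smul_eq_mul, mul_sum]
  exact sum_congr rfl fun _ _ => sum_congr rfl fun _ _ => by ring

theorem sum_cg {p : ℕ} [Fact p.Prime] (I m M : ℕ) (Q F : ℕ → ℚ) (hQ : ∀ j, Q j ∈ O p)
    (hF : ∀ j, F j ∈ O p) (hm : M ≤ m + p) (hM : M + p ≤ I + 1)
    (h1 : ∀ ρ, m ≤ ρ → ρ < M → Cg p (Q ρ) (Q (ρ + p)) ∧ Cg p (F ρ + F (ρ + p)) 0)
    (h2 : ∀ j ≤ I, ¬ (m ≤ j ∧ j < M) → ¬ (m + p ≤ j ∧ j < M + p) → Cg p (Q j * F j) 0) :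
    Cg p (∑ j ∈ range (I + 1), Q j * F j) 0 := by
  have hsub : Ico m M ∪ Ico (m + p) (M + p) ⊆ range (I + 1) := by
    intro j hj
    simp only [mem_union, mem_Ico, mem_range] at hj ⊢
    omega
  have hdis : Disjoint (Ico m M) (Ico (m + p) (M + p)) := by
    rw [disjoint_left]
    intro j h3 h4
    simp only [mem_Ico] at h3 h4
    omega
  rw [← sum_sdiff hsub, sum_union hdis, ← sum_Ico_add' (fun j => Q j * F j) m M p, ← sum_add_distrib]
  have e1 : Cg p (∑ j ∈ range (I + 1) \ (Ico m M ∪ Ico (m + p) (M + p)), Q j * F j)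
      (∑ j ∈ range (I + 1) \ (Ico m M ∪ Ico (m + p) (M + p)), 0) := by
    refine Cg.sum fun j hj => ?_
    simp only [mem_sdiff, mem_union, mem_Ico, mem_range, not_or] at hj
    exact h2 j (by omega) hj.2.1 hj.2.2
  have e2 : Cg p (∑ j ∈ Ico m M, (Q j * F j + Q (j + p) * F (j + p))) (∑ j ∈ Ico m M, 0) := by
    refine Cg.sum fun j hj => ?_
    rw [mem_Ico] at hj
    obtain ⟨h3, h4⟩ := h1 j hj.1 hj.2
    have h5 := (h3.mul_right (hF j)).add (Cg.refl (Q (j + p) * F (j + p)))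
    have h6 := h4.mul_left (hQ (j + p))
    rw [mul_add, mul_zero] at h6
    exact h5.trans h6
  simpa using e1.add e2

theorem cf_G_eq_zero {p : ℕ} [hp : Fact p.Prime] (h2 : p ≠ 2) {S : ℚ[X]} {d : ℕ}
    (hS : S.natDegree ≤ d) {m : ℤ} (hm : (d : ℤ) + p ≤ m) :
    cf (S * (1 - X ^ 2) ^ (p / 2)) m = 0 := by
  have hodd := hp.out.eq_two_or_odd.resolve_left h2
  have h1 : ((1 - X ^ 2 : ℚ[X]) ^ (p / 2)).natDegree ≤ p / 2 * 2 := by
    refine natDegree_pow_le.trans (Nat.mul_le_mul_left _ ?_)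
    refine (natDegree_sub_le _ _).trans ?_
    simp
  unfold cf
  split_ifs with h
  · refine coeff_eq_zero_of_natDegree_lt (natDegree_mul_le.trans_lt ?_)
    omega
  · rfl

theorem cf_sD_eq_zero (N : ℕ) (f : Fin (20 * N) → ℤ) {m : ℤ} (hm : 19 * (N : ℤ) ≤ m) :
    cf (sD N f) m = 0 := by
  unfold cf
  split_ifs with h
  · exact coeff_sD_eq_zero N f (by omega)
  · rfl

/-- The coefficient of a column combination, as an additive functional. -/
noncomputable def cQ (N j : ℕ) : (Fin (20 * N) → ℤ) →+ ℚ where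
  toFun g := (sQ N g).coeff j
  map_zero' := by simp [sQ]
  map_add' g h := by simp [sQ, add_smul, sum_add_distrib]

/-- A coordinate, as an additive functional. -/
def cF (n : ℕ) (i : Fin n) : (Fin n → ℤ) →+ ℚ where
  toFun f := (f i : ℚ)
  map_zero' := by simp
  map_add' g h := by simp

theorem small (hL : LatticeStmt) (hF : FormStmt) (N p : ℕ) [hp : Fact p.Prime] (a b : ℤ)
    (h2 : p ≠ 2) : (p : ℚ) ^ (40 * N * Nat.log p (27 * N)) * Delta N a b ∈ O p := by
  have h := hL p (20 * N) ((b : ℚ) • B0 N + (a : ℚ) • B1 N) ((p : ℚ) ^ (2 * Nat.log p (27 * N)))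
    Empty Empty (fun i => i.elim) (fun i => i.elim) (fun i => i.elim) (fun i => i.elim)
    (fun i => i.elim) (fun i => i.elim) (fun f g _ _ => by
      rw [pair_sum]
      obtain ⟨h3, h4⟩ := (hF p h2 (27 * N - 1) (sS N f) (sD N f) (coeff_sS_mem N f)
        (coeff_sD_mem N f)).1 (sQ N g) (coeff_sQ_mem N g)
      obtain ⟨d, hd⟩ := Nat.exists_eq_add_of_le
        (Nat.log_mono_right (b := p) (Nat.sub_le (27 * N) 1))
      have h5 : (p : ℚ) ^ (2 * Nat.log p (27 * N)) *
          (b * form (27 * N - 1) (sS N f) (sD N f) (sQ N g) +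
            a * formG (27 * N - 1) (sS N f) (sQ N g)) =
          (p : ℚ) ^ (2 * d) * b * ((p : ℚ) ^ (2 * Nat.log p (27 * N - 1)) *
            form (27 * N - 1) (sS N f) (sD N f) (sQ N g)) +
          (p : ℚ) ^ (2 * Nat.log p (27 * N)) * a * formG (27 * N - 1) (sS N f) (sQ N g) := by
        rw [hd]; ring
      rw [h5]
      exact add_mem (mul_mem (mul_mem (pow_mem (nat_mem_O p) _) (int_mem_O b)) h3)
        (mul_mem (mul_mem (pow_mem (nat_mem_O p) _) (int_mem_O a)) h4))
  simp only [univ_eq_empty, sum_empty, add_zero, pow_zero, one_mul, ← pow_mul] at h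
  rwa [show 40 * N * Nat.log p (27 * N) = 2 * Nat.log p (27 * N) * (20 * N) by ring]

theorem key (hF : FormStmt) (N p : ℕ) [hp : Fact p.Prime] (hN : 1 ≤ N) (h2 : p ≠ 2)
    (hlo : 10 * N ≤ p) (hhi : p ≤ 14 * N) (f g : Fin (20 * N) → ℤ)
    (hg1 : ∀ ρ, max (3 * N) (27 * N - 2 * p) ≤ ρ → ρ < 8 * N →
      Cg p ((sQ N g).coeff ρ) ((sQ N g).coeff (ρ + p)))
    (hg2 : ∀ j, 3 * N ≤ j → j < 24 * N → ¬ (max (3 * N) (27 * N - 2 * p) ≤ j ∧ j < 8 * N) →
      ¬ (max (3 * N) (27 * N - 2 * p) + p ≤ j ∧ j < 8 * N + p) → ¬ (27 * N - p ≤ j ∧ j < p) →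
      Cg p ((sQ N g).coeff j) 0) :
    (p : ℚ) * form (27 * N - 1) (sS N f) (sD N f) (sQ N g) ∈ O p := by
  obtain ⟨hA, hB⟩ := hF p h2 (27 * N - 1) (sS N f) (sD N f) (coeff_sS_mem N f) (coeff_sD_mem N f)
  have hlog : Nat.log p (27 * N - 1) = 1 := by
    rw [Nat.log_eq_iff (by omega)]
    constructor
    · rw [pow_one]
      omega
    · have h3 : 27 * N - 1 < 3 * p := by omega
      have h4 : 3 * p ≤ p * p := Nat.mul_le_mul_right _ (by omega)
      rw [pow_succ, pow_one]
      omega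
  have hFm : ∀ j : ℕ, (p : ℚ) ^ 2 * form (27 * N - 1) (sS N f) (sD N f) (X ^ j) ∈ O p := by
    intro j
    have := (hA (X ^ j) fun k => by
      rw [coeff_X_pow]
      split_ifs
      exacts [one_mem _, zero_mem _]).1
    rwa [hlog] at this
  have hdeg := natDegree_sS_le N f
  have hI : ((27 * N - 1 : ℕ) : ℤ) = 27 * (N : ℤ) - 1 := by omega
  have h := sum_cg (27 * N - 1) (max (3 * N) (27 * N - 2 * p)) (8 * N) (fun j => (sQ N g).coeff j)
    (fun j => (p : ℚ) ^ 2 * form (27 * N - 1) (sS N f) (sD N f) (X ^ j)) (coeff_sQ_mem N g) hFm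
    (by omega) (by omega) ?_ ?_
  · rw [cg_zero_iff] at h
    have e : (p : ℚ) * form (27 * N - 1) (sS N f) (sD N f) (sQ N g) =
        (∑ j ∈ range (27 * N - 1 + 1), (sQ N g).coeff j *
          ((p : ℚ) ^ 2 * form (27 * N - 1) (sS N f) (sD N f) (X ^ j))) / p := by
      rw [eq_div_iff p_ne_zero, form_expand, mul_sum, sum_mul]
      exact sum_congr rfl fun _ _ => by ring
    rwa [e]
  · intro ρ h3 h4
    refine ⟨hg1 ρ h3 h4, ?_⟩
    have e0 := hB 3 ρ 0 (by omega) (by omega) (by omega) (by omega) (by omega)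
    have e1 := hB 3 ρ 1 (by omega) (by omega) (by omega) (by omega) (by omega)
    rw [mul_zero, add_zero] at e0
    rw [mul_one] at e1
    refine (e0.add e1).trans (Cg.of_eq ?_)
    simp only [sum_range_succ, sum_range_zero, hI]
    push_cast
    rw [cf_G_eq_zero h2 hdeg (m := 27 * (N : ℤ) - 1 - ρ - p * -1) (by push_cast; omega),
      cf_sD_eq_zero N f (m := 27 * (N : ℤ) - 1 - ρ - p * 0) (by omega),
      cf_of_neg (sD N f) (m := 27 * (N : ℤ) - 1 - ρ - p * 2) (by omega),
      cf_of_neg (sD N f) (m := 27 * (N : ℤ) - 1 - ρ - p * 3) (by omega),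
      cf_of_neg _ (m := 27 * (N : ℤ) - 1 - ρ - p * 2) (by omega)]
    rw [MM_zero_zero, MM_zero_one, eq_neg_of_add_eq_zero_left MM_one,
      eq_neg_of_add_eq_zero_left ZZ_one]
    ring
  · intro j hj h3 h4
    by_cases h5 : j < 3 * N ∨ 24 * N ≤ j
    · simp only [coeff_sQ_eq_zero N g h5, zero_mul]
      exact Cg.refl 0
    by_cases h6 : 27 * N - p ≤ j ∧ j < p
    · have e0 := hB 3 j 0 (by omega) (by omega) (by omega) (by omega) (by omega)
      rw [mul_zero, add_zero] at e0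
      have e1 : Cg p ((p : ℚ) ^ 2 * form (27 * N - 1) (sS N f) (sD N f) (X ^ j)) 0 := by
        refine e0.trans (Cg.of_eq ?_)
        simp only [sum_range_succ, sum_range_zero, hI]
        push_cast
        rw [cf_of_neg (sD N f) (m := 27 * (N : ℤ) - 1 - j - p * 1) (by omega),
          cf_of_neg (sD N f) (m := 27 * (N : ℤ) - 1 - j - p * 2) (by omega),
          cf_of_neg (sD N f) (m := 27 * (N : ℤ) - 1 - j - p * 3) (by omega),
          cf_of_neg _ (m := 27 * (N : ℤ) - 1 - j - p * 1) (by omega),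
          cf_of_neg _ (m := 27 * (N : ℤ) - 1 - j - p * 2) (by omega)]
        rw [MM_neg_one_zero, MM_zero_zero, ZZ_zero_zero]
        ring
      simpa using e1.mul_left (coeff_sQ_mem N g j)
    · simpa using (hg2 j (by omega) (by omega) h3 h4 h6).mul_right (hFm j)

end OddA

open OddA in
theorem oddA (hL : LatticeStmt) (hF : FormStmt) : OddAStmt := by
  intro N p hp a b hN h2 hhi
  rcases lt_or_ge p (10 * N) with hlo | hlo
  · rw [ex, if_pos hlo]
    exact small hL hF N p a b h2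
  set m := max (3 * N) (27 * N - 2 * p) with hm
  set J : Finset ℕ := Ico (3 * N) (24 * N) \ (Ico (m + p) (8 * N + p) ∪ Ico (27 * N - p) p) with hJ
  have hcard : J.card = 13 * N + m - (2 * p - 27 * N) := by
    rw [hJ, card_sdiff_of_subset, card_union_of_disjoint]
    · simp only [Nat.card_Ico]
      omega
    · rw [disjoint_left]
      intro j h3 h4
      simp only [mem_Ico] at h3 h4
      omega
    · intro j hj
      simp only [mem_union, mem_Ico] at hj ⊢
      omega
  have h := hL p (20 * N) ((b : ℚ) • B0 N + (a : ℚ) • B1 N) 1 (Fin (20 * N)) J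
    (cF (20 * N)) (fun _ => 1)
    (fun j => if m ≤ j.1 ∧ j.1 < 8 * N then cQ N j.1 - cQ N (j.1 + p) else cQ N j.1) (fun _ => 1)
    (fun i f => int_mem_O _) ?_ ?_
  · simp only [sum_const, card_univ, Fintype.card_fin, Fintype.card_coe, smul_eq_mul, mul_one,
      one_pow, hcard] at h
    rw [ex, if_neg hlo.not_gt, if_pos hhi]
    rwa [show 33 * N + max (3 * N) (27 * N - 2 * p) - (2 * p - 27 * N) =
      20 * N + (13 * N + m - (2 * p - 27 * N)) by omega]
  · intro j g
    split_ifs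
    · exact sub_mem (coeff_sQ_mem N g _) (coeff_sQ_mem N g _)
    · exact coeff_sQ_mem N g _
  · intro f g hf hg
    have hf' : ∀ i, ∃ c : ℤ, f i = p * c := by
      intro i
      have h3 : Cg p (f i : ℚ) ((0 : ℤ) : ℚ) := by
        have := hf i
        rw [pow_one] at this
        rw [Int.cast_zero]
        exact cg_zero_iff.2 this
      have h4 := cg_int_iff.1 h3
      rwa [sub_zero] at h4
    choose f' hf' using hf'
    have e1 : sS N f = (p : ℚ) • sS N f' := by
      simp only [sS, hf', smul_sum, smul_smul]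
      push_cast
      rfl
    have e2 : sD N f = (p : ℚ) • sD N f' := by
      simp only [sD, hf', smul_sum, smul_smul]
      push_cast
      rfl
    have hG := ((hF p h2 (27 * N - 1) (sS N f) (sD N f) (coeff_sS_mem N f)
        (coeff_sD_mem N f)).1 (sQ N g) (coeff_sQ_mem N g)).2
    rw [one_mul, pair_sum]
    refine add_mem (mul_mem (int_mem_O b) ?_) (mul_mem (int_mem_O a) hG)
    rw [e1, e2, form_smul]
    refine key hF N p hN h2 hlo hhi f' g ?_ ?_
    · intro ρ h3 h4
      have hρ : ρ ∈ J := by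
        simp only [hJ, mem_sdiff, mem_union, mem_Ico]
        omega
      have := hg ⟨ρ, hρ⟩
      rw [if_pos ⟨h3, h4⟩, pow_one] at this
      exact this
    · intro j h3 h4 h5 h6 h7
      have hρ : j ∈ J := by
        simp only [hJ, mem_sdiff, mem_union, mem_Ico]
        omega
      have := hg ⟨j, hρ⟩
      rw [if_neg h5, pow_one] at this
      exact cg_zero_iff.2 this

end Vale.Agent.P030
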