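import Vale.Agent.P030.Base

namespace Vale.Agent.P030

open Polynomial Finset

namespace OddB

theorem cf_add (P Q : ℚ[X]) (m : ℤ) : cf (P + Q) m = cf P m + cf Q m := by
  unfold cf
  split_ifs <;> simp

theorem sS_add (N : ℕ) (f g : Fin (20 * N) → ℤ) : sS N (f + g) = sS N f + sS N g := by
  simp [sS, add_smul, sum_add_distrib]

theorem sD_add (N : ℕ) (f g : Fin (20 * N) → ℤ) : sD N (f + g) = sD N f + sD N g := by
  simp [sD, add_smul, sum_add_distrib]

theorem sQ_add (N : ℕ) (f g : Fin (20 * N) → ℤ) : sQ N (f + g) = sQ N f + sQ N g := by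
  simp [sQ, add_smul, sum_add_distrib]

/-- The value of a row functional. -/
noncomputable def uv (p : ℕ) (S D : ℚ[X]) (m m' : ℤ) : ℚ :=
  2 * chi p * cf (S * (1 - X ^ 2) ^ (p / 2)) m - 3 / 2 * cf D m'

/-- Row functionals. -/
noncomputable def Lf (N p : ℕ) (m m' : ℤ) : (Fin (20 * N) → ℤ) →+ ℚ :=
  AddMonoidHom.mk' (fun f => uv p (sS N f) (sD N f) m m') fun f g => by
    simp only [uv, sS_add, sD_add, add_mul, cf_add]
    ring

/-- Column functionals. -/
noncomputable def Cf (N j : ℕ) : (Fin (20 * N) → ℤ) →+ ℚ :=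
  AddMonoidHom.mk' (fun g => (sQ N g).coeff j) fun f g => by
    simp only [sQ_add, coeff_add]

theorem G_eq (p : ℕ) :
    ((1 - X ^ 2 : ℚ[X]) ^ (p / 2)) = ∑ r ∈ range (p / 2 + 1), C (bb p r) * X ^ (2 * r) := by
  rw [sub_eq_neg_add, add_pow]
  refine sum_congr rfl fun r _ => ?_
  rw [bb, neg_pow, pow_mul]
  simp only [map_mul, map_pow, map_neg, map_one, map_natCast, one_pow]
  ring

theorem cf_G (p : ℕ) (S : ℚ[X]) (m : ℤ) : cf (S * (1 - X ^ 2) ^ (p / 2)) m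
    = ∑ r ∈ range (p / 2 + 1), bb p r * cf S (m - 2 * r) := by
  rcases lt_or_ge m 0 with h | h
  · rw [cf_of_neg _ h]
    exact (sum_eq_zero fun r _ => by rw [cf_of_neg _ (by omega), mul_zero]).symm
  obtain ⟨m, rfl⟩ := Int.eq_ofNat_of_zero_le h
  rw [cf_natCast, G_eq, mul_sum, finsetSum_coeff]
  refine sum_congr rfl fun r _ => ?_
  rw [mul_left_comm, coeff_C_mul, coeff_mul_X_pow']
  split_ifs with h1
  · rw [← cf_natCast]
    congr 2
    omega
  · rw [cf_of_neg _ (by omega)]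

theorem sum_cf (P : ℚ[X]) {I : ℕ} {m : ℤ} (h : m ≤ I) :
    ∑ k ∈ range (I + 1), (if (k : ℤ) = m then P.coeff k else 0) = cf P m := by
  rcases lt_or_ge m 0 with h0 | h0
  · rw [cf_of_neg _ h0]
    exact sum_eq_zero fun k _ => if_neg (by omega)
  obtain ⟨m, rfl⟩ := Int.eq_ofNat_of_zero_le h0
  simp only [Nat.cast_inj]
  rw [sum_ite_eq' (range (I + 1)) m, if_pos (mem_range.2 (by omega)), cf_natCast]

theorem aa_one : aa 1 = 2 := by norm_num [aa, cc]

theorem aa_nonpos {m : ℤ} (h : m ≤ 0) : aa m = 0 := if_neg (by omega)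

variable {p : ℕ} [hp : Fact p.Prime]

theorem fr_aa {k : ℤ} (hk : k < p * 2) :
    fr p aa k = ∑ r ∈ range (p / 2 + 1), if k - 2 * r = p then 2 * bb p r else 0 := by
  have h0 : (0 : ℤ) < p := by exact_mod_cast hp.out.pos
  refine sum_congr rfl fun r _ => ?_
  by_cases h1 : k - 2 * r = p
  · rw [if_pos h1, h1, if_pos dvd_rfl, Int.ediv_self h0.ne', aa_one, mul_comm]
  rw [if_neg h1]
  split_ifs with h2
  · obtain ⟨c, hc⟩ := h2
    rw [hc, Int.mul_ediv_cancel_left _ h0.ne', aa_nonpos, mul_zero]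
    by_contra h3
    have h4 : 2 ≤ c := by
      rcases (by omega : c = 1 ∨ 2 ≤ c) with rfl | h
      · omega
      · exact h
    nlinarith
  · rfl

theorem p_zz {k : ℤ} (hk : k < p * 2) : Cg p (p * zz k) (if k = p then 1 else 0) := by
  have h0 : (0 : ℤ) < p := by exact_mod_cast hp.out.pos
  split_ifs with h
  · subst h
    refine Cg.of_eq ?_
    rw [zz, if_pos h0]
    push_cast
    exact mul_one_div_cancel p_ne_zero
  refine cg_p_mul ?_
  unfold zz
  split_ifs with h1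
  · rw [one_div]
    refine inv_int_mem_O ?_
    rintro ⟨c, hc⟩
    have h2 : 0 < c := by
      by_contra h3
      nlinarith
    have h4 : 2 ≤ c := by
      rcases (by omega : c = 1 ∨ 2 ≤ c) with rfl | h
      · omega
      · exact h
    nlinarith
  · exact zero_mem _

theorem lam_cg (h1 : Frob1Stmt) (hp2 : 2 < p) {I : ℕ} (hI : I < p * 2) {S D : ℚ[X]}
    (hS : ∀ k, S.coeff k ∈ O p) (hD : ∀ k, D.coeff k ∈ O p) (ρ : ℕ) :
    Cg p (p * ∑ k ∈ range (I + 1),
        (S.coeff k * aa ((I : ℤ) - k - ρ) - 3 / 2 * D.coeff k * zz ((I : ℤ) - k - ρ)))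
      (uv p S D ((I : ℤ) - ρ - p) ((I : ℤ) - ρ - p)) := by
  have hI' : (I : ℤ) < p * 2 := by exact_mod_cast hI
  have e : uv p S D ((I : ℤ) - ρ - p) ((I : ℤ) - ρ - p) = ∑ k ∈ range (I + 1),
      (S.coeff k * (chi p * fr p aa ((I : ℤ) - k - ρ))
        - 3 / 2 * D.coeff k * if (I : ℤ) - k - ρ = p then 1 else 0) := by
    rw [sum_sub_distrib, uv, cf_G, ← sum_cf D (I := I) (by omega), mul_sum, mul_sum]
    congr 1
    · have hfr : ∀ k : ℕ, fr p aa ((I : ℤ) - k - ρ) = _ := fun k => fr_aa (by omega)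
      simp only [hfr, mul_sum]
      rw [sum_comm]
      refine sum_congr rfl fun r _ => ?_
      rw [← sum_cf S (I := I) (by omega), mul_sum, mul_sum]
      refine sum_congr rfl fun k _ => ?_
      by_cases h : (k : ℤ) = I - ρ - p - 2 * r
      · rw [if_pos h, if_pos (by omega)]
        ring
      · rw [if_neg h, if_neg (by omega)]
        ring
    · refine sum_congr rfl fun k _ => ?_
      by_cases h : (k : ℤ) = I - ρ - p
      · rw [if_pos h, if_pos (by omega)]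
        ring
      · rw [if_neg h, if_neg (by omega)]
        ring
  rw [e, mul_sum]
  refine Cg.sum fun k _ => ?_
  have a1 := ((h1 p hp2.ne').2.2.2 2 ((I : ℤ) - k - ρ) hp2 (by push_cast; omega)).2
  have a2 := p_zz (p := p) (k := (I : ℤ) - k - ρ) (by omega)
  refine (Cg.of_eq ?_).trans ((a1.mul_left (hS k)).sub
    (a2.mul_left (mul_mem (three_half_mem_O hp2.ne') (hD k))))
  ring

theorem mid (h1 : Frob1Stmt) (h2 : Frob2Stmt) (hp2 : 2 < p) {I : ℕ} (hI : I < p * 2)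
    {S D : ℚ[X]} (hS : ∀ k, S.coeff k ∈ O p) (hD : ∀ k, D.coeff k ∈ O p)
    (hu : ∀ ρ : ℕ, Cg p (uv p S D ((I : ℤ) - ρ - p) ((I : ℤ) - ρ - p)) 0)
    {j : ℕ} (hj : j ≤ I) (hj1 : j < p) (hj2 : I < j + p) : form I S D (X ^ j) ∈ O p := by
  have e : form I S D (X ^ j) = ∑ k ∈ range (I + 1),
      (S.coeff k * KM ((I : ℤ) - k - j) - 3 / 2 * D.coeff k * KZ ((I : ℤ) - k - j))
      - ∑ r ∈ range j, (∑ k ∈ range (I + 1), (S.coeff k * aa ((I : ℤ) - k - j + r + 1)
        - 3 / 2 * D.coeff k * zz ((I : ℤ) - k - j + r + 1))) * ((r : ℚ) + 1)⁻¹ := by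
    rw [form_X_pow _ _ _ hj]
    simp only [sum_mul]
    rw [sum_comm (s := range j), ← sum_sub_distrib]
    refine sum_congr rfl fun k _ => ?_
    simp only [MM, ZZ, TT, mul_sub, sub_mul, mul_sum, sum_sub_distrib, div_eq_mul_inv, mul_assoc]
    ring
  rw [e]
  refine sub_mem (sum_mem fun k hk => ?_) (sum_mem fun r hr => mul_mem ?_ ?_)
  · have hk' := mem_range.1 hk
    have a := (h2 p hp2.ne').1 (p - 1) ((I : ℤ) - k - j) (by rw [abs_le]; omega)
    rw [Nat.log_of_lt (by omega), mul_zero, pow_zero, one_mul, one_mul] at a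
    exact sub_mem (mul_mem (hS k) a.1)
      (mul_mem (mul_mem (three_half_mem_O hp2.ne') (hD k)) a.2)
  · have hr' := mem_range.1 hr
    have a := (lam_cg h1 hp2 hI hS hD (j - r - 1)).trans (hu (j - r - 1))
    rw [cg_zero_iff, mul_div_cancel_left₀ _ p_ne_zero] at a
    have e1 : ∀ k : ℕ, (I : ℤ) - k - j + r + 1 = (I : ℤ) - k - (j - r - 1 : ℕ) := fun k => by
      omega
    simp only [e1]
    exact a
  · have hr' := mem_range.1 hr
    have a := inv_nat_mem_O (p := p) (n := r + 1) fun h => by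
      have := Nat.le_of_dvd (by omega) h
      omega
    simpa using a

theorem low (hF : FormStmt) (hp2 : 2 < p) {I : ℕ} (hI : I < p * 2)
    {S D : ℚ[X]} (hS : ∀ k, S.coeff k ∈ O p) (hD : ∀ k, D.coeff k ∈ O p) (hd : S.natDegree ≤ I)
    {j : ℕ} (hj : j ≤ I) (hj1 : j < p) :
    Cg p ((p : ℚ) ^ 2 * form I S D (X ^ j)) (uv p S D ((I : ℤ) - j - p) ((I : ℤ) - j - p)) := by
  have a := (hF p hp2.ne' I S D hS hD).2 2 j 0 hp2 hI hd hj1 (by omega)
  rw [mul_zero, add_zero] at a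
  refine a.trans (Cg.of_eq ?_)
  have m0 : MM (-1) 0 = 0 := by norm_num [MM, TT, KM]
  have m1 : MM 0 0 = 0 := by norm_num [MM, TT, KM]
  have m2 : MM 1 0 = 2 := by norm_num [MM, TT, KM, aa_one]
  have z0 : ZZ 0 0 = 0 := by norm_num [ZZ, TT, KZ]
  have z1 : ZZ 1 0 = 1 := by norm_num [ZZ, TT, KZ]
  have c2 : cf D ((I : ℤ) - j - p * 2) = 0 := cf_of_neg _ (by omega)
  simp only [sum_range_succ, sum_range_zero, uv]
  norm_num [m0, m1, m2, z0, z1, c2]
  ring

theorem high (hF : FormStmt) (hp2 : 2 < p) {I : ℕ} (hI : I < p * 2)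
    {S D : ℚ[X]} (hS : ∀ k, S.coeff k ∈ O p) (hD : ∀ k, D.coeff k ∈ O p) (hd : S.natDegree ≤ I)
    {j : ℕ} (hj : j + p ≤ I) :
    Cg p ((p : ℚ) ^ 2 * form I S D (X ^ (j + p)))
      (uv p S D ((I : ℤ) - j + p) ((I : ℤ) - j) - uv p S D ((I : ℤ) - j - p) ((I : ℤ) - j - p)) := by
  have a := (hF p hp2.ne' I S D hS hD).2 2 j 1 hp2 hI hd (by omega) (by omega)
  rw [mul_one] at a
  refine a.trans (Cg.of_eq ?_)
  have m0 : MM (-1) 1 = 2 := by norm_num [MM, TT, KM, aa, cc]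
  have m1 : MM 0 1 = 0 := by norm_num [MM, TT, KM, aa]
  have m2 : MM 1 1 = -2 := by norm_num [MM, TT, KM, aa_one]
  have z0 : ZZ 0 1 = 1 := by norm_num [ZZ, TT, KZ, zz]
  have z1 : ZZ 1 1 = -1 := by norm_num [ZZ, TT, KZ, zz]
  have c2 : cf D ((I : ℤ) - j - p * 2) = 0 := cf_of_neg _ (by omega)
  simp only [sum_range_succ, sum_range_zero, uv]
  norm_num [m0, m1, m2, z0, z1, c2]
  ring

theorem G_mem {S : ℚ[X]} (hS : ∀ k, S.coeff k ∈ O p) (m : ℤ) :
    cf (S * (1 - X ^ 2) ^ (p / 2)) m ∈ O p := by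
  rw [cf_G]
  exact sum_mem fun r _ => mul_mem (bb_mem_O r) (cf_mem_O hS _)

theorem uv_mem (hp2 : 2 < p) {S D : ℚ[X]} (hS : ∀ k, S.coeff k ∈ O p)
    (hD : ∀ k, D.coeff k ∈ O p) (m m' : ℤ) : uv p S D m m' ∈ O p :=
  sub_mem (mul_mem (mul_mem (by simp) chi_mem_O) (G_mem hS m))
    (mul_mem (three_half_mem_O hp2.ne') (cf_mem_O hD _))

theorem kill {q F : ℚ} (hq : q / p ∈ O p) (hF : Cg p ((p : ℚ) ^ 2 * F) 0) : q * F ∈ O p := by
  have a := mul_mem hq (cg_zero_iff.1 hF)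
  have h0 := p_ne_zero (p := p)
  have e : q / p * ((p : ℚ) ^ 2 * F / p) = q * F := by field_simp
  rwa [e] at a

end OddB

open OddB in
theorem oddB (hL : LatticeStmt) (h1 : Frob1Stmt) (h2 : Frob2Stmt) (hF : FormStmt) :
    OddBStmt := by
  intro N p _ a b hN hp
  have hp2 : 2 < p := by omega
  have key := hL p (20 * N) ((b : ℚ) • B0 N + (a : ℚ) • B1 N) 1
    (Fin (27 * N - p) ⊕ Fin (16 * N - p)) (Fin (24 * N - p) ⊕ Fin (24 * N - p))
    (Sum.elim
      (fun i => Lf N p (((27 * N - 1 : ℕ) : ℤ) - (i : ℕ) - p) (((27 * N - 1 : ℕ) : ℤ) - (i : ℕ) - p))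
      fun i => Lf N p (((27 * N - 1 : ℕ) : ℤ) - (8 * N + i : ℕ) + p)
        (((27 * N - 1 : ℕ) : ℤ) - (8 * N + i : ℕ)))
    (fun _ => 1) (Sum.elim (fun i => Cf N (3 * N + i)) fun i => Cf N (i + p)) (fun _ => 1)
    (by rintro (i | i) f <;> exact uv_mem hp2 (coeff_sS_mem N f) (coeff_sD_mem N f) _ _)
    (by rintro (i | i) g <;> exact coeff_sQ_mem N g _) ?_
  · have e : ex N p = 27 * N - p + (16 * N - p) + (24 * N - p + (24 * N - p)) := by
      rw [ex, if_neg (by omega), if_neg (by omega)]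
      ring
    rw [e]
    simpa [Delta] using key
  intro f g hf hg
  simp only [pow_one] at hf hg
  rw [one_mul, pair_sum]
  have hS := coeff_sS_mem (p := p) N f
  have hD := coeff_sD_mem (p := p) N f
  have hQ := coeff_sQ_mem (p := p) N g
  refine add_mem (mul_mem (int_mem_O _) ?_)
    (mul_mem (int_mem_O _) ((hF p hp2.ne' _ _ _ hS hD).1 _ hQ).2)
  have hI : 27 * N - 1 < p * 2 := by omega
  have hd : (sS N f).natDegree ≤ 27 * N - 1 := (natDegree_sS_le N f).trans (by omega)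
  have hu : ∀ ρ : ℕ, Cg p (uv p (sS N f) (sD N f) (((27 * N - 1 : ℕ) : ℤ) - ρ - p)
      (((27 * N - 1 : ℕ) : ℤ) - ρ - p)) 0 := by
    intro ρ
    by_cases h : ρ < 27 * N - p
    · exact cg_zero_iff.2 (hf (.inl ⟨ρ, h⟩))
    · refine Cg.of_eq ?_
      rw [uv, cf_of_neg _ (by omega), cf_of_neg _ (by omega)]
      ring
  have hv : ∀ ρ : ℕ, ρ + p < 24 * N → Cg p (uv p (sS N f) (sD N f)
      (((27 * N - 1 : ℕ) : ℤ) - ρ + p) (((27 * N - 1 : ℕ) : ℤ) - ρ)) 0 := by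
    intro ρ hρ
    by_cases h : 8 * N ≤ ρ
    · obtain ⟨i, rfl⟩ := Nat.exists_eq_add_of_le h
      exact cg_zero_iff.2 (hf (.inr ⟨i, by omega⟩))
    · refine Cg.of_eq ?_
      have e1 : ((27 * N - 1 : ℕ) : ℤ) - ρ = (27 * N - 1 - ρ : ℕ) := by omega
      rw [uv, e1, cf_natCast, coeff_sD_eq_zero N f (by omega), cf_G, sum_eq_zero]
      · ring
      intro r hr
      have hr' := mem_range.1 hr
      have hodd : p % 2 = 1 := (Fact.out : p.Prime).eq_two_or_odd.resolve_left hp2.ne'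
      have e2 : ((27 * N - 1 - ρ : ℕ) : ℤ) + p - 2 * r = (27 * N - 1 - ρ + p - 2 * r : ℕ) := by
        omega
      rw [e2, cf_natCast, coeff_eq_zero_of_natDegree_lt
        ((natDegree_sS_le N f).trans_lt (by omega)), mul_zero]
  rw [form_expand]
  refine sum_mem fun j hj => ?_
  have hj' := mem_range.1 hj
  by_cases c0 : j < 3 * N ∨ 24 * N ≤ j
  · rw [coeff_sQ_eq_zero N g c0, zero_mul]
    exact zero_mem _
  by_cases c1 : j + p < 27 * N
  · obtain ⟨i, rfl⟩ := Nat.exists_eq_add_of_le (by omega : 3 * N ≤ j)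
    exact kill (hg (.inl ⟨i, by omega⟩))
      ((low hF hp2 hI hS hD hd (by omega) (by omega)).trans (hu _))
  by_cases c2 : j < p
  · exact mul_mem (hQ j) (mid h1 h2 hp2 hI hS hD hu (by omega) c2 (by omega))
  obtain ⟨i, rfl⟩ := Nat.exists_eq_add_of_le' (by omega : p ≤ j)
  refine kill (hg (.inr ⟨i, by omega⟩)) ((high hF hp2 hI hS hD hd (by omega)).trans ?_)
  simpa using (hv i (by omega)).sub (hu i)

end Vale.Agent.P030
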