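import Vale.Agent.P030.Defs

/-! # P030: one application of the energy inequality -/

namespace Vale.Agent.P030

open Finset

namespace One

/-- The kernel between two blobs given by centre, height and radius. -/
noncomputable def G (a b : ℝ × ℝ × ℝ) : ℝ := kk (a.1 - b.1) (|a.2.1 - b.2.1| + a.2.2 + b.2.2)

theorem G_symm (a b : ℝ × ℝ × ℝ) : G a b = G b a := by
  unfold G kk
  rw [abs_sub_comm]
  congr 2
  ring

theorem cnd3 (h : CndStmt) {ι κ : Type} (s : Finset ι) (t : Finset κ) {K : ℕ}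
    (P : ι → ℝ × ℝ × ℝ) (Q : κ → ℝ × ℝ × ℝ) (B : Fin K → ℝ × ℝ × ℝ) (u : Fin K → ℝ)
    (hP : ∀ i ∈ s, 0 < (P i).2.2) (hQ : ∀ j ∈ t, 0 < (Q j).2.2) (hB : ∀ k, 0 < (B k).2.2)
    (hu : ∑ k, u k = (s.card : ℝ) - t.card) :
    ∑ i ∈ s, ∑ i' ∈ s, G (P i) (P i') + ∑ j ∈ t, ∑ j' ∈ t, G (Q j) (Q j')
      - 2 * ∑ i ∈ s, ∑ j ∈ t, G (P i) (Q j) - 2 * ∑ i ∈ s, ∑ k, u k * G (P i) (B k)
      + 2 * ∑ j ∈ t, ∑ k, u k * G (Q j) (B k) + ∑ k, ∑ l, u k * u l * G (B k) (B l) ≤ 0 := by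
  let X : s ⊕ t ⊕ Fin K → ℝ × ℝ × ℝ := Sum.elim (fun i => P i) (Sum.elim (fun j => Q j) B)
  let ξ : s ⊕ t ⊕ Fin K → ℝ := Sum.elim (fun _ => 1) (Sum.elim (fun _ => -1) fun k => -u k)
  have key : ∑ a, ∑ b, ξ a * ξ b * G (X a) (X b) ≤ 0 :=
    h (s ⊕ t ⊕ Fin K) (fun a => (X a).1) (fun a => (X a).2.1) (fun a => (X a).2.2) ξ
      (by
        rintro (i | j | k)
        exacts [hP i i.2, hQ j j.2, hB k])
      (by
        simp only [ξ, Fintype.sum_sum_type, Sum.elim_inl, Sum.elim_inr, sum_neg_distrib, hu,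
          sum_const, card_univ, Fintype.card_coe, nsmul_eq_mul]
        ring)
  simp only [X, ξ, Fintype.sum_sum_type, Sum.elim_inl, Sum.elim_inr, sum_add_distrib, one_mul,
    mul_one, neg_mul, mul_neg, sum_neg_distrib] at key
  have e1 : ∑ i : s, ∑ i' : s, G (P i) (P i') = ∑ i ∈ s, ∑ i' ∈ s, G (P i) (P i') := by
    rw [← sum_coe_sort s fun i => ∑ i' ∈ s, G (P i) (P i')]
    exact sum_congr rfl fun i _ => sum_coe_sort s fun i' => G (P i) (P i')
  have e2 : ∑ i : t, ∑ i' : t, G (Q i) (Q i') = ∑ i ∈ t, ∑ i' ∈ t, G (Q i) (Q i') := by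
    rw [← sum_coe_sort t fun i => ∑ i' ∈ t, G (Q i) (Q i')]
    exact sum_congr rfl fun i _ => sum_coe_sort t fun i' => G (Q i) (Q i')
  have e3 : ∑ i : s, ∑ j : t, G (P i) (Q j) = ∑ i ∈ s, ∑ j ∈ t, G (P i) (Q j) := by
    rw [← sum_coe_sort s fun i => ∑ j ∈ t, G (P i) (Q j)]
    exact sum_congr rfl fun i _ => sum_coe_sort t fun j => G (P i) (Q j)
  have e4 : ∑ j : t, ∑ i : s, G (Q j) (P i) = ∑ i ∈ s, ∑ j ∈ t, G (P i) (Q j) := by
    rw [← e3, sum_comm]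
    exact sum_congr rfl fun i _ => sum_congr rfl fun j _ => G_symm _ _
  have e5 : ∑ i : s, ∑ k, u k * G (P i) (B k) = ∑ i ∈ s, ∑ k, u k * G (P i) (B k) :=
    sum_coe_sort s fun i => ∑ k, u k * G (P i) (B k)
  have e6 : ∑ k, ∑ i : s, u k * G (B k) (P i) = ∑ i ∈ s, ∑ k, u k * G (P i) (B k) := by
    rw [← e5, sum_comm]
    exact sum_congr rfl fun i _ => sum_congr rfl fun j _ => by rw [G_symm]
  have e7 : ∑ i : t, ∑ k, u k * G (Q i) (B k) = ∑ i ∈ t, ∑ k, u k * G (Q i) (B k) :=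
    sum_coe_sort t fun i => ∑ k, u k * G (Q i) (B k)
  have e8 : ∑ k, ∑ i : t, u k * G (B k) (Q i) = ∑ i ∈ t, ∑ k, u k * G (Q i) (B k) := by
    rw [← e7, sum_comm]
    exact sum_congr rfl fun i _ => sum_congr rfl fun j _ => by rw [G_symm]
  rw [e1, e2, e3, e4, e5, e6, e7, e8] at key
  linarith

/-- The blob attached to a point. -/
def bl (z : ℂ) (r : ℝ) : ℝ × ℝ × ℝ := (z.re, z.im, r)

theorem G_self (z : ℂ) (r : ℝ) : G (bl z r) (bl z r) = Real.log (2 * r) := by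
  simp only [G, bl, kk, sub_self, abs_zero, zero_add]
  rw [zero_pow two_ne_zero, zero_add, Real.log_pow, ← two_mul]
  push_cast
  ring

theorem normSq_eq (z w : ℂ) : ‖z - w‖ ^ 2 = (z.re - w.re) ^ 2 + |z.im - w.im| ^ 2 := by
  rw [Complex.sq_norm, Complex.normSq_apply, sq_abs, Complex.sub_re, Complex.sub_im]
  ring

theorem log_le_G {z w : ℂ} (h : z ≠ w) {r r' : ℝ} (hr : 0 ≤ r) (hr' : 0 ≤ r') :
    Real.log ‖z - w‖ ≤ G (bl z r) (bl w r') := by
  have h0 : 0 < ‖z - w‖ := norm_pos_iff.2 (sub_ne_zero.2 h)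
  have h1 : ‖z - w‖ ^ 2 ≤ (z.re - w.re) ^ 2 + (|z.im - w.im| + r + r') ^ 2 := by
    rw [normSq_eq]
    have := abs_nonneg (z.im - w.im)
    nlinarith
  have h2 := Real.log_le_log (by positivity) h1
  rw [Real.log_pow] at h2
  simp only [G, bl, kk]
  push_cast at h2
  linarith

theorem G_le_log {z w : ℂ} {r r' ε : ℝ} (hr : 0 < r) (hr' : 0 < r') (hε : 0 ≤ ε)
    (h : r + r' ≤ ε * ‖z - w‖) : 0 < ‖z - w‖ ∧ G (bl z r) (bl w r') ≤ Real.log ‖z - w‖ + ε := by
  have h0 : 0 < ‖z - w‖ := by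
    rcases (norm_nonneg (z - w)).lt_or_eq with h0 | h0
    · exact h0
    · rw [← h0] at h
      linarith
  refine ⟨h0, ?_⟩
  have h3 : |z.im - w.im| ≤ ‖z - w‖ := by
    rw [← Complex.sub_im]
    exact Complex.abs_im_le_norm _
  have h4 := abs_nonneg (z.im - w.im)
  have h1 : (z.re - w.re) ^ 2 + (|z.im - w.im| + r + r') ^ 2 ≤ (‖z - w‖ * (1 + ε)) ^ 2 := by
    have h5 : (z.re - w.re) ^ 2 + (|z.im - w.im| + r + r') ^ 2 ≤ (‖z - w‖ + (r + r')) ^ 2 := by
      have := normSq_eq z w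
      nlinarith
    refine h5.trans (pow_le_pow_left₀ (by positivity) (by linarith) 2)
  have h2 := Real.log_le_log (by positivity) h1
  rw [Real.log_pow, Real.log_mul h0.ne' (by positivity)] at h2
  have h6 : Real.log (1 + ε) ≤ ε := by
    have := Real.log_le_sub_one_of_pos (x := 1 + ε) (by positivity)
    linarith
  simp only [G, bl, kk]
  push_cast at h2
  linarith

theorem kk_lip (a : ℝ) {b r : ℝ} (hb : 0 < b) (hr : 0 ≤ r) : |kk a (b + r) - kk a b| ≤ r / b := by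
  have h0 : 0 ≤ r / b := by positivity
  have h1 : a ^ 2 + b ^ 2 ≤ a ^ 2 + (b + r) ^ 2 := by nlinarith
  have h2 : a ^ 2 + (b + r) ^ 2 ≤ (a ^ 2 + b ^ 2) * (1 + r / b) ^ 2 := by
    have e : (b + r) ^ 2 = b ^ 2 * (1 + r / b) ^ 2 := by field_simp
    have : 1 ≤ (1 + r / b) ^ 2 := one_le_pow₀ (by linarith)
    rw [e]
    nlinarith [sq_nonneg a]
  have h3 := Real.log_le_log (by positivity) h1
  have h4 := Real.log_le_log (by positivity) h2
  rw [Real.log_mul (by positivity) (by positivity), Real.log_pow] at h4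
  have h6 : Real.log (1 + r / b) ≤ r / b := by
    have := Real.log_le_sub_one_of_pos (x := 1 + r / b) (by positivity)
    linarith
  unfold kk
  push_cast at h4
  rw [abs_le]
  constructor <;> linarith

theorem pot_close {K : ℕ} (c y ρ w : Fin K → ℝ) {ρ0 δ r : ℝ} (h0 : 0 < ρ0) (hρ : ∀ k, ρ0 ≤ ρ k)
    (hr : 0 < r) (hδ : r ≤ δ) (z : ℂ) :
    |∑ k, w k * G (bl z r) (c k, y k, ρ k) - pot c y ρ w z| ≤ (∑ k, |w k|) * δ / ρ0 := by
  rw [pot, ← sum_sub_distrib, mul_div_assoc, sum_mul]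
  refine (abs_sum_le_sum_abs _ _).trans (sum_le_sum fun k _ => ?_)
  rw [← mul_sub, abs_mul]
  refine mul_le_mul_of_nonneg_left ?_ (abs_nonneg _)
  have h1 := abs_nonneg (z.im - y k)
  have h2 := hρ k
  have e : G (bl z r) (c k, y k, ρ k) = kk (z.re - c k) (|z.im - y k| + ρ k + r) := by
    simp only [G, bl]
    congr 1
    ring
  rw [e]
  exact (kk_lip _ (by linarith) hr.le).trans (div_le_div₀ (by linarith) hδ h0 (by linarith))

theorem VV_nonneg {ι : Type} [DecidableEq ι] (s : Finset ι) (p : ι → ℂ) : 0 ≤ VV s p :=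
  Real.sqrt_nonneg _

theorem log_VV {ι : Type} [DecidableEq ι] (s : Finset ι) (p : ι → ℂ) (r : ι → ℝ)
    (hr : ∀ i ∈ s, 0 < r i) (h : VV s p ≠ 0) :
    2 * Real.log (VV s p) + ∑ i ∈ s, Real.log (2 * r i)
      ≤ ∑ i ∈ s, ∑ i' ∈ s, G (bl (p i) (r i)) (bl (p i') (r i')) := by
  have h1 : ∏ i ∈ s, ∏ j ∈ s.erase i, ‖p i - p j‖ ≠ 0 := fun h0 => h (by
    rw [VV, h0, Real.sqrt_zero])
  have h2 := prod_ne_zero_iff.1 h1
  rw [VV, Real.log_sqrt (prod_nonneg fun i _ => prod_nonneg fun j _ => norm_nonneg _),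
    mul_div_cancel₀ _ two_ne_zero, Real.log_prod h2, ← sum_add_distrib]
  refine sum_le_sum fun i hi => ?_
  have h3 := prod_ne_zero_iff.1 (h2 i hi)
  rw [Real.log_prod h3, ← sum_erase_add s _ hi, G_self]
  refine add_le_add_left (sum_le_sum fun j hj => ?_) _
  exact log_le_G (sub_ne_zero.1 (norm_ne_zero_iff.1 (h3 j hj))) (hr i hi).le
    (hr j (mem_of_mem_erase hj)).le

end One

open _root_.Vale.Agent.P030.One

theorem one (h : CndStmt) : OneStmt := by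
  intro ι κ _ _ s t p q rp rq K c y ρ w lam ε δ ρ0 h0 hρ hlam hw hε hp hq hpq
  have hpq' := fun i hi j hj => G_le_log (hp i hi).1 (hq j hj).1 hε (hpq i hi j hj)
  have hC : 0 < CR s p t q := prod_pos fun i hi => prod_pos fun j hj => (hpq' i hi j hj).1
  by_cases hs : VV s p = 0
  · rw [hs, zero_mul, zero_div]
    exact (Real.exp_pos _).le
  by_cases ht : VV t q = 0
  · rw [ht, mul_zero, zero_div]
    exact (Real.exp_pos _).le
  have hs' : 0 < VV s p := (VV_nonneg s p).lt_of_ne' hs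
  have ht' : 0 < VV t q := (VV_nonneg t q).lt_of_ne' ht
  rw [← Real.log_le_iff_le_exp (by positivity), Real.log_div (by positivity) hC.ne',
    Real.log_mul hs ht]
  have key := cnd3 h s t (fun i => bl (p i) (rp i)) (fun j => bl (q j) (rq j))
    (fun k => (c k, y k, ρ k)) (fun k => lam * w k) (fun i hi => (hp i hi).1)
    (fun j hj => (hq j hj).1) (fun k => h0.trans_le (hρ k)) (by rw [← mul_sum, hw])
  have a1 := log_VV s p rp (fun i hi => (hp i hi).1) hs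
  have a2 := log_VV t q rq (fun j hj => (hq j hj).1) ht
  have a3 : ∑ i ∈ s, ∑ j ∈ t, G (bl (p i) (rp i)) (bl (q j) (rq j))
      ≤ Real.log (CR s p t q) + (s.card : ℝ) * t.card * ε := by
    have e : (s.card : ℝ) * t.card * ε = ∑ _i ∈ s, ∑ _j ∈ t, ε := by
      simp only [sum_const, nsmul_eq_mul]
      ring
    rw [CR, Real.log_prod fun i hi => (prod_pos fun j hj => (hpq' i hi j hj).1).ne', e,
      ← sum_add_distrib]
    refine sum_le_sum fun i hi => ?_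
    rw [Real.log_prod fun j hj => (hpq' i hi j hj).1.ne', ← sum_add_distrib]
    exact sum_le_sum fun j hj => (hpq' i hi j hj).2
  have a4 : ∑ i ∈ s, ∑ k, lam * w k * G (bl (p i) (rp i)) (c k, y k, ρ k)
      ≤ lam * (∑ i ∈ s, pot c y ρ w (p i) + s.card * ((∑ k, |w k|) * δ / ρ0)) := by
    rw [← nsmul_eq_mul, ← sum_const, ← sum_add_distrib, mul_sum]
    refine sum_le_sum fun i hi => ?_
    simp only [mul_assoc lam]
    rw [← mul_sum]
    refine mul_le_mul_of_nonneg_left ?_ hlam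
    linarith [(abs_le.1 (pot_close c y ρ w h0 hρ (hp i hi).1 (hp i hi).2 (p i))).2]
  have a5 : lam * (∑ j ∈ t, pot c y ρ w (q j) - t.card * ((∑ k, |w k|) * δ / ρ0))
      ≤ ∑ j ∈ t, ∑ k, lam * w k * G (bl (q j) (rq j)) (c k, y k, ρ k) := by
    rw [← nsmul_eq_mul, ← sum_const, ← sum_sub_distrib, mul_sum]
    refine sum_le_sum fun j hj => ?_
    simp only [mul_assoc lam]
    rw [← mul_sum]
    refine mul_le_mul_of_nonneg_left ?_ hlam
    linarith [(abs_le.1 (pot_close c y ρ w h0 hρ (hq j hj).1 (hq j hj).2 (q j))).1]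
  have a6 : ∑ k, ∑ l, lam * w k * (lam * w l) * G (c k, y k, ρ k) (c l, y l, ρ l)
      = lam ^ 2 * en c y ρ w := by
    simp only [en, mul_sum, G]
    exact sum_congr rfl fun k _ => sum_congr rfl fun l _ => by ring
  have e : lam * ((s.card : ℝ) + t.card) * (∑ k, |w k|) * δ / ρ0
      = lam * (s.card * ((∑ k, |w k|) * δ / ρ0)) + lam * (t.card * ((∑ k, |w k|) * δ / ρ0)) := by
    ring
  rw [a6] at key
  rw [e, mul_sub]
  rw [mul_add] at a4
  rw [mul_sub] at a5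
  linarith

end Vale.Agent.P030
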