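import Vale.Agent.P030.Base

/-!
# P030: the rows are Pade approximants
-/

namespace Vale.Agent.P030

open Polynomial Finset

namespace Pade

/-- The functional `S ↦ ∑ k, S_k cz (k - n)`. -/
noncomputable def L (n : ℤ) : ℚ[X] →ₗ[ℚ] ℚ :=
  lsum fun k => LinearMap.mulRight ℚ (cz ((k : ℤ) - n))

theorem L_monomial (n : ℤ) (k : ℕ) (a : ℚ) : L n (monomial k a) = a * cz ((k : ℤ) - n) := by
  rw [L, lsum_apply, sum_monomial_index _ _ (by simp)]
  rfl

theorem L_eq (n : ℤ) (S : ℚ[X]) {M : ℕ} (h : S.natDegree < M) :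
    L n S = ∑ k ∈ range M, S.coeff k * cz ((k : ℤ) - n) := by
  rw [L, lsum_apply, sum_over_range' _ (by simp) M h]
  rfl

theorem L_X_mul (n : ℤ) (S : ℚ[X]) : L (n + 1) (X * S) = L n S := by
  induction S using Polynomial.induction_on' with
  | add p q hp hq => rw [mul_add, map_add, map_add, hp, hq]
  | monomial k a =>
    rw [X_mul_monomial, L_monomial, L_monomial]
    push_cast
    rw [add_sub_add_right_eq_sub]

theorem L_two_mul (n : ℤ) (S : ℚ[X]) : L n (2 * S) = 2 * L n S := by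
  rw [two_mul, map_add, two_mul]

theorem cz_neg {k : ℤ} (h : k < 0) : cz k = 0 := if_neg fun h' => h.not_ge h'.1

theorem cz_zero : cz 0 = 1 := by simp [cz, cc]

theorem cz_rec (k : ℕ) : ((k : ℚ) + 2) * cz ((k : ℤ) + 2) = ((k : ℚ) + 1) * cz k := by
  obtain ⟨m, rfl | rfl⟩ := Nat.even_or_odd' k
  · have h1 : cz (((2 * m : ℕ) : ℤ) + 2) = cc (m + 1) := by
      rw [cz, if_pos (by omega), show ((((2 * m : ℕ) : ℤ) + 2) / 2).toNat = m + 1 by omega]
    have h2 : cz ((2 * m : ℕ) : ℤ) = cc m := by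
      rw [cz, if_pos (by omega), show (((2 * m : ℕ) : ℤ) / 2).toNat = m by omega]
    have h3 : ((m : ℚ) + 1) * Nat.centralBinom (m + 1) = 2 * (2 * m + 1) * Nat.centralBinom m := by
      exact_mod_cast Nat.succ_mul_centralBinom_succ m
    rw [h1, h2, cc, cc, pow_succ]
    push_cast
    field_simp
    linear_combination 2 * h3
  · rw [cz, if_neg (by omega), cz, if_neg (by omega), mul_zero, mul_zero]

theorem L_exact (S : ℚ[X]) : L 0 ((1 - X ^ 2) * derivative S - X * S) = 0 := by
  induction S using Polynomial.induction_on' with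
  | add p q hp hq =>
    have : (1 - X ^ 2) * derivative (p + q) - X * (p + q) =
        ((1 - X ^ 2) * derivative p - X * p) + ((1 - X ^ 2) * derivative q - X * q) := by
      rw [derivative_add]
      ring
    rw [this, map_add, hp, hq, add_zero]
  | monomial k a =>
    rcases k with _ | k
    · rw [derivative_monomial, X_mul_monomial]
      simp [L_monomial, cz]
    · rw [derivative_monomial_succ, sub_mul, one_mul, sq, mul_assoc, X_mul_monomial,
        X_mul_monomial, X_mul_monomial, map_sub, map_sub, L_monomial, L_monomial, L_monomial]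
      push_cast
      rw [sub_zero, sub_zero, add_assoc (k : ℤ), one_add_one_eq_two]
      linear_combination -a * cz_rec k

theorem L_T {n : ℤ} (h : n ≠ 0) : L 0 (Chebyshev.T ℚ n) = 0 := by
  have h1 := L_exact (derivative (Chebyshev.T ℚ n))
  have h2 : (1 - X ^ 2) * derivative (derivative (Chebyshev.T ℚ n)) = _ :=
    Chebyshev.one_sub_X_sq_mul_derivative_derivative_T_eq_poly_in_T (R := ℚ) n
  have h3 : (1 - X ^ 2) * derivative (derivative (Chebyshev.T ℚ n)) -
      X * derivative (Chebyshev.T ℚ n) = (-(n : ℚ) ^ 2) • Chebyshev.T ℚ n := by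
    rw [smul_eq_C_mul, map_neg, map_pow, map_intCast]
    linear_combination h2
  rw [h3, map_smul, smul_eq_mul, mul_eq_zero] at h1
  exact h1.resolve_left (neg_ne_zero.2 (pow_ne_zero 2 (Int.cast_ne_zero.2 h)))

/-- `D` agrees with the polynomial part attached to `S` from the degree `r` on. -/
def Rel (S D : ℚ[X]) (r : ℕ) : Prop := ∀ m : ℕ, r ≤ m → L ((m : ℤ) + 1) S = D.coeff m

theorem Rel.sub {S D S' D' : ℚ[X]} {r : ℕ} (h : Rel S D r) (h' : Rel S' D' r) :
    Rel (S - S') (D - D') r := fun m hm => by rw [map_sub, coeff_sub, h m hm, h' m hm]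

theorem Rel.step {S D : ℚ[X]} {r : ℕ} (h : Rel S D r) :
    Rel ((X - 1) * S) ((X - 1) * D) (r + 1) := by
  intro m hm
  obtain ⟨m, rfl⟩ : ∃ m', m = m' + 1 := ⟨m - 1, by omega⟩
  rw [sub_mul, sub_mul, one_mul, one_mul, map_sub, coeff_sub, L_X_mul, coeff_X_mul,
    h _ (by omega), Nat.cast_succ, h _ (by omega)]

theorem Rel.pow {S D : ℚ[X]} {r : ℕ} (h : Rel S D r) (N : ℕ) :
    Rel ((X - 1) ^ N * S) ((X - 1) ^ N * D) (r + N) := by
  induction N with
  | zero => simpa using h
  | succ N ih =>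
    rw [pow_succ', mul_assoc, mul_assoc]
    exact ih.step

theorem rel_nat (n : ℕ) : Rel (Chebyshev.T ℚ n) (Chebyshev.U ℚ ((n : ℤ) - 1)) 0 := by
  have h0 : ∀ k : ℤ, L k 1 = cz (-k) := fun k => by
    rw [← monomial_zero_one, L_monomial]
    simp
  induction n using Nat.twoStepInduction with
  | zero =>
    intro m _
    rw [Nat.cast_zero, Chebyshev.T_zero, h0, cz_neg (by omega), zero_sub, Chebyshev.U_neg_one,
      coeff_zero]
  | one =>
    intro m _
    rw [Nat.cast_one, Chebyshev.T_one, ← mul_one X, L_X_mul, h0, sub_self, Chebyshev.U_zero,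
      coeff_one]
    split_ifs with hm
    · rw [hm, Nat.cast_zero, neg_zero, cz_zero]
    · exact cz_neg (by omega)
  | more n ih1 ih2 =>
    intro m _
    have e : Chebyshev.U ℚ ((n : ℤ) + 2 - 1) =
        2 * X * Chebyshev.U ℚ ((n : ℤ) + 1 - 1) - Chebyshev.U ℚ ((n : ℤ) - 1) := by
      have := Chebyshev.U_add_two ℚ ((n : ℤ) - 1)
      rwa [show (n : ℤ) - 1 + 2 = n + 2 - 1 by ring, show (n : ℤ) - 1 + 1 = n + 1 - 1 by ring]
        at this
    push_cast at ih2 ⊢
    rw [Chebyshev.T_add_two, e, map_sub, coeff_sub, ih1 m (Nat.zero_le m), mul_assoc, mul_assoc,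
      L_two_mul, L_X_mul, coeff_ofNat_mul]
    rcases m with _ | m
    · rw [Nat.cast_zero, L_T (by omega), mul_coeff_zero, coeff_X_zero, zero_mul]
    · rw [coeff_X_mul, Nat.cast_succ, ih2 m (Nat.zero_le m)]

theorem rel_T {e : ℤ} {r : ℕ} (h : -(r : ℤ) ≤ e) :
    Rel (Chebyshev.T ℚ e) (Chebyshev.U ℚ (e - 1)) r := by
  intro m hm
  obtain ⟨n, rfl | rfl⟩ := Int.eq_nat_or_neg e
  · exact rel_nat n m (Nat.zero_le m)
  · have hr : (r : WithBot ℕ) ≤ m := by exact_mod_cast hm
    rw [Chebyshev.T_neg, rel_nat n m (Nat.zero_le m),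
      coeff_eq_zero_of_degree_lt ((degree_U_lt _ (m := r) (by omega) (by omega)).trans_le hr),
      coeff_eq_zero_of_degree_lt ((degree_U_lt _ (m := r) (by omega) (by omega)).trans_le hr)]

theorem rel_row {e : ℤ} {r : ℕ} (h : -(r : ℤ) ≤ e) : Rel (S0 ℚ e) (D0 ℚ e) r := by
  have := (rel_T h).sub (rel_T (e := e + 1) (by omega))
  rwa [add_sub_cancel_right] at this

end Pade

open Pade in
theorem pade : PadeStmt := by
  intro N e j hj
  have h1 : Rel (rowS N e) (rowD N e) (2 * N + N) :=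
    (rel_row (e := ((e : ℕ) : ℤ) - 2 * N) (r := 2 * N) (by push_cast; omega)).pow N
  rw [← h1 _ (by omega), L_eq _ _ (M := 27 * N) ((natDegree_rowS_le N e).trans_lt (by omega))]
  refine sum_congr rfl fun k _ => congrArg (fun z => _ * cz z) ?_
  omega

end Vale.Agent.P030
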