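import Vale.Agent.P030.Defs

/-! The series `SerStmt`. -/

namespace Vale.Agent.P030

open Finset Filter Topology

namespace Ser

theorem cc_pos (m : ℕ) : 0 < cc m := div_pos (by exact_mod_cast m.centralBinom_pos) (by positivity)

theorem cc_succ (m : ℕ) : cc (m + 1) = (2 * m + 1) / (2 * m + 2) * cc m := by
  have h : ((m : ℚ) + 1) * (m + 1).centralBinom = 2 * (2 * m + 1) * m.centralBinom := by
    exact_mod_cast m.succ_mul_centralBinom_succ
  unfold cc
  rw [pow_succ]
  field_simp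
  linear_combination 2 * h

theorem cc_zero : cc 0 = 1 := by simp [cc]

theorem aa_odd {m : ℤ} (l : ℕ) (h : m = 2 * l + 1) : aa m = 2 / ((2 * l + 1) * cc l) := by
  rw [aa, if_pos ⟨by omega, by omega⟩, show (m / 2).toNat = l by omega, h]; push_cast; rfl

theorem aa_zero {m : ℤ} (h : m ≤ 0 ∨ m % 2 = 0) : aa m = 0 := if_neg (by omega)

theorem cz_even {m : ℤ} (l : ℕ) (h : m = 2 * l) : cz m = cc l := by
  rw [cz, if_pos ⟨by omega, by omega⟩, show (m / 2).toNat = l by omega]

theorem cz_zero {m : ℤ} (h : m < 0 ∨ m % 2 = 1) : cz m = 0 := if_neg (by omega)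

theorem aa_nonneg (m : ℤ) : 0 ≤ aa m := by
  unfold aa
  split_ifs with h
  · exact div_nonneg zero_le_two (mul_nonneg (by exact_mod_cast h.1.le) (cc_pos _).le)
  · rfl

theorem aa_rec (m : ℤ) : (m + 1) * aa (m + 1) = m * aa (m - 1) + if m = 0 then 2 else 0 := by
  by_cases h : m < 0 ∨ m % 2 = 1
  · rw [aa_zero (by omega), aa_zero (by omega), if_neg (by omega)]; ring
  · obtain ⟨l, rfl⟩ : ∃ l : ℕ, m = 2 * l := ⟨(m / 2).toNat, by omega⟩
    cases l with
    | zero => simp [aa_odd 0 (show (1 : ℤ) = _ by simp), cc_zero]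
    | succ l =>
      rw [aa_odd (l + 1) rfl, aa_odd l (by omega), if_neg (by omega), cc_succ]
      have := (cc_pos l).ne'
      push_cast
      field_simp
      ring

theorem cz_rec (d : ℤ) : d * cz d = (d - 1) * cz (d - 2) := by
  by_cases h : d < 0 ∨ d % 2 = 1
  · rw [cz_zero h, cz_zero (by omega)]; ring
  · obtain ⟨l, rfl⟩ : ∃ l : ℕ, d = 2 * l := ⟨(d / 2).toNat, by omega⟩
    cases l with
    | zero => simp [cz_zero (show (-2 : ℤ) < 0 ∨ _ from Or.inl (by norm_num))]
    | succ l =>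
      rw [cz_even (l + 1) rfl, cz_even l (by omega), cc_succ]
      push_cast
      field_simp
      ring

theorem KM1 {d : ℤ} (l : ℕ) (h : d = 2 * l) :
    KM d = cc l * ∑ k ∈ range l, aa (2 * k + 1) ^ 2 / 2 := by
  rw [KM, if_pos (by omega), if_pos (by omega), cz_even l h, show (d / 2).toNat = l by omega]

theorem KM2 {d : ℤ} (l : ℕ) (h : d = 2 * l + 1) :
    KM d = aa d * ∑ k ∈ range (l + 1), 1 / (2 * (k : ℚ) + 1) := by
  rw [KM, if_pos (by omega), if_neg (by omega), show (d / 2).toNat = l by omega]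

theorem KM3 {d : ℤ} (l : ℕ) (h : d = -(2 * l + 1)) :
    KM d = cc l * ∑ k ∈ range l, aa (2 * k + 1) / (2 * (k : ℚ) + 2) := by
  rw [KM, if_neg (by omega), if_pos (by omega), cz_even l (by omega),
    show ((-d - 1) / 2).toNat = l by omega]

theorem KM4 {d : ℤ} (l : ℕ) (h : d = -(2 * l + 2)) :
    KM d = aa (2 * l + 1) * ∑ k ∈ range (l + 1), cc k / (2 * (k : ℚ) + 1) := by
  rw [KM, if_neg (by omega), if_neg (by omega), show -d - 1 = 2 * l + 1 by omega,
    show (-d / 2).toNat = l + 1 by omega]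

theorem KM_rec (d : ℤ) : d * KM d =
    (d - 1) * KM (d - 2) + (aa (d - 1) + aa d) + if d ≤ 0 then 2 / (1 - (d : ℚ)) else 0 := by
  have hl : ∃ l : ℕ, d = 2 * l + 2 ∨ d = 2 * l + 3 ∨ d = 1 ∨ d = 0 ∨ d = -(2 * l + 1) ∨
      d = -(2 * l + 2) := by
    rcases le_or_gt 0 d with h | h
    · exact ⟨((d - 2) / 2).toNat, by omega⟩
    · exact ⟨((-d - 1) / 2).toNat, by omega⟩
  obtain ⟨l, h | h | h | h | h | h⟩ := hl
  all_goals have := (cc_pos l).ne'
  · rw [KM1 (l + 1) (by omega), KM1 l (by omega), if_neg (by omega), sum_range_succ,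
      aa_zero (m := d) (by omega), aa_odd (m := d - 1) l (by omega), aa_odd l rfl, cc_succ, h]
    push_cast; field_simp; ring
  · rw [KM2 (l + 1) (by omega), KM2 l (by omega), if_neg (by omega), sum_range_succ _ (l + 1),
      aa_zero (m := d - 1) (by omega), aa_odd (m := d) (l + 1) (by omega),
      aa_odd (m := d - 2) l (by omega), cc_succ, h]
    push_cast; field_simp; ring
  · rw [KM2 0 (by omega), aa_zero (m := d - 1) (by omega), h]; simp
  · rw [KM4 (d := d - 2) 0 (by omega), aa_zero (m := d - 1) (by omega), aa_zero (m := d) (by omega),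
      aa_odd 0 rfl, h]
    simp [cc_zero]
  · rw [KM3 l h, KM3 (l + 1) (by omega), if_pos (by omega), sum_range_succ,
      aa_zero (m := d) (by omega), aa_zero (m := d - 1) (by omega), aa_odd l rfl, cc_succ, h]
    push_cast
    rw [show (1 : ℚ) - -(2 * l + 1) = 2 * l + 2 by ring]
    field_simp; ring
  · rw [KM4 l h, KM4 (l + 1) (by omega), if_pos (by omega), sum_range_succ _ (l + 1),
      aa_zero (m := d) (by omega), aa_zero (m := d - 1) (by omega), aa_odd l rfl,
      aa_odd (l + 1) rfl, cc_succ, h]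
    push_cast
    rw [show (1 : ℚ) - -(2 * l + 2) = 2 * l + 3 by ring]
    field_simp; ring

theorem aa_step (n : ℕ) : aa (n + 2) = (n + 1) / (n + 2) * aa n := by
  have := aa_rec (n + 1)
  rw [if_neg (by omega), add_sub_cancel_right, add_assoc (n : ℤ), one_add_one_eq_two] at this
  push_cast at this
  field_simp
  linear_combination this

theorem aa_bd (n : ℕ) : (n + 1) * aa n ^ 2 ≤ 8 := by
  induction n using Nat.twoStepInduction with
  | zero => simp [aa]
  | one => rw [aa_odd 0 (by simp), cc_zero]; norm_num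
  | more n h _ =>
    refine le_trans ?_ h
    push_cast
    rw [aa_step, mul_pow, ← mul_assoc]
    refine mul_le_mul_of_nonneg_right ?_ (sq_nonneg _)
    rw [div_pow, ← mul_div_assoc, div_le_iff₀ (by positivity)]
    have : (0 : ℚ) ≤ n := n.cast_nonneg
    nlinarith

theorem aa_lim (d : ℤ) : Tendsto (fun n : ℕ => (aa (d + n) : ℝ)) atTop (𝓝 0) := by
  have h1 : Tendsto (fun n : ℕ => (aa n : ℝ)) atTop (𝓝 0) := by
    have h := (tendsto_one_div_add_atTop_nhds_zero_nat (𝕜 := ℝ).const_mul 8).sqrt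
    rw [mul_zero, Real.sqrt_zero] at h
    refine squeeze_zero (fun n => by exact_mod_cast aa_nonneg n) (fun n => ?_) h
    refine Real.le_sqrt_of_sq_le ?_
    rw [mul_one_div, le_div_iff₀' (by positivity)]
    exact_mod_cast aa_bd n
  rw [← tendsto_add_atTop_iff_nat (-d).toNat]
  refine ((tendsto_add_atTop_iff_nat d.toNat).2 h1).congr fun n => ?_
  congr 2
  omega

theorem tele (d : ℤ) :
    HasSum (fun r : ℕ => (aa (d + r - 1) : ℝ) - aa (d + r + 1)) (aa (d - 1) + aa d) := by
  have hp : ∀ (d : ℤ) (n : ℕ), ∑ r ∈ range n, ((aa (d + r - 1) : ℝ) - aa (d + r + 1)) =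
      aa (d - 1) + aa d - aa (d - 1 + n) - aa (d + n) := by
    intro d n
    induction n with
    | zero => simp
    | succ n ih =>
      rw [sum_range_succ, ih, show d - 1 + n = d + n - 1 by ring,
        show d - 1 + (n + 1 : ℕ) = d + n by omega, show d + (n + 1 : ℕ) = d + n + 1 by omega]
      ring
  have hs : Summable fun r : ℕ => (aa (d + r - 1) : ℝ) - aa (d + r + 1) := by
    rw [← summable_nat_add_iff (1 - d).toNat]
    obtain ⟨e, he⟩ : ∃ e : ℕ, d + (1 - d).toNat = e + 1 := ⟨(d - 1).toNat, by omega⟩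
    refine (summable_of_sum_range_le (f := fun r : ℕ => (aa (e + 1 + r - 1) : ℝ) - aa (e + 1 + r + 1))
      (fun r => ?_) (c := aa (e + 1 - 1) + aa (e + 1)) fun n => ?_).congr fun r => ?_
    · rw [show (e : ℤ) + 1 + r - 1 = (e + r : ℕ) by omega,
        show (e : ℤ) + 1 + r + 1 = (e + r : ℕ) + 2 by omega, aa_step, sub_nonneg]
      exact Rat.cast_le.2 (mul_le_of_le_one_left (aa_nonneg _)
        (div_le_one_of_le₀ (by linarith) (by positivity)))
    · rw [hp]
      have a1 : (0 : ℝ) ≤ aa (e + 1 - 1 + n) := by exact_mod_cast aa_nonneg _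
      have a2 : (0 : ℝ) ≤ aa (e + 1 + n) := by exact_mod_cast aa_nonneg _
      linarith
    · congr 3 <;> omega
  rw [hs.hasSum_iff_tendsto_nat]
  simp only [hp]
  simpa using (tendsto_const_nhds.sub (aa_lim (d - 1))).sub (aa_lim d)

theorem spike (d : ℤ) : HasSum (fun r : ℕ => (if d + r = 0 then 2 else 0 : ℝ) / (r + 1))
    (if d ≤ 0 then 2 / (1 - (d : ℝ)) else 0) := by
  split_ifs with h
  · obtain ⟨n, rfl⟩ : ∃ n : ℕ, d = -n := ⟨(-d).toNat, by omega⟩
    have := hasSum_single (f := fun r : ℕ => (if -(n : ℤ) + r = 0 then 2 else 0 : ℝ) / (r + 1)) n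
      fun r hr => by rw [if_neg (by omega), zero_div]
    simpa [add_comm] using this
  · simp only [show ∀ r : ℕ, ¬ d + r = 0 from fun r => by omega, if_false, zero_div]
    exact hasSum_zero

/-- value of the full series -/
noncomputable def VV (d : ℤ) : ℝ :=
  (KM d : ℝ) + (4 * GG * (cz d : ℝ) + Real.pi ^ 2 / 4 * (cz (-d - 1) : ℝ))

theorem VV_rec (d : ℤ) : d * VV d = (d - 1) * VV (d - 2) + (aa (d - 1) + aa d) +
    if d ≤ 0 then 2 / (1 - (d : ℝ)) else 0 := by
  have h1 := congrArg (Rat.cast : ℚ → ℝ) (KM_rec d)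
  have h2 := congrArg (Rat.cast : ℚ → ℝ) (cz_rec d)
  have h3 := congrArg (Rat.cast : ℚ → ℝ) (cz_rec (1 - d))
  rw [show 1 - d - 2 = -d - 1 by ring] at h3
  push_cast [apply_ite (Rat.cast : ℚ → ℝ)] at h1 h2 h3
  rw [VV, VV, show -(d - 2) - 1 = 1 - d by ring]
  linear_combination h1 + 4 * GG * h2 + Real.pi ^ 2 / 4 * h3

def PP (d : ℤ) : Prop := HasSum (fun r : ℕ => (aa (d + r + 1) : ℝ) / (r + 1)) (VV d)

theorem term (d : ℤ) (r : ℕ) : d * ((aa (d + r + 1) : ℝ) / (r + 1)) =
    (d - 1) * ((aa (d - 2 + r + 1) : ℝ) / (r + 1)) + (aa (d + r - 1) - aa (d + r + 1)) +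
      (if d + r = 0 then 2 else 0 : ℝ) / (r + 1) := by
  have h := congrArg (Rat.cast : ℚ → ℝ) (aa_rec (d + r))
  push_cast [apply_ite (Rat.cast : ℚ → ℝ)] at h
  rw [show d - 2 + r + 1 = d + r - 1 by ring]
  field_simp
  linear_combination h

theorem up {d : ℤ} (hd : d ≠ 0) (h : PP (d - 2)) : PP d := by
  have h1 := ((h.mul_left ((d : ℝ) - 1)).add (tele d)).add (spike d)
  simp only [← term, ← VV_rec] at h1
  exact (hasSum_mul_left_iff (Int.cast_ne_zero.2 hd)).1 h1

theorem down {d : ℤ} (hd : d ≠ 1) (h : PP d) : PP (d - 2) := by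
  have h1 := ((h.mul_left (d : ℝ)).sub (spike d)).sub (tele d)
  simp only [term, VV_rec, add_sub_cancel_right] at h1
  exact (hasSum_mul_left_iff (sub_ne_zero.2 (by exact_mod_cast hd))).1 h1

theorem all (h : ConstStmt) (d : ℤ) : PP d := by
  have h0 : PP 0 := by
    have := h.1
    simpa [PP, VV, KM1 (d := 0) 0 rfl, cz_even (m := 0) 0 rfl, cc_zero,
      cz_zero (show (-1 : ℤ) < 0 ∨ _ from Or.inl (by norm_num))] using this
  have h1 : PP (-1) := by
    have := h.2
    rw [PP, ← hasSum_nat_add_iff' 1]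
    simpa [VV, KM3 (d := -1) 0 rfl, cz_even (m := 0) 0 rfl, cc_zero, aa_zero (Or.inl le_rfl), add_assoc,
      one_add_one_eq_two, cz_zero (show (-1 : ℤ) < 0 ∨ _ from Or.inl (by norm_num))] using this
  have hu : ∀ n : ℕ, PP (n - 1) ∧ PP n := by
    intro n
    induction n with
    | zero => exact ⟨h1, h0⟩
    | succ n ih =>
      exact ⟨by rw [show ((n + 1 : ℕ) : ℤ) - 1 = n by omega]; exact ih.2,
        up (by omega) (by rw [show ((n + 1 : ℕ) : ℤ) - 2 = n - 1 by omega]; exact ih.1)⟩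
  have hd : ∀ n : ℕ, PP (-n) ∧ PP (-n - 1) := by
    intro n
    induction n with
    | zero => exact ⟨h0, h1⟩
    | succ n ih =>
      exact ⟨by rw [show -((n + 1 : ℕ) : ℤ) = -n - 1 by omega]; exact ih.2,
        by rw [show -((n + 1 : ℕ) : ℤ) - 1 = -n - 2 by omega]; exact down (by omega) ih.1⟩
  obtain ⟨n, rfl | rfl⟩ := d.eq_nat_or_neg
  · exact (hu n).2
  · exact (hd n).1

theorem shift (K a : ℤ → ℚ) (i j : ℕ) (c : ℝ)
    (h : HasSum (fun r : ℕ => (a (i - j + r + 1) : ℝ) / (r + 1)) (K (i - j) + c)) :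
    HasSum (fun k : ℕ => (a (i + k + 1) : ℝ) / (j + k + 1)) (TT K a i j + c) := by
  have := (hasSum_nat_add_iff' j).2 h
  simp only [show ∀ k : ℕ, (i : ℤ) - j + (k + j : ℕ) + 1 = i + k + 1 from fun k => by omega] at this
  unfold TT
  push_cast at this ⊢
  simpa only [add_comm (j : ℝ), add_sub_right_comm] using this

theorem harm (n : ℕ) : HasSum (fun k : ℕ => 1 / ((k : ℝ) + 1) - 1 / (k + n + 1))
    (∑ k ∈ range n, 1 / ((k : ℝ) + 1)) := by
  induction n with
  | zero => simpa using hasSum_zero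
  | succ n ih =>
    have h : HasSum (fun k : ℕ => 1 / ((k + n : ℕ) + 1 : ℝ) - 1 / ((k + 1 + n : ℕ) + 1 : ℝ))
        (1 / ((n : ℝ) + 1)) := by
      rw [hasSum_iff_tendsto_nat_of_nonneg fun k => sub_nonneg.2
        (one_div_le_one_div_of_le (by positivity) (by push_cast; linarith))]
      simp only [sum_range_sub' fun k => 1 / (((k + n : ℕ) : ℝ) + 1)]
      simpa using tendsto_const_nhds.sub ((tendsto_add_atTop_iff_nat n).2
        (tendsto_one_div_add_atTop_nhds_zero_nat (𝕜 := ℝ)))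
    rw [sum_range_succ]
    refine (congrArg (HasSum · _) (funext fun k => ?_)).mp (ih.add h)
    push_cast
    ring

theorem harm' {n : ℕ} (hn : n ≠ 0) {d : ℤ} (hd : d.natAbs = n) :
    HasSum (fun k : ℕ => 1 / ((k : ℝ) + 1) / (k + n + 1)) (KZ d) := by
  have h := (harm n).div_const n
  have hn' : (n : ℝ) ≠ 0 := Nat.cast_ne_zero.2 hn
  rw [KZ, hd]
  push_cast
  refine (congrArg (HasSum · _) (funext fun k => ?_)).mp h
  field_simp
  ring

theorem zz_nat {m : ℤ} (n : ℕ) (h : m = n + 1) : (zz m : ℝ) = 1 / ((n : ℝ) + 1) := by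
  rw [zz, if_pos (by omega), h]; push_cast; rfl

theorem allZ (d : ℤ) : HasSum (fun r : ℕ => (zz (d + r + 1) : ℝ) / (r + 1))
    (KZ d + if d = 0 then Real.pi ^ 2 / 6 else 0) := by
  split_ifs with h
  · subst h
    have := (hasSum_nat_add_iff' 1).2 hasSum_zeta_two
    simp only [zero_add, zz_nat _ rfl, div_div, ← sq]
    simpa [KZ] using this
  · rw [add_zero]
    obtain ⟨n, rfl | rfl⟩ := d.eq_nat_or_neg
    · refine (congrArg (HasSum · _) (funext fun k => ?_)).mp (harm' (n := n) (by omega) rfl)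
      rw [zz_nat (k + n) (by omega), div_right_comm, div_div, div_div, mul_comm]
      push_cast
      rw [mul_comm]
    · rw [← hasSum_nat_add_iff' n, sum_eq_zero fun r hr => by
        rw [zz, if_neg (by have := mem_range.1 hr; omega), Rat.cast_zero, zero_div], sub_zero]
      refine (congrArg (HasSum · _) (funext fun k => ?_)).mp (harm' (n := n) (by omega) (by omega))
      rw [zz_nat k (by omega)]
      push_cast
      rfl

end Ser

open Ser in
theorem ser (h : ConstStmt) : SerStmt := by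
  intro i j
  refine ⟨?_, ?_⟩
  · have := shift KM aa i j _ (all h (i - j))
    rw [neg_sub, ← add_assoc] at this
    exact this
  · have := shift KZ zz i j _ (allZ (i - j))
    simp only [sub_eq_zero, Nat.cast_inj] at this
    refine (congrArg (HasSum · _) (funext fun k => ?_)).mp this
    rw [zz_nat (i + k) (by omega), div_div]
    push_cast
    rfl

end Vale.Agent.P030
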