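import Vale.Agent.P030.Base

/-! # The prime two -/

namespace Vale.Agent.P030

open Polynomial Finset

namespace Two

/-- The `2`-adic valuation of `x` is at least `z`. -/
def V (z : ℤ) (x : ℚ) : Prop := x / (2 : ℚ) ^ z ∈ O 2

theorem V.of_mem {x : ℚ} (h : x ∈ O 2) : V 0 x := by simpa [V] using h

theorem V.mem {x : ℚ} (h : V 0 x) : x ∈ O 2 := by simpa [V] using h

theorem V.mul {z w : ℤ} {x y : ℚ} (h : V z x) (h' : V w y) : V (z + w) (x * y) := by
  have := mul_mem h h'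
  unfold V
  rwa [zpow_add₀ two_ne_zero, ← div_mul_div_comm]

theorem V.zpow (z : ℤ) : V z ((2 : ℚ) ^ z) := by
  unfold V
  rw [div_self (zpow_ne_zero _ two_ne_zero)]; exact one_mem _

theorem V.pow (n : ℕ) : V n ((2 : ℚ) ^ n) := by
  have := V.zpow n
  rwa [zpow_natCast] at this

theorem V.two : V 1 2 := by simpa using V.zpow 1

theorem V.mono {z w : ℤ} {x : ℚ} (h : V z x) (hw : w ≤ z) : V w x := by
  obtain ⟨n, rfl⟩ := Int.le.dest hw
  have h2 : ((2 : ℚ) ^ n) ∈ O 2 := pow_mem (by exact_mod_cast nat_mem_O (p := 2) 2) n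
  have := mul_mem h h2
  unfold V
  rwa [zpow_add₀ two_ne_zero, zpow_natCast, div_mul_eq_mul_div,
    mul_div_mul_right _ _ (pow_ne_zero n two_ne_zero)] at this

theorem V.zero (z : ℤ) : V z 0 := by simp [V]

theorem V.add {z : ℤ} {x y : ℚ} (h : V z x) (h' : V z y) : V z (x + y) := by
  unfold V; rw [add_div]; exact add_mem h h'

theorem V.neg {z : ℤ} {x : ℚ} (h : V z x) : V z (-x) := by
  unfold V; rw [neg_div]; exact neg_mem h

theorem V.sub {z : ℤ} {x y : ℚ} (h : V z x) (h' : V z y) : V z (x - y) := by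
  rw [sub_eq_add_neg]; exact h.add h'.neg

theorem V.sum {z : ℤ} {ι : Type*} {s : Finset ι} {f : ι → ℚ} (h : ∀ i ∈ s, V z (f i)) :
    V z (∑ i ∈ s, f i) := by
  unfold V; rw [sum_div]; exact sum_mem h

theorem V.int (a : ℤ) : V 0 a := V.of_mem (int_mem_O a)

theorem V.nat (a : ℕ) : V 0 a := V.of_mem (nat_mem_O a)

theorem V.of_div {z w : ℤ} {x : ℚ} (h : V w (x / 2 ^ z)) : V (w + z) x := by
  have := h.mul (V.zpow z)
  rwa [div_mul_cancel₀ _ (zpow_ne_zero _ two_ne_zero)] at this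

theorem V.half : V (-1) (1 / 2) := by simpa using V.zpow (-1)

theorem V.inv_of_pow {g n : ℕ} (h : ((2 : ℕ) : ℚ) ^ g / n ∈ O 2) : V (-g) (1 / n) := by
  unfold V
  rw [zpow_neg, zpow_natCast, div_inv_eq_mul, one_div_mul_eq_div]
  exact_mod_cast h

theorem V.inv_nat {M n : ℕ} (h : n ≤ M) : V (-(Nat.log 2 M : ℕ)) (1 / n) :=
  V.inv_of_pow (pow_log_div_mem_O h)

theorem V.inv_odd (k : ℕ) : V 0 (1 / (2 * (k : ℚ) + 1)) := by
  have := inv_nat_mem_O (p := 2) (n := 2 * k + 1) (by omega)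
  push_cast at this
  rw [one_div]; exact V.of_mem this

theorem V_cc (m : ℕ) : V (-(2 * m)) (cc m) := by
  have := (V.nat (Nat.centralBinom m)).mul (V.zpow (-(2 * m)))
  rw [zero_add] at this
  have e : cc m = (Nat.centralBinom m : ℚ) * 2 ^ (-(2 * m : ℤ)) := by
    unfold cc
    rw [zpow_neg, zpow_mul, zpow_natCast, div_eq_mul_inv]; norm_num
  rwa [e]

theorem V_cz (d : ℤ) : V (-d) (cz d) := by
  unfold cz
  split_ifs with h
  · exact (V_cc _).mono (by omega)
  · exact V.zero _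

theorem aa_odd (k : ℕ) : aa (2 * k + 1) =
    2 ^ (2 * k + 1 : ℤ) * (1 / (2 * (k : ℚ) + 1)) * (1 / (Nat.centralBinom k : ℚ)) := by
  have h1 : ((2 * (k : ℤ) + 1) / 2).toNat = k := by omega
  have h2 : (Nat.centralBinom k : ℚ) ≠ 0 := by exact_mod_cast Nat.centralBinom_ne_zero k
  unfold aa
  rw [if_pos (by omega), h1, cc, zpow_add₀ two_ne_zero, zpow_mul, zpow_natCast]
  push_cast
  norm_num
  field_simp

theorem V_aa_odd {M k : ℕ} (h : 2 * k ≤ M) :
    V (2 * k + 1 - (Nat.log 2 M : ℕ)) (aa (2 * k + 1)) := by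
  rw [aa_odd]
  have h3 : V (-(Nat.log 2 M : ℕ)) (1 / (Nat.centralBinom k : ℚ)) :=
    V.inv_of_pow (pow_div_mem_O
      ((Nat.factorization_choose_le_log).trans (Nat.log_mono_right h)))
  exact (((V.zpow _).mul (V.inv_odd k)).mul h3).mono (by omega)

theorem V_aa {M : ℕ} {m : ℤ} (h : m ≤ M) : V (m - (Nat.log 2 M : ℕ)) (aa m) := by
  by_cases hm : 0 < m ∧ m % 2 = 1
  · obtain ⟨k, rfl⟩ : ∃ k : ℕ, m = 2 * k + 1 := ⟨(m / 2).toNat, by omega⟩
    exact V_aa_odd (by omega)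
  · unfold aa; rw [if_neg hm]; exact V.zero _

theorem V_aa' {M : ℕ} {m : ℤ} (h : m ≤ M) : V (-(Nat.log 2 M : ℕ)) (aa m) := by
  by_cases hm : 0 < m
  · exact (V_aa h).mono (by omega)
  · unfold aa; rw [if_neg (by omega)]; exact V.zero _

theorem V_succ {M k : ℕ} (h : k + 1 ≤ M) : V (-(Nat.log 2 M : ℕ)) (1 / ((k : ℚ) + 1)) := by
  have := V.inv_nat h
  rwa [Nat.cast_succ] at this

theorem V_KZ {M : ℕ} {d : ℤ} (h : d.natAbs ≤ M) : V (-(2 * (Nat.log 2 M : ℕ))) (KZ d) := by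
  unfold KZ
  rw [div_eq_mul_one_div]
  exact ((V.sum fun k hk => V_succ (M := M) (by have := mem_range.mp hk; omega)).mul
    (V.inv_nat h)).mono (by omega)

theorem V_zz {M : ℕ} {m : ℤ} (h : m ≤ M) : V (-(Nat.log 2 M : ℕ)) (zz m) := by
  unfold zz
  split_ifs with hm
  · obtain ⟨k, rfl⟩ := Int.eq_ofNat_of_zero_le hm.le
    have := V.inv_nat (M := M) (n := k) (by omega)
    rwa [Int.cast_natCast]
  · exact V.zero _

theorem V_tail {M : ℕ} {a : ℤ → ℚ} (ha : ∀ m : ℤ, m ≤ M → V (-(Nat.log 2 M : ℕ)) (a m))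
    {i : ℤ} {j : ℕ} (hi : i ≤ M) (hj : j ≤ M) :
    V (-(2 * (Nat.log 2 M : ℕ))) (∑ r ∈ range j, a (i - j + r + 1) / ((r : ℚ) + 1)) := by
  refine V.sum fun r hr => ?_
  have := mem_range.mp hr
  rw [div_eq_mul_one_div]
  exact ((ha _ (by omega)).mul (V_succ (M := M) (by omega))).mono (by omega)

theorem V_ZZ {M : ℕ} {i : ℤ} {j : ℕ} (h0 : 0 ≤ i) (hi : i ≤ M) (hj : j ≤ M) :
    V (-(2 * (Nat.log 2 M : ℕ))) (ZZ i j) :=
  (V_KZ (by omega)).sub (V_tail (fun _ => V_zz) hi hj)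

/-- First constant. -/
def xi (L : ℕ) : ℚ := ∑ k ∈ range L, aa (2 * k + 1) ^ 2 / 2

/-- Second constant. -/
def xi' (L : ℕ) : ℚ := ∑ k ∈ range L, aa (2 * k + 1) / (2 * (k : ℚ) + 2)

theorem V_t1 {L k : ℕ} (h : k < L) :
    V (4 * k + 1 - 2 * (Nat.log 2 (2 * L) : ℕ)) (aa (2 * k + 1) ^ 2 / 2) := by
  have h1 := V_aa_odd (M := 2 * L) (k := k) (by omega)
  rw [sq, div_eq_mul_one_div]
  exact ((h1.mul h1).mul V.half).mono (by omega)

theorem V_t2 {L k : ℕ} (h : k < L) :
    V (2 * k + 1 - 2 * (Nat.log 2 (2 * L) : ℕ)) (aa (2 * k + 1) / (2 * (k : ℚ) + 2)) := by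
  have h1 := V_aa_odd (M := 2 * L) (k := k) (by omega)
  have h2 := V.inv_nat (M := 2 * L) (n := 2 * k + 2) (by omega)
  push_cast at h2
  rw [div_eq_mul_one_div]
  exact (h1.mul h2).mono (by omega)

theorem V_xi (L : ℕ) : V (1 - 2 * (Nat.log 2 (2 * L) : ℕ)) (xi L) :=
  V.sum fun _ hk => (V_t1 (mem_range.mp hk)).mono (by omega)

theorem V_xi' (L : ℕ) : V (-(2 * (Nat.log 2 (2 * L) : ℕ))) (xi' L) :=
  V.sum fun _ hk => (V_t2 (mem_range.mp hk)).mono (by omega)

theorem V_KM {L : ℕ} {d : ℤ} (h : d.natAbs ≤ L) :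
    V (-(2 * (Nat.log 2 (2 * L) : ℕ))) (KM d - xi L * cz d - xi' L * cz (-d - 1)) := by
  unfold KM
  split_ifs with h1 h2 h3
  · have e1 : cz (-d - 1) = 0 := by unfold cz; rw [if_neg (by omega)]
    have e2 : xi L = ∑ k ∈ range (d / 2).toNat, aa (2 * k + 1) ^ 2 / 2
        + ∑ k ∈ Ico (d / 2).toNat L, aa (2 * k + 1) ^ 2 / 2 :=
      (sum_range_add_sum_Ico _ (by omega)).symm
    have h4 : V (2 * d + 1 - 2 * (Nat.log 2 (2 * L) : ℕ))
        (∑ k ∈ Ico (d / 2).toNat L, aa (2 * k + 1) ^ 2 / 2) :=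
      V.sum fun k hk => (V_t1 (mem_Ico.mp hk).2).mono (by have := (mem_Ico.mp hk).1; omega)
    have h5 := ((V_cz d).mul h4).neg.mono (w := -(2 * (Nat.log 2 (2 * L) : ℕ))) (by omega)
    rw [e1, e2]
    convert h5 using 1
    ring
  · have e1 : cz (-d - 1) = 0 := by unfold cz; rw [if_neg (by omega)]
    have e2 : cz d = 0 := by unfold cz; rw [if_neg (by omega)]
    rw [e1, e2, mul_zero, mul_zero, sub_zero, sub_zero]
    exact ((V_aa' (M := 2 * L) (by omega)).mul (V.sum fun k _ => V.inv_odd k)).mono (by omega)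
  · have e1 : cz d = 0 := by unfold cz; rw [if_neg (by omega)]
    have e2 : xi' L = ∑ k ∈ range ((-d - 1) / 2).toNat, aa (2 * k + 1) / (2 * (k : ℚ) + 2)
        + ∑ k ∈ Ico ((-d - 1) / 2).toNat L, aa (2 * k + 1) / (2 * (k : ℚ) + 2) :=
      (sum_range_add_sum_Ico _ (by omega)).symm
    have h4 : V (-d - 2 * (Nat.log 2 (2 * L) : ℕ))
        (∑ k ∈ Ico ((-d - 1) / 2).toNat L, aa (2 * k + 1) / (2 * (k : ℚ) + 2)) :=
      V.sum fun k hk => (V_t2 (mem_Ico.mp hk).2).mono (by have := (mem_Ico.mp hk).1; omega)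
    have h5 := ((V_cz (-d - 1)).mul h4).neg.mono (w := -(2 * (Nat.log 2 (2 * L) : ℕ))) (by omega)
    rw [e1, e2]
    convert h5 using 1
    ring
  · have e1 : cz (-d - 1) = 0 := by unfold cz; rw [if_neg (by omega)]
    have e2 : cz d = 0 := by unfold cz; rw [if_neg (by omega)]
    rw [e1, e2, mul_zero, mul_zero, sub_zero, sub_zero]
    have h4 : V (d + 2) (∑ k ∈ range (-d / 2).toNat, cc k / (2 * (k : ℚ) + 1)) := by
      refine V.sum fun k hk => ?_
      have := mem_range.mp hk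
      rw [div_eq_mul_one_div]
      exact ((V_cc k).mul (V.inv_odd k)).mono (by omega)
    exact ((V_aa (M := 2 * L) (by omega)).mul h4).mono (by omega)

theorem V_MM {L : ℕ} {i : ℤ} {j : ℕ} (h0 : 0 ≤ i) (hi : i ≤ L) (hj : j ≤ L) :
    V (-(2 * (Nat.log 2 (2 * L) : ℕ)))
      (MM i j - xi L * cz (i - j) - xi' L * cz (-(i - j) - 1)) := by
  have h1 := (V_KM (L := L) (d := i - j) (by omega)).sub
    (V_tail (M := 2 * L) (fun _ => V_aa') (i := i) (j := j) (by omega) (by omega))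
  unfold MM TT
  convert h1 using 1
  ring

theorem cheb_step {c : ℤ} {P Q : ℚ[X]} (hP : ∀ j : ℕ, V (j + c) (P.coeff j))
    (hQ : ∀ j : ℕ, V (j + c) (Q.coeff j)) (j : ℕ) : V (j + c) ((2 * X * P - Q).coeff j) := by
  rw [coeff_sub]
  refine V.sub ?_ (hQ j)
  rw [mul_assoc, show (2 : ℚ[X]) = C 2 from rfl, coeff_C_mul]
  cases j with
  | zero => rw [coeff_X_mul_zero, mul_zero]; exact V.zero _
  | succ j => rw [coeff_X_mul]; exact (V.two.mul (hP j)).mono (by push_cast; omega)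

theorem V_one_coeff (j : ℕ) : V j ((1 : ℚ[X]).coeff j) := by
  rw [coeff_one]
  split_ifs with h
  · subst h; simpa using V.nat 1
  · exact V.zero _

theorem V_X_coeff (j : ℕ) : V (j + -1) ((X : ℚ[X]).coeff j) := by
  rw [coeff_X]
  split_ifs with h
  · subst h; simpa using V.nat 1
  · exact V.zero _

theorem V_T (e : ℤ) : ∀ j : ℕ, V (j + -1) ((Chebyshev.T ℚ e).coeff j) := by
  induction e using Polynomial.Chebyshev.induct with
  | zero => intro j; rw [Chebyshev.T_zero]; exact (V_one_coeff j).mono (by omega)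
  | one => intro j; rw [Chebyshev.T_one]; exact V_X_coeff j
  | add_two n h1 h2 => rw [Chebyshev.T_add_two]; exact cheb_step h1 h2
  | neg_add_one n h1 h2 => rw [Chebyshev.T_sub_one]; exact cheb_step h1 h2

theorem V_U (e : ℤ) : ∀ j : ℕ, V (j + 0) ((Chebyshev.U ℚ e).coeff j) := by
  induction e using Polynomial.Chebyshev.induct with
  | zero => intro j; rw [Chebyshev.U_zero]; exact (V_one_coeff j).mono (by omega)
  | one =>
    intro j
    rw [Chebyshev.U_one, show (2 : ℚ[X]) = C 2 from rfl, coeff_C_mul]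
    exact (V.two.mul (V_X_coeff j)).mono (by omega)
  | add_two n h1 h2 => rw [Chebyshev.U_add_two]; exact cheb_step h1 h2
  | neg_add_one n h1 h2 => rw [Chebyshev.U_sub_one]; exact cheb_step h1 h2

/-- Combination of the reduced rows. -/
noncomputable def cmb {n : ℕ} (P : Fin n → ℚ[X]) (f : Fin n → ℤ) : ℚ[X] := ∑ e, (f e : ℚ) • P e

theorem V_cmb {n : ℕ} {P : Fin n → ℚ[X]} {z : ℤ} {j : ℕ} (h : ∀ e, V z ((P e).coeff j))
    (f : Fin n → ℤ) : V z ((cmb P f).coeff j) := by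
  rw [cmb, finsetSum_coeff]
  exact V.sum fun e _ => ((V.int (f e)).mul (h e)).mono (by omega)

/-- Scaled coefficient functional. -/
noncomputable def fnl {n : ℕ} (P : Fin n → ℚ[X]) (j : ℕ) (z : ℤ) : (Fin n → ℤ) →+ ℚ :=
  AddMonoidHom.mk' (fun f => (cmb P f).coeff j / 2 ^ z) fun f g => by
    simp only [cmb, Pi.add_apply, Int.cast_add, add_smul, sum_add_distrib, coeff_add, add_div]

theorem V_pow_coeff (N k : ℕ) : V 0 (((X - 1 : ℚ[X]) ^ N).coeff k) := by
  have : (X - 1 : ℚ[X]) ^ N = ((X - 1 : ℤ[X]) ^ N).map (Int.castRingHom ℚ) := by simp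
  rw [this]
  exact V.of_mem (coeff_map_mem_O _ _)

theorem V_mul_coeff (N : ℕ) {P : ℚ[X]} {z : ℤ} {k : ℕ} (h : ∀ j, j ≤ k → V z (P.coeff j)) :
    V z (((X - 1 : ℚ[X]) ^ N * P).coeff k) := by
  rw [coeff_mul]
  refine V.sum fun c hc => ?_
  rw [HasAntidiagonal.mem_antidiagonal] at hc
  exact ((V_pow_coeff N c.1).mul (h c.2 (by omega))).mono (by omega)

theorem sS_eq (N : ℕ) (f : Fin (20 * N) → ℤ) :
    sS N f = (X - 1) ^ N * cmb (fun e : Fin (20 * N) => S0 ℚ (((e : ℕ) : ℤ) - 2 * N)) f := by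
  simp only [sS, cmb, rowS, mul_sum, mul_smul_comm]

theorem sD_eq (N : ℕ) (f : Fin (20 * N) → ℤ) :
    sD N f = (X - 1) ^ N * cmb (fun e : Fin (20 * N) => D0 ℚ (((e : ℕ) : ℤ) - 2 * N)) f := by
  simp only [sD, cmb, rowD, mul_sum, mul_smul_comm]

theorem V_S0 (e : ℤ) (j : ℕ) : V (j - 1) ((S0 ℚ e).coeff j) := by
  rw [S0, coeff_sub]; exact (V_T _ j).sub (V_T _ j)

theorem V_D0 (e : ℤ) (j : ℕ) : V j ((D0 ℚ e).coeff j) := by
  rw [D0, coeff_sub]; exact ((V_U _ j).sub (V_U _ j)).mono (by omega)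

theorem pade_sum (hP : PadeStmt) (N : ℕ) (f : Fin (20 * N) → ℤ) {j : ℕ} (hj : j < 24 * N) :
    ∑ k ∈ range (27 * N), (sS N f).coeff k * cz ((j : ℤ) + k - 27 * N) =
      (sD N f).coeff (27 * N - 1 - j) := by
  simp only [sS, sD, finsetSum_coeff, coeff_smul, smul_eq_mul, sum_mul]
  rw [sum_comm]
  refine sum_congr rfl fun e _ => ?_
  rw [← hP N e j hj, mul_sum]
  exact sum_congr rfl fun k _ => by ring

theorem pairing {N : ℕ} (hN : 1 ≤ N) {S D Q : ℚ[X]} (hS : ∀ k : ℕ, V (22 * N - 1 - k) (S.coeff k))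
    (hS' : ∀ k : ℕ, V (9 * N - 1) (S.coeff k)) (hD : ∀ k : ℕ, V (9 * N) (D.coeff k))
    (hQ : ∀ j : ℕ, V (14 * N - j) (Q.coeff j)) (hQ' : ∀ j : ℕ, V 0 (Q.coeff j))
    (hP : ∀ j : ℕ, (∑ k ∈ range (27 * N), S.coeff k * cz ((j : ℤ) + k - 27 * N)) * Q.coeff j =
      D.coeff (27 * N - 1 - j) * Q.coeff j) :
    V (9 * N - 1 - 2 * (Nat.log 2 (2 * (27 * N)) : ℕ)) (form (27 * N - 1) S D Q) ∧
      V (9 * N) (formG (27 * N - 1) S Q) := by
  have hI : 27 * N - 1 + 1 = 27 * N := by omega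
  have hI' : ((27 * N - 1 : ℕ) : ℤ) = 27 * N - 1 := by omega
  have hG : V (9 * N) (∑ k ∈ range (27 * N), ∑ j ∈ range (27 * N),
      S.coeff k * cz (27 * N - 1 - k - j) * Q.coeff j) :=
    V.sum fun k _ => V.sum fun j _ => (((hS k).mul (V_cz _)).mul (hQ j)).mono (by omega)
  constructor
  · have e : form (27 * N - 1) S D Q =
        ∑ k ∈ range (27 * N), ∑ j ∈ range (27 * N),
          (S.coeff k * (MM (27 * N - 1 - k) j - xi (27 * N) * cz (27 * N - 1 - k - j)
            - xi' (27 * N) * cz (-(27 * N - 1 - k - j) - 1))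
            - 3 * (1 / 2) * D.coeff k * ZZ (27 * N - 1 - k) j) * Q.coeff j
        + xi (27 * N) * (∑ k ∈ range (27 * N), ∑ j ∈ range (27 * N),
            S.coeff k * cz (27 * N - 1 - k - j) * Q.coeff j)
        + xi' (27 * N) * ∑ j ∈ range (27 * N), D.coeff (27 * N - 1 - j) * Q.coeff j := by
      rw [← sum_congr rfl fun j _ => hP j]
      simp only [sum_mul]
      rw [sum_comm (s := range (27 * N)) (t := range (27 * N))
        (f := fun j k => S.coeff k * cz ((j : ℤ) + k - 27 * N) * Q.coeff j)]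
      unfold form
      rw [hI, hI']
      simp only [mul_sum, ← sum_add_distrib]
      refine sum_congr rfl fun k _ => sum_congr rfl fun j _ => ?_
      rw [show -((27 : ℤ) * N - 1 - k - j) - 1 = (j : ℤ) + k - 27 * N by ring]
      ring
    rw [e]
    refine (V.add (V.sum fun k hk => V.sum fun j hj => ?_) ?_).add ?_
    · have h1 := mem_range.mp hk
      have h2 := mem_range.mp hj
      have h3 := V_MM (L := 27 * N) (i := 27 * N - 1 - k) (j := j) (by omega) (by omega) (by omega)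
      have h4 := V_ZZ (M := 2 * (27 * N)) (i := 27 * N - 1 - k) (j := j) (by omega) (by omega)
        (by omega)
      have h5 : V 0 (3 : ℚ) := by exact_mod_cast V.nat 3
      exact (((((hS' k).mul h3).mono (by omega)).sub
        ((((h5.mul V.half).mul (hD k)).mul h4).mono (by omega))).mul (hQ' j)).mono
        (le_of_eq (add_zero _).symm)
    · exact ((V_xi (27 * N)).mul hG).mono (by omega)
    · exact ((V_xi' (27 * N)).mul (V.sum fun j _ => (hD _).mul (hQ' j))).mono (by omega)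
  · unfold formG
    rw [hI, hI']
    have h4 : V 0 (4 : ℚ) := by exact_mod_cast V.nat 4
    have := (h4.mul hG).mono (w := 9 * N) (by omega)
    rw [mul_sum] at this
    simp only [mul_sum] at this
    convert this using 3
    ring

theorem sum_lin (n c a : ℕ) (h : a * n ≤ c) :
    2 * ∑ j : Fin n, (c - a * (j : ℕ)) + a * (n * n) = 2 * (n * c) + a * n := by
  rw [Fin.sum_univ_eq_sum_range (fun j => c - a * j) n]
  induction n with
  | zero => simp
  | succ n ih =>
    have h1 : a * n ≤ c := (Nat.mul_le_mul_left a (Nat.le_succ n)).trans h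
    have := ih h1
    rw [sum_range_succ]
    obtain ⟨d, rfl⟩ := Nat.exists_eq_add_of_le h1
    rw [Nat.add_sub_cancel_left]
    nlinarith

end Two

open Two in
theorem two (hL : LatticeStmt) (hP : PadeStmt) : TwoStmt := by
  intro N a b hN
  obtain ⟨g, hg⟩ : ∃ g, g = Nat.log 2 (2 * (27 * N)) := ⟨_, rfl⟩
  have key := hL 2 (20 * N) ((b : ℚ) • B0 N + (a : ℚ) • B1 N) ((2 : ℚ) ^ (2 * g + 1 - 9 * N : ℤ))
    (Fin (11 * N) ⊕ Fin (9 * N)) (Fin (11 * N))
    (Sum.elim (fun j => fnl (fun e : Fin (20 * N) => S0 ℚ (((e : ℕ) : ℤ) - 2 * N)) j (j - 1))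
      (fun j => fnl (fun e : Fin (20 * N) => D0 ℚ (((e : ℕ) : ℤ) - 2 * N)) j j))
    (Sum.elim (fun j => 22 * N - 2 * (j : ℕ)) (fun j => 9 * N - 1 * (j : ℕ)))
    (fun k => AddMonoidHom.mk' (fun f => ((f ⟨k, by have := k.2; omega⟩ : ℤ) : ℚ)) fun f g => by
      simp)
    (fun k => 11 * N - 1 * (k : ℕ))
    (by
      rintro (j | j) f
      · exact V_cmb (fun e => V_S0 _ j) f
      · exact V_cmb (fun e => V_D0 _ j) f)
    (fun k f => int_mem_O _)
    (by
      intro f f' h1 h2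
      rw [pair_sum]
      have hS0 : ∀ j : ℕ, V (max (22 * N - 1 - j) (j - 1))
          ((cmb (fun e : Fin (20 * N) => S0 ℚ (((e : ℕ) : ℤ) - 2 * N)) f).coeff j) := by
        intro j
        by_cases hj : j < 11 * N
        · have h3 : V ((22 * N - 2 * j : ℕ) : ℤ)
              ((cmb (fun e : Fin (20 * N) => S0 ℚ (((e : ℕ) : ℤ) - 2 * N)) f).coeff j /
                2 ^ (j - 1 : ℤ)) := by
            have := h1 (.inl ⟨j, hj⟩)
            unfold V
            rw [zpow_natCast]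
            exact this
          exact (V.of_div h3).mono (by omega)
        · exact (V_cmb (fun e => V_S0 _ j) f).mono (by omega)
      have hD0 : ∀ j : ℕ, V (9 * N)
          ((cmb (fun e : Fin (20 * N) => D0 ℚ (((e : ℕ) : ℤ) - 2 * N)) f).coeff j) := by
        intro j
        by_cases hj : j < 9 * N
        · have h3 : V ((9 * N - 1 * j : ℕ) : ℤ)
              ((cmb (fun e : Fin (20 * N) => D0 ℚ (((e : ℕ) : ℤ) - 2 * N)) f).coeff j /
                2 ^ (j : ℤ)) := by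
            have := h1 (.inr ⟨j, hj⟩)
            unfold V
            rw [zpow_natCast]
            exact this
          exact (V.of_div h3).mono (by omega)
        · exact (V_cmb (fun e => V_D0 _ j) f).mono (by omega)
      have hf' : ∀ k : Fin (20 * N), V (11 * N - (k : ℕ)) (f' k) := by
        intro k
        by_cases hk : (k : ℕ) < 11 * N
        · have h3 : V ((11 * N - 1 * (k : ℕ) : ℕ) : ℤ) (f' k) := by
            have := h2 ⟨k, hk⟩
            unfold V
            rw [zpow_natCast]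
            exact this
          exact h3.mono (by omega)
        · exact (V.int _).mono (by omega)
      obtain ⟨p1, p2⟩ := pairing hN (S := sS N f) (D := sD N f) (Q := sQ N f')
        (fun k => by
          rw [sS_eq]; exact V_mul_coeff N fun j hj => (hS0 j).mono (by omega))
        (fun k => by
          rw [sS_eq]; exact V_mul_coeff N fun j _ => (hS0 j).mono (by omega))
        (fun k => by rw [sD_eq]; exact V_mul_coeff N fun j _ => hD0 j)
        (fun j => by
          rw [sQ, finsetSum_coeff]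
          refine V.sum fun k _ => ?_
          rw [coeff_smul, smul_eq_mul]
          by_cases hj : j < 3 * N + k
          · rw [coeff_colQ_eq_zero N k (Or.inl hj), mul_zero]; exact V.zero _
          · exact ((hf' k).mul (V.of_mem (coeff_colQ_mem N k j))).mono (by omega))
        (fun j => V.of_mem (coeff_sQ_mem N f' j))
        (fun j => by
          by_cases hj : j < 24 * N
          · rw [pade_sum hP N f hj]
          · rw [coeff_sQ_eq_zero N f' (Or.inr (by omega)), mul_zero, mul_zero])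
      rw [← hg] at p1
      exact (((V.zpow _).mul ((((V.int b).mul p1).mono (w := 9 * N - 1 - 2 * g) (by omega)).add
        (((V.int a).mul p2).mono (by omega)))).mono (by omega)).mem)
  have e1 := sum_lin (11 * N) (22 * N) 2 (by omega)
  have e2 := sum_lin (9 * N) (9 * N) 1 (by omega)
  have e3 := sum_lin (11 * N) (11 * N) 1 (by omega)
  rw [Fintype.sum_sum_type] at key
  simp only [Sum.elim_inl, Sum.elim_inr] at key
  generalize ∑ j : Fin (11 * N), (22 * N - 2 * (j : ℕ)) = s1 at key e1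
  generalize ∑ j : Fin (9 * N), (9 * N - 1 * (j : ℕ)) = s2 at key e2
  generalize ∑ j : Fin (11 * N), (11 * N - 1 * (j : ℕ)) = s3 at key e3
  have e4 : ((s1 + s2 + s3 : ℕ) : ℤ) + (2 * g + 1 - 9 * N : ℤ) * ((20 * N : ℕ) : ℤ) = (E2 N : ℕ) := by
    unfold E2
    rw [show 54 * N = 2 * (27 * N) by ring, ← hg]
    zify at e1 e2 e3
    push_cast
    nlinarith
  rw [Nat.cast_ofNat, ← zpow_natCast, ← zpow_natCast ((2 : ℚ) ^ (2 * g + 1 - 9 * N : ℤ)),
    ← zpow_mul, ← zpow_add₀ two_ne_zero, e4, zpow_natCast] at key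
  exact key

end Vale.Agent.P030
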