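import Vale.Agent.P030.Defs

/-! P030: the upper bound for the determinant. -/

namespace Vale.Agent.P030

open Polynomial Finset MeasureTheory Filter

namespace Upper

theorem one_lt_sig {x : ℝ} (h : x ∈ Ax) : 1 < |sig x| := by
  obtain ⟨h1, h2, h3, -⟩ := h
  have e : sig x = (1 + x ^ 2) / (2 * x) := by rw [sig]; field_simp; ring
  rw [e, abs_div, lt_div_iff₀ (by positivity), abs_of_pos (by positivity : 0 < 1 + x ^ 2), abs_mul,
    abs_two, ← sq_abs x]
  nlinarith [abs_lt.2 ⟨h1, h2⟩]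

theorem ker_eq {x : ℝ} (h : x ∈ Ax) (s : ℝ) : (1 - tt x * s)⁻¹ = sig x * (sig x - s)⁻¹ := by
  have h0 : sig x ≠ 0 := abs_pos.1 (one_pos.trans (one_lt_sig h))
  have e : tt x = (sig x)⁻¹ := by
    have := h.2.2.1
    rw [tt, sig]; field_simp; ring
  rw [e, show 1 - (sig x)⁻¹ * s = (sig x)⁻¹ * (sig x - s) by field_simp, mul_inv, inv_inv]

theorem abs_det {n : ℕ} (M : Matrix (Fin n) (Fin n) ℝ) :
    |M.det| = ‖(Matrix.of fun i j => (M i j : ℂ)).det‖ := by
  rw [← Real.norm_eq_abs, ← Complex.norm_real]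
  exact congrArg norm (RingHom.map_det Complex.ofRealHom M)

theorem pow_le {A η : ℝ} (hA : 0 < A) (hη : 0 < η) :
    ∀ᶠ N : ℕ in atTop, A ^ N ≤ Real.exp (η * (N : ℝ) ^ 2) := by
  filter_upwards [tendsto_natCast_atTop_atTop.eventually_ge_atTop (Real.log A / η)] with N hN
  rw [← Real.exp_log hA, ← Real.exp_nat_mul, Real.exp_le_exp, sq, ← mul_assoc, mul_comm]
  exact mul_le_mul_of_nonneg_right (by rwa [div_le_iff₀' hη] at hN) N.cast_nonneg

end Upper

open Upper in
theorem upper (hE : EntryStmt) (hA : And2Stmt) (hC : CauchyStmt) (hL : ElimStmt) (hG : GeoStmt)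
    (hN : EnergyStmt) : UpperStmt := by
  intro η hη
  have hM : 0 < max 1 (∫ ω, ho ω ∂mo) := lt_max_of_lt_left one_pos
  have hx0 (x : ℝ) : 0 ≤ hx x := by unfold hx; positivity
  have hI : 0 ≤ ∫ x, hx x ∂mx := integral_nonneg hx0
  filter_upwards [hN (η / 2) (half_pos hη), pow_le (A := 4 ^ 20 * max 1 (∫ ω, ho ω ∂mo) ^ 18 *
    (∫ x, hx x ∂mx + 1) ^ 20) (by positivity) (half_pos hη)] with N h1 h2
  have : IsFiniteMeasure mx := by unfold mx; infer_instance
  have : IsFiniteMeasure ms := by unfold ms; infer_instance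
  have h3 := hA mx ms (20 * N) (fun e x => Wt N x * psi (((e : ℕ) : ℤ) - 2 * N) x)
    (fun k s => qq N k s) (fun x s => (1 - tt x * s)⁻¹) hx (fun _ => 1) Ax (Set.Ioo 0 1)
    (2 ^ (164 * N ^ 2) * 4 ^ (20 * N) * Real.exp ((-765 - 164 * Real.log 2 + η / 2) * (N : ℝ) ^ 2) *
      max 1 (∫ ω, ho ω ∂mo) ^ (18 * N)) (fun e k => (hE N e k).1) hG.2.2.2.1 hx0
    (integrable_const _) (fun _ => zero_le_one) hG.2.2.2.2.2 (ae_restrict_mem measurableSet_Ioo)
    (by positivity) fun x s hx' hs => ?_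
  · simp only [← (hE N _ _).2] at h3
    refine h3.trans ?_
    have e1 : ∫ _, (1 : ℝ) ∂ms = 1 := by simp [ms]
    have e2 : (2 : ℝ) ^ (164 * N ^ 2) = Real.exp (164 * Real.log 2 * (N : ℝ) ^ 2) := by
      rw [← Real.exp_log (by positivity : (0 : ℝ) < 2 ^ (164 * N ^ 2)), Real.log_pow]
      congr 1; push_cast; ring
    have e3 : (∫ x, hx x ∂mx) ^ (20 * N) ≤ (∫ x, hx x ∂mx + 1) ^ (20 * N) :=
      pow_le_pow_left₀ hI (by linarith) _
    rw [mul_pow, mul_pow, ← pow_mul, ← pow_mul, ← pow_mul] at h2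
    rw [e1, one_pow, mul_one, e2, show (-765 + η) * (N : ℝ) ^ 2 = 164 * Real.log 2 * (N : ℝ) ^ 2 +
      (-765 - 164 * Real.log 2 + η / 2) * (N : ℝ) ^ 2 + η / 2 * (N : ℝ) ^ 2 by ring, Real.exp_add,
      Real.exp_add]
    refine le_trans (le_of_eq (by ring)) (mul_le_mul_of_nonneg_left
      ((mul_le_mul_of_nonneg_left e3 (by positivity)).trans h2) (by positivity))
  have hq (j) : 0 ≤ qq N 0 (s j) := mul_nonneg (pow_nonneg (by linarith [(hs j).2]) _)
    (pow_nonneg (hs j).1.le _)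
  have d1 : (Matrix.of fun (e l : Fin (20 * N)) => Wt N (x l) * psi (((e : ℕ) : ℤ) - 2 * N) (x l)).det =
      (∏ l, Wt N (x l)) * (Matrix.of fun (e l : Fin (20 * N)) =>
        psi (((e : ℕ) : ℤ) - 2 * N) (x l)).det := Matrix.det_mul_row _ _
  have d2 : |(Matrix.of fun l m => (1 - tt (x l) * s m)⁻¹).det| = (∏ l, |sig (x l)|) *
      (VV univ (sg x) * VV univ (fun j => (s j : ℂ)) / CR univ (sg x) univ fun j => (s j : ℂ)) := by
    simp only [ker_eq (hx' _)]
    rw [← hC.2.1 _ _ _ fun i j e => ?_, ← Finset.abs_prod]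
    · refine (congrArg abs (Matrix.det_mul_column (fun l => sig (x l))
        (Matrix.of fun l m => (sig (x l) - s m)⁻¹))).trans ?_
      rw [abs_mul, abs_det]
      simp [sg]
    · have h4 := one_lt_sig (hx' i)
      rw [show sig (x i) = s j from Complex.ofReal_injective e, abs_of_pos (hs j).1] at h4
      exact h4.not_gt (hs j).2
  have d3 : |(Matrix.of fun (k m : Fin (20 * N)) => qq N k (s m)).det| =
      (∏ j, qq N 0 (s j)) * VV univ fun j => (s j : ℂ) := by
    have e (k : ℕ) (t : ℝ) : qq N k t = qq N 0 t * t ^ k := by simp only [qq]; ring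
    rw [show (Matrix.of fun (k m : Fin (20 * N)) => qq N k (s m)) =
      Matrix.of fun (k m : Fin (20 * N)) => qq N 0 (s m) * s m ^ (k : ℕ) from
        Matrix.ext fun k m => e k _, ← hC.1, ← Matrix.det_transpose (Matrix.of fun i j : Fin (20 * N) => (s i : ℂ) ^ (j : ℕ))]
    refine (congrArg abs (Matrix.det_mul_row (fun m => qq N 0 (s m))
      (Matrix.of fun (k m : Fin (20 * N)) => s m ^ (k : ℕ)))).trans ?_
    rw [abs_mul, abs_det, abs_of_nonneg (prod_nonneg fun j _ => hq j)]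
    simp only [Matrix.of_apply, Complex.ofReal_pow]
    rfl
  have e : |(Matrix.of fun (e l : Fin (20 * N)) => Wt N (x l) * psi (((e : ℕ) : ℤ) - 2 * N) (x l)).det| *
      |(Matrix.of fun l m => (1 - tt (x l) * s m)⁻¹).det| *
      |(Matrix.of fun (k m : Fin (20 * N)) => qq N k (s m)).det| =
      |(Matrix.of fun (e l : Fin (20 * N)) => psi (((e : ℕ) : ℤ) - 2 * N) (x l)).det| * SB N x s := by
    rw [d1, d2, d3, SB, abs_mul, Finset.abs_prod, prod_mul_distrib]
    ring
  have hp : 0 ≤ ∏ l, hx (x l) := prod_nonneg fun l _ => hx0 _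
  rw [e, prod_const_one, mul_one]
  have hS : 0 ≤ SB N x s := by
    unfold SB VV CR
    exact mul_nonneg (by positivity) (prod_nonneg fun j _ => hq j)
  rcases hS.eq_or_lt with h0 | h0
  · rw [← h0, mul_zero]; positivity
  have hi : Function.Injective (sg x) := fun i j hij => by
    by_contra hne
    have : VV univ (sg x) = 0 := by
      rw [VV, prod_eq_zero (mem_univ i) (prod_eq_zero (mem_erase.2 ⟨Ne.symm hne, mem_univ j⟩)
        (by rw [hij, sub_self, norm_zero])), Real.sqrt_zero]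
    simp [SB, this] at h0
  have h4 := hL N x (Real.exp ((-765 - 164 * Real.log 2 + η / 2) * (N : ℝ) ^ 2) *
    (∏ l, hx (x l)) / SB N x s) hx' hi (by positivity) fun a r ω a1 a2 a3 a4 => by
      rw [div_mul_eq_mul_div, le_div_iff₀ h0]
      exact h1 x s a r ω hx' hs a1 a2 a3 a4
  refine (mul_le_mul_of_nonneg_right h4 hS).trans (le_of_eq ?_)
  field_simp

end Vale.Agent.P030
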